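import Crest.Agent.R195.Defs

/-!
# R195 / Basic : the action, equivariant maps, `ip`, `ox`, `cdet`, `E`, `pt`
-/

set_option autoImplicit false
open Finset

noncomputable section
namespace Crest.Agent.R195

section plain
variable {ι ι' ι₀ ι₁ A B B' A₀ A₁ C L : Type}

theorem act_one (w : Wd ι A) : act 1 w = w := rfl
theorem act_mul (g h : Equiv.Perm ι) (w : Wd ι A) : act (g * h) w = act g (act h w) := rfl
theorem act_inv_act (g : Equiv.Perm ι) (w : Wd ι A) : act g⁻¹ (act g w) = w := by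
  rw [← act_mul, inv_mul_cancel, act_one]
theorem act_act_inv (g : Equiv.Perm ι) (w : Wd ι A) : act g (act g⁻¹ w) = w := by
  rw [← act_mul, mul_inv_cancel, act_one]
theorem rep_apply (g : Equiv.Perm ι) (w : Wd ι A) : rep ι A g w = act g w := rfl

theorem eqv_id : Eqv (LinearMap.id : Wd ι A →ₗ[ℂ] Wd ι A) := fun _ _ => rfl
theorem Eqv.comp {Φ : Wd ι B →ₗ[ℂ] Wd ι B'} {Ψ : Wd ι A →ₗ[ℂ] Wd ι B} (h : Eqv Φ) (h' : Eqv Ψ) :
    Eqv (Φ ∘ₗ Ψ) := fun g w => by rw [LinearMap.comp_apply, h', h]; rfl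
theorem Eqv.smul {Φ : Wd ι A →ₗ[ℂ] Wd ι B} (h : Eqv Φ) (c : ℂ) : Eqv (c • Φ) := fun g w => by
  rw [LinearMap.smul_apply, h, LinearMap.smul_apply, map_smul]
theorem Eqv.sub {Φ Ψ : Wd ι A →ₗ[ℂ] Wd ι B} (h : Eqv Φ) (h' : Eqv Ψ) : Eqv (Φ - Ψ) := fun g w => by
  rw [LinearMap.sub_apply, h, h', LinearMap.sub_apply, map_sub]
theorem eqv_pb (j : B → A) : Eqv (pb j : Wd ι A →ₗ[ℂ] Wd ι B) := fun _ _ => rfl

theorem inv_cyc (w : Wd ι A) : Inv (cyc w) := by
  intro g x hx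
  refine (Submodule.span_le (p := (cyc w).comap (act g))).2 ?_ hx
  rintro _ ⟨h, rfl⟩
  exact Submodule.subset_span ⟨g * h, rfl⟩
theorem mem_cyc (w : Wd ι A) : w ∈ cyc w := Submodule.subset_span ⟨1, rfl⟩
theorem cyc_le {U : Submodule ℂ (Wd ι A)} (hU : Inv U) {w : Wd ι A} (hw : w ∈ U) : cyc w ≤ U := by
  refine Submodule.span_le.2 ?_
  rintro _ ⟨g, rfl⟩
  exact hU g w hw

theorem Gen.refl (w : Wd ι A) : Gen w w := Submodule.subset_span ⟨_, eqv_id, 1, rfl⟩
theorem Gen.of_eqv {Φ : Wd ι A →ₗ[ℂ] Wd ι B} (h : Eqv Φ) (w : Wd ι A) : Gen w (Φ w) :=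
  Submodule.subset_span ⟨_, h, 1, rfl⟩
theorem Gen.act {w : Wd ι A} {x : Wd ι B} (h : Gen w x) (g : Equiv.Perm ι) : Gen w (act g x) := by
  refine (Submodule.span_le (p := Submodule.comap (R195.act g) (Submodule.span ℂ _))).2 ?_ h
  rintro _ ⟨Φ, hΦ, g', rfl⟩
  exact Submodule.subset_span ⟨Φ, hΦ, g * g', rfl⟩
theorem Gen.map {w : Wd ι A} {x : Wd ι B} (h : Gen w x) {Φ : Wd ι B →ₗ[ℂ] Wd ι B'} (hΦ : Eqv Φ) :
    Gen w (Φ x) := by
  refine (Submodule.span_le (p := Submodule.comap Φ (Submodule.span ℂ _))).2 ?_ h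
  rintro _ ⟨Ψ, hΨ, g, rfl⟩
  exact Submodule.subset_span ⟨Φ ∘ₗ Ψ, hΦ.comp hΨ, g, hΦ g _⟩
theorem Gen.trans {w : Wd ι A} {x : Wd ι B} {y : Wd ι B'} (h : Gen w x) (h' : Gen x y) : Gen w y := by
  refine Submodule.span_le.2 ?_ h'
  rintro _ ⟨Φ, hΦ, g, rfl⟩
  exact (h.map hΦ).act g
theorem Gen.add {w : Wd ι A} {x y : Wd ι B} (h : Gen w x) (h' : Gen w y) : Gen w (x + y) :=
  Submodule.add_mem _ h h'
theorem Gen.smul {w : Wd ι A} {x : Wd ι B} (h : Gen w x) (c : ℂ) : Gen w (c • x) :=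
  Submodule.smul_mem _ c h
theorem Gen.sum {w : Wd ι A} {K : Type*} (s : Finset K) {x : K → Wd ι B}
    (h : ∀ k ∈ s, Gen w (x k)) : Gen w (∑ k ∈ s, x k) := Submodule.sum_mem _ h
theorem Gen.of_mem_cyc {w x : Wd ι A} (h : x ∈ cyc w) : Gen w x := by
  refine Submodule.span_le.2 ?_ h
  rintro _ ⟨g, rfl⟩
  exact (Gen.refl w).act g

theorem act_inn (g : Equiv.Perm ι) (w : Wd ι A) (w' : Wd ι B) :
    act g (inn w w') = inn (act g w) (act g w') := rfl
theorem act_dl (g : Equiv.Perm ι) (u : ι → A) : act g (dl u) = dl (u ∘ g.symm) := by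
  classical
  ext v
  exact if_congr (Equiv.eq_comp_symm g v u).symm rfl rfl
theorem ox_map (w₀ : Wd ι₀ A₀) (w₁ : Wd ι₁ A₁) (a₀ : ι₀ → A₀) (a₁ : ι₁ → A₁) :
    ox w₀ w₁ (Sum.map a₀ a₁) = w₀ a₀ * w₁ a₁ := by
  have h : ∃ a : (ι₀ → A₀) × (ι₁ → A₁), Sum.map a₀ a₁ = Sum.map a.1 a.2 := ⟨(a₀, a₁), rfl⟩
  have h0 : a₀ = h.choose.1 := funext fun i => Sum.inl.inj (congrFun h.choose_spec (.inl i))
  have h1 : a₁ = h.choose.2 := funext fun i => Sum.inr.inj (congrFun h.choose_spec (.inr i))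
  rw [ox, dif_pos h, ← h0, ← h1]
theorem ox_eq_zero (w₀ : Wd ι₀ A₀) (w₁ : Wd ι₁ A₁) {u : ι₀ ⊕ ι₁ → A₀ ⊕ A₁}
    (h : ∀ a₀ a₁, u ≠ Sum.map a₀ a₁) : ox w₀ w₁ u = 0 := by
  exact dif_neg fun ⟨a, e⟩ => h a.1 a.2 e
theorem ox_dl (u₀ : ι₀ → A₀) (u₁ : ι₁ → A₁) : ox (dl u₀) (dl u₁) = dl (Sum.map u₀ u₁) := by
  classical
  ext u
  by_cases h : ∃ a₀ a₁, u = Sum.map a₀ a₁
  · obtain ⟨a₀, a₁, rfl⟩ := h
    have : Sum.map a₀ a₁ = Sum.map u₀ u₁ ↔ a₀ = u₀ ∧ a₁ = u₁ :=
      ⟨fun e => ⟨funext fun i => Sum.inl.inj (congrFun e (.inl i)),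
        funext fun i => Sum.inr.inj (congrFun e (.inr i))⟩, fun e => by rw [e.1, e.2]⟩
    rw [ox_map, dl, dl, dl, ite_zero_mul_ite_zero, mul_one]
    exact if_congr this.symm rfl rfl
  · push Not at h
    rw [ox_eq_zero _ _ h, dl, if_neg (h _ _)]
theorem act_ox (g₀ : Equiv.Perm ι₀) (g₁ : Equiv.Perm ι₁) (w₀ : Wd ι₀ A₀) (w₁ : Wd ι₁ A₁) :
    act (Equiv.sumCongr g₀ g₁) (ox w₀ w₁) = ox (act g₀ w₀) (act g₁ w₁) := by
  ext u
  by_cases h : ∃ a₀ a₁, u = Sum.map a₀ a₁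
  · obtain ⟨a₀, a₁, rfl⟩ := h
    rw [ox_map, act_apply, act_apply, act_apply, ← ox_map, ← Sum.map_comp_map]
    rfl
  · push Not at h
    rw [ox_eq_zero _ _ h, act_apply, ox_eq_zero]
    intro a₀ a₁ e
    refine h (a₀ ∘ g₀.symm) (a₁ ∘ g₁.symm) ?_
    rw [← Sum.map_comp_map, ← e]
    ext (i | i) <;> simp

end plain

section fin
variable {ι ι' ι₀ ι₁ A B A₀ A₁ C C' L L' : Type} [Fintype ι] [DecidableEq ι] [Fintype ι']
  [DecidableEq ι'] [Fintype ι₀] [DecidableEq ι₀] [Fintype ι₁] [DecidableEq ι₁]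
  {R : Type} [CommRing R]

theorem mem_cg {col : ι → C} {σ : Equiv.Perm ι} : σ ∈ cg col ↔ ∀ i, col (σ i) = col i := by
  simp [cg]
theorem one_mem_cg (col : ι → C) : (1 : Equiv.Perm ι) ∈ cg col := mem_cg.2 fun _ => rfl
theorem mul_mem_cg {col : ι → C} {σ τ : Equiv.Perm ι} (h : σ ∈ cg col) (h' : τ ∈ cg col) :
    σ * τ ∈ cg col := by
  exact mem_cg.2 fun i => (mem_cg.1 h _).trans (mem_cg.1 h' i)
theorem inv_mem_cg {col : ι → C} {σ : Equiv.Perm ι} (h : σ ∈ cg col) : σ⁻¹ ∈ cg col := by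
  exact mem_cg.2 fun i => by rw [← mem_cg.1 h (σ⁻¹ i)]; simp
theorem sg_one : sg (1 : Equiv.Perm ι) = 1 := by simp [sg]
theorem sg_mul (σ τ : Equiv.Perm ι) : sg (σ * τ) = sg σ * sg τ := by simp [sg]
theorem sg_inv (σ : Equiv.Perm ι) : sg σ⁻¹ = sg σ := by simp [sg]
theorem sg_mul_self (σ : Equiv.Perm ι) : sg σ * sg σ = 1 := by
  rw [← sg_inv σ, sg_inv σ]
  conv_lhs => enter [2]; rw [← sg_inv σ]
  rw [← sg_mul, mul_inv_cancel, sg_one]
theorem sg_ne_zero (σ : Equiv.Perm ι) : sg σ ≠ 0 := fun h => by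
  simpa [h] using sg_mul_self σ
theorem sg_swap {i j : ι} (h : i ≠ j) : sg (Equiv.swap i j) = -1 := by simp [sg, h]
theorem alt_apply (col : ι → C) (w : Wd ι A) (u : ι → A) :
    alt col w u = ∑ σ ∈ cg col, sg σ * w (u ∘ σ) := by
  simp [alt, LinearMap.sum_apply, Finset.sum_apply]
theorem act_alt {col : ι → C} {σ : Equiv.Perm ι} (h : σ ∈ cg col) (w : Wd ι A) :
    act σ (alt col w) = sg σ • alt col w := by
  simp only [alt, LinearMap.sum_apply, LinearMap.smul_apply, map_sum, map_smul, smul_sum, smul_smul,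
    ← act_mul]
  refine sum_bijective _ (Group.mulLeft_bijective σ) (fun τ => ⟨mul_mem_cg h, fun h' => ?_⟩)
    fun τ _ => ?_
  · simpa using mul_mem_cg (inv_mem_cg h) h'
  · rw [sg_mul, ← mul_assoc, sg_mul_self, one_mul]
theorem alt_act {col : ι → C} {σ : Equiv.Perm ι} (h : σ ∈ cg col) (w : Wd ι A) :
    alt col (act σ w) = sg σ • alt col w := by
  simp only [alt, LinearMap.sum_apply, LinearMap.smul_apply, smul_sum, smul_smul, ← act_mul]
  refine sum_bijective _ (Group.mulRight_bijective σ)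
    (fun τ => ⟨fun h' => mul_mem_cg h' h, fun h' => ?_⟩) fun τ _ => ?_
  · simpa using mul_mem_cg h' (inv_mem_cg h)
  · rw [sg_mul, mul_left_comm, sg_mul_self, mul_one]
theorem Eqv.alt {Φ : Wd ι A →ₗ[ℂ] Wd ι B} (h : Eqv Φ) (col : ι → C) (w : Wd ι A) :
    Φ (alt col w) = alt col (Φ w) := by
  simp only [R195.alt, LinearMap.sum_apply, LinearMap.smul_apply, map_sum, map_smul, h _ w]
theorem gen_alt (col : ι → C) (w : Wd ι A) : Gen w (alt col w) := by
  simp only [alt, LinearMap.sum_apply, LinearMap.smul_apply]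
  exact Gen.sum _ fun σ _ => ((Gen.refl w).act σ).smul _
theorem eqv_mv (x y : A) : Eqv (mv x y : Wd ι A →ₗ[ℂ] Wd ι A) := by
  intro g w
  ext u
  simp only [mv, LinearMap.coe_mk, AddHom.coe_mk, act_apply]
  refine (sum_bijective g g.bijective (fun i => by simp) fun i _ => ?_).symm
  rw [Function.update_comp_eq_of_injective _ g.injective]
theorem cnt_comp (u : ι → A) (e : ι' ≃ ι) (a : A) : cnt (u ∘ e) a = cnt u a := by
  exact card_bijective e e.bijective fun i => by simp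
/-- words with the same content differ by a permutation (`Equiv.ofFiberEquiv`/`Equiv.sigmaFiberEquiv`) -/
theorem exists_perm_of_cnt {u u' : ι → A} (h : ∀ a, cnt u a = cnt u' a) :
    ∃ g : Equiv.Perm ι, u' = u ∘ g := by
  classical
  have e : ∀ a, {i // u' i = a} ≃ {i // u i = a} := fun a => Fintype.equivOfCardEq (by
    have := h a
    simp only [cnt] at this
    rw [Fintype.card_subtype, Fintype.card_subtype]
    convert this.symm)
  exact ⟨Equiv.ofFiberEquiv e, funext fun i => (Equiv.ofFiberEquiv_map e i).symm⟩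

/-- `Matrix.det_apply'` (after `det_transpose`); terms with `σ ∉ cg col` vanish. -/
theorem cdet_eq_sum (col : ι → C) (lab : ι → L) (m : ι → L → R) :
    cdet col lab m = ∑ σ ∈ cg col, ((Equiv.Perm.sign σ : ℤˣ) : ℤ) * ∏ i, m i (lab (σ i)) := by
  classical
  unfold cdet
  rw [← Matrix.det_transpose, Matrix.det_apply']
  symm
  refine sum_subset_zero_on_sdiff (subset_univ _) (fun σ hσ => ?_) fun σ hσ => ?_
  · have h1 := (mem_sdiff.1 hσ).2
    rw [mem_cg, not_forall] at h1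
    obtain ⟨i, hi⟩ := h1
    rw [prod_eq_zero (mem_univ i), mul_zero]
    simp only [Matrix.transpose_apply, Matrix.of_apply]
    exact if_neg fun h => hi h.symm
  · congr 1
    refine prod_congr rfl fun i _ => ?_
    simp only [Matrix.transpose_apply, Matrix.of_apply]
    exact (if_pos (mem_cg.1 hσ i).symm).symm
theorem cdet_congr {col : ι → C} {col' : ι → C'} {lab : ι → L} {lab' : ι → L'} {m : ι → L → R}
    {m' : ι → L' → R} (hc : ∀ i j, col i = col j ↔ col' i = col' j)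
    (hm : ∀ i j, col i = col j → m i (lab j) = m' i (lab' j)) :
    cdet col lab m = cdet col' lab' m' := by
  unfold cdet
  congr 1
  ext i j
  simp only [Matrix.of_apply]
  by_cases h : col i = col j
  · rw [if_pos h, if_pos ((hc i j).1 h), hm i j h]
  · rw [if_neg h, if_neg fun h' => h ((hc i j).2 h')]
/-- `Matrix.det_submatrix_equiv_self` -/
theorem cdet_comp_equiv (e : ι' ≃ ι) (col : ι → C) (lab : ι → L) (m : ι → L → R) :
    cdet (col ∘ e) (lab ∘ e) (m ∘ e) = cdet col lab m := by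
  unfold cdet
  rw [← Matrix.det_submatrix_equiv_self e]
  rfl
theorem map_cdet {S : Type} [CommRing S] (φ : R →+* S) (col : ι → C) (lab : ι → L)
    (m : ι → L → R) : φ (cdet col lab m) = cdet col lab fun i l => φ (m i l) := by
  simp only [cdet_eq_sum, map_sum, map_mul, map_prod, map_intCast]
/-- `Matrix.det_fromBlocks_zero₁₂` -/
theorem cdet_sum₁₂ (col : ι₀ ⊕ ι₁ → C) (lab : ι₀ ⊕ ι₁ → L) (m : ι₀ ⊕ ι₁ → L → R)
    (h : ∀ i j, col (.inl i) = col (.inr j) → m (.inl i) (lab (.inr j)) = 0) :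
    cdet col lab m = cdet (col ∘ .inl) (lab ∘ .inl) (m ∘ .inl) *
      cdet (col ∘ .inr) (lab ∘ .inr) (m ∘ .inr) := by
  classical
  unfold cdet
  rw [← Matrix.det_fromBlocks_zero₁₂ _
    (Matrix.of fun i j => if col (.inr i) = col (.inl j) then m (.inr i) (lab (.inl j)) else 0)]
  congr 1
  ext (i | i) (j | j)
  · rfl
  · simp only [Matrix.of_apply, Matrix.fromBlocks_apply₁₂, Matrix.zero_apply]
    split_ifs with hc
    · exact h i j hc
    · rfl
  · simp only [Matrix.of_apply, Matrix.fromBlocks_apply₂₁]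
  · rfl
theorem cdet_sum₂₁ (col : ι₀ ⊕ ι₁ → C) (lab : ι₀ ⊕ ι₁ → L) (m : ι₀ ⊕ ι₁ → L → R)
    (h : ∀ i j, col (.inr i) = col (.inl j) → m (.inr i) (lab (.inl j)) = 0) :
    cdet col lab m = cdet (col ∘ .inl) (lab ∘ .inl) (m ∘ .inl) *
      cdet (col ∘ .inr) (lab ∘ .inr) (m ∘ .inr) := by
  classical
  unfold cdet
  rw [← Matrix.det_fromBlocks_zero₂₁ _
    (Matrix.of fun i j => if col (.inl i) = col (.inr j) then m (.inl i) (lab (.inr j)) else 0)]
  congr 1
  ext (i | i) (j | j)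
  · rfl
  · simp only [Matrix.of_apply, Matrix.fromBlocks_apply₁₂]
  · simp only [Matrix.of_apply, Matrix.fromBlocks_apply₂₁, Matrix.zero_apply]
    split_ifs with hc
    · exact h i j hc
    · rfl
  · rfl
/-- `Matrix.BlockTriangular.det_fintype` needs an order on `C`; or induct / use
`Matrix.det_blockDiagonal'`-like reindexing by `Equiv.sigmaFiberEquiv`. -/
theorem cdet_eq_prod [Fintype C] [DecidableEq C] (col : ι → C) (lab : ι → L) (m : ι → L → R) :
    cdet col lab m = ∏ c, (Matrix.of fun i j : {i // col i = c} => m i (lab j)).det := by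
  let _ : LinearOrder C := LinearOrder.lift' (Fintype.equivFin C) (Fintype.equivFin C).injective
  unfold cdet
  rw [Matrix.BlockTriangular.det_fintype (b := col) fun i j hij => by
    simp only [Matrix.of_apply]
    exact if_neg (ne_of_gt hij)]
  refine prod_congr rfl fun c _ => ?_
  congr 1
  ext i j
  simp only [Matrix.toSquareBlock_def, Matrix.of_apply]
  exact if_pos (i.2.trans j.2.symm)
/-- two equal rows inside a column -/
theorem cdet_eq_zero_of_row {col : ι → C} (lab : ι → L) {m : ι → L → R} {i j : ι} (hij : i ≠ j)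
    (hc : col i = col j) (hm : m i = m j) : cdet col lab m = 0 := by
  unfold cdet
  refine Matrix.det_zero_of_row_eq hij (funext fun k => ?_)
  rw [Matrix.of_apply, Matrix.of_apply, hc, hm]
theorem cdet_perm {col : ι → C} {σ : Equiv.Perm ι} (h : σ ∈ cg col) (lab : ι → L) (m : ι → L → R) :
    cdet col lab (m ∘ σ) = ((Equiv.Perm.sign σ : ℤˣ) : ℤ) * cdet col lab m := by
  unfold cdet
  rw [← Matrix.det_permute]
  congr 1
  ext i j
  rw [Matrix.submatrix_apply, Matrix.of_apply, Matrix.of_apply, mem_cg.1 h i]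
  rfl

theorem act_E (g : Equiv.Perm ι) (col : ι → C) (lab : ι → L) (t : A → L → ℂ) :
    act g (E col lab t) = E (col ∘ g.symm) (lab ∘ g.symm) t := by
  funext u
  rw [act_apply]
  unfold E
  rw [← cdet_comp_equiv g.symm]
  congr 1
  funext i
  simp
theorem act_E_cg {col : ι → C} {σ : Equiv.Perm ι} (h : σ ∈ cg col) (lab : ι → L) (t : A → L → ℂ) :
    act σ (E col lab t) = sg σ • E col lab t := by
  funext u
  exact cdet_perm h lab fun i => t (u i)
theorem rx_E (e : ι ≃ ι') (col : ι → C) (lab : ι → L) (t : A → L → ℂ) :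
    rx e (E col lab t) = E (col ∘ e.symm) (lab ∘ e.symm) t := by
  funext u
  unfold rx E
  rw [← cdet_comp_equiv e.symm]
  congr 1
  funext i
  simp
theorem conj_E (col : ι → C) (lab : ι → L) (t : A → L → ℂ) (a : ι → A) :
    (starRingEnd ℂ) (E col lab t a) = E col lab (fun x l => (starRingEnd ℂ) (t x l)) a :=
  map_cdet _ _ _ _
theorem act_pt (g : Equiv.Perm ι) (col : ι → C) (lab : ι → L) :
    act g (pt col lab) = pt (col ∘ g.symm) (lab ∘ g.symm) := act_E _ _ _ _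
theorem act_pt_cg {col : ι → C} {σ : Equiv.Perm ι} (h : σ ∈ cg col) (lab : ι → L) :
    act σ (pt col lab) = sg σ • pt col lab := act_E_cg h _ _
theorem rx_pt (e : ι ≃ ι') (col : ι → C) (lab : ι → L) :
    rx e (pt col lab) = pt (col ∘ e.symm) (lab ∘ e.symm) := rx_E _ _ _ _
theorem act_sv (g : Equiv.Perm ι) : act g (sv ι) = sg g • sv ι :=
  act_pt_cg (mem_cg.2 fun _ => rfl) _
theorem conj_pt (col : ι → C) (lab : ι → L) (u : ι → L) :
    (starRingEnd ℂ) (pt col lab u) = pt col lab u := by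
  unfold pt
  rw [conj_E]
  congr 1
  funext a b
  split_ifs <;> simp
open Classical in
theorem basicb_pt (col : ι → C) (lab u : ι → L) :
    pt col lab u = ∑ σ ∈ cg col, sg σ * if u = lab ∘ σ then 1 else 0 := by
  unfold pt E
  rw [cdet_eq_sum]
  refine sum_congr rfl fun σ _ => ?_
  congr 1
  rw [Finset.prod_boole]
  simp only [mem_univ, forall_const, funext_iff, Function.comp]
theorem pt_eq_alt (col : ι → C) (lab : ι → L) : pt col lab = alt col (dl lab) := by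
  classical
  funext u
  rw [basicb_pt, alt_apply]
  refine sum_nbij' (fun σ => σ⁻¹) (fun σ => σ⁻¹) (fun σ h => inv_mem_cg h) (fun σ h => inv_mem_cg h)
    (fun σ _ => inv_inv σ) (fun σ _ => inv_inv σ) fun σ _ => ?_
  rw [sg_inv]
  congr 1
  have e : u = lab ∘ σ ↔ u ∘ ⇑σ⁻¹ = lab := by
    constructor
    · rintro rfl
      funext i
      simp
    · rintro rfl
      funext i
      simp
  unfold dl
  by_cases h : u = lab ∘ σ
  · rw [if_pos h, if_pos (e.1 h)]
  · rw [if_neg h, if_neg fun h' => h (e.2 h')]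
theorem pt_ne_zero {col : ι → C} {lab u : ι → L} (h : pt col lab u ≠ 0) :
    ∃ σ ∈ cg col, u = lab ∘ σ := by
  rw [basicb_pt] at h
  obtain ⟨σ, h1, h2⟩ := exists_ne_zero_of_sum_ne_zero h
  refine ⟨σ, h1, ?_⟩
  by_contra h3
  exact h2 (by rw [if_neg h3, mul_zero])
theorem pt_self {col : ι → C} {lab : ι → L} (h : ∀ i j, col i = col j → lab i = lab j → i = j) :
    pt col lab lab = 1 := by
  rw [basicb_pt, sum_eq_single_of_mem 1 (one_mem_cg col)]
  · rw [sg_one, one_mul]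
    exact if_pos rfl
  · intro σ h1 h2
    rw [if_neg, mul_zero]
    exact fun h3 => h2 (Equiv.ext fun i => h _ _ (mem_cg.1 h1 i) (congrFun h3 i).symm)
theorem pt_perm {col : ι → C} {lab : ι → L} (h : ∀ i j, col i = col j → lab i = lab j → i = j)
    {σ : Equiv.Perm ι} (hσ : σ ∈ cg col) : pt col lab (lab ∘ σ) = sg σ := by
  rw [← act_apply σ (pt col lab) lab, act_pt_cg hσ, Pi.smul_apply, pt_self h, smul_eq_mul, mul_one]
/-- renaming letters injectively -/
theorem pt_comp {f : L → L'} (hf : Function.Injective f) (col : ι → C) (lab u : ι → L) :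
    pt col (f ∘ lab) (f ∘ u) = pt col lab u :=
  cdet_congr (fun _ _ => Iff.rfl) fun i j _ => by
    beta_reduce
    by_cases h : u i = lab j
    · rw [if_pos h, if_pos (by rw [Function.comp_apply, Function.comp_apply, h])]
    · rw [if_neg h]
      exact if_neg fun h' => h (hf h')

variable [Fintype A] [Fintype B] [Fintype A₀] [Fintype A₁]

theorem ip_comm (w z : Wd ι A) : ip w z = ip z w := by simp [ip, mul_comm]
theorem ip_add_left (w w' z : Wd ι A) : ip (w + w') z = ip w z + ip w' z := by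
  simp [ip, add_mul, sum_add_distrib]
theorem ip_smul_left (c : ℂ) (w z : Wd ι A) : ip (c • w) z = c * ip w z := by
  simp [ip, mul_sum, mul_assoc]
theorem ip_zero_left (z : Wd ι A) : ip 0 z = 0 := by simp [ip]
theorem ip_sum_left {K : Type*} (s : Finset K) (w : K → Wd ι A) (z : Wd ι A) :
    ip (∑ k ∈ s, w k) z = ∑ k ∈ s, ip (w k) z := by
  simp only [ip, Finset.sum_apply, sum_mul]
  exact sum_comm
theorem basicc_sum (e : ι ≃ ι') (f : (ι → A) → ℂ) : ∑ u : ι' → A, f (u ∘ e) = ∑ u, f u :=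
  Equiv.sum_comp (Equiv.arrowCongr e.symm (Equiv.refl A)) f
theorem ip_act (g : Equiv.Perm ι) (w z : Wd ι A) : ip (act g w) (act g z) = ip w z := by
  exact basicc_sum g fun u => w u * z u
theorem ip_act_left (g : Equiv.Perm ι) (w z : Wd ι A) : ip (act g w) z = ip w (act g⁻¹ z) := by
  rw [← ip_act g w (act g⁻¹ z), act_act_inv]
theorem ip_rx (e : ι ≃ ι') (w z : Wd ι A) : ip (rx e w) (rx e z) = ip w z := by
  exact basicc_sum e fun u => w u * z u
theorem ip_dl (u : ι → A) (z : Wd ι A) : ip (dl u) z = z u := by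
  classical
  unfold ip dl
  rw [Finset.sum_eq_single u (fun b _ hb => by rw [if_neg hb, zero_mul]) (fun h => absurd (mem_univ u) h),
    if_pos rfl, one_mul]
theorem ip_alt (col : ι → C) (w z : Wd ι A) : ip (alt col w) z = ip w (alt col z) := by
  have e : ∀ x : Wd ι A, alt col x = ∑ σ ∈ cg col, sg σ • act σ x := fun x => by
    simp [alt, LinearMap.sum_apply]
  rw [ip_comm w, e, e, ip_sum_left, ip_sum_left]
  refine sum_nbij' (fun σ => σ⁻¹) (fun σ => σ⁻¹) (fun σ h => inv_mem_cg h) (fun σ h => inv_mem_cg h)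
    (fun σ _ => inv_inv σ) (fun σ _ => inv_inv σ) fun σ _ => ?_
  rw [ip_smul_left, ip_smul_left, sg_inv, ip_act_left, ip_comm]
/-- a nonzero vector pairs nontrivially with its conjugate -/
theorem ip_conj_ne_zero {w : Wd ι A} (h : w ≠ 0) : ip w (fun u => (starRingEnd ℂ) (w u)) ≠ 0 := by
  intro h0
  refine h (funext fun u => ?_)
  simp only [ip, Complex.mul_conj] at h0
  rw [← Complex.ofReal_sum, Complex.ofReal_eq_zero,
    sum_eq_zero_iff_of_nonneg fun u _ => Complex.normSq_nonneg _] at h0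
  exact Complex.normSq_eq_zero.1 (h0 u (mem_univ u))
theorem ip_ox (w₀ : Wd ι₀ A₀) (w₁ : Wd ι₁ A₁) (z : Wd (ι₀ ⊕ ι₁) (A₀ ⊕ A₁)) :
    ip (ox w₀ w₁) z = ∑ a₀, ∑ a₁, w₀ a₀ * w₁ a₁ * z (Sum.map a₀ a₁) := by
  rw [← Fintype.sum_prod_type' fun a₀ a₁ => w₀ a₀ * w₁ a₁ * z (Sum.map a₀ a₁)]
  refine (Fintype.sum_of_injective (fun a : (ι₀ → A₀) × (ι₁ → A₁) => Sum.map a.1 a.2) ?_ _ _
    (fun u hu => ?_) fun a => ?_).symm
  · intro a b hab
    refine Prod.ext (funext fun i => ?_) (funext fun i => ?_)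
    · exact Sum.inl_injective (congrFun hab (.inl i))
    · exact Sum.inr_injective (congrFun hab (.inr i))
  · rw [ox_eq_zero w₀ w₁ fun a₀ a₁ h => hu ⟨(a₀, a₁), h.symm⟩, zero_mul]
  · rw [ox_map]
theorem ip_mulS (w₀ z₀ : Wd ι₀ A) (w₁ z₁ : Wd ι₁ A) :
    ip (mulS w₀ w₁) (mulS z₀ z₁) = ip w₀ z₀ * ip w₁ z₁ := by
  unfold ip
  rw [sum_mul_sum, ← Fintype.sum_prod_type' fun a₀ a₁ => w₀ a₀ * z₀ a₀ * (w₁ a₁ * z₁ a₁),
    ← Equiv.sum_comp (Equiv.sumArrowEquivProdArrow ι₀ ι₁ A)]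
  refine sum_congr rfl fun u _ => ?_
  exact mul_mul_mul_comm _ _ _ _
theorem ip_pt [Fintype L] (col : ι → C) (lab : ι → L) (z : Wd ι L) :
    ip (pt col lab) z = ∑ σ ∈ cg col, sg σ * z (lab ∘ σ) := by
  rw [pt_eq_alt, ip_alt, ip_dl, alt_apply]
theorem eq_sum_dl (w : Wd ι A) : w = ∑ u, w u • dl u := by
  ext u
  rw [Finset.sum_apply, Finset.sum_eq_single u (fun b _ hb => by simp [dl, hb.symm])
    (fun h => absurd (mem_univ u) h)]
  simp [dl]
theorem lm_apply (t : A → B → ℂ) (w : Wd ι A) (b : ι → B) :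
    lm t w b = ∑ a, w a * ∏ i, t (a i) (b i) := rfl
theorem eqv_lm (t : A → B → ℂ) : Eqv (lm t : Wd ι A →ₗ[ℂ] Wd ι B) := by
  intro g w
  ext b
  rw [act_apply, lm_apply, lm_apply, ← basicc_sum g fun a => w a * ∏ i, t (a i) ((b ∘ g) i)]
  refine sum_congr rfl fun a _ => ?_
  rw [act_apply, ← Equiv.prod_comp g fun i => t (a i) (b i)]
  rfl
theorem ip_lm (t : A → B → ℂ) (w : Wd ι A) (z : Wd ι B) :
    ip (lm t w) z = ip w (lm (fun b a => t a b) z) := by
  simp only [ip, lm_apply, sum_mul, mul_sum]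
  rw [sum_comm]
  refine sum_congr rfl fun a _ => sum_congr rfl fun b _ => ?_
  ring
theorem lm_pt [Fintype L] (col : ι → C) (lab : ι → L) (t : A → L → ℂ) :
    lm (fun l a => t a l) (pt col lab) = E col lab t := by
  ext a
  have := ip_pt col lab fun l => ∏ i, t (a i) (l i)
  rw [lm_apply, E, cdet_eq_sum]
  exact this
/-- the transpose of an equivariant map: `Ψ z a = ip (Φ (dl a)) z` -/
theorem Eqv.exists_transpose {Φ : Wd ι A →ₗ[ℂ] Wd ι B} (h : Eqv Φ) :
    ∃ Ψ : Wd ι B →ₗ[ℂ] Wd ι A, Eqv Ψ ∧ ∀ w z, ip (Φ w) z = ip w (Ψ z) := by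
  let Ψ : Wd ι B →ₗ[ℂ] Wd ι A :=
    { toFun := fun z a => ip z (Φ (dl a))
      map_add' := fun z z' => funext fun a => ip_add_left _ _ _
      map_smul' := fun c z => funext fun a => ip_smul_left _ _ _ }
  have key : ∀ w z, ip (Φ w) z = ip w (Ψ z) := fun w z => by
    conv_lhs => rw [eq_sum_dl w, map_sum, ip_sum_left]
    refine sum_congr rfl fun a _ => ?_
    rw [map_smul, ip_smul_left, ip_comm]
    rfl
  refine ⟨Ψ, fun g z => funext fun a => ?_, key⟩
  rw [← ip_dl a (Ψ (act g z)), ← key, ip_comm, ip_act_left, ← h, ip_comm, key, ip_act_left, inv_inv,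
    ip_dl]
/-- Maschke by averaging: `R = |G|⁻¹ ∑ act g ∘ R₀ ∘ act g⁻¹` with `R₀` any linear left inverse on `U`
(`LinearMap.exists_leftInverse_of_injective` for `Φ.domRestrict U`). -/
theorem Eqv.exists_leftInv {Φ : Wd ι A →ₗ[ℂ] Wd ι B} (h : Eqv Φ) {U : Submodule ℂ (Wd ι A)}
    (hU : Inv U) (hinj : ∀ u ∈ U, Φ u = 0 → u = 0) :
    ∃ Ψ : Wd ι B →ₗ[ℂ] Wd ι A, Eqv Ψ ∧ ∀ u ∈ U, Ψ (Φ u) = u := by
  obtain ⟨R₀, hR⟩ := LinearMap.exists_leftInverse_of_injective (Φ.domRestrict U)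
    (LinearMap.ker_eq_bot'.2 fun u hu => Subtype.ext (hinj u u.2 hu))
  have hR' : ∀ u ∈ U, (R₀ (Φ u) : Wd ι A) = u := fun u hu =>
    congrArg Subtype.val (LinearMap.congr_fun hR ⟨u, hu⟩)
  refine ⟨(Fintype.card (Equiv.Perm ι) : ℂ)⁻¹ •
    ∑ g : Equiv.Perm ι, act g ∘ₗ U.subtype ∘ₗ R₀ ∘ₗ act g⁻¹, Eqv.smul (fun k w => ?_) _, fun u hu => ?_⟩
  · rw [LinearMap.sum_apply, LinearMap.sum_apply, map_sum, ← Equiv.sum_comp (Equiv.mulLeft k)]
    refine sum_congr rfl fun g _ => ?_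
    simp only [LinearMap.comp_apply, Equiv.coe_mulLeft, mul_inv_rev, act_mul, act_inv_act]
  · rw [LinearMap.smul_apply, LinearMap.sum_apply]
    have e : ∀ g : Equiv.Perm ι, (act g ∘ₗ U.subtype ∘ₗ R₀ ∘ₗ act g⁻¹) (Φ u) = u := fun g => by
      simp only [LinearMap.comp_apply, Submodule.subtype_apply]
      rw [← h, hR' _ (hU _ u hu), act_act_inv]
    simp only [e]
    rw [sum_const, card_univ, ← Nat.cast_smul_eq_nsmul ℂ, smul_smul,
      inv_mul_cancel₀ (Nat.cast_ne_zero.2 Fintype.card_ne_zero), one_smul]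
/-- orthogonal projection onto an invariant, conjugation-stable subspace
(`LinearMap.BilinForm.isCompl_orthogonal_iff_disjoint` or a dimension count; `ip_conj_ne_zero`). -/
theorem exists_proj {U : Submodule ℂ (Wd ι A)} (hU : Inv U)
    (hc : ∀ u ∈ U, (fun a => (starRingEnd ℂ) (u a)) ∈ U) :
    ∃ P : Wd ι A →ₗ[ℂ] Wd ι A, Eqv P ∧ (∀ w, P w ∈ U) ∧ (∀ u ∈ U, P u = u) ∧
      ∀ w, ∀ u ∈ U, ip (P w) u = ip w u := by
  let Bf : LinearMap.BilinForm ℂ (Wd ι A) := LinearMap.mk₂ ℂ ip ip_add_left ip_smul_left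
    (fun w z z' => by rw [ip_comm, ip_add_left, ip_comm z, ip_comm z'])
    (fun c w z => by rw [ip_comm, ip_smul_left, ip_comm z, smul_eq_mul])
  have hrefl : Bf.IsRefl := fun x y hxy => (ip_comm y x).trans hxy
  have hmem : ∀ z, z ∈ Bf.orthogonal U ↔ ∀ u ∈ U, ip u z = 0 := fun z => Iff.rfl
  have hco : IsCompl U (Bf.orthogonal U) := by
    rw [LinearMap.BilinForm.isCompl_orthogonal_iff_disjoint hrefl, Submodule.disjoint_def]
    intro x hx hx'
    by_contra h0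
    exact ip_conj_ne_zero h0 ((ip_comm _ _).trans ((hmem x).1 hx' _ (hc x hx)))
  have hinv : ∀ g, ∀ z ∈ Bf.orthogonal U, act g z ∈ Bf.orthogonal U := fun g z hz =>
    (hmem _).2 fun u hu => by
      rw [ip_comm, ip_act_left, ip_comm]
      exact (hmem z).1 hz _ (hU _ u hu)
  refine ⟨U.projection _ hco, fun g w => ?_, Submodule.projection_apply_mem hco,
    fun u hu => Submodule.projection_apply_of_mem_left hco hu, fun w u hu => ?_⟩
  · have h1 := hinv g _ (Submodule.sub_projection_mem hco w)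
    rw [← Submodule.projection_apply_eq_zero_iff hco, map_sub, map_sub, sub_eq_zero] at h1
    rw [h1]
    exact Submodule.projection_apply_of_mem_left hco (hU g _ (Submodule.projection_apply_mem hco w))
  · have h1 := (hmem _).1 (Submodule.sub_projection_mem hco w) u hu
    conv_rhs => rw [← add_sub_cancel (U.projection _ hco w) w, ip_add_left, ip_comm (w - _), h1, add_zero]

end fin

end Crest.Agent.R195
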