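import Crest.Agent.R195.Class

/-!
# R195 / Twist : inner products, the sign twist, the calculus of `Kron`
-/

set_option autoImplicit false
open Finset

noncomputable section
namespace Crest.Agent.R195

variable {ι ι' A A' B B' C D L L' : Type} [Fintype ι] [DecidableEq ι] [Fintype ι'] [DecidableEq ι']
  [Fintype A] [Fintype A'] [Fintype B] [Fintype B'] [Fintype L] [Fintype L'] {ν : YoungDiagram}

/-- kernel `K ((a,b),(a',b')) = Φ (dl a) a' * Ψ (dl b) b'` -/
theorem exists_tensor {Φ : Wd ι A →ₗ[ℂ] Wd ι A'} {Ψ : Wd ι B →ₗ[ℂ] Wd ι B'} (hΦ : Eqv Φ)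
    (hΨ : Eqv Ψ) : ∃ Θ : Wd ι (A × B) →ₗ[ℂ] Wd ι (A' × B'), Eqv Θ ∧
      ∀ w w', Θ (inn w w') = inn (Φ w) (Ψ w') := by
  refine ⟨{ toFun := fun y v => ∑ u, y u * (Φ (dl fun i => (u i).1) (fun i => (v i).1) *
              Ψ (dl fun i => (u i).2) fun i => (v i).2)
            map_add' := fun y y' => by ext v; simp [add_mul, sum_add_distrib]
            map_smul' := fun c y => by ext v; simp [mul_sum, mul_assoc] }, fun g y => ?_,
    fun w w' => ?_⟩
  · ext v
    simp only [LinearMap.coe_mk, AddHom.coe_mk, act_apply]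
    refine (Fintype.sum_equiv (Equiv.arrowCongr g (Equiv.refl (A × B))) _ _ fun u => ?_).symm
    have h1 := congrFun (hΦ g (dl fun i => (u i).1)) fun i => (v i).1
    have h2 := congrFun (hΨ g (dl fun i => (u i).2)) fun i => (v i).2
    rw [act_dl, act_apply] at h1 h2
    have h3 : (Equiv.arrowCongr g (Equiv.refl (A × B))) u ∘ g = u := by
      ext i <;> simp
    rw [h3]
    exact congrArg (y u * ·) (congrArg₂ (· * ·) h1.symm h2.symm)
  · ext v
    simp only [LinearMap.coe_mk, AddHom.coe_mk, inn]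
    conv_rhs => rw [eq_sum_dl w, eq_sum_dl w']
    simp only [map_sum, map_smul, Finset.sum_apply, Pi.smul_apply, smul_eq_mul]
    rw [sum_mul_sum, ← Fintype.sum_prod_type']
    refine Fintype.sum_equiv (Equiv.arrowProdEquivProdArrow ι (fun _ => A) fun _ => B) _ _
      fun u => ?_
    simp only [Equiv.arrowProdEquivProdArrow_apply]
    ring

theorem sub_inn_comm (w : Wd ι A) (w' : Wd ι B) : Sub (inn w w') (inn w' w) := by
  have e : inn w' w = pb Prod.swap (inn w w') := funext fun _ => mul_comm _ _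
  rw [e]
  exact sub_pb _ _
theorem sub_inn_assoc (w : Wd ι A) (w' : Wd ι B) (w'' : Wd ι L) :
    Sub (inn (inn w w') w'') (inn w (inn w' w'')) := by
  have e : inn w (inn w' w'') = pb (Equiv.prodAssoc A B L).symm (inn (inn w w') w'') :=
    funext fun _ => (mul_assoc _ _ _).symm
  rw [e]
  exact sub_pb _ _
theorem sub_inn_assoc' (w : Wd ι A) (w' : Wd ι B) (w'' : Wd ι L) :
    Sub (inn w (inn w' w'')) (inn (inn w w') w'') := by
  have e : inn (inn w w') w'' = pb (Equiv.prodAssoc A B L) (inn w (inn w' w'')) :=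
    funext fun _ => mul_assoc _ _ _
  rw [e]
  exact sub_pb _ _

omit [Fintype ι] [DecidableEq ι] [Fintype A] [Fintype B] in
theorem twista_zero_left (b : Wd ι B) : inn (0 : Wd ι A) b = 0 := funext fun _ => zero_mul _
omit [Fintype ι] [DecidableEq ι] [Fintype A] [Fintype B] in
theorem twista_zero_right (a : Wd ι A) : inn a (0 : Wd ι B) = 0 := funext fun _ => mul_zero _
omit [Fintype ι] [DecidableEq ι] [Fintype A] [Fintype B] in
theorem twista_add_left (a a' : Wd ι A) (b : Wd ι B) : inn (a + a') b = inn a b + inn a' b :=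
  funext fun _ => add_mul _ _ _
omit [Fintype ι] [DecidableEq ι] [Fintype A] [Fintype B] in
theorem twista_add_right (a : Wd ι A) (b b' : Wd ι B) : inn a (b + b') = inn a b + inn a b' :=
  funext fun _ => mul_add _ _ _
omit [Fintype ι] [DecidableEq ι] [Fintype A] [Fintype B] in
theorem twista_smul_left (c : ℂ) (a : Wd ι A) (b : Wd ι B) : inn (c • a) b = c • inn a b :=
  funext fun _ => mul_assoc _ _ _
omit [Fintype ι] [DecidableEq ι] [Fintype A] [Fintype B] in
theorem twista_smul_right (c : ℂ) (a : Wd ι A) (b : Wd ι B) : inn a (c • b) = c • inn a b :=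
  funext fun _ => mul_left_comm _ _ _

/-- `inn` is bilinear; `inn (act g x) (act h y) = act g (inn x (act (g⁻¹ h) y))`. -/
theorem Kr.mono {w : Wd ι A} {x : Wd ι A'} {w' : Wd ι B} {x' : Wd ι B'} (h : Sub w x)
    (h' : Sub w' x') (hk : Kr x x' ν) : Kr w w' ν := by
  by_contra hn
  obtain ⟨g, T, hT, t, ht⟩ := hk
  have key : ∀ {a : Wd ι A'} {b : Wd ι B'}, Gen w a → Gen w' b →
      ip (inn a b) (E (fun i => (T i).2) (fun i => (T i).1) t) = 0 := by
    intro a b ha hb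
    induction ha using Submodule.span_induction with
    | zero => rw [twista_zero_left, ip_zero_left]
    | add a a' _ _ h1 h2 => rw [twista_add_left, ip_add_left, h1, h2, add_zero]
    | smul c a _ h1 => rw [twista_smul_left, ip_smul_left, h1, mul_zero]
    | mem a ha =>
      obtain ⟨Φ, hΦ, g₁, rfl⟩ := ha
      induction hb using Submodule.span_induction with
      | zero => rw [twista_zero_right, ip_zero_left]
      | add b b' _ _ h1 h2 => rw [twista_add_right, ip_add_left, h1, h2, add_zero]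
      | smul c b _ h1 => rw [twista_smul_right, ip_smul_left, h1, mul_zero]
      | mem b hb =>
        obtain ⟨Ψ, hΨ, g₂, rfl⟩ := hb
        obtain ⟨Θ, hΘ, hΘ'⟩ := exists_tensor hΦ hΨ
        by_contra h0
        have h1 : Sees (inn (act g₁ (Φ w)) (act g₂ (Ψ w'))) ν := ⟨T, hT, t, h0⟩
        have h2 : inn (act g₁ (Φ w)) (act g₂ (Ψ w')) =
            act g₁ (Θ (inn w (act (g₁⁻¹ * g₂) w'))) := by
          rw [hΘ', act_inn, hΨ, ← act_mul, mul_inv_cancel_left]
        rw [h2, sees_act] at h1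
        exact hn ⟨_, hΘ.sub' _ ν h1⟩
  exact ht (key h.gen (h'.gen.act g))
theorem Kr.symm {w : Wd ι A} {w' : Wd ι B} (h : Kr w w' ν) : Kr w' w ν := by
  obtain ⟨g, hg⟩ := h
  rw [← sees_act g⁻¹, act_inn, act_inv_act] at hg
  exact ⟨g⁻¹, sub_inn_comm _ _ ν hg⟩
theorem kr_sv {w : Wd ι A} : Kr w (sv ι) ν ↔ Sees (inn w (sv ι)) ν := by
  refine ⟨fun ⟨g, hg⟩ => ?_, fun h => ⟨1, h⟩⟩
  rwa [act_sv, twista_smul_right, sees_smul (sg_ne_zero g)] at hg
theorem Sub.inn_sv {w : Wd ι A} {x : Wd ι B} (h : Sub w x) : Sub (inn w (sv ι)) (inn x (sv ι)) :=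
  fun _ hν => kr_sv.1 (Kr.mono h (Sub.refl _) (kr_sv.2 hν))
/-- `w ↦ inn (inn w sv) sv` is equivariant and injective -/
theorem sub_inn_sv_sv (w : Wd ι A) :
    Sub w (inn (inn w (sv ι)) (sv ι)) ∧ Sub (inn (inn w (sv ι)) (sv ι)) w := by
  let Φ : Wd ι A →ₗ[ℂ] Wd ι ((A × ι) × ι) :=
    { toFun := fun y => inn (inn y (sv ι)) (sv ι)
      map_add' := fun y y' => by rw [twista_add_left, twista_add_left]
      map_smul' := fun c y => by rw [twista_smul_left, twista_smul_left]; rfl }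
  have hΦ : Eqv Φ := fun g y => by
    show inn (inn (act g y) (sv ι)) (sv ι) = act g (inn (inn y (sv ι)) (sv ι))
    rw [act_inn, act_inn, act_sv, twista_smul_right, twista_smul_right, twista_smul_left, smul_smul,
      sg_mul_self, one_smul]
  refine ⟨hΦ.sub' w, hΦ.sub_of_inj (U := ⊤) (fun _ _ _ => trivial) (fun u _ hu => ?_) trivial⟩
  ext a
  have h1 : sv ι (fun i => i) = 1 := pt_self (col := fun _ : ι => ()) (lab := id) fun _ _ _ h => h
  have h2 : u a * sv ι (fun i => i) * sv ι (fun i => i) = 0 := congrFun hu fun i => ((a i, i), i)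
  rwa [h1, mul_one, mul_one] at h2

/-- the antisymmetric kernel `D (a,b) = det [a i = col j ∧ b i = lab j]` -/
def twistb_D (col : ι → L') (lab : ι → L) : Wd ι (L' × L) :=
  pt (fun _ => ()) fun j => (col j, lab j)

theorem twistb_D_comp (col : ι → L') (lab : ι → L) (u : ι → L' × L) (g : Equiv.Perm ι) :
    twistb_D col lab (u ∘ g) = sg g * twistb_D col lab u := by
  have := congrFun (act_pt_cg (col := fun _ : ι => ()) (σ := g) (mem_cg.2 fun _ => rfl)
    (fun j => (col j, lab j))) u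
  simpa [twistb_D] using this

theorem twistb_sv_comp (s : ι → ι) (g : Equiv.Perm ι) : sv ι (s ∘ g) = sg g * sv ι s := by
  simpa using congrFun (act_sv g) s

theorem twistb_D_col (col : ι → L') (lab b : ι → L) :
    twistb_D col lab (fun i => (col i, b i)) = pt col lab b := by
  unfold twistb_D pt E cdet
  congr 1
  ext i j
  by_cases h1 : col i = col j <;> by_cases h2 : b i = lab j <;> simp [h1, h2]

/-- the twisted map -/
def twistb_Psi (col : ι → L') (lab : ι → L) : Wd ι (L' × ι) →ₗ[ℂ] Wd ι L where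
  toFun y b := ∑ u : ι → L' × ι,
    y u * (sv ι (fun i => (u i).2) * twistb_D col lab fun i => ((u i).1, b i))
  map_add' y y' := by ext b; simp [add_mul, sum_add_distrib]
  map_smul' c y := by ext b; simp [mul_sum, mul_assoc]

theorem twistb_Psi_apply (col : ι → L') (lab : ι → L) (y : Wd ι (L' × ι)) (b : ι → L) :
    twistb_Psi col lab y b = ∑ u : ι → L' × ι,
      y u * (sv ι (fun i => (u i).2) * twistb_D col lab fun i => ((u i).1, b i)) := rfl

theorem twistb_eqv (col : ι → L') (lab : ι → L) : Eqv (twistb_Psi col lab) := by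
  intro g y
  ext b
  rw [act_apply, twistb_Psi_apply, twistb_Psi_apply]
  refine Fintype.sum_equiv (Equiv.arrowCongr g.symm (Equiv.refl _)) _ _ fun u => ?_
  have e1 : (Equiv.arrowCongr g.symm (Equiv.refl (L' × ι))) u = u ∘ g := by
    ext i <;> simp
  rw [e1, act_apply]
  have e2 : (fun i => ((u ∘ g) i).2) = (fun i => (u i).2) ∘ g := rfl
  have e3 : (fun i => (((u ∘ g) i).1, (b ∘ g) i)) = (fun i => ((u i).1, b i)) ∘ g := rfl
  rw [e2, e3, twistb_sv_comp, twistb_D_comp]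
  have := sg_mul_self g
  linear_combination (-(y (u ∘ g) * (sv ι (fun i => (u i).2) *
    twistb_D col lab fun i => ((u i).1, b i)))) * this

/-- the row symmetrisation of the polytabloid -/
def twistb_x (col : ι → L') (lab : ι → L) : Wd ι L := ∑ ρ ∈ cg lab, act ρ⁻¹ (pt col lab)

theorem twistb_x_apply (col : ι → L') (lab b : ι → L) :
    twistb_x col lab b = ∑ ρ ∈ cg lab, pt col lab (b ∘ (ρ⁻¹ : Equiv.Perm ι)) := by
  simp [twistb_x, Finset.sum_apply]

theorem twistb_Psi_inn (col : ι → L') (lab : ι → L) :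
    twistb_Psi col lab (inn (pt lab col) (sv ι)) = ip (sv ι) (sv ι) • twistb_x col lab := by
  ext b
  have e : twistb_x col lab b = ip (pt lab col) fun a => twistb_D col lab fun i => (a i, b i) := by
    rw [ip_pt, twistb_x_apply]
    refine sum_congr rfl fun ρ _ => ?_
    have e1 : (fun i => ((col ∘ ρ) i, b i)) =
        (fun i => (col i, (b ∘ (ρ⁻¹ : Equiv.Perm ι)) i)) ∘ ρ := by
      ext i <;> simp
    rw [e1, twistb_D_comp, twistb_D_col, ← mul_assoc, sg_mul_self, one_mul]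
  rw [twistb_Psi_apply, Pi.smul_apply, smul_eq_mul, e, mul_comm, ip, ip, sum_mul_sum,
    ← Fintype.sum_prod_type']
  refine Fintype.sum_equiv (Equiv.arrowProdEquivProdArrow _ _ _) _ _ fun u => ?_
  simp only [inn, Equiv.arrowProdEquivProdArrow_apply]
  ring

theorem twistb_ip_self {w : Wd ι A} (h0 : w ≠ 0) (h : ∀ u, (starRingEnd ℂ) (w u) = w u) :
    ip w w ≠ 0 := by
  have := ip_conj_ne_zero h0
  rwa [show (fun u => (starRingEnd ℂ) (w u)) = w from funext h] at this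

theorem twistb_N : ip (sv ι) (sv ι) ≠ 0 := by
  refine twistb_ip_self (fun h => ?_) fun u => conj_pt _ _ u
  have h1 : sv ι id = 1 := pt_self fun _ _ _ h => h
  rw [h] at h1
  exact zero_ne_one h1

theorem twistb_card_cg (lab : ι → L) : ((cg lab).card : ℂ) ≠ 0 :=
  Nat.cast_ne_zero.2 (card_pos.2 ⟨1, one_mem_cg lab⟩).ne'

theorem twistb_x_ne {col : ι → L'} {lab : ι → L} (h : Shape ν col lab) : twistb_x col lab ≠ 0 := by
  intro h0
  have h1 : twistb_x col lab lab = (cg lab).card := by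
    rw [twistb_x_apply, card_eq_sum_ones, Nat.cast_sum]
    refine sum_congr rfl fun ρ hρ => ?_
    have : lab ∘ (ρ⁻¹ : Equiv.Perm ι) = lab := funext (mem_cg.1 (inv_mem_cg hρ))
    rw [this, pt_self h.inj, Nat.cast_one]
  rw [h0] at h1
  exact twistb_card_cg lab h1.symm

theorem twistb_x_mem (col : ι → L') (lab : ι → L) : twistb_x col lab ∈ cyc (pt col lab) :=
  Submodule.sum_mem _ fun _ _ => Submodule.subset_span ⟨_, rfl⟩

/-- Let `D a b = det [a i = col j ∧ b i = lab j]`, so `D (a ∘ g) (b ∘ g) = sg g * D a b` and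
`D (col ∘ π) b = sg π * act π⁻¹ (pt col lab) b`.  The map `Ψ : Wd ι (L' × ι) →ₗ Wd ι L`,
`Ψ y b = ∑ (a,s), y (a,s) * sv s * D a b` is equivariant, `Ψ (inn x sv) b = N * ∑ a, x a * D a b` with
`N = ip sv sv ≠ 0`, so (`ip_pt`) `Ψ (inn (pt lab col) sv) = N • ∑_{ρ ∈ cg lab} act ρ (pt col lab)`, a nonzero
element of `cyc (pt col lab)` (its value at the word `lab` is `|cg lab|`); `Shape.sees_of_mem`. -/
theorem Shape.sees_inn_sv {col : ι → L'} {lab : ι → L} (h : Shape ν col lab) :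
    Sees (inn (pt lab col) (sv ι)) ν := by
  refine h.sees_of_mem (twistb_eqv col lab) ?_ ?_
  · rw [twistb_Psi_inn]
    exact Submodule.smul_mem _ _ (twistb_x_mem col lab)
  · rw [twistb_Psi_inn]
    exact smul_ne_zero twistb_N (twistb_x_ne h)

theorem twistb_sees {w : Wd ι A} (hw : Sees w ν) : Sees (inn w (sv ι)) ν.transpose := by
  obtain ⟨T, hT, -⟩ := id hw
  have h : Shape ν (Set.rangeFactorization fun i => (T i).2)
      (Set.rangeFactorization fun i => (T i).1) :=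
    hT.shape.congr (fun i j => by simp [Subtype.ext_iff]) fun i j => by simp [Subtype.ext_iff]
  exact (hw.sub_pt h).inn_sv _ h.transpose.sees_inn_sv

theorem sees_inn_sv {w : Wd ι A} : Sees (inn w (sv ι)) ν.transpose ↔ Sees w ν := by
  refine ⟨fun h => ?_, twistb_sees⟩
  have := twistb_sees h
  rw [YoungDiagram.transpose_transpose] at this
  exact (sub_inn_sv_sv w).1 _ this

theorem twistb_act_x (col : ι → L') {lab : ι → L} {τ : Equiv.Perm ι} (hτ : τ ∈ cg lab) :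
    act τ (twistb_x col lab) = twistb_x col lab := by
  rw [twistb_x, map_sum]
  refine sum_nbij' (fun ρ => ρ * τ⁻¹) (fun ρ => ρ * τ) (fun ρ h => mul_mem_cg h (inv_mem_cg hτ))
    (fun ρ h => mul_mem_cg h hτ) (fun ρ _ => by simp) (fun ρ _ => by simp) fun ρ _ => ?_
  rw [← act_mul]
  simp

theorem twistb_ip_x {col : ι → L'} {lab : ι → L} (h : Shape ν col lab) :
    ip (twistb_x col lab) (pt col lab) ≠ 0 := by
  intro h0
  refine twistb_ip_self (twistb_x_ne h) (fun u => ?_) ?_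
  · rw [twistb_x_apply, map_sum]
    exact sum_congr rfl fun ρ _ => conj_pt _ _ _
  · conv_lhs => enter [1]; rw [twistb_x]
    rw [ip_sum_left]
    refine sum_eq_zero fun ρ hρ => ?_
    rw [ip_act_left, inv_inv, twistb_act_x col hρ, ip_comm, h0]

theorem twistb_alt_x {col : ι → L'} {lab : ι → L} (h : Shape ν col lab) :
    alt col (twistb_x col lab) = ip (twistb_x col lab) (pt col lab) • pt col lab := by
  refine h.alt_eq fun u hu l => ?_
  rw [twistb_x_apply] at hu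
  obtain ⟨ρ, -, hρ⟩ := exists_ne_zero_of_sum_ne_zero hu
  obtain ⟨σ, -, hσ⟩ := pt_ne_zero hρ
  rw [← cnt_comp u (ρ⁻¹ : Equiv.Perm ι) l, ← cnt_comp lab σ l, ← hσ]

theorem twistb_gen_alt {col : ι → C} (y : Wd ι A) {z : Wd ι B}
    (hz : ∀ σ ∈ cg col, act σ z = sg σ • z) : Gen (inn y z) (inn (alt col y) z) := by
  have e : inn (alt col y) z = ∑ σ ∈ cg col, act σ (inn y z) := by
    ext u
    rw [Finset.sum_apply, inn, alt_apply, sum_mul]
    refine sum_congr rfl fun σ hσ => ?_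
    rw [act_inn, hz σ hσ]
    simp only [inn, act_apply, Pi.smul_apply, smul_eq_mul]
    ring
  rw [e]
  exact Gen.sum _ fun σ _ => (Gen.refl _).act σ

/-- TWIST LEMMA (Saxl, case C): if `z` is antisymmetric under the column group then
`alt col (inn (pt lab col) z) = inn (∑_{σ ∈ cg col} act σ (pt lab col)) z`, and the twisted map `Ψ` above
sends `∑_{σ ∈ cg col} act σ (pt lab col)` to `alt col (x)`, `x = ∑_{ρ ∈ cg lab} act ρ (pt col lab)`, which is
`ip x (pt col lab) • pt col lab` with `|cg lab| * ip x (pt col lab) = ip x x ≠ 0`. -/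
theorem Shape.sub_twist {col : ι → L'} {lab : ι → L} (h : Shape ν col lab) {z : Wd ι B}
    (hz : ∀ σ ∈ cg col, act σ z = sg σ • z) :
    Sub (inn (inn (pt lab col) z) (sv ι)) (inn (pt col lab) z) := by
  obtain ⟨Θ, hΘ, hΘ'⟩ := exists_tensor (twistb_eqv col lab) (eqv_id (ι := ι) (A := B))
  have e1 : inn (inn (pt lab col) (sv ι)) z =
      pb (fun p : (L' × ι) × B => ((p.1.1, p.2), p.1.2)) (inn (inn (pt lab col) z) (sv ι)) := by
    ext u
    simp only [inn, pb_apply, Function.comp_apply]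
    ring
  have h1 : Sub (inn (inn (pt lab col) z) (sv ι)) (inn (inn (pt lab col) (sv ι)) z) := by
    rw [e1]
    exact sub_pb _ _
  have h2 := ((twistb_gen_alt (col := col) (inn (pt lab col) (sv ι)) hz).map hΘ).sub
  rw [hΘ', (twistb_eqv col lab).alt, twistb_Psi_inn, map_smul, twistb_alt_x h, smul_smul] at h2
  have e2 : ∀ c : ℂ, inn (c • pt col lab) (LinearMap.id (R := ℂ) z) = c • inn (pt col lab) z := by
    intro c
    ext u
    simp [inn, mul_assoc]
  rw [e2] at h2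
  exact fun μ hμ => h1 μ (h2 μ ((sees_smul (mul_ne_zero twistb_N (twistb_ip_x h)) _).2 hμ))

variable {l m l' m' ν' : YoungDiagram}

theorem Kron.intro {c₁ : ι → C} {l₁ : ι → A} {c₂ : ι → D} {l₂ : ι → B} (h₁ : Shape l c₁ l₁)
    (h₂ : Shape m c₂ l₂) (h : Sees (inn (pt c₁ l₁) (pt c₂ l₂)) ν) : Kron l m ν :=
  ⟨ι, A, B, C, D, inferInstance, inferInstance, inferInstance, inferInstance, c₁, l₁, c₂, l₂, h₁, h₂, h⟩

theorem Kron.card (h : Kron l m ν) : l.card = ν.card ∧ m.card = ν.card := by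
  obtain ⟨ι, A, B, C, D, _, _, _, _, c₁, l₁, c₂, l₂, h₁, h₂, h⟩ := h
  exact ⟨h₁.card.trans h.card.symm, h₂.card.trans h.card.symm⟩

/-- transport by `rx`, then `Kr.mono` with `Sees.sub_pt`. -/
theorem Kron.kr (h : Kron l m ν) {w : Wd ι A} {w' : Wd ι B} (hw : Sees w l) (hw' : Sees w' m) :
    Kr w w' ν := by
  obtain ⟨κ, A₀, B₀, C₀, D₀, _, _, _, _, c₁, l₁, c₂, l₂, h₁, h₂, h⟩ := h
  obtain ⟨e⟩ : Nonempty (κ ≃ ι) := Fintype.card_eq.1 (h₁.card.symm.trans hw.card)
  refine Kr.mono (hw.sub_pt (h₁.comp_equiv e.symm)) (hw'.sub_pt (h₂.comp_equiv e.symm)) ⟨1, ?_⟩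
  rw [act_one, ← rx_pt, ← rx_pt]
  exact (sees_rx e _).2 h
theorem Kron.of_kr {c₁ : ι → C} {l₁ : ι → A} {c₂ : ι → D} {l₂ : ι → B} (h₁ : Shape l c₁ l₁)
    (h₂ : Shape m c₂ l₂) (h : Kr (pt c₁ l₁) (pt c₂ l₂) ν) : Kron l m ν := by
  obtain ⟨g, hg⟩ := h
  rw [act_pt] at hg
  exact Kron.intro h₁ (h₂.comp_equiv g.symm) hg
theorem Kron.symm (h : Kron l m ν) : Kron m l ν := by
  obtain ⟨κ, A₀, B₀, C₀, D₀, _, _, _, _, c₁, l₁, c₂, l₂, h₁, h₂, h⟩ := h
  exact Kron.intro h₂ h₁ (sub_inn_comm _ _ _ h)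
omit [Fintype ι] [DecidableEq ι] in
theorem twistc_shape {N : ℕ} {col : ι → ℕ} {lab : ι → Fin N}
    (h : IsTab ν fun i => ((lab i : ℕ), col i)) : Shape ν col lab :=
  ⟨_, h, fun _ _ => Iff.rfl, fun _ _ => Fin.val_inj.symm⟩
theorem Kron.conj₂₃ (h : Kron l m ν) : Kron l m.transpose ν.transpose := by
  obtain ⟨κ, A₀, B₀, C₀, D₀, _, _, _, _, c₁, l₁, c₂, l₂, h₁, h₂, h⟩ := h
  obtain ⟨c₃, l₃, h₃⟩ := exists_shape_fin ((card_transpose m).trans h₂.card) le_rfl
  have h₄ := twistc_shape h₃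
  refine Kron.of_kr h₁ h₄ (Kr.mono (x' := inn (pt c₂ l₂) (sv κ)) (Sub.refl _) (fun μ hμ => ?_)
    ⟨1, sub_inn_assoc' _ _ _ _ (sees_inn_sv.2 h)⟩)
  rw [← YoungDiagram.transpose_transpose μ, sees_inn_sv, h₂.sees_pt_iff] at hμ
  rw [h₄.sees_pt_iff, ← hμ, YoungDiagram.transpose_transpose]
theorem Kron.conj₁₃ (h : Kron l m ν) : Kron l.transpose m ν.transpose := h.symm.conj₂₃.symm
theorem Kron.conj₁₂ (h : Kron l m ν) : Kron l.transpose m.transpose ν := by
  simpa using h.conj₂₃.conj₁₃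
theorem Kron.conj_self (hm : m.transpose = m) (h : Kron l m ν) : Kron l m ν.transpose := by
  simpa [hm] using h.conj₂₃
/-- symmetry in the last two arguments: `Sees (inn x y) ν` means `ip (Φ (inn x y)) (act g (pt ..)) ≠ 0`;
after `Eqv.polar` the trilinear form is symmetric. -/
theorem Kron.swap₂₃ (h : Kron l m ν) : Kron l ν m := by
  classical
  obtain ⟨κ, A₀, B₀, C₀, D₀, _, _, _, _, c₁, l₁, c₂, l₂, h₁, h₂, T, hT, t, ht⟩ := h
  obtain ⟨c₃, l₃, h₃⟩ := exists_shape_fin hT.card le_rfl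
  have h₄ := twistc_shape h₃
  refine Kron.of_kr h₁ h₄ (Kr.mono (Sub.refl _) (h₄.sees_pt.gen_E hT.shape t).sub ⟨1, ?_⟩)
  refine sub_pb (fun p : A₀ × B₀ => (p.1, p)) _ _
    (h₂.sees (t := fun p b => @ite _ (p.2 = b) (Classical.propDecidable _) 1 0) ?_)
  convert ht using 1
  refine Finset.sum_congr rfl fun u _ => ?_
  exact mul_right_comm _ _ _
theorem twistc_norm (h : Kron l m ν) {N : ℕ} (hl : l.colLen 0 ≤ N) (hm : m.colLen 0 ≤ N) :
    ∃ (c₁ : Fin ν.card → ℕ) (l₁ : Fin ν.card → Fin N) (c₂ : Fin ν.card → ℕ)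
      (l₂ : Fin ν.card → Fin N), (IsTab l fun i => ((l₁ i : ℕ), c₁ i)) ∧
      (IsTab m fun i => ((l₂ i : ℕ), c₂ i)) ∧ Sees (inn (pt c₁ l₁) (pt c₂ l₂)) ν := by
  obtain ⟨c₁, l₁, h₁⟩ := exists_shape_fin (h.card.1.trans (Fintype.card_fin _).symm) hl
  obtain ⟨c₂, l₂, h₂⟩ := exists_shape_fin (h.card.2.trans (Fintype.card_fin _).symm) hm
  obtain ⟨g, hg⟩ := h.kr (twistc_shape h₁).sees_pt (twistc_shape h₂).sees_pt
  rw [act_pt] at hg
  exact ⟨c₁, l₁, _, _, h₁, h₂.comp_equiv g.symm, hg⟩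
theorem twistc_pt_sum (c₀ : ι → C) (c₁ : ι' → D) {K : Type} (l₀ : ι → K) (l₁ : ι' → K) :
    pt (Sum.map c₀ c₁) (Sum.elim l₀ l₁) = mulS (pt c₀ l₀) (pt c₁ l₁) := by
  funext u
  refine (cdet_sum₁₂ _ _ _ fun i j h => by simp at h).trans ?_
  congr 1
  · exact cdet_congr (fun i j => by simp) fun _ _ _ => rfl
  · exact cdet_congr (fun i j => by simp) fun _ _ _ => rfl
theorem twistc_shape_sum {N : ℕ} {ν₀ ν₁ : YoungDiagram} {c₀ : ι → ℕ} {l₀ : ι → Fin N} {c₁ : ι' → ℕ}
    {l₁ : ι' → Fin N} (h₀ : IsTab ν₀ fun i => ((l₀ i : ℕ), c₀ i))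
    (h₁ : IsTab ν₁ fun i => ((l₁ i : ℕ), c₁ i))
    (h : ∀ r, ν.rowLen r = ν₀.rowLen r + ν₁.rowLen r) :
    Shape ν (Sum.map c₀ c₁) (Sum.elim l₀ l₁) := by
  refine (shape_of_straight (col := Sum.map c₀ c₁) (lab := fun i => ((Sum.elim l₀ l₁ i : Fin N) : ℕ))
    ?_ ?_ fun r => ?_).congr (fun _ _ => Iff.rfl) fun _ _ => Fin.val_inj
  · rintro (i | i) (j | j) hc hl
    · exact congrArg _ (h₀.1 (Prod.ext hl (Sum.inl_injective hc)))
    · simp at hc
    · simp at hc
    · exact congrArg _ (h₁.1 (Prod.ext hl (Sum.inr_injective hc)))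
  · rintro (i | i) r hr
    · obtain ⟨j, hj⟩ := (h₀.2 _).1 (ν₀.up_left_mem hr.le le_rfl ((h₀.2 _).2 ⟨i, rfl⟩))
      exact ⟨.inl j, congrArg Sum.inl (congrArg Prod.snd hj), congrArg Prod.fst hj⟩
    · obtain ⟨j, hj⟩ := (h₁.2 _).1 (ν₁.up_left_mem hr.le le_rfl ((h₁.2 _).2 ⟨i, rfl⟩))
      exact ⟨.inr j, congrArg Sum.inr (congrArg Prod.snd hj), congrArg Prod.fst hj⟩
  · rw [h, ← h₀.cnt_row, ← h₁.cnt_row]
    simp only [cnt, card_filter, Fintype.sum_sum_type]
    rfl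
/-- SEMIGROUP.  Normalise both to labels in a common `Fin N` (`exists_shape_fin`, `Kron.kr`, `act_pt`);
`inn (pt ..) (pt ..)` on the disjoint union is `mulS` (`cdet_sum₁₂`); `Sees.mulS`, `shape_of_straight`
(through `Shape.congr` with `Fin.val`). -/
theorem Kron.add {l₀ m₀ ν₀ l₁ m₁ ν₁ : YoungDiagram} (h₀ : Kron l₀ m₀ ν₀) (h₁ : Kron l₁ m₁ ν₁)
    (hl : ∀ r, l.rowLen r = l₀.rowLen r + l₁.rowLen r)
    (hm : ∀ r, m.rowLen r = m₀.rowLen r + m₁.rowLen r)
    (hν : ∀ r, ν.rowLen r = ν₀.rowLen r + ν₁.rowLen r) : Kron l m ν := by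
  obtain ⟨a₀, x₀, b₀, y₀, ha₀, hb₀, s₀⟩ := twistc_norm h₀
    (N := l₀.colLen 0 + m₀.colLen 0 + l₁.colLen 0 + m₁.colLen 0) (by omega) (by omega)
  obtain ⟨a₁, x₁, b₁, y₁, ha₁, hb₁, s₁⟩ := twistc_norm h₁
    (N := l₀.colLen 0 + m₀.colLen 0 + l₁.colLen 0 + m₁.colLen 0) (by omega) (by omega)
  refine Kron.intro (twistc_shape_sum ha₀ ha₁ hl) (twistc_shape_sum hb₀ hb₁ hm) ?_
  rw [twistc_pt_sum, twistc_pt_sum]
  convert s₀.mulS s₁ hν using 1
  funext u
  exact mul_mul_mul_comm _ _ _ _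
/-- vertical version in the first two arguments -/
theorem Kron.add_col {l₀ m₀ ν₀ l₁ m₁ ν₁ : YoungDiagram} (h₀ : Kron l₀ m₀ ν₀) (h₁ : Kron l₁ m₁ ν₁)
    (hl : ∀ r, l.colLen r = l₀.colLen r + l₁.colLen r)
    (hm : ∀ r, m.colLen r = m₀.colLen r + m₁.colLen r)
    (hν : ∀ r, ν.rowLen r = ν₀.rowLen r + ν₁.rowLen r) : Kron l m ν := by
  have := Kron.add (l := l.transpose) (m := m.transpose) (ν := ν) h₀.conj₁₂ h₁.conj₁₂
    (by simpa using hl) (by simpa using hm) hν
  simpa using this.conj₁₂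

end Crest.Agent.R195
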