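import Crest.Prelude.Def_SpechtModule
import Crest.Agent.R195.Twist

/-!
# R195 / Bridge : from `Kron` to the statements
`J' : Wd (Fin n) (Fin n) →ₗ (RowWord n →₀ ℂ)`, `J' w = ∑ u, w u • single (fun i => (u i : ℕ)) 1` is
injective, intertwines `rep` and `rowWordRep`, and sends `pt` of a tableau to its `polytabloid`;
`J f u = f (fun i => (u i : ℕ))` is an intertwining left inverse.
-/

set_option autoImplicit false
open Finset Crest.AlgebraR.Specht

noncomputable section
namespace Crest.Agent.R195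

/-- words as row words -/
def bridge_w {n : ℕ} (u : Fin n → Fin n) : RowWord n := fun i => (u i : ℕ)

theorem bridge_w_inj {n : ℕ} : Function.Injective (bridge_w : (Fin n → Fin n) → RowWord n) :=
  fun _ _ h => funext fun i => Fin.ext (congrFun h i)

/-- the embedding into the permutation module of the prelude -/
def bridge_J (n : ℕ) : Wd (Fin n) (Fin n) →ₗ[ℂ] (RowWord n →₀ ℂ) :=
  Fintype.linearCombination ℂ fun u => Finsupp.single (bridge_w u) 1

theorem bridge_J_apply {n : ℕ} (w : Wd (Fin n) (Fin n)) (u : Fin n → Fin n) :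
    bridge_J n w (bridge_w u) = w u := by
  classical
  rw [bridge_J, Fintype.linearCombination_apply, Finsupp.finsetSum_apply,
    sum_eq_single u (fun v _ hv => ?_) (by simp)]
  · simp
  · rw [Finsupp.smul_apply, Finsupp.single_eq_of_ne (bridge_w_inj.ne hv.symm), smul_zero]

theorem bridge_J_inj (n : ℕ) : Function.Injective (bridge_J n) := fun w w' h =>
  funext fun u => by rw [← bridge_J_apply w, h, bridge_J_apply]

theorem bridge_J_dl {n : ℕ} (u : Fin n → Fin n) :
    bridge_J n (dl u) = Finsupp.single (bridge_w u) 1 := by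
  rw [bridge_J, Fintype.linearCombination_apply, sum_eq_single u (fun v _ hv => ?_) (by simp)]
  · simp [dl]
  · simp [dl, hv]

theorem bridge_J_act_dl {n : ℕ} (g : Equiv.Perm (Fin n)) (u : Fin n → Fin n) :
    bridge_J n (act g (dl u)) = Finsupp.single (g • bridge_w u) 1 := by
  rw [act_dl, bridge_J_dl]
  rfl

theorem bridge_J_act {n : ℕ} (g : Equiv.Perm (Fin n)) (w : Wd (Fin n) (Fin n)) :
    bridge_J n (act g w) = rowWordRep n g (bridge_J n w) := by
  rw [eq_sum_dl w]
  simp only [map_sum, map_smul, bridge_J_act_dl, bridge_J_dl]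
  refine sum_congr rfl fun u _ => congrArg _ ?_
  exact (Finsupp.mapDomain_single).symm

/-- columns of a tableau of the prelude -/
def bridge_col {l : YoungDiagram} (t : l.cells ≃ Fin l.cells.card) (i : Fin l.card) : ℕ :=
  (t.symm i).1.2

/-- rows of a tableau of the prelude -/
def bridge_lab {l : YoungDiagram} (t : l.cells ≃ Fin l.cells.card) (i : Fin l.card) : Fin l.card :=
  ⟨(t.symm i).1.1, (YoungDiagram.mem_iff_lt_colLen.1
    ((YoungDiagram.mem_cells _).1 (t.symm i).2)).trans_le (colLen_le_card l _)⟩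

theorem bridge_shape {l : YoungDiagram} (t : l.cells ≃ Fin l.cells.card) :
    Shape l (bridge_col t) (bridge_lab t) := by
  refine ⟨fun i => (t.symm i).1, ⟨Subtype.val_injective.comp t.symm.injective, fun c => ⟨fun hc => ?_, ?_⟩⟩,
    fun _ _ => Iff.rfl, fun _ _ => Fin.ext_iff⟩
  · exact ⟨t ⟨c, (YoungDiagram.mem_cells _).2 hc⟩, by simp⟩
  · rintro ⟨i, rfl⟩
    exact (YoungDiagram.mem_cells _).1 (t.symm i).2

theorem bridge_J_pt {l : YoungDiagram} (t : l.cells ≃ Fin l.cells.card) :
    bridge_J l.card (pt (bridge_col t) (bridge_lab t)) = polytabloid t := by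
  have h : cg (bridge_col t) = columnGroup t := by
    ext σ
    rw [mem_cg, columnGroup, mem_filter]
    exact ⟨fun h => ⟨mem_univ _, h⟩, fun h => h.2⟩
  rw [pt_eq_alt, alt, LinearMap.sum_apply, map_sum, h, polytabloid]
  refine sum_congr rfl fun σ _ => ?_
  rw [LinearMap.smul_apply, map_smul, bridge_J_act_dl]
  rfl

theorem bridge_act_pt {l : YoungDiagram} (t : l.cells ≃ Fin l.cells.card) (g : Equiv.Perm (Fin l.card)) :
    act g (pt (bridge_col t) (bridge_lab t)) = pt (bridge_col (t.trans g)) (bridge_lab (t.trans g)) :=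
  act_pt _ _ _

theorem bridge_map {l : YoungDiagram} (t : l.cells ≃ Fin l.cells.card) :
    (cyc (pt (bridge_col t) (bridge_lab t))).map (bridge_J l.card) =
      (spechtSubrep l.cells).toSubmodule := by
  refine le_antisymm ?_ (sInf_le ⟨?_, ?_⟩)
  · rw [cyc, Submodule.map_span, Submodule.span_le]
    rintro _ ⟨_, ⟨g, rfl⟩, rfl⟩
    refine Submodule.mem_sInf.2 fun p hp => hp.1 ⟨t.trans g, ?_⟩
    simp only [bridge_act_pt, bridge_J_pt]
  · rintro _ ⟨t', rfl⟩
    refine ⟨act (t.symm.trans t') (pt (bridge_col t) (bridge_lab t)),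
      inv_cyc _ _ _ (mem_cyc _), ?_⟩
    rw [bridge_act_pt, bridge_J_pt, ← Equiv.trans_assoc, Equiv.self_trans_symm, Equiv.refl_trans]
  · rintro g _ ⟨w, hw, rfl⟩
    exact ⟨act g w, inv_cyc _ _ _ hw, bridge_J_act g w⟩

/-- the Specht module of the prelude is the cyclic module of a polytabloid -/
theorem specht_equiv (l : YoungDiagram) :
    ∃ (col : Fin l.card → ℕ) (lab : Fin l.card → Fin l.card), Shape l col lab ∧
      Nonempty ((spechtRep l.cells).Equiv (cycRep (pt col lab)).toRepresentation) := by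
  refine ⟨bridge_col l.cells.equivFin, bridge_lab l.cells.equivFin, bridge_shape _,
    ⟨Representation.Equiv.symm (Representation.Equiv.mk
      ((Submodule.equivMapOfInjective _ (bridge_J_inj _) _).trans
        (LinearEquiv.ofEq _ _ (bridge_map l.cells.equivFin))) fun g => ?_)⟩⟩
  exact LinearMap.ext fun w => Subtype.ext (bridge_J_act g w.1)

theorem bridge_irred {G V W : Type} [Group G] [AddCommGroup V] [Module ℂ V] [AddCommGroup W]
    [Module ℂ W] {ρ : Representation ℂ G V} {σ : Representation ℂ G W} (e : ρ.Equiv σ)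
    (h : σ.IsIrreducible) : ρ.IsIrreducible := by
  rw [Representation.irreducible_iff_isSimpleModule_asModule] at h ⊢
  exact IsSimpleModule.congr (LinearEquiv.ofBijective
    (Representation.IntertwiningMap.equivLinearMapAsModule ρ σ e.toIntertwiningMap) e.bijective)

theorem specht_irreducible (l : YoungDiagram) : Representation.IsIrreducible
    (V := (spechtSubrep l.cells).toSubmodule) (spechtRep l.cells) := by
  obtain ⟨col, lab, h, ⟨e⟩⟩ := specht_equiv l
  exact bridge_irred (V := (spechtSubrep l.cells).toSubmodule) e h.isIrreducible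

/-- `finrank Hom(ρ, σ) = finrank Hom(σ, ρ)` (`card_inv_mul_sum_char_mul_char_eq_finrank`, `g ↦ g⁻¹`). -/
theorem nontrivial_hom_symm {G V W : Type} [Group G] [Fintype G] [AddCommGroup V] [Module ℂ V]
    [FiniteDimensional ℂ V] [AddCommGroup W] [Module ℂ W] [FiniteDimensional ℂ W]
    (ρ : Representation ℂ G V) (σ : Representation ℂ G W)
    (h : Nontrivial (Representation.IntertwiningMap ρ σ)) :
    Nontrivial (Representation.IntertwiningMap σ ρ) := by
  have : Invertible (Nat.card G : ℂ) := invertibleOfNonzero (Nat.cast_ne_zero.2 Nat.card_pos.ne')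
  have h1 := Representation.card_inv_mul_sum_char_mul_char_eq_finrank ρ σ
  have h2 := Representation.card_inv_mul_sum_char_mul_char_eq_finrank σ ρ
  have h3 : ∑ g : G, σ.character g * ρ.character g⁻¹ = ∑ g : G, ρ.character g * σ.character g⁻¹ :=
    Fintype.sum_equiv (Equiv.inv G) _ _ fun g => by simp [mul_comm]
  rw [h3, h2, Nat.cast_inj] at h1
  rw [← Module.finrank_pos_iff (R := ℂ)] at h ⊢
  rwa [h1]

/-- `inn` as a bilinear map -/
def bridge_inn (ι A B : Type) : Wd ι A →ₗ[ℂ] Wd ι B →ₗ[ℂ] Wd ι (A × B) :=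
  LinearMap.mk₂ ℂ inn (fun _ _ _ => funext fun _ => add_mul _ _ _)
    (fun _ _ _ => funext fun _ => mul_assoc _ _ _) (fun _ _ _ => funext fun _ => mul_add _ _ _)
    fun _ _ _ => funext fun _ => mul_left_comm _ _ _

theorem bridge_gen {ι A L V W : Type} [Fintype ι] [DecidableEq ι] [Fintype A] [Fintype L]
    [AddCommGroup V] [Module ℂ V] [FiniteDimensional ℂ V] [AddCommGroup W] [Module ℂ W]
    [FiniteDimensional ℂ W] {ρ : Representation ℂ (Equiv.Perm ι) V} {σ : Representation ℂ (Equiv.Perm ι) W} {w : Wd ι A}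
    {z : Wd ι L} (f : ρ.Equiv (cycRep w).toRepresentation) (e : σ.Equiv (cycRep z).toRepresentation)
    {Φ : Wd ι (A × A) →ₗ[ℂ] Wd ι L} (hΦ : Eqv Φ) (hm : ∀ x, Φ x ∈ cyc z) {g : Equiv.Perm ι}
    (h0 : Φ (inn w (act g w)) ≠ 0) :
    Nontrivial (Representation.IntertwiningMap σ (Representation.tprod ρ ρ)) := by
  refine nontrivial_hom_symm _ _ ?_
  let F : V →ₗ[ℂ] Wd ι A := (cyc w).subtype ∘ₗ f.toLinearMap
  have hF : ∀ g v, F (ρ g v) = act g (F v) := fun g v =>
    congrArg Subtype.val (f.toIntertwiningMap.isIntertwining _ _ g v)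
  let Ψ : TensorProduct ℂ V V →ₗ[ℂ] cyc z :=
    Φ.codRestrict (cyc z) hm ∘ₗ TensorProduct.lift ((bridge_inn ι A A).compl₁₂ F F)
  have hΨ : ∀ x y, (Ψ (x ⊗ₜ y) : Wd ι L) = Φ (inn (F x) (F y)) := fun _ _ => rfl
  let Θ : Representation.IntertwiningMap (Representation.tprod ρ ρ) (cycRep z).toRepresentation :=
    ⟨Ψ, fun g => TensorProduct.ext' fun x y => Subtype.ext (by
      change (Ψ (ρ g x ⊗ₜ ρ g y) : Wd ι L) = act g (Ψ (x ⊗ₜ y) : Wd ι L)
      rw [hΨ, hΨ, hF, hF, ← act_inn, hΦ])⟩
  refine ⟨e.symm.toIntertwiningMap.comp Θ, 0, fun h => h0 ?_⟩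
  have h1 : e.symm (Ψ (f.symm ⟨w, mem_cyc w⟩ ⊗ₜ f.symm ⟨act g w, inv_cyc w g w (mem_cyc w)⟩)) = 0 :=
    DFunLike.congr_fun h _
  have h2 := congrArg Subtype.val ((map_eq_zero_iff _ e.symm.injective).1 h1)
  have h3 : ∀ x, F (f.symm x) = x.1 := fun x => congrArg Subtype.val (f.apply_symm_apply x)
  rwa [hΨ, h3, h3] at h2

/-- Classify `σ` (shape `ν`); `Kron.kr` gives `Sees (inn pt (act g pt)) ν`, `Sees.exists_map` an
equivariant `Φ` into the Specht module of `ν`; `x ⊗ y ↦ Φ (inn x y)` (`TensorProduct.lift`) is a nonzero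
intertwining map `S ⊗ S → σ`; `nontrivial_hom_symm`. -/
theorem bridge (l : YoungDiagram) (h : ∀ ν : YoungDiagram, ν.card = l.card → Kron l l ν)
    (W : Type) [AddCommGroup W] [Module ℂ W] [FiniteDimensional ℂ W]
    (σ : Representation ℂ (Equiv.Perm (Fin l.card)) W) (hσ : Representation.IsIrreducible σ) :
    Nontrivial (Representation.IntertwiningMap σ
      (Representation.tprod (spechtRep l.cells) (spechtRep l.cells))) := by
  obtain ⟨ν, col, lab, hν, ⟨e⟩⟩ := classification W σ hσ
  obtain ⟨c, b, hl, ⟨f⟩⟩ := specht_equiv l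
  obtain ⟨g, hg⟩ := (h ν (hν.card.trans (Fintype.card_fin _))).kr hl.sees_pt hl.sees_pt
  obtain ⟨Φ, hΦ, hm, h0⟩ := hg.exists_map hν
  have hf : FiniteDimensional ℂ (spechtSubrep l.cells).toSubmodule :=
    f.toLinearEquiv.symm.finiteDimensional
  exact bridge_gen (V := (spechtSubrep l.cells).toSubmodule) f e hΦ hm h0

/-- the staircase with `m` rows -/
def stair (m : ℕ) : YoungDiagram where
  cells := staircaseShape m
  isLowerSet := by
    rintro ⟨a, b⟩ ⟨a', b'⟩ ⟨h1, h2⟩ h3
    simp only [staircaseShape, coe_filter, mem_product, mem_range, Set.mem_ofPred_eq] at h1 h2 h3 ⊢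
    omega

theorem mem_stair {m i j : ℕ} : (i, j) ∈ stair m ↔ i + j < m := by
  rw [← YoungDiagram.mem_cells]
  simp only [stair, staircaseShape, mem_filter, mem_product, mem_range]
  omega

theorem S0297_of_kron (m : ℕ) (h : ∀ ν : YoungDiagram, ν.card = (stair m).card →
      Kron (stair m) (stair m) ν)
    (W : Type) [AddCommGroup W] [Module ℂ W] [FiniteDimensional ℂ W]
    (σ : Representation ℂ (Equiv.Perm (Fin (staircaseShape m).card)) W)
    (hσ : Representation.IsIrreducible σ) :
    Nontrivial (Representation.IntertwiningMap σ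
      (Representation.tprod (spechtRep (staircaseShape m)) (spechtRep (staircaseShape m)))) :=
  bridge (stair m) h W σ hσ

theorem S0298_of_kron (n : ℕ) (h : ∃ l : YoungDiagram, l.card = n ∧
      ∀ ν : YoungDiagram, ν.card = n → Kron l l ν) :
    ∃ (V : Type) (_ : AddCommGroup V) (_ : Module ℂ V) (_ : FiniteDimensional ℂ V)
      (ρ : Representation ℂ (Equiv.Perm (Fin n)) V), Representation.IsIrreducible ρ ∧
      ∀ (W : Type) [AddCommGroup W] [Module ℂ W] [FiniteDimensional ℂ W]
        (σ : Representation ℂ (Equiv.Perm (Fin n)) W), Representation.IsIrreducible σ →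
        Nontrivial (Representation.IntertwiningMap σ (Representation.tprod ρ ρ)) := by
  obtain ⟨l, rfl, h⟩ := h
  obtain ⟨col, lab, -, ⟨e⟩⟩ := specht_equiv l
  have hf : FiniteDimensional ℂ (spechtSubrep l.cells).toSubmodule :=
    e.toLinearEquiv.symm.finiteDimensional
  exact ⟨(spechtSubrep l.cells).toSubmodule, Submodule.addCommGroup _, Submodule.module _, hf,
    spechtRep l.cells, specht_irreducible l, fun W _ _ _ σ hσ => bridge l h W σ hσ⟩

end Crest.Agent.R195
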