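import Mathlib

/-!
Row 195 (helper2).  The numerical part of case C of the Saxl induction: a partition of
`m(m+1)/2` with first row `< m` and first four rows `< 2m-1` is dominated by the staircase.
-/

set_option autoImplicit false

namespace Crest.Agent.R195

open Finset

theorem sum_sub_tail (ν : ℕ → ℕ) (hν : Antitone ν) (n t : ℕ) (ht : ν 3 ≤ t) :
    ∑ i ∈ range n, (ν i - t) ≤ (ν 0 - t) + (ν 1 - t) + (ν 2 - t) := by
  calc ∑ i ∈ range n, (ν i - t) ≤ ∑ i ∈ range (n + 3), (ν i - t) :=
        Finset.sum_le_sum_of_subset (Finset.range_mono (by omega))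
    _ = (ν 0 - t) + (ν 1 - t) + (ν 2 - t) := by
        rw [add_comm n 3, Finset.sum_range_add]
        have : ∑ x ∈ range n, (ν (3 + x) - t) = 0 := by
          apply Finset.sum_eq_zero; intro x _
          have := hν (show 3 ≤ 3 + x by omega); omega
        rw [this]; simp [Finset.sum_range_succ]

theorem sum_min_add (ν : ℕ → ℕ) (n t : ℕ) :
    ∑ i ∈ range n, min (ν i) t + ∑ i ∈ range n, (ν i - t) = ∑ i ∈ range n, ν i := by
  rw [← Finset.sum_add_distrib]
  exact Finset.sum_congr rfl fun i _ => by omega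

/-- `Σ_{j<t} (m - j) ≤ Σ_i min (ν i) t`, in doubled form. -/
theorem caseC_ineq (m n : ℕ) (ν : ℕ → ℕ) (hν : Antitone ν)
    (hsum : 2 * ∑ i ∈ range n, ν i = m * (m + 1)) (h1 : ν 0 < m)
    (h4 : ν 0 + ν 1 + ν 2 + ν 3 + 2 ≤ 2 * m) (t : ℕ) (ht : t ≤ m) :
    2 * t * m + t ≤ 2 * ∑ i ∈ range n, min (ν i) t + t * t := by
  have a1 := hν (show 0 ≤ 1 by omega)
  have a2 := hν (show 1 ≤ 2 by omega)
  have a3 := hν (show 2 ≤ 3 by omega)
  by_cases hy : ν 3 ≤ t
  · have e1 := sum_sub_tail ν hν n t hy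
    have e2 := sum_min_add ν n t
    obtain ⟨s, rfl⟩ : ∃ s, m = t + s := ⟨m - t, by omega⟩
    have hb : (ν 0 - t) + (ν 1 - t) + (ν 2 - t) ≤ 3 * (s - 1) := by omega
    have hq : 6 * (s - 1) ≤ s * (s + 1) := by
      rcases Nat.lt_or_ge s 4 with h | h
      · interval_cases s <;> simp
      · obtain ⟨r, rfl⟩ : ∃ r, s = r + 4 := ⟨s - 4, by omega⟩
        have : r + 4 - 1 = r + 3 := by omega
        rw [this]; nlinarith
    nlinarith
  · push Not at hy
    set y := ν 3 with hydef
    have e1 := sum_sub_tail ν hν n y le_rfl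
    have e2 := sum_min_add ν n y
    have e3 : t * ∑ i ∈ range n, min (ν i) y ≤ y * ∑ i ∈ range n, min (ν i) t := by
      rw [Finset.mul_sum, Finset.mul_sum]
      refine Finset.sum_le_sum fun i _ => ?_
      rcases le_total (ν i) t with h | h
      · rw [min_eq_left h, min_eq_left (by omega)]; exact Nat.mul_le_mul_right _ hy.le
      · rw [min_eq_right h, mul_comm y t]; exact Nat.mul_le_mul_left _ (min_le_right _ _)
    have e4 : y * m ≤ ∑ i ∈ range n, min (ν i) y := by
      have hb : (ν 0 - y) + (ν 1 - y) + (ν 2 - y) + 4 * y + 2 ≤ 2 * m := by omega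
      have hy2 : 2 * y + 1 ≤ m := by omega
      have : 2 * (y * m) + 4 * m ≤ m * (m + 1) + 8 * y + 4 := by
        rcases Nat.lt_or_ge m 4 with h | h
        · interval_cases m <;> omega
        · obtain ⟨r, rfl⟩ : ∃ r, m = r + 4 := ⟨m - 4, by omega⟩
          nlinarith
      omega
    have e5 : t * m ≤ ∑ i ∈ range n, min (ν i) t := by
      have : y * (t * m) ≤ y * ∑ i ∈ range n, min (ν i) t := by
        calc y * (t * m) = t * (y * m) := by ring
          _ ≤ _ := Nat.mul_le_mul_left _ e4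
          _ ≤ _ := e3
      exact Nat.le_of_mul_le_mul_left this (by omega)
    have : t ≤ t * t := Nat.le_mul_self t
    nlinarith

end Crest.Agent.R195
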