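import Crest.Agent.R195.James

/-!
# R195 / Class : classification of the irreducible representations, completeness
-/

set_option autoImplicit false
open Finset

noncomputable section
namespace Crest.Agent.R195

variable {ι ι' A B C L : Type} [Fintype ι] [DecidableEq ι] [Fintype ι'] [DecidableEq ι']
  [Fintype A] [Fintype B] [Fintype L] {ν μ : YoungDiagram}

/-- the cyclic module as a subrepresentation -/
def cycRep (w : Wd ι A) : Subrepresentation (rep ι A) where
  toSubmodule := cyc w
  apply_mem_toSubmodule g _ hv := inv_cyc w g _ hv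

/-- subrepresentations of `(cycRep _).toRepresentation` correspond (`Submodule.map subtype`) to
invariant subspaces of `cyc`. -/
theorem Shape.isIrreducible {col : ι → C} {lab : ι → L} (h : Shape ν col lab) :
    Representation.IsIrreducible (cycRep (pt col lab)).toRepresentation := by
  have h0 : pt col lab ≠ 0 := h.sees_pt.ne_zero
  have hnt : (⊥ : Subrepresentation (cycRep (pt col lab)).toRepresentation) ≠ ⊤ := by
    intro e
    have h1 : (⟨pt col lab, mem_cyc _⟩ : (cycRep (pt col lab)).toSubmodule) ∈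
        (⊤ : Subrepresentation (cycRep (pt col lab)).toRepresentation).toSubmodule := trivial
    rw [← e] at h1
    exact h0 (congrArg Subtype.val ((Submodule.mem_bot ℂ).1 h1))
  refine { toNontrivial := ⟨⟨_, _, hnt⟩⟩, eq_bot_or_eq_top := fun U => ?_ }
  have hU : Inv (U.toSubmodule.map (cycRep (pt col lab)).toSubmodule.subtype) := by
    rintro g _ ⟨x, hx, rfl⟩
    exact ⟨_, U.apply_mem_toSubmodule g hx, rfl⟩
  rcases h.irred hU (Submodule.map_subtype_le _ _) with h1 | h1
  · left
    apply Subrepresentation.toSubmodule_injective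
    exact Submodule.map_injective_of_injective (Submodule.injective_subtype _)
      (h1.trans (Submodule.map_bot _).symm)
  · right
    apply Subrepresentation.toSubmodule_injective
    exact Submodule.map_injective_of_injective (Submodule.injective_subtype _)
      (h1.trans (Submodule.map_subtype_top _).symm)

theorem card_conjClasses_le :
    Nat.card (ConjClasses (Equiv.Perm ι)) ≤ Fintype.card (Nat.Partition (Fintype.card ι)) := by
  rw [← Nat.card_eq_fintype_card]
  refine Nat.card_le_card_of_injective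
    (Quotient.lift Equiv.Perm.partition fun _ _ h => Equiv.Perm.partition_eq_of_isConj.1 h) ?_
  rintro ⟨a⟩ ⟨b⟩ h
  exact Quotient.sound (Equiv.Perm.partition_eq_of_isConj.2 h)

theorem exists_diagrams (n : ℕ) : ∃ f : Nat.Partition n → YoungDiagram, Function.Injective f ∧
    ∀ p, (f p).card = n := by
  have hs : ∀ p : Nat.Partition n, (p.parts.sort (· ≥ ·)).SortedGE := fun p =>
    (Multiset.pairwise_sort p.parts (· ≥ ·)).sortedGE
  have hp : ∀ p : Nat.Partition n, ∀ x ∈ p.parts.sort (· ≥ ·), 0 < x := fun p x hx =>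
    p.parts_pos ((Multiset.mem_sort _).1 hx)
  refine ⟨fun p => YoungDiagram.ofRowLens _ (hs p), fun p q h => ?_, fun p => ?_⟩
  · have h1 := congrArg YoungDiagram.rowLens h
    rw [YoungDiagram.rowLens_ofRowLens_eq_self (hp p), YoungDiagram.rowLens_ofRowLens_eq_self (hp q)]
      at h1
    ext1
    rw [← Multiset.sort_eq p.parts (· ≥ ·), h1, Multiset.sort_eq]
  · have h1 : (YoungDiagram.ofRowLens _ (hs p)).colLen 0 = (p.parts.sort (· ≥ ·)).length := by
      rw [← YoungDiagram.length_rowLens, YoungDiagram.rowLens_length_ofRowLens (hp p)]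
    rw [card_eq_sum_rowLen _ h1.le, Finset.sum_range]
    simp only [YoungDiagram.rowLen_ofRowLens, Fin.getElem_fin]
    rw [Fin.sum_univ_getElem, ← Multiset.sum_coe, Multiset.sort_eq, p.parts_sum]

theorem classa_shape_eq {col col' : ι → C} {lab lab' : ι → L} (h : Shape ν col lab)
    (h' : Shape μ col' lab')
    (e : (cycRep (pt col lab)).toRepresentation.Equiv (cycRep (pt col' lab')).toRepresentation) :
    μ = ν := by
  obtain ⟨P, hP, hP1, hP2, -⟩ := exists_proj (inv_cyc (pt col lab)) (cyc_pt_conj col lab)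
  let Φ : Wd ι L →ₗ[ℂ] Wd ι L := (cyc (pt col' lab')).subtype ∘ₗ e.toLinearEquiv.toLinearMap ∘ₗ
    P.codRestrict (cyc (pt col lab)) hP1
  have hΦ : Eqv Φ := fun g w => by
    have h1 : (P.codRestrict (cyc (pt col lab)) hP1 (act g w) : (cycRep (pt col lab)).toSubmodule) =
        (cycRep (pt col lab)).toRepresentation g (P.codRestrict (cyc (pt col lab)) hP1 w) :=
      Subtype.ext (hP g w)
    exact congrArg Subtype.val ((congrArg e h1).trans (e.toIntertwiningMap.isIntertwining _ _ g _))
  refine h.sees_pt_iff.1 (h'.sees_of_mem hΦ (Subtype.property _) fun h0 => ?_)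
  have h1 : e.toLinearEquiv (P.codRestrict (cyc (pt col lab)) hP1 (pt col lab)) = 0 := Subtype.ext h0
  rw [LinearEquiv.map_eq_zero_iff] at h1
  have h2 : P (pt col lab) = 0 := congrArg Subtype.val h1
  rw [hP2 _ (mem_cyc _)] at h2
  exact h.sees_pt.ne_zero h2

theorem classa_card_le {G K : Type} [Group G] [Fintype G] [Fintype K] [DecidableEq K] (χ : K → G → ℂ)
    (hc : ∀ k g h, χ k (h * g * h⁻¹) = χ k g)
    (ho : ∀ k k', (Nat.card G : ℂ)⁻¹ * ∑ g, χ k g * χ k' g⁻¹ = if k = k' then 1 else 0) :
    Fintype.card K ≤ Nat.card (ConjClasses G) := by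
  classical
  let χ' : K → ConjClasses G → ℂ := fun k => Quotient.lift (χ k) fun a b h => by
    obtain ⟨c, rfl⟩ := isConj_iff.1 h
    exact (hc k a c).symm
  have hli : LinearIndependent ℂ χ' := by
    refine Fintype.linearIndependent_iff.2 fun c hc0 k' => ?_
    have h1 : ∀ g, ∑ k, c k * χ k g = 0 := fun g => by
      have := congrFun hc0 (ConjClasses.mk g)
      rw [Finset.sum_apply] at this
      exact this
    have h2 : ∑ k, c k * ((Nat.card G : ℂ)⁻¹ * ∑ g, χ k g * χ k' g⁻¹) = 0 := by
      simp only [mul_sum]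
      rw [sum_comm]
      refine sum_eq_zero fun g _ => ?_
      have : ∑ k, c k * ((Nat.card G : ℂ)⁻¹ * (χ k g * χ k' g⁻¹)) =
          (∑ k, c k * χ k g) * ((Nat.card G : ℂ)⁻¹ * χ k' g⁻¹) := by
        rw [sum_mul]
        exact sum_congr rfl fun k _ => by ring
      rw [this, h1, zero_mul]
    simp only [ho] at h2
    simpa using h2
  have := hli.fintype_card_le_finrank
  rwa [Module.finrank_fintype_fun_eq_card, ← Nat.card_eq_fintype_card (α := ConjClasses G)] at this

/-- CLASSIFICATION.  Otherwise the characters of `σ` and of the `p(n)` Specht modules are `p(n)+1`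
orthonormal (`Representation.char_orthonormal`), hence independent, class functions, in a space of
dimension `≤ p(n)`.  Distinct shapes give non-isomorphic modules (`exists_proj`, `Shape.sees_of_mem`,
`Shape.sees_pt_iff`). -/
theorem classification (W : Type) [AddCommGroup W] [Module ℂ W] [FiniteDimensional ℂ W]
    (σ : Representation ℂ (Equiv.Perm ι) W) (hσ : Representation.IsIrreducible σ) :
    ∃ (ν : YoungDiagram) (col : ι → ℕ) (lab : ι → Fin (Fintype.card ι)), Shape ν col lab ∧
      Nonempty (σ.Equiv (cycRep (pt col lab)).toRepresentation) := by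
  classical
  by_contra hne
  obtain ⟨f, hf, hfc⟩ := exists_diagrams (Fintype.card ι)
  have hs : ∀ p, ∃ (col : ι → ℕ) (lab : ι → Fin (Fintype.card ι)), Shape (f p) col lab := fun p => by
    obtain ⟨col, lab, h⟩ := exists_shape_fin (ι := ι) (hfc p) ((colLen_le_card (f p) 0).trans (hfc p).le)
    exact ⟨col, lab, h.shape.congr (fun _ _ => Iff.rfl) fun _ _ => Fin.ext_iff.symm⟩
  choose col lab hs using hs
  have hirr := fun p => (hs p).isIrreducible
  have : Invertible (Nat.card (Equiv.Perm ι) : ℂ) :=
    invertibleOfNonzero (Nat.cast_ne_zero.2 Nat.card_pos.ne')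
  let χ : Option (Nat.Partition (Fintype.card ι)) → Equiv.Perm ι → ℂ := fun k =>
    k.elim σ.character fun p => (cycRep (pt (col p) (lab p))).toRepresentation.character
  have h := classa_card_le χ (fun k g h => by
      cases k with
      | none => exact Representation.char_conj σ g h
      | some p => exact Representation.char_conj _ g h) (fun k k' => by
      cases k with
      | none =>
        cases k' with
        | none =>
          refine (Representation.char_orthonormal σ σ).trans ?_
          rw [if_pos ⟨Representation.Equiv.refl σ⟩, if_pos rfl]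
        | some q =>
          have := hirr q
          refine (Representation.char_orthonormal σ _).trans ?_
          rw [if_neg fun ⟨e⟩ => hne ⟨_, _, _, hs q, ⟨e.symm⟩⟩, if_neg (by simp)]
      | some p =>
        have := hirr p
        cases k' with
        | none =>
          refine (Representation.char_orthonormal _ σ).trans ?_
          rw [if_neg fun ⟨e⟩ => hne ⟨_, _, _, hs p, ⟨e⟩⟩, if_neg (by simp)]
        | some q =>
          have := hirr q
          refine (Representation.char_orthonormal _ _).trans ?_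
          by_cases hpq : p = q
          · subst hpq
            rw [if_pos ⟨Representation.Equiv.refl _⟩, if_pos rfl]
          · rw [if_neg fun ⟨e⟩ => hpq (hf (classa_shape_eq (hs q) (hs p) e)), if_neg (by simpa using hpq)])
  have h2 := card_conjClasses_le (ι := ι)
  rw [Fintype.card_option] at h
  omega

/-- a nonzero invariant subspace contains an irreducible subrepresentation -/
theorem classb_exists_irred {V : Submodule ℂ (Wd ι A)} (hV : Inv V) {x : Wd ι A} (hx : x ∈ V)
    (h : x ≠ 0) : ∃ U : Subrepresentation (rep ι A), U.toSubmodule ≤ V ∧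
      Representation.IsIrreducible U.toRepresentation := by
  obtain ⟨U, ⟨hU1, hU2, hU3⟩, hmin⟩ := exists_minimal_of_wellFoundedLT
    (fun U : Submodule ℂ (Wd ι A) => Inv U ∧ U ≤ V ∧ U ≠ ⊥)
    ⟨V, hV, le_rfl, (Submodule.ne_bot_iff _).2 ⟨x, hx, h⟩⟩
  refine ⟨⟨U, fun g _ hv => hU1 g _ hv⟩, hU2, ?_⟩
  have hnt : Nontrivial U := Submodule.nontrivial_iff_ne_bot.2 hU3
  refine { exists_pair_ne := ⟨⊥, ⊤, fun e => ?_⟩, eq_bot_or_eq_top := fun S => ?_ }
  · exact bot_ne_top (α := Submodule ℂ U) (congrArg Subrepresentation.toSubmodule e)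
  · by_cases hS : S.toSubmodule = ⊥
    · exact Or.inl (Subrepresentation.toSubmodule_injective hS)
    · refine Or.inr (Subrepresentation.toSubmodule_injective ?_)
      have h1 : S.toSubmodule.map U.subtype ≤ U := Submodule.map_subtype_le _ _
      have h2 : U ≤ S.toSubmodule.map U.subtype := by
        refine hmin ⟨?_, h1.trans hU2, fun e => hS ?_⟩ h1
        · rintro g _ ⟨v, hv, rfl⟩
          exact ⟨_, S.apply_mem_toSubmodule g hv, rfl⟩
        · refine eq_bot_iff.2 fun v hv => ?_
          have h3 : (v : Wd ι A) ∈ S.toSubmodule.map U.subtype := ⟨v, hv, rfl⟩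
          rw [e] at h3
          exact Subtype.ext h3
      refine eq_top_iff.2 fun v _ => ?_
      obtain ⟨v', hv', e⟩ := h2 v.2
      rwa [← Subtype.ext (p := fun w => w ∈ U) e]

/-- Take a minimal nonzero invariant `U ≤ cyc x` (it is irreducible), an equivariant projection `P` onto
it (`Eqv.exists_leftInv` for `id`... or `exists_isCompl`), so `P x ≠ 0`; classify `U`. -/
theorem exists_sees {x : Wd ι A} (h : x ≠ 0) : ∃ ν, Sees x ν := by
  obtain ⟨U, hU, hirr⟩ := classb_exists_irred (inv_cyc x) (mem_cyc x) h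
  obtain ⟨ν, col, lab, hs, ⟨e⟩⟩ := classification U.toSubmodule U.toRepresentation hirr
  obtain ⟨P, hP, hP1, hP2, -⟩ := exists_proj (inv_cyc (pt col lab)) (cyc_pt_conj col lab)
  let Θ : Wd ι (Fin (Fintype.card ι)) →ₗ[ℂ] Wd ι A :=
    U.toSubmodule.subtype ∘ₗ e.symm.toIntertwiningMap.toLinearMap ∘ₗ
      LinearMap.codRestrict (cyc (pt col lab)) P hP1
  have hΘ : ∀ w, Θ w = (e.symm ⟨P w, hP1 w⟩ : U.toSubmodule) := fun _ => rfl
  have hE : Eqv Θ := by
    intro g w
    have h1 := e.symm.toIntertwiningMap.isIntertwining _ _ g ⟨P w, hP1 w⟩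
    have h2 : (cycRep (pt col lab)).toRepresentation g ⟨P w, hP1 w⟩ = ⟨P (act g w), hP1 _⟩ :=
      Subtype.ext (hP g w).symm
    rw [h2] at h1
    rw [hΘ, hΘ]
    exact congrArg Subtype.val h1
  have hinj : ∀ u ∈ cyc (pt col lab), Θ u = 0 → u = 0 := by
    intro u hu h0
    rw [hΘ] at h0
    have h1 : e.symm ⟨P u, hP1 u⟩ = 0 := Subtype.ext h0
    have h2 : (⟨P u, hP1 u⟩ : (cycRep (pt col lab)).toSubmodule) = 0 :=
      e.symm.toLinearEquiv.map_eq_zero_iff.1 h1
    rw [← hP2 u hu]
    exact congrArg Subtype.val h2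
  have h1 : Θ (pt col lab) ∈ cyc x := hU (by rw [hΘ]; exact Subtype.property _)
  exact ⟨ν, (Gen.of_mem_cyc h1).sub ν
    (hE.sub_of_inj (inv_cyc _) hinj (mem_cyc _) ν hs.sees_pt)⟩

/-- COMPLETENESS.  `G` = span of all `E T t : Wd ι B` with `T` of a shape seen by `w`: invariant,
conjugation stable, inside `Gen w`.  `x' = x - P x` (`exists_proj`) is orthogonal to `G`; if `x' ≠ 0` it
sees some `ν`, so do `x` and `w`, contradiction. -/
theorem Sub.gen {w : Wd ι A} {x : Wd ι B} (h : Sub w x) : Gen w x := by
  let G : Submodule ℂ (Wd ι B) := Submodule.span ℂ {y | ∃ (ν : YoungDiagram) (T : ι → ℕ × ℕ)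
    (t : B → ℕ → ℂ), Sees w ν ∧ IsTab ν T ∧ y = E (fun i => (T i).2) (fun i => (T i).1) t}
  have hI : Inv G := by
    intro g y hy
    have : G ≤ G.comap (act g) := by
      refine Submodule.span_le.2 ?_
      rintro _ ⟨ν, T, t, h1, h2, rfl⟩
      exact Submodule.subset_span ⟨ν, T ∘ g.symm, t, h1, h2.comp_equiv g.symm, act_E _ _ _ _⟩
    exact this hy
  have hC : ∀ u ∈ G, (fun a => (starRingEnd ℂ) (u a)) ∈ G := by
    intro u hu
    induction hu using Submodule.span_induction with
    | mem y hy =>
      obtain ⟨ν, T, t, h1, h2, rfl⟩ := hy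
      exact Submodule.subset_span ⟨ν, T, fun x l => (starRingEnd ℂ) (t x l), h1, h2,
        funext fun a => conj_E _ _ _ a⟩
    | zero =>
      simp only [Pi.zero_apply, map_zero]
      exact G.zero_mem
    | add y z _ _ hy hz =>
      simp only [Pi.add_apply, map_add]
      exact G.add_mem hy hz
    | smul c y _ hy =>
      simp only [Pi.smul_apply, smul_eq_mul, map_mul]
      exact G.smul_mem ((starRingEnd ℂ) c) hy
  have hG : ∀ y ∈ G, Gen w y := by
    intro y hy
    refine Submodule.span_le.2 ?_ hy
    rintro _ ⟨ν, T, t, h1, h2, rfl⟩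
    exact h1.gen_E h2.shape t
  obtain ⟨P, hP, hP1, -, hP3⟩ := exists_proj hI hC
  by_cases h0 : (LinearMap.id - P : Wd ι B →ₗ[ℂ] Wd ι B) x = 0
  · rw [LinearMap.sub_apply, LinearMap.id_apply, sub_eq_zero] at h0
    rw [h0]
    exact hG _ (hP1 x)
  · obtain ⟨ν, hν⟩ := exists_sees h0
    have h1 := h ν ((eqv_id.sub hP).sub' x ν hν)
    obtain ⟨T, hT, t, ht⟩ := hν
    refine absurd ?_ ht
    have h2 := hP3 x _ (Submodule.subset_span ⟨ν, T, t, h1, hT, rfl⟩)
    have h3 := ip_add_left ((LinearMap.id - P : Wd ι B →ₗ[ℂ] Wd ι B) x) (P x)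
      (E (fun i => (T i).2) (fun i => (T i).1) t)
    rw [h2, LinearMap.sub_apply, LinearMap.id_apply, sub_add_cancel] at h3
    rw [LinearMap.sub_apply, LinearMap.id_apply]
    exact right_eq_add.1 h3

theorem Pairs.of_sub {L' : Type} {w : Wd ι A} {x : Wd ι B} (h : Sub w x) {col : ι → C} {lab : ι → L'}
    (hx : Pairs x col lab) : Pairs w col lab := hx.of_gen h.gen

end Crest.Agent.R195
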