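import Crest.Agent.R195.Tall

/-!
Row 195 (helper2).  The staircase cell type, its table vector and its two cuts.
-/

set_option autoImplicit false
set_option linter.unusedSectionVars false

namespace Crest.Agent.R195

open Equiv Finset

/-- cells of the staircase -/
abbrev St (m : ℕ) : Type := {p : Fin m × Fin m // p.1.1 + p.2.1 < m}

def stR {m : ℕ} (p : St m) : Fin m := p.1.1
def stC {m : ℕ} (p : St m) : Fin m := p.1.2
/-- reference label: the antidiagonal -/
def stL {m : ℕ} (p : St m) : Fin m := ⟨p.1.1.1 + p.1.2.1, p.2⟩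

theorem St.ext' {m : ℕ} {p q : St m} (h1 : p.1.1.1 = q.1.1.1) (h2 : p.1.2.1 = q.1.2.1) : p = q :=
  Subtype.ext (Prod.ext (Fin.ext h1) (Fin.ext h2))

theorem stR_inj (m : ℕ) : BlockInj (stR (m := m)) stL := by
  intro p q h1 h2
  simp only [stR, stL, Fin.ext_iff] at h1 h2
  exact St.ext' h1 (by omega)

theorem stC_inj (m : ℕ) : BlockInj (stC (m := m)) stL := by
  intro p q h1 h2
  simp only [stC, stL, Fin.ext_iff] at h1 h2
  exact St.ext' (by omega) h1

/-- the staircase table vector -/
def stW (m : ℕ) (a : St m → Fin m × Fin m) : ℤ :=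
  EZ stR stL (fun i => (a i).1) * EZ stC stL (fun i => (a i).2)

/-- inner staircase and outer diagonal -/
def stEquiv₁ (m : ℕ) : St m ⊕ Fin (m + 1) ≃ St (m + 1) where
  toFun := Sum.elim (fun p => ⟨(p.1.1.castSucc, p.1.2.castSucc), by have := p.2; simp; omega⟩)
    (fun i => ⟨(i, i.rev), by have := i.2; simp; omega⟩)
  invFun p := if h : p.1.1.1 + p.1.2.1 < m then
      Sum.inl ⟨(⟨p.1.1.1, by omega⟩, ⟨p.1.2.1, by omega⟩), h⟩ else Sum.inr p.1.1
  left_inv := by
    rintro (p | i)
    · have := p.2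
      simp only [Sum.elim_inl, Fin.val_castSucc]
      rw [dif_pos this]
    · have := i.2
      simp only [Sum.elim_inr, Fin.val_rev]
      rw [dif_neg (by omega)]
  right_inv p := by
    have := p.2
    by_cases h : p.1.1.1 + p.1.2.1 < m
    · simp only [dif_pos h, Sum.elim_inl]; exact St.ext' rfl rfl
    · simp only [dif_neg h, Sum.elim_inr]
      exact St.ext' rfl (by simp; omega)

/-- inner staircase and the outer band of width two, read as a path -/
def stEquiv₂ (m : ℕ) : St m ⊕ Fin (2 * (m + 1) + 1) ≃ St (m + 2) where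
  toFun := Sum.elim
    (fun p => ⟨(⟨p.1.1.1, by omega⟩, ⟨p.1.2.1, by omega⟩), by have := p.2; simp; omega⟩)
    (fun i => ⟨(⟨m + 1 - (i.1 + 1) / 2, by omega⟩, ⟨i.1 / 2, by omega⟩), by simp; omega⟩)
  invFun p := if h : p.1.1.1 + p.1.2.1 < m then
      Sum.inl ⟨(⟨p.1.1.1, by omega⟩, ⟨p.1.2.1, by omega⟩), h⟩
    else Sum.inr ⟨2 * p.1.2.1 + (m + 1 - (p.1.1.1 + p.1.2.1)), by have := p.2; omega⟩
  left_inv := by
    rintro (p | i)
    · have := p.2
      simp only [Sum.elim_inl]
      rw [dif_pos this]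
    · have := i.2
      simp only [Sum.elim_inr]
      rw [dif_neg (by omega)]
      congr 1; ext; simp; omega
  right_inv p := by
    have := p.2
    by_cases h : p.1.1.1 + p.1.2.1 < m
    · simp only [dif_pos h, Sum.elim_inl]
    · simp only [dif_neg h, Sum.elim_inr]
      exact St.ext' (by simp; omega) (by simp; omega)

theorem card_St (m : ℕ) : 2 * Fintype.card (St m) = m * (m + 1) := by
  induction m with
  | zero => simp
  | succ m ih =>
    rw [← Fintype.card_congr (stEquiv₁ m), Fintype.card_sum, Fintype.card_fin]; nlinarith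

end Crest.Agent.R195
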