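import Crest.Agent.R195.Outer
import Crest.Agent.R195.Stair

/-!
Row 195 (helper2).  Table vectors in the language of the foundation: the cut lemma with a potential
and the path lemma.
-/

set_option autoImplicit false
set_option linter.unusedSectionVars false

noncomputable section
namespace Crest.Agent.R195

open Equiv Finset

section
variable {ι C L : Type} [Fintype ι] [DecidableEq ι]

theorem cg_eq_blockGrp [DecidableEq C] (col : ι → C) : cg col = blockGrp col := by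
  ext g; rw [mem_cg, mem_blockGrp]

theorem pt_eq_EZ [DecidableEq C] [DecidableEq L] (col : ι → C) (lab u : ι → L) :
    pt col lab u = (EZ col lab u : ℂ) := by
  rw [pt_eq_alt, alt_apply, cg_eq_blockGrp]
  unfold EZ
  push_cast
  refine Finset.sum_bij' (fun g _ => g⁻¹) (fun g _ => g⁻¹) (fun g hg => inv_mem_blockGrp hg)
    (fun g hg => inv_mem_blockGrp hg) (fun g _ => inv_inv g) (fun g _ => inv_inv g) ?_
  intro g _
  have : (u ∘ g = lab) ↔ u = lab ∘ ⇑(g⁻¹) := by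
    constructor
    · rintro rfl; funext i; simp
    · rintro rfl; funext i; simp
  unfold dl
  by_cases h : u ∘ g = lab
  · rw [if_pos h, if_pos (this.1 h)]; simp [sg]
  · rw [if_neg h, if_neg (fun e => h (this.2 e))]; simp

end

section cut
variable {ι ι₀ ι₁ A B A₀ A₁ B₀ B₁ C D : Type} [Fintype ι] [DecidableEq ι] [Fintype ι₀]
  [DecidableEq ι₀] [Fintype ι₁] [DecidableEq ι₁] [Fintype A] [Fintype B] [Fintype A₀] [Fintype A₁]
  [Fintype B₀] [Fintype B₁]

theorem pt_cut (e : ι₀ ⊕ ι₁ ≃ ι) (c : ι → C) (r : ι → A) (j₀ : A₀ → A) (j₁ : A₁ → A)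
    (hj : Function.Injective (Sum.elim j₀ j₁)) (p₀ : ι₀ → A₀) (p₁ : ι₁ → A₁)
    (hp₀ : ∀ i, r (e (.inl i)) = j₀ (p₀ i)) (hp₁ : ∀ i, r (e (.inr i)) = j₁ (p₁ i))
    (a₀ : ι₀ → A₀) (a₁ : ι₁ → A₁) :
    pt c r (Sum.elim (j₀ ∘ a₀) (j₁ ∘ a₁) ∘ e.symm) =
      pt (fun i => c (e (.inl i))) p₀ a₀ * pt (fun i => c (e (.inr i))) p₁ a₁ := by
  classical
  have h0 : Function.Injective j₀ := fun a b h => Sum.inl_injective (hj (a₁ := .inl a) (a₂ := .inl b) h)
  have h1 : Function.Injective j₁ := fun a b h => Sum.inr_injective (hj (a₁ := .inr a) (a₂ := .inr b) h)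
  simp only [pt_eq_EZ]
  rw [← EZ_reindex e, ← Int.cast_mul]
  congr 1
  rw [EZ_sum _ _ _ (fun a => a ∈ Set.range j₁)]
  · have e0 : (r ∘ e) ∘ Sum.inl = j₀ ∘ p₀ := funext hp₀
    have e1 : (r ∘ e) ∘ Sum.inr = j₁ ∘ p₁ := funext hp₁
    have e2 : ((Sum.elim (j₀ ∘ a₀) (j₁ ∘ a₁) ∘ e.symm) ∘ e) ∘ Sum.inl = j₀ ∘ a₀ := by
      funext i; simp
    have e3 : ((Sum.elim (j₀ ∘ a₀) (j₁ ∘ a₁) ∘ e.symm) ∘ e) ∘ Sum.inr = j₁ ∘ a₁ := by
      funext i; simp
    rw [e0, e1, e2, e3, EZ_map h0, EZ_map h1]; rfl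
  · intro i; exact ⟨p₁ i, (hp₁ i).symm⟩
  · rintro i ⟨x, hx⟩
    simp only [Function.comp, Equiv.symm_apply_apply, Sum.elim_inl] at hx
    exact absurd (hj (a₁ := .inr x) (a₂ := .inl (a₀ i)) hx) (by simp)

/-- **Cut lemma.**  The reference labels of the inner cells `e (inl _)` lie in the ranges of `j₀, k₀`,
those of the outer cells in the ranges of `j₁, k₁`; a potential separates inner and outer cells. -/
theorem sub_cut_table (e : ι₀ ⊕ ι₁ ≃ ι) (c₁ : ι → C) (r₁ : ι → A) (c₂ : ι → D) (r₂ : ι → B)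
    (j₀ : A₀ → A) (j₁ : A₁ → A) (k₀ : B₀ → B) (k₁ : B₁ → B)
    (hj : Function.Injective (Sum.elim j₀ j₁)) (hk : Function.Injective (Sum.elim k₀ k₁))
    (p₀ : ι₀ → A₀) (p₁ : ι₁ → A₁) (q₀ : ι₀ → B₀) (q₁ : ι₁ → B₁)
    (hp₀ : ∀ i, r₁ (e (.inl i)) = j₀ (p₀ i)) (hp₁ : ∀ i, r₁ (e (.inr i)) = j₁ (p₁ i))
    (hq₀ : ∀ i, r₂ (e (.inl i)) = k₀ (q₀ i)) (hq₁ : ∀ i, r₂ (e (.inr i)) = k₁ (q₁ i))
    (α : C → ℤ) (β : D → ℤ)
    (hin : ∀ i, α (c₁ (e (.inl i))) + β (c₂ (e (.inl i))) < 0)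
    (hout : ∀ i, 0 < α (c₁ (e (.inr i))) + β (c₂ (e (.inr i)))) :
    Sub (inn (pt c₁ r₁) (pt c₂ r₂))
      (ox (inn (pt (fun i => c₁ (e (.inl i))) p₀) (pt (fun i => c₂ (e (.inl i))) q₀))
        (inn (pt (fun i => c₁ (e (.inr i))) p₁) (pt (fun i => c₂ (e (.inr i))) q₁))) := by
  classical
  refine sub_cut _ e (Prod.map j₀ k₀) (Prod.map j₁ k₁) _ _ one_ne_zero ?_ ?_
  · intro a₀ a₁
    have h1 := pt_cut e c₁ r₁ j₀ j₁ hj p₀ p₁ hp₀ hp₁ (fun i => (a₀ i).1) (fun i => (a₁ i).1)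
    have h2 := pt_cut e c₂ r₂ k₀ k₁ hk q₀ q₁ hq₀ hq₁ (fun i => (a₀ i).2) (fun i => (a₁ i).2)
    have e1 : (fun i => ((Sum.elim (Prod.map j₀ k₀ ∘ a₀) (Prod.map j₁ k₁ ∘ a₁) ∘ e.symm) i).1) =
        Sum.elim (j₀ ∘ fun i => (a₀ i).1) (j₁ ∘ fun i => (a₁ i).1) ∘ e.symm := by
      funext i; simp only [Function.comp]; cases e.symm i <;> rfl
    have e2 : (fun i => ((Sum.elim (Prod.map j₀ k₀ ∘ a₀) (Prod.map j₁ k₁ ∘ a₁) ∘ e.symm) i).2) =
        Sum.elim (k₀ ∘ fun i => (a₀ i).2) (k₁ ∘ fun i => (a₁ i).2) ∘ e.symm := by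
      funext i; simp only [Function.comp]; cases e.symm i <;> rfl
    simp only [inn]
    rw [e1, e2, h1, h2]; ring
  · intro b hb
    simp only [inn, pt_eq_EZ] at hb
    obtain ⟨hb1, hb2⟩ := mul_ne_zero_iff.1 hb
    rw [Int.cast_ne_zero, ← EZ_reindex e] at hb1 hb2
    have n1 : ∀ (x : A₀) , j₀ x ∉ Set.range j₁ := by
      rintro x ⟨y, hy⟩; exact absurd (hj (a₁ := .inr y) (a₂ := .inl x) hy) (by simp)
    have n2 : ∀ (x : B₀) , k₀ x ∉ Set.range k₁ := by
      rintro x ⟨y, hy⟩; exact absurd (hk (a₁ := .inr y) (a₂ := .inl x) hy) (by simp)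
    have key := cut_unique (c₁ ∘ e) (r₁ ∘ e) (c₂ ∘ e) (r₂ ∘ e) (fun a => a ∈ Set.range j₁)
      (fun a => a ∈ Set.range k₁)
      (fun i => by simp only [Function.comp, hp₀]; exact n1 _)
      (fun i => by simp only [Function.comp, hp₁]; exact ⟨_, rfl⟩)
      (fun i => by simp only [Function.comp, hq₀]; exact n2 _)
      (fun i => by simp only [Function.comp, hq₁]; exact ⟨_, rfl⟩) α β hin hout _ _ ?_ hb1 hb2
    · refine ⟨fun i => ?_, fun i => ?_⟩
      · have := key.1 i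
        simp only [Function.comp, Equiv.symm_apply_apply] at this
        rcases hbi : b (.inl i) with x | x
        · rfl
        · rw [hbi] at this; exact absurd ⟨x.1, rfl⟩ this
      · have := key.2 i
        simp only [Function.comp, Equiv.symm_apply_apply] at this
        rcases hbi : b (.inr i) with x | x
        · rw [hbi] at this; exact absurd this (n1 _)
        · rfl
    · intro i
      simp only [Function.comp, Equiv.symm_apply_apply]
      rcases b i with x | x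
      · exact iff_of_false (n1 _) (n2 _)
      · exact iff_of_true ⟨x.1, rfl⟩ ⟨x.2, rfl⟩

end cut

/-- a column system on `Fin L` with consecutive columns of prescribed heights -/
theorem exists_consecutive {N L : ℕ} (h : Fin N → ℕ) (hL : ∑ c, h c = L) :
    ∃ (col : Fin L → Fin N) (lab : Fin L → ℕ), Shape (ofCols h) col lab ∧ (∀ i, lab i < h (col i)) ∧
      ∀ i j k : Fin L, i ≤ k → k ≤ j → col i = col j → col k = col i := by
  subst hL
  set e := finSigmaFinEquiv (n := h) with he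
  refine ⟨fun i => (e.symm i).1, fun i => (e.symm i).2, (shape_sigma h).comp_equiv e.symm,
    fun i => (e.symm i).2.2, ?_⟩
  set S : ℕ → ℕ := fun c => ∑ x ∈ range c, if hx : x < N then h ⟨x, hx⟩ else 0 with hS
  have hval : ∀ i : Fin (∑ c, h c), (i : ℕ) = S (e.symm i).1 + (e.symm i).2 := by
    intro i
    obtain ⟨x, rfl⟩ := e.surjective i
    rw [Equiv.symm_apply_apply, he, finSigmaFinEquiv_apply]
    congr 1
    simp only [hS]
    rw [Finset.sum_range]
    refine Finset.sum_congr rfl fun y _ => ?_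
    rw [dif_pos (y.2.trans x.1.2)]; rfl
  have hmono : ∀ c c' : Fin N, c < c' → S c + h c ≤ S c' := by
    intro c c' hlt
    have : S (c + 1) = S c + h c := by
      simp only [hS]; rw [Finset.sum_range_succ, dif_pos c.2]
    rw [← this]
    exact Finset.sum_le_sum_of_subset (Finset.range_mono hlt)
  have mono : ∀ i j, i ≤ j → (e.symm i).1 ≤ (e.symm j).1 := by
    intro i j hij
    by_contra hc
    have h1 := hmono _ _ (not_le.1 hc)
    have h2 := hval i
    have h3 := hval j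
    have h4 := (e.symm j).2.2
    rw [Fin.le_def] at hij
    omega
  intro i j k h1 h2 h3
  exact le_antisymm ((mono _ _ h2).trans h3.symm.le) (mono _ _ h1)

/-- the table vector of the alternating path with `L` cells -/
def pathW (L : ℕ) : Wd (Fin L) (Fin 2 × Fin 2) :=
  inn (pt (pathC₁ L) (pathR L)) (pt (pathC₂ L) (pathR L))

/-- **Path lemma**: the odd path sees every shape with at most four rows. -/
theorem sees_path (k : ℕ) (ν : YoungDiagram) (hc : ν.card = 2 * k + 1) (h4 : ν.colLen 0 ≤ 4) :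
    Sees (pathW (2 * k + 1)) ν := by
  obtain ⟨col, lab, hsh, hlt, hconv⟩ := exists_consecutive (L := 2 * k + 1)
    (fun c : Fin (ν.rowLen 0) => ν.colLen c) (by
      rw [← hc, card_eq_sum_colLen ν le_rfl, Finset.sum_range])
  rw [ofCols_colLen ν le_rfl] at hsh
  have hlt4 : ∀ i, lab i < 4 := fun i =>
    lt_of_lt_of_le (hlt i) ((ν.colLen_anti _ _ (Nat.zero_le _)).trans h4)
  have hsh' : Shape ν col (fun i => (⟨lab i, hlt4 i⟩ : Fin 4)) :=
    hsh.congr (fun _ _ => Iff.rfl) (fun _ _ => by simp)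
  obtain ⟨y, hy⟩ := path_lemma k col (fun i => (⟨lab i, hlt4 i⟩ : Fin 4)) hsh'.inj hconv
  refine hsh'.sees (t := fun a u => (y a u : ℂ)) ?_
  rw [← lm_pt]
  have hy' := (Int.cast_ne_zero (α := ℂ)).2 hy
  push_cast at hy'
  rw [Finset.sum_comm] at hy'
  convert hy' using 1
  unfold ip
  refine Finset.sum_congr rfl fun a _ => ?_
  rw [lm_apply, Finset.mul_sum]
  refine Finset.sum_congr rfl fun u _ => ?_
  simp only [pathW, inn, pt_eq_EZ]
  ring

end Crest.Agent.R195
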