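import Mathlib

/-!
# Row 195 (Saxl, tensor squares): foundation, all definitions

A vector is a function on words, `Wd ι A = (ι → A) → ℂ` (= `(ℂ^A)^{⊗ ι}`); `Perm ι` acts by `act`.
`E col lab t` is the image of the (skew) polytabloid with columns `col` and row labels `lab` under the
letter map `t`; `pt col lab` is the polytabloid itself.  `Sees w ν`: the cyclic module of `w` contains the
irreducible of shape `ν`.  `Sub w x`: every shape seen by `x` is seen by `w`.  `Kron l m ν`: the Kronecker
coefficient `g(l,m,ν)` is positive.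
-/

set_option autoImplicit false
open Finset

noncomputable section
namespace Crest.Agent.R195

abbrev Wd (ι A : Type) : Type := (ι → A) → ℂ

section plain
variable {ι ι' ι₀ ι₁ A B A₀ A₁ C L : Type}

/-- renaming of positions: `(act g w) u = w (u ∘ g)` -/
def act (g : Equiv.Perm ι) : Wd ι A →ₗ[ℂ] Wd ι A := LinearMap.funLeft ℂ ℂ fun u => u ∘ g

@[simp] theorem act_apply (g : Equiv.Perm ι) (w : Wd ι A) (u : ι → A) : act g w u = w (u ∘ g) := rfl

/-- the permutation representation on words -/
def rep (ι A : Type) : Representation ℂ (Equiv.Perm ι) (Wd ι A) where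
  toFun := act
  map_one' := rfl
  map_mul' _ _ := rfl

/-- equivariant linear map -/
def Eqv (Φ : Wd ι A →ₗ[ℂ] Wd ι B) : Prop := ∀ g w, Φ (act g w) = act g (Φ w)

/-- invariant subspace -/
def Inv (U : Submodule ℂ (Wd ι A)) : Prop := ∀ g, ∀ w ∈ U, act g w ∈ U

/-- `x` is obtained from `w` by equivariant maps, the group action and sums -/
def Gen (w : Wd ι A) (x : Wd ι B) : Prop :=
  x ∈ Submodule.span ℂ {y | ∃ Φ : Wd ι A →ₗ[ℂ] Wd ι B, Eqv Φ ∧ ∃ g, y = act g (Φ w)}

/-- cyclic module -/
def cyc (w : Wd ι A) : Submodule ℂ (Wd ι A) := Submodule.span ℂ (Set.range fun g => act g w)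

/-- pull back along a map of letters -/
def pb (j : B → A) : Wd ι A →ₗ[ℂ] Wd ι B := LinearMap.funLeft ℂ ℂ fun b => j ∘ b

@[simp] theorem pb_apply (j : B → A) (w : Wd ι A) (b : ι → B) : pb j w b = w (j ∘ b) := rfl

/-- transport along a bijection of positions -/
def rx (e : ι ≃ ι') (w : Wd ι A) : Wd ι' A := fun u => w (u ∘ e)

/-- inner (Kronecker) tensor product -/
def inn (w : Wd ι A) (w' : Wd ι B) : Wd ι (A × B) :=
  fun u => w (fun i => (u i).1) * w' (fun i => (u i).2)

/-- outer product with the same alphabet -/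
def mulS (w₀ : Wd ι₀ A) (w₁ : Wd ι₁ A) : Wd (ι₀ ⊕ ι₁) A :=
  fun u => w₀ (u ∘ Sum.inl) * w₁ (u ∘ Sum.inr)

open Classical in
/-- outer product with disjoint alphabets (generates the induced module) -/
def ox (w₀ : Wd ι₀ A₀) (w₁ : Wd ι₁ A₁) : Wd (ι₀ ⊕ ι₁) (A₀ ⊕ A₁) :=
  fun u => if h : ∃ a : (ι₀ → A₀) × (ι₁ → A₁), u = Sum.map a.1 a.2 then w₀ h.choose.1 * w₁ h.choose.2
    else 0

open Classical in
/-- a single word -/
def dl (u₀ : ι → A) : Wd ι A := fun u => if u = u₀ then 1 else 0

/-- `T` is a bijective filling of the diagram `ν` by `ι`: `T i = (row, column)` -/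
def IsTab (ν : YoungDiagram) (T : ι → ℕ × ℕ) : Prop :=
  Function.Injective T ∧ ∀ c, c ∈ ν ↔ ∃ i, T i = c

/-- the set partitions given by `col` and `lab` are the columns and rows of a tableau of shape `ν` -/
def Shape (ν : YoungDiagram) (col : ι → C) (lab : ι → L) : Prop :=
  ∃ T : ι → ℕ × ℕ, IsTab ν T ∧ (∀ i j, col i = col j ↔ (T i).2 = (T j).2) ∧
    ∀ i j, lab i = lab j ↔ (T i).1 = (T j).1

/-- the diagram with column heights `h` (in any order, zeros allowed) -/
def ofCols [Fintype C] (h : C → ℕ) : YoungDiagram where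
  cells := (range (∑ c, h c) ×ˢ range (Fintype.card C)).filter
    fun p => p.2 < (univ.filter fun c => p.1 < h c).card
  isLowerSet := by
    rintro ⟨a, b⟩ ⟨a', b'⟩ ⟨h1, h2⟩ h3
    simp only [coe_filter, mem_product, mem_range, Set.mem_ofPred_eq] at h1 h2 h3 ⊢
    refine ⟨⟨by omega, by omega⟩, lt_of_le_of_lt h2 (h3.2.trans_le (card_le_card fun c hc => ?_))⟩
    simp only [mem_filter, mem_univ, true_and] at hc ⊢
    omega

end plain

section fin
variable {ι ι' A B C D L : Type} [Fintype ι] [DecidableEq ι] [Fintype ι'] [DecidableEq ι']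

open Classical in
/-- number of positions carrying the letter `a` -/
def cnt (u : ι → A) (a : A) : ℕ := (univ.filter fun i => u i = a).card

open Classical in
/-- product over the columns of the determinants `det (m i (lab j))`, `i, j` in the column -/
def cdet {R : Type} [CommRing R] (col : ι → C) (lab : ι → L) (m : ι → L → R) : R :=
  (Matrix.of fun i j => if col i = col j then m i (lab j) else 0).det

/-- `⊗_{columns c} ∧_{j ∈ c} t(·, lab j)` -/
def E (col : ι → C) (lab : ι → L) (t : A → L → ℂ) : Wd ι A :=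
  fun a => cdet col lab fun i => t (a i)

open Classical in
/-- the (skew) polytabloid -/
def pt (col : ι → C) (lab : ι → L) : Wd ι L := E col lab fun a b => if a = b then 1 else 0

/-- the sign vector (one column) -/
def sv (ι : Type) [Fintype ι] [DecidableEq ι] : Wd ι ι := pt (fun _ => ()) id

open Classical in
/-- the column group -/
def cg (col : ι → C) : Finset (Equiv.Perm ι) := univ.filter fun σ => ∀ i, col (σ i) = col i

/-- the sign as a complex number -/
def sg (σ : Equiv.Perm ι) : ℂ := ((Equiv.Perm.sign σ : ℤˣ) : ℤ)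

/-- column antisymmetriser -/
def alt (col : ι → C) : Wd ι A →ₗ[ℂ] Wd ι A := ∑ σ ∈ cg col, sg σ • act σ

open Classical in
/-- `sl₂` operator: change one letter `x` into `y` -/
def mv (x y : A) : Wd ι A →ₗ[ℂ] Wd ι A where
  toFun w u := ∑ i ∈ univ.filter fun i => u i = y, w (Function.update u i x)
  map_add' w w' := by ext u; simp [sum_add_distrib]
  map_smul' c w := by ext u; simp [mul_sum]

variable [Fintype A] [Fintype B]

/-- the standard bilinear form -/
def ip (w z : Wd ι A) : ℂ := ∑ u, w u * z u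

/-- the letter map `t^{⊗ ι}` -/
def lm (t : A → B → ℂ) : Wd ι A →ₗ[ℂ] Wd ι B where
  toFun w b := ∑ a, w a * ∏ i, t (a i) (b i)
  map_add' w w' := by ext u; simp [add_mul, sum_add_distrib]
  map_smul' c w := by ext u; simp [mul_sum, mul_assoc]

/-- the cyclic modules of `w` and of the skew polytabloid `pt col lab` have a common constituent -/
def Pairs (w : Wd ι A) (col : ι → C) (lab : ι → L) : Prop :=
  ∃ (g : Equiv.Perm ι) (t : A → L → ℂ), ip (act g w) (E col lab t) ≠ 0

/-- the cyclic module of `w` contains the irreducible of shape `ν` -/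
def Sees (w : Wd ι A) (ν : YoungDiagram) : Prop :=
  ∃ T : ι → ℕ × ℕ, IsTab ν T ∧
    ∃ t : A → ℕ → ℂ, ip w (E (fun i => (T i).2) (fun i => (T i).1) t) ≠ 0

/-- `supp x ⊆ supp w` -/
def Sub (w : Wd ι A) (x : Wd ι' B) : Prop := ∀ ν, Sees x ν → Sees w ν

/-- all shapes occur -/
def Full (w : Wd ι A) : Prop := ∀ ν : YoungDiagram, ν.card = Fintype.card ι → Sees w ν

/-- `ν` occurs in the tensor product of the cyclic modules -/
def Kr (w : Wd ι A) (w' : Wd ι B) (ν : YoungDiagram) : Prop := ∃ g, Sees (inn w (act g w')) ν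

end fin

/-- positivity of the Kronecker coefficient -/
def Kron (l m ν : YoungDiagram) : Prop :=
  ∃ (ι A B C D : Type) (_ : Fintype ι) (_ : DecidableEq ι) (_ : Fintype A) (_ : Fintype B)
    (c₁ : ι → C) (l₁ : ι → A) (c₂ : ι → D) (l₂ : ι → B),
    Shape l c₁ l₁ ∧ Shape m c₂ l₂ ∧ Sees (inn (pt c₁ l₁) (pt c₂ l₂)) ν

end Crest.Agent.R195
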