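import Crest.Agent.R195.Cut
import Crest.Agent.R195.Twist

/-!
# R195 / EZ : convenient forms of Kostka and evaluation
(`pt_eq_EZ`, `cg_eq_blockGrp` live in `Cut.lean`)
-/

set_option autoImplicit false
open Finset

noncomputable section
namespace Crest.Agent.R195

variable {ι A B C D D' L : Type} [Fintype ι] [DecidableEq ι]

theorem sum_rowLen_ofCols [Fintype C] (h : C → ℕ) (k : ℕ) :
    ∑ r ∈ range k, (ofCols h).rowLen r = ∑ c, min (h c) k := by
  simp only [rowLen_ofCols, card_filter]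
  rw [sum_comm]
  refine sum_congr rfl fun c _ => ?_
  rw [← card_filter, ← card_range (min (h c) k)]
  congr 1
  ext r
  simp only [mem_filter, mem_range, lt_min_iff]
  tauto

/-- Kostka positivity in Gale–Ryser form -/
theorem sees_dl_cols [Fintype A] [Fintype C] {u : ι → A} (h : C → ℕ)
    (hc : ∑ c, h c = Fintype.card ι)
    (hd : ∀ S : Finset A, ∑ a ∈ S, cnt u a ≤ ∑ c, min (h c) S.card) : Sees (dl u) (ofCols h) :=
  sees_dl (by rw [card_ofCols, hc]) fun S => by rw [sum_rowLen_ofCols]; exact hd S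

/-- straight labels in `Fin N` -/
theorem shape_ofCols_fin [Fintype C] {N : ℕ} {col : ι → C} {lab : ι → Fin N}
    (hinj : ∀ i j, col i = col j → lab i = lab j → i = j)
    (hdown : ∀ i (r : ℕ), r < lab i → ∃ j, col j = col i ∧ (lab j : ℕ) = r) :
    Shape (ofCols (cnt col)) col lab :=
  (shape_ofCols (lab := fun i => (lab i : ℕ)) (fun i j h h' => hinj i j h (Fin.ext h')) hdown).congr
    (fun _ _ => Iff.rfl) fun _ _ => Fin.ext_iff.symm

/-- one nonzero evaluation of the trilinear form -/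
theorem Kron.of_eval [Fintype A] [Fintype B] [Fintype L] {l m ν : YoungDiagram} {c₁ : ι → C}
    {l₁ : ι → A} {c₂ : ι → D} {l₂ : ι → B} {c₃ : ι → D'} {l₃ : ι → L} (h₁ : Shape l c₁ l₁)
    (h₂ : Shape m c₂ l₂) (h₃ : Shape ν c₃ l₃) (t : A × B × L → ℂ)
    (h : ∑ u : ι → A × B × L, pt c₁ l₁ (fun i => (u i).1) * pt c₂ l₂ (fun i => (u i).2.1) *
      pt c₃ l₃ (fun i => (u i).2.2) * ∏ i, t (u i) ≠ 0) : Kron l m ν := by
  refine Kron.intro h₁ h₂ (h₃.sees (t := fun x c => t (x.1, x.2, c)) ?_)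
  rw [← lm_pt, ip]
  simp only [lm_apply, mul_sum]
  rw [← Finset.sum_product', univ_product_univ]
  convert h using 1
  let e : ((ι → A × B) × (ι → L)) ≃ (ι → A × B × L) :=
    (Equiv.arrowProdEquivProdArrow ι (fun _ => A × B) (fun _ => L)).symm.trans
      (Equiv.piCongrRight fun _ => Equiv.prodAssoc A B L)
  refine Fintype.sum_equiv e _ _ fun x => ?_
  simp only [inn, mul_assoc]
  rfl

end Crest.Agent.R195
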