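import Crest.Agent.R195.Polar

/-!
# R195 / James : the submodule theorem and its consequences
-/

set_option autoImplicit false
open Finset

noncomputable section
namespace Crest.Agent.R195

variable {ι ι' A B C C' L : Type} [Fintype ι] [DecidableEq ι] [Fintype ι'] [DecidableEq ι']
  [Fintype A] [Fintype B] [Fintype L] {ν μ : YoungDiagram}

/-- if two positions of a column carry the same letter, `alt` kills the word (swap them). -/
theorem alt_dl_eq_zero {col : ι → C} {u : ι → A} {i j : ι} (hij : i ≠ j) (hc : col i = col j)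
    (hu : u i = u j) : alt col (dl u) = 0 := by
  have hσ : Equiv.swap i j ∈ cg col := mem_cg.2 fun k => by
    rw [Equiv.swap_apply_def]
    split_ifs with h1 h2
    · rw [h1, hc]
    · rw [h2, hc]
    · rfl
  have h1 : u ∘ (Equiv.swap i j).symm = u := by
    funext k
    rw [Equiv.symm_swap, Function.comp_apply, Equiv.swap_apply_def]
    split_ifs with h1 h2
    · rw [h1, hu]
    · rw [h2, hu]
    · rfl
  have h2 := alt_act hσ (dl u)
  rw [act_dl, h1, sg_swap hij, neg_smul, one_smul] at h2
  have h3 : (2 : ℂ) • alt col (dl u) = 0 := by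
    rw [two_smul]
    nth_rewrite 1 [h2]
    exact neg_add_cancel _
  exact (smul_eq_zero.1 h3).resolve_left two_ne_zero

/-- a finite set of cells with the row and column counts of a diagram is the diagram -/
theorem jamesa_cells (S : Finset (ℕ × ℕ))
    (hc : ∀ c, (S.filter fun p => p.2 = c).card = (ν.cells.filter fun p => p.2 = c).card)
    (hr : ∀ r, (S.filter fun p => p.1 = r).card = (ν.cells.filter fun p => p.1 = r).card) :
    ∀ r c, (r, c) ∈ S ↔ (r, c) ∈ ν := by
  intro r
  induction r using Nat.strong_induction_on with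
  | _ r ih =>
    have hsub : (S.filter fun p => p.1 = r) ⊆ ν.cells.filter fun p => p.1 = r := by
      rintro ⟨r', c⟩ hp
      rw [mem_filter] at hp ⊢
      obtain ⟨hp, rfl⟩ := hp
      refine ⟨?_, rfl⟩
      by_contra hn
      have hs : insert (r', c) (ν.cells.filter fun p => p.2 = c) ⊆ S.filter fun p => p.2 = c := by
        rintro ⟨a, b⟩ hq
        rw [mem_insert, mem_filter] at hq
        rw [mem_filter]
        rcases hq with hq | ⟨hq, hb⟩
        · rw [hq]; exact ⟨hp, rfl⟩
        · refine ⟨?_, hb⟩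
          simp only at hb
          subst hb
          have hlt : a < r' := by
            by_contra hle
            exact hn (ν.up_left_mem (not_lt.1 hle) le_rfl hq)
          exact (ih a hlt b).2 hq
      have h1 := card_le_card hs
      rw [card_insert_of_notMem (fun hq => hn (mem_filter.1 hq).1), hc] at h1
      omega
    have heq := eq_of_subset_of_card_le hsub (hr r).ge
    intro c
    have h2 : (r, c) ∈ (S.filter fun p => p.1 = r) ↔ (r, c) ∈ ν.cells.filter fun p => p.1 = r := by
      rw [heq]
    simpa using h2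

/-- KEY.  Let `T` be the tableau, `ρ i = (T i).1`.  If `u` has the content of `lab` and is injective on
columns, then `u = lab ∘ σ` with `σ ∈ cg col`.  Proof: transport the row number to letters
(`r (lab i) = ρ i`); in a column of height `h` the distinct values `r (u i)` have sum `≥ 0+1+⋯+(h-1)` =
the sum of the `ρ i`, with equality iff they are exactly `0..h-1`; the total sums agree (same content),
so equality holds in each column.  (Alternative: `IsTab.dom_of_inj`-style counting:
`#{i | r (u i) < k} = ∑_{r<k} rowLen r = ∑_c min k (height c)` forces each column to contain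
`min k height` letters of row `< k`.) -/
theorem Shape.exists_cg {col : ι → C} {lab : ι → L} (h : Shape ν col lab) {u : ι → L}
    (hc : ∀ l, cnt u l = cnt lab l) (hu : ∀ i j, col i = col j → u i = u j → i = j) :
    ∃ σ ∈ cg col, u = lab ∘ σ := by
  classical
  obtain ⟨T, ⟨hTi, hT⟩, hcol, hlab⟩ := h
  obtain ⟨g, rfl⟩ := exists_perm_of_cnt (u := lab) (u' := u) fun a => (hc a).symm
  let φ : ι → ℕ × ℕ := fun i => ((T (g i)).1, (T i).2)
  have hφ : Function.Injective φ := fun i j hij => by
    simp only [φ, Prod.mk.injEq] at hij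
    exact hu i j ((hcol i j).2 hij.2) ((hlab _ _).2 hij.1)
  have hν : ν.cells = univ.image T := by
    ext c
    rw [YoungDiagram.mem_cells, hT]
    simp
  have key := jamesa_cells (ν := ν) (univ.image φ)
    (fun c => by
      rw [hν, filter_image, filter_image, card_image_of_injective _ hφ,
        card_image_of_injective _ hTi])
    (fun r => by
      rw [hν, filter_image, filter_image, card_image_of_injective _ hφ,
        card_image_of_injective _ hTi]
      exact card_bij' (fun i _ => g i) (fun i _ => g.symm i) (fun i hi => by simpa [φ] using hi)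
        (fun i hi => by simpa [φ] using hi) (fun i _ => by simp) (fun i _ => by simp))
  have hex : ∀ i, ∃ j, T j = φ i := fun i =>
    (hT _).1 ((key _ _).1 (mem_image_of_mem φ (mem_univ i)))
  choose s hs using hex
  have hsi : Function.Injective s := fun i j hij => hφ (by rw [← hs, ← hs, hij])
  refine ⟨Equiv.ofBijective s (Finite.injective_iff_bijective.1 hsi), mem_cg.2 fun i => ?_, ?_⟩
  · exact (hcol _ _).2 (by rw [Equiv.ofBijective_apply, hs])
  · funext i
    exact (hlab _ _).2 (by rw [Equiv.ofBijective_apply, hs])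

/-- JAMES.  Expand `y = ∑ y u • dl u`. -/
theorem Shape.alt_eq {col : ι → C} {lab : ι → L} (h : Shape ν col lab) {y : Wd ι L}
    (hy : ∀ u, y u ≠ 0 → ∀ l, cnt u l = cnt lab l) :
    alt col y = ip y (pt col lab) • pt col lab := by
  have key : ∀ u : ι → L, (∀ l, cnt u l = cnt lab l) →
      alt col (dl u) = pt col lab u • pt col lab := by
    intro u hu
    by_cases hi : ∀ i j, col i = col j → u i = u j → i = j
    · obtain ⟨σ, hσ, rfl⟩ := h.exists_cg hu hi
      have h1 : dl (lab ∘ σ) = act σ⁻¹ (dl lab) := by rw [act_dl]; rfl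
      rw [h1, alt_act (inv_mem_cg hσ), sg_inv, pt_perm h.inj hσ, ← pt_eq_alt]
    · have h0 : pt col lab u = 0 := by
        by_contra h0
        obtain ⟨σ, hσ, rfl⟩ := pt_ne_zero h0
        refine hi fun i j hc hl => σ.injective (h.inj _ _ ?_ hl)
        rw [mem_cg.1 hσ, mem_cg.1 hσ, hc]
      push Not at hi
      obtain ⟨i, j, hc, hl, hij⟩ := hi
      rw [alt_dl_eq_zero hij hc hl, h0, zero_smul]
  conv_lhs => rw [eq_sum_dl y]
  rw [map_sum, ip, sum_smul]
  refine sum_congr rfl fun u _ => ?_
  by_cases h0 : y u = 0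
  · simp [h0]
  · rw [map_smul, key u (hy u h0), smul_smul]

open Classical in
/-- restriction to the words with the content of `lab` -/
def jamesa_res (lab : ι → L) : Wd ι L →ₗ[ℂ] Wd ι L where
  toFun x u := if ∀ l, cnt u l = cnt lab l then x u else 0
  map_add' x y := by ext u; by_cases hu : ∀ l, cnt u l = cnt lab l <;> simp [hu]
  map_smul' c x := by ext u; by_cases hu : ∀ l, cnt u l = cnt lab l <;> simp [hu]

open Classical in
theorem jamesa_res_apply (lab : ι → L) (x : Wd ι L) (u : ι → L) :
    jamesa_res lab x u = if ∀ l, cnt u l = cnt lab l then x u else 0 := rfl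

theorem jamesa_res_eqv (lab : ι → L) : Eqv (jamesa_res lab) := fun g w => by
  ext u
  simp only [jamesa_res_apply, act_apply, cnt_comp]

/-- `Pairs` gives `ip (lm t (act g w)) (pt col lab) ≠ 0`; compose with the (equivariant) restriction to
words with the content of `lab`, apply `alt`. -/
theorem Sees.gen {w : Wd ι A} (hw : Sees w ν) {col : ι → C} {lab : ι → L} (h : Shape ν col lab) :
    Gen w (pt col lab) := by
  obtain ⟨g, t, ht⟩ := (sees_iff_pairs h w).1 hw
  rw [← lm_pt, ← ip_lm] at ht
  set x := lm t (act g w) with hx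
  have h1 : ip (jamesa_res lab x) (pt col lab) = ip x (pt col lab) := by
    refine sum_congr rfl fun u _ => ?_
    by_cases h0 : pt col lab u = 0
    · rw [h0, mul_zero, mul_zero]
    · obtain ⟨σ, -, rfl⟩ := pt_ne_zero h0
      rw [jamesa_res_apply, if_pos fun l => cnt_comp lab σ l]
  have h2 := h.alt_eq (y := jamesa_res lab x) fun u hu => by
    by_contra hn
    exact hu (by rw [jamesa_res_apply, if_neg hn])
  rw [h1] at h2
  have h3 : Gen w (alt col (jamesa_res lab x)) :=
    ((((Gen.refl w).act g).map (eqv_lm t)).map (jamesa_res_eqv lab)).trans (gen_alt col _)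
  have h4 := h3.smul (ip x (pt col lab))⁻¹
  rwa [h2, smul_smul, inv_mul_cancel₀ ht, one_smul] at h4

theorem Sees.gen_E {w : Wd ι A} (hw : Sees w ν) {col : ι → C} {lab : ι → ℕ} (h : Shape ν col lab)
    (t : B → ℕ → ℂ) : Gen w (E col lab t) := by
  let lab' : ι → (univ.image lab : Finset ℕ) := fun i => ⟨lab i, mem_image_of_mem _ (mem_univ i)⟩
  have h' : Shape ν col lab' := h.congr (fun _ _ => Iff.rfl) fun i j => by simp [lab']
  have h1 : E col lab t = E col lab' fun b l => t b l.1 := rfl
  rw [h1, ← lm_pt]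
  exact (hw.gen h').map (eqv_lm _)

theorem jamesb_dom {col : ι → C} {lab : ι → L} (h : Shape ν col lab) (hμ : Sees (pt col lab) μ)
    (k : ℕ) : ∑ r ∈ range k, ν.rowLen r ≤ ∑ r ∈ range k, μ.rowLen r := by
  classical
  obtain ⟨T, hT, -, hl⟩ := h
  rw [pt_eq_alt] at hμ
  have h1 := (sub_alt col (dl lab) μ hμ).dom_of_dl ((univ.filter fun i => (T i).1 < k).image lab)
  have h2 : ((univ.filter fun i => (T i).1 < k).image lab).card ≤ k := by
    refine (card_le_card_of_injOn (t := range k)
      (fun a => if h : ∃ i, lab i = a then (T h.choose).1 else 0) ?_ ?_).trans (card_range k).le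
    · intro a ha
      obtain ⟨i, hi, rfl⟩ := mem_image.1 ha
      have e : ∃ j, lab j = lab i := ⟨i, rfl⟩
      simp only [dif_pos e, coe_range, Set.mem_Iio, (hl _ _).1 e.choose_spec]
      exact (mem_filter.1 hi).2
    · intro a ha b hb hab
      obtain ⟨i, -, rfl⟩ := mem_image.1 ha
      obtain ⟨j, -, rfl⟩ := mem_image.1 hb
      have e : ∃ j, lab j = lab i := ⟨i, rfl⟩
      have e' : ∃ i, lab i = lab j := ⟨j, rfl⟩
      simp only [dif_pos e, dif_pos e', (hl _ _).1 e.choose_spec, (hl _ _).1 e'.choose_spec] at hab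
      exact (hl _ _).2 hab
  have h3 : ∑ r ∈ range k, ν.rowLen r = (univ.filter fun i => (T i).1 < k).card := by
    rw [card_eq_sum_card_fiberwise (f := fun i => (T i).1) (t := range k)
      fun i hi => mem_range.2 (mem_filter.1 hi).2]
    refine sum_congr rfl fun r hr => ?_
    rw [← hT.cnt_row r, cnt]
    congr 1
    ext i
    simp only [mem_filter, mem_univ, true_and]
    exact ⟨fun e => ⟨e ▸ mem_range.1 hr, e⟩, fun e => e.2⟩
  have h4 : (univ.filter fun i => (T i).1 < k).card ≤
      ∑ a ∈ (univ.filter fun i => (T i).1 < k).image lab, cnt lab a := by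
    rw [card_eq_sum_card_image lab]
    refine sum_le_sum fun a _ => card_le_card fun i hi => ?_
    simp only [mem_filter, mem_univ, true_and] at hi ⊢
    exact hi.2
  exact h3.le.trans (h4.trans (h1.trans (sum_le_sum_of_subset (range_subset_range.2 h2))))

theorem jamesb_ip_E (w : Wd ι A) (col : ι → C) (lab : ι → L) (t : A → L → ℂ) :
    ip w (E col lab t) = ip (lm t w) (pt col lab) := by
  rw [ip_lm, lm_pt]

theorem jamesb_symm {col : ι → C} {lab : ι → L} {col' : ι → C'} {lab' : ι → A}
    (h : Pairs (pt col lab) col' lab') : Pairs (pt col' lab') col lab := by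
  obtain ⟨g, t, ht⟩ := h
  refine ⟨g⁻¹, fun a l => t l a, ?_⟩
  rwa [jamesb_ip_E, eqv_lm, lm_pt, ← ip_act g, act_act_inv, ip_comm]

/-- `Sees (pt ..) κ → Sees (dl lab) κ` gives `ν ⊴ κ`; the pairing is symmetric (transpose), so `κ ⊴ ν`. -/
theorem Shape.sees_pt_iff {col : ι → C} {lab : ι → L} (h : Shape ν col lab) :
    Sees (pt col lab) μ ↔ μ = ν := by
  refine ⟨fun hμ => ?_, fun e => e ▸ h.sees_pt⟩
  obtain ⟨col', lab', hT⟩ := exists_shape_fin hμ.card (le_refl (μ.colLen 0))
  have h' : Shape μ col' lab' := hT.shape.congr (fun _ _ => Iff.rfl) fun _ _ => Fin.val_inj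
  have hν : Sees (pt col' lab') ν :=
    (sees_iff_pairs h _).2 (jamesb_symm ((sees_iff_pairs h' _).1 hμ))
  have e : ∀ k, ∑ r ∈ range k, μ.rowLen r = ∑ r ∈ range k, ν.rowLen r := fun k =>
    le_antisymm (jamesb_dom h' hν k) (jamesb_dom h hμ k)
  refine ext_rowLen fun r => ?_
  have e1 := e (r + 1)
  rw [sum_range_succ, sum_range_succ, e r] at e1
  omega

theorem Sees.sub_pt {w : Wd ι' A} (hw : Sees w ν) {col : ι → C} {lab : ι → L}
    (h : Shape ν col lab) : Sub w (pt col lab) := fun _ hμ => h.sees_pt_iff.1 hμ ▸ hw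

theorem cyc_pt_conj (col : ι → C) (lab : ι → L) :
    ∀ u ∈ cyc (pt col lab), (fun a => (starRingEnd ℂ) (u a)) ∈ cyc (pt col lab) := by
  intro u hu
  induction hu using Submodule.span_induction with
  | mem x hx =>
    obtain ⟨g, rfl⟩ := hx
    exact Submodule.subset_span ⟨g, funext fun a => (conj_pt col lab _).symm⟩
  | zero =>
    convert Submodule.zero_mem (cyc (pt col lab)) using 1
    ext a
    simp
  | add x y _ _ hx hy =>
    convert Submodule.add_mem _ hx hy using 1
    ext a
    simp
  | smul c x _ hx =>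
    convert Submodule.smul_mem _ ((starRingEnd ℂ) c) hx using 1
    ext a
    simp

/-- nondegeneracy on the Specht module -/
theorem exists_ip_act_pt {col : ι → C} {lab : ι → L} {y : Wd ι L} (hy : y ∈ cyc (pt col lab))
    (h0 : y ≠ 0) : ∃ g, ip (act g y) (pt col lab) ≠ 0 := by
  by_contra hn
  simp only [not_exists, not_not] at hn
  have key : ∀ z ∈ cyc (pt col lab), ip z y = 0 := by
    intro z hz
    induction hz using Submodule.span_induction with
    | mem x hx =>
      obtain ⟨g, rfl⟩ := hx
      rw [ip_act_left, ip_comm, hn]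
    | zero => exact ip_zero_left _
    | add x z _ _ hx hz => rw [ip_add_left, hx, hz, add_zero]
    | smul c x _ hx => rw [ip_smul_left, hx, mul_zero]
  exact ip_conj_ne_zero h0 ((ip_comm _ _).trans (key _ (cyc_pt_conj col lab y hy)))

theorem jamesb_cnt {col : ι → C} {lab : ι → L} {y : Wd ι L} (hy : y ∈ cyc (pt col lab)) :
    ∀ u, y u ≠ 0 → ∀ l, cnt u l = cnt lab l := by
  induction hy using Submodule.span_induction with
  | mem x hx =>
    obtain ⟨g, rfl⟩ := hx
    intro u hu l
    obtain ⟨σ, -, e⟩ := pt_ne_zero (u := u ∘ g) hu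
    rw [← cnt_comp u g, e, cnt_comp]
  | zero => exact fun u hu => absurd rfl hu
  | add x z _ _ hx hz =>
    intro u hu
    by_cases h : x u = 0
    · exact hz u fun e => hu (by rw [Pi.add_apply, h, e, add_zero])
    · exact hx u h
  | smul c x _ hx => exact fun u hu => hx u fun e => hu (by rw [Pi.smul_apply, e, smul_zero])

/-- irreducibility -/
theorem Shape.irred {col : ι → C} {lab : ι → L} (h : Shape ν col lab) {U : Submodule ℂ (Wd ι L)}
    (hU : Inv U) (hle : U ≤ cyc (pt col lab)) : U = ⊥ ∨ U = cyc (pt col lab) := by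
  refine or_iff_not_imp_left.2 fun h0 => le_antisymm hle (cyc_le hU ?_)
  obtain ⟨y, hy, hy0⟩ := Submodule.exists_mem_ne_zero_of_ne_bot h0
  obtain ⟨g, hg⟩ := exists_ip_act_pt (hle hy) hy0
  have h1 : alt col (act g y) ∈ U := by
    rw [alt, LinearMap.sum_apply]
    exact U.sum_mem fun σ _ => U.smul_mem _ (hU _ _ (hU _ _ hy))
  rw [h.alt_eq (jamesb_cnt (hle (hU g y hy)))] at h1
  exact (U.smul_mem_iff hg).1 h1

/-- an equivariant map into the Specht module that does not kill `w` -/
theorem Shape.sees_of_mem {col : ι → C} {lab : ι → L} (h : Shape ν col lab)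
    {Φ : Wd ι A →ₗ[ℂ] Wd ι L} (hΦ : Eqv Φ) {w : Wd ι A} (hw : Φ w ∈ cyc (pt col lab))
    (h0 : Φ w ≠ 0) : Sees w ν := by
  obtain ⟨g, hg⟩ := exists_ip_act_pt hw h0
  exact (sees_iff_pairs h w).2 (Pairs.of_eqv hΦ ⟨g, _, hg⟩)

theorem Sees.exists_map {w : Wd ι A} (hw : Sees w ν) {col : ι → C} {lab : ι → L}
    (h : Shape ν col lab) : ∃ Φ : Wd ι A →ₗ[ℂ] Wd ι L, Eqv Φ ∧ (∀ x, Φ x ∈ cyc (pt col lab)) ∧
      Φ w ≠ 0 := by
  obtain ⟨g, t, ht⟩ := (sees_iff_pairs h w).1 hw
  obtain ⟨P, hP, h1, -, h2⟩ := exists_proj (inv_cyc (pt col lab)) (cyc_pt_conj col lab)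
  refine ⟨P ∘ₗ lm t, hP.comp (eqv_lm t), fun x => h1 _, fun h0 => ht ?_⟩
  rw [jamesb_ip_E, ← h2 _ _ (mem_cyc _), ← LinearMap.comp_apply, hP.comp (eqv_lm t), h0, map_zero,
    ip_zero_left]

end Crest.Agent.R195
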