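import Crest.Agent.R195.Class

/-!
# R195 / Outer : induction products, the cut rule, column split and containment
-/

set_option autoImplicit false
open Finset

noncomputable section
namespace Crest.Agent.R195

variable {ι ι₀ ι₁ κ₀ κ₁ A A₀ A₁ B₀ B₁ C L : Type} [Fintype ι] [DecidableEq ι]
  [Fintype ι₀] [DecidableEq ι₀] [Fintype ι₁] [DecidableEq ι₁] [Fintype κ₀] [DecidableEq κ₀]
  [Fintype κ₁] [DecidableEq κ₁] [Fintype A] [Fintype A₀] [Fintype A₁] [Fintype B₀] [Fintype B₁]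
  {ν : YoungDiagram}

section outera
variable {ι₀ ι₁ κ₀ κ₁ A₀ A₁ : Type}

theorem outera_ext {x y : Wd (ι₀ ⊕ ι₁) (A₀ ⊕ A₁)}
    (h1 : ∀ a₀ a₁, x (Sum.map a₀ a₁) = y (Sum.map a₀ a₁))
    (h2 : ∀ u, (∀ a₀ a₁, u ≠ Sum.map a₀ a₁) → x u = y u) : x = y := by
  funext u
  by_cases h : ∃ a₀ a₁, u = Sum.map a₀ a₁
  · obtain ⟨a₀, a₁, rfl⟩ := h
    exact h1 a₀ a₁
  · exact h2 u fun a₀ a₁ hu => h ⟨a₀, a₁, hu⟩

/-- `ox` as a bilinear map -/
def outera_oxL : Wd ι₀ A₀ →ₗ[ℂ] Wd ι₁ A₁ →ₗ[ℂ] Wd (ι₀ ⊕ ι₁) (A₀ ⊕ A₁) :=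
  LinearMap.mk₂ ℂ ox
    (fun w w' z => outera_ext (fun a₀ a₁ => by simp [ox_map, add_mul])
      fun u hu => by simp [ox_eq_zero _ _ hu])
    (fun c w z => outera_ext (fun a₀ a₁ => by simp [ox_map, mul_assoc])
      fun u hu => by simp [ox_eq_zero _ _ hu])
    (fun w z z' => outera_ext (fun a₀ a₁ => by simp [ox_map, mul_add])
      fun u hu => by simp [ox_eq_zero _ _ hu])
    (fun c w z => outera_ext (fun a₀ a₁ => by simp [ox_map, mul_left_comm])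
      fun u hu => by simp [ox_eq_zero _ _ hu])

theorem outera_oxL_apply (w₀ : Wd ι₀ A₀) (w₁ : Wd ι₁ A₁) : outera_oxL w₀ w₁ = ox w₀ w₁ := rfl

theorem outera_rx_ox (e₀ : κ₀ ≃ ι₀) (e₁ : κ₁ ≃ ι₁) (x₀ : Wd κ₀ A₀) (x₁ : Wd κ₁ A₁) :
    rx (Equiv.sumCongr e₀ e₁) (ox x₀ x₁) = ox (rx e₀ x₀) (rx e₁ x₁) := by
  refine outera_ext (fun a₀ a₁ => ?_) fun u hu => ?_
  · have : Sum.map a₀ a₁ ∘ Equiv.sumCongr e₀ e₁ = Sum.map (a₀ ∘ e₀) (a₁ ∘ e₁) := by
      funext i; cases i <;> rfl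
    rw [ox_map, rx, this, ox_map]; rfl
  · rw [ox_eq_zero _ _ hu, rx]
    refine ox_eq_zero _ _ fun b₀ b₁ hb => hu (b₀ ∘ e₀.symm) (b₁ ∘ e₁.symm) ?_
    funext i
    rcases i with i | i
    · have := congrFun hb (.inl (e₀.symm i))
      simpa using this
    · have := congrFun hb (.inr (e₁.symm i))
      simpa using this

end outera

/-- FROBENIUS.  `Ψ z = ∑ a₀ a₁, z (Sum.map a₀ a₁) • ox (Φ₀ (dl a₀)) (Φ₁ (dl a₁))`,
`Φ = ∑ g, act g⁻¹ ∘ Ψ ∘ act g` is equivariant; on `ox w₀ w₁` the terms with `g` not of the form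
`sumCongr g₀ g₁` vanish (`Equiv.Perm.mem_sumCongrHom_range_of_perm_mapsTo_inl`), the others all give
`ox (Φ₀ w₀) (Φ₁ w₁)`; their number is positive. -/
theorem gen_ox_map {Φ₀ : Wd ι₀ A₀ →ₗ[ℂ] Wd ι₀ B₀} {Φ₁ : Wd ι₁ A₁ →ₗ[ℂ] Wd ι₁ B₁} (h₀ : Eqv Φ₀)
    (h₁ : Eqv Φ₁) (w₀ : Wd ι₀ A₀) (w₁ : Wd ι₁ A₁) : Gen (ox w₀ w₁) (ox (Φ₀ w₀) (Φ₁ w₁)) := by
  classical
  let Ψ : Wd (ι₀ ⊕ ι₁) (A₀ ⊕ A₁) →ₗ[ℂ] Wd (ι₀ ⊕ ι₁) (B₀ ⊕ B₁) :=
    ∑ a₀ : ι₀ → A₀, ∑ a₁ : ι₁ → A₁,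
      (LinearMap.proj (R := ℂ) (φ := fun _ : (ι₀ ⊕ ι₁ → A₀ ⊕ A₁) => ℂ) (Sum.map a₀ a₁)).smulRight
        (ox (Φ₀ (dl a₀)) (Φ₁ (dl a₁)))
  have hΨ : ∀ z, Ψ z = ∑ a₀ : ι₀ → A₀, ∑ a₁ : ι₁ → A₁,
      z (Sum.map a₀ a₁) • ox (Φ₀ (dl a₀)) (Φ₁ (dl a₁)) := by
    intro z
    simp only [Ψ, LinearMap.sum_apply, LinearMap.smulRight_apply, LinearMap.proj_apply]
  have hΨox : ∀ (v₀ : Wd ι₀ A₀) (v₁ : Wd ι₁ A₁), Ψ (ox v₀ v₁) = ox (Φ₀ v₀) (Φ₁ v₁) := by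
    intro v₀ v₁
    rw [hΨ]
    conv_rhs => rw [eq_sum_dl v₀, eq_sum_dl v₁, ← outera_oxL_apply]
    simp only [map_sum, map_smul, LinearMap.sum_apply, LinearMap.smul_apply, outera_oxL_apply,
      ox_map, smul_smul]
    rw [Finset.sum_comm]
    refine Finset.sum_congr rfl fun a₁ _ => ?_
    rw [Finset.smul_sum]
    refine Finset.sum_congr rfl fun a₀ _ => ?_
    rw [smul_smul, mul_comm]
  let Φ : Wd (ι₀ ⊕ ι₁) (A₀ ⊕ A₁) →ₗ[ℂ] Wd (ι₀ ⊕ ι₁) (B₀ ⊕ B₁) :=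
    ∑ g : Equiv.Perm (ι₀ ⊕ ι₁), act g⁻¹ ∘ₗ Ψ ∘ₗ act g
  have hΦ : ∀ z, Φ z = ∑ g : Equiv.Perm (ι₀ ⊕ ι₁), act g⁻¹ (Ψ (act g z)) := by
    intro z
    simp only [Φ, LinearMap.sum_apply, LinearMap.comp_apply]
  have hE : Eqv Φ := by
    intro h z
    rw [hΦ, hΦ, map_sum]
    refine Fintype.sum_equiv (Equiv.mulRight h) _ _ fun g => ?_
    simp only [Equiv.coe_mulRight]
    rw [← act_mul, ← act_mul h, mul_inv_rev, mul_inv_cancel_left]
  have hterm : ∀ g : Equiv.Perm (ι₀ ⊕ ι₁), act g⁻¹ (Ψ (act g (ox w₀ w₁))) =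
      if (∃ g₀ g₁, g = Equiv.sumCongr g₀ g₁) then ox (Φ₀ w₀) (Φ₁ w₁) else 0 := by
    intro g
    split_ifs with hg
    · obtain ⟨g₀, g₁, rfl⟩ := hg
      rw [act_ox, hΨox, h₀, h₁, ← act_ox, act_inv_act]
    · have : Ψ (act g (ox w₀ w₁)) = 0 := by
        rw [hΨ]
        refine Finset.sum_eq_zero fun a₀ _ => Finset.sum_eq_zero fun a₁ _ => ?_
        rw [act_apply, ox_eq_zero, zero_smul]
        intro b₀ b₁ hb
        apply hg
        have hm : Set.MapsTo g (Set.range Sum.inl) (Set.range Sum.inl) := by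
          rintro _ ⟨i, rfl⟩
          have := congrFun hb (.inl i)
          simp only [Function.comp_apply, Sum.map_inl] at this
          rcases hgi : g (.inl i) with j | j
          · exact ⟨j, rfl⟩
          · rw [hgi] at this
            simp at this
        obtain ⟨⟨g₀, g₁⟩, hg'⟩ := Equiv.Perm.mem_sumCongrHom_range_of_perm_mapsTo_inl hm
        exact ⟨g₀, g₁, hg'.symm⟩
      rw [this, map_zero]
  have hsum : Φ (ox w₀ w₁) = ((univ.filter fun g : Equiv.Perm (ι₀ ⊕ ι₁) =>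
      ∃ g₀ g₁, g = Equiv.sumCongr g₀ g₁).card : ℂ) • ox (Φ₀ w₀) (Φ₁ w₁) := by
    rw [hΦ, Finset.sum_congr rfl fun g _ => hterm g, ← Finset.sum_filter, Finset.sum_const,
      Nat.cast_smul_eq_nsmul]
  have hpos : ((univ.filter fun g : Equiv.Perm (ι₀ ⊕ ι₁) =>
      ∃ g₀ g₁, g = Equiv.sumCongr g₀ g₁).card : ℂ) ≠ 0 := by
    rw [Nat.cast_ne_zero, Finset.card_ne_zero]
    exact ⟨Equiv.sumCongr 1 1, by simp only [mem_filter, mem_univ, true_and]; exact ⟨1, 1, rfl⟩⟩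
  have := (Gen.of_eqv hE (ox w₀ w₁)).smul ((univ.filter fun g : Equiv.Perm (ι₀ ⊕ ι₁) =>
      ∃ g₀ g₁, g = Equiv.sumCongr g₀ g₁).card : ℂ)⁻¹
  rwa [hsum, smul_smul, inv_mul_cancel₀ hpos, one_smul] at this

/-- bilinearity of `ox`, `act_ox`. -/
theorem Gen.ox {w₀ : Wd ι₀ A₀} {w₁ : Wd ι₁ A₁} {x₀ : Wd ι₀ B₀} {x₁ : Wd ι₁ B₁} (h₀ : Gen w₀ x₀)
    (h₁ : Gen w₁ x₁) : Gen (ox w₀ w₁) (ox x₀ x₁) := by
  unfold Gen at h₀ h₁
  induction h₀ using Submodule.span_induction with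
  | zero =>
    rw [← outera_oxL_apply 0 x₁, map_zero, LinearMap.zero_apply]
    exact Submodule.zero_mem _
  | add x y _ _ hx hy =>
    rw [← outera_oxL_apply (x + y) x₁, map_add, LinearMap.add_apply]
    exact hx.add hy
  | smul c x _ hx =>
    rw [← outera_oxL_apply (c • x) x₁, map_smul, LinearMap.smul_apply]
    exact hx.smul c
  | mem x hx =>
    obtain ⟨Φ₀, hΦ₀, g₀, rfl⟩ := hx
    induction h₁ using Submodule.span_induction with
    | zero =>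
      rw [← outera_oxL_apply _ 0, map_zero]
      exact Submodule.zero_mem _
    | add x y _ _ hx hy =>
      rw [← outera_oxL_apply _ (x + y), map_add]
      exact hx.add hy
    | smul c x _ hx =>
      rw [← outera_oxL_apply _ (c • x), map_smul]
      exact hx.smul c
    | mem y hy =>
      obtain ⟨Φ₁, hΦ₁, g₁, rfl⟩ := hy
      rw [← act_ox]
      exact (gen_ox_map hΦ₀ hΦ₁ w₀ w₁).act _

/-- If `ox x₀ x₁` sees something then `x₀, x₁ ≠ 0`, so (`exists_sees`) the cardinalities agree; transport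
with `rx` (`rx (sumCongr e₀ e₁) (ox ..) = ox (rx ..) (rx ..)`). -/
theorem Sub.ox {w₀ : Wd ι₀ A₀} {w₁ : Wd ι₁ A₁} {x₀ : Wd κ₀ B₀} {x₁ : Wd κ₁ B₁} (h₀ : Sub w₀ x₀)
    (h₁ : Sub w₁ x₁) : Sub (ox w₀ w₁) (ox x₀ x₁) := by
  intro ν hν
  have hx₀ : x₀ ≠ 0 := by
    rintro rfl
    apply hν.ne_zero
    rw [← outera_oxL_apply, map_zero, LinearMap.zero_apply]
  have hx₁ : x₁ ≠ 0 := by
    rintro rfl
    apply hν.ne_zero
    rw [← outera_oxL_apply, map_zero]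
  obtain ⟨μ₀, hμ₀⟩ := exists_sees hx₀
  obtain ⟨μ₁, hμ₁⟩ := exists_sees hx₁
  let e₀ : κ₀ ≃ ι₀ := Fintype.equivOfCardEq (hμ₀.card.symm.trans (h₀ _ hμ₀).card)
  let e₁ : κ₁ ≃ ι₁ := Fintype.equivOfCardEq (hμ₁.card.symm.trans (h₁ _ hμ₁).card)
  have g₀ : Gen w₀ (rx e₀ x₀) := Sub.gen fun μ hμ => h₀ μ ((sees_rx e₀ x₀).1 hμ)
  have g₁ : Gen w₁ (rx e₁ x₁) := Sub.gen fun μ hμ => h₁ μ ((sees_rx e₁ x₁).1 hμ)
  refine (g₀.ox g₁).sub ν ?_
  rw [← outera_rx_ox]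
  exact (sees_rx _ _).2 hν

theorem sub_ox_comm (w₀ : Wd ι₀ A₀) (w₁ : Wd ι₁ A₁) : Sub (ox w₀ w₁) (ox w₁ w₀) := by
  have h : ox w₁ w₀ = rx (Equiv.sumComm ι₀ ι₁) (pb Sum.swap (ox w₀ w₁)) := by
    refine outera_ext (fun a₁ a₀ => ?_) fun u hu => ?_
    · have : Sum.swap ∘ Sum.map a₁ a₀ ∘ Equiv.sumComm ι₀ ι₁ = Sum.map a₀ a₁ := by
        funext i; cases i <;> rfl
      rw [ox_map, rx, pb_apply, this, ox_map, mul_comm]
    · rw [ox_eq_zero _ _ hu, rx, pb_apply]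
      refine (ox_eq_zero _ _ fun b₀ b₁ hb => hu b₁ b₀ ?_).symm
      funext i
      have := congrArg Sum.swap (congrFun hb i.swap)
      rcases i with i | i <;> simpa using this
  intro ν hν
  rw [h, sees_rx] at hν
  exact sub_pb _ _ ν hν

/-- merging the alphabets (`lm` of the folding map, or push forward) -/
theorem sub_ox_mulS (w₀ : Wd ι₀ A) (w₁ : Wd ι₁ A) : Sub (ox w₀ w₁) (mulS w₀ w₁) := by
  classical
  have h : mulS w₀ w₁ =
      lm (fun (x : A ⊕ A) (a : A) => if Sum.elim id id x = a then (1 : ℂ) else 0) (ox w₀ w₁) := by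
    funext b
    rw [lm_apply]
    have := ip_ox w₀ w₁ fun u => ∏ i, if Sum.elim id id (u i) = b i then (1 : ℂ) else 0
    rw [ip] at this
    rw [this, Finset.sum_eq_single (b ∘ Sum.inl), Finset.sum_eq_single (b ∘ Sum.inr)]
    · rw [Finset.prod_eq_one, mul_one, mulS]
      rintro (i | i) _ <;> simp
    · intro a₁ _ ha
      obtain ⟨i, hi⟩ := Function.ne_iff.1 ha
      rw [Finset.prod_eq_zero (Finset.mem_univ (Sum.inr i)), mul_zero]
      simpa using hi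
    · simp
    · intro a₀ _ ha
      obtain ⟨i, hi⟩ := Function.ne_iff.1 ha
      refine Finset.sum_eq_zero fun a₁ _ => ?_
      rw [Finset.prod_eq_zero (Finset.mem_univ (Sum.inl i)), mul_zero]
      simpa using hi
    · simp
  rw [h]
  exact (eqv_lm _).sub' _

/-- CUT RULE: keep only the letters `j₀ a₀`, `j₁ a₁`; if every surviving word has its `A₀`-letters exactly
on `e (inl _)` and factorises there, then `w` sees everything the induced product sees. -/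
theorem sub_cut (w : Wd ι A) (e : ι₀ ⊕ ι₁ ≃ ι) (j₀ : A₀ → A) (j₁ : A₁ → A) (w₀ : Wd ι₀ A₀)
    (w₁ : Wd ι₁ A₁) {c : ℂ} (hc : c ≠ 0)
    (h1 : ∀ a₀ a₁, w (Sum.elim (j₀ ∘ a₀) (j₁ ∘ a₁) ∘ e.symm) = c * (w₀ a₀ * w₁ a₁))
    (h2 : ∀ b : ι₀ ⊕ ι₁ → A₀ ⊕ A₁, w (Sum.elim j₀ j₁ ∘ b ∘ e.symm) ≠ 0 →
      (∀ i, (b (.inl i)).isLeft) ∧ ∀ i, (b (.inr i)).isRight) : Sub w (ox w₀ w₁) := by
  have h : pb (Sum.elim j₀ j₁) (rx e.symm w) = c • ox w₀ w₁ := by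
    refine outera_ext (fun a₀ a₁ => ?_) fun u hu => ?_
    · have : Sum.elim j₀ j₁ ∘ Sum.map a₀ a₁ = Sum.elim (j₀ ∘ a₀) (j₁ ∘ a₁) := by
        funext i; cases i <;> rfl
      rw [pb_apply, rx, this, h1, Pi.smul_apply, ox_map, smul_eq_mul]
    · rw [pb_apply, rx, Pi.smul_apply, ox_eq_zero _ _ hu, smul_zero]
      by_contra hne
      obtain ⟨hl, hr⟩ := h2 u hne
      refine hu (fun i => (u (.inl i)).getLeft (hl i)) (fun i => (u (.inr i)).getRight (hr i)) ?_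
      funext i
      rcases i with i | i <;> simp
  intro ν hν
  rw [← sees_smul hc, ← h] at hν
  exact (sees_rx e.symm w).1 (sub_pb _ _ ν hν)

omit [Fintype ι] [DecidableEq ι] in
theorem outerb_fin {col : ι → C} {lab : ι → L} (h : Shape ν col lab) :
    Shape ν col (Set.rangeFactorization lab) :=
  h.congr (fun _ _ => Iff.rfl) fun _ _ => by simp [Subtype.ext_iff]

/-- LITTLEWOOD–RICHARDSON, basic form.  Replace `w₀` by `pt` over a finite alphabet (`Sees.sub_pt`,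
`Sub.ox`), `w₁` by `act g w₁`; take `t' = Sum.elim (δ) t`.  For `pt a₀ ≠ 0` the upper right block
vanishes (`pt_ne_zero`, `Shape.inj`), so `ip = (∑ pt a₀ ^ 2) * ip w₁ (E ..)`. -/
theorem sees_ox {μ : YoungDiagram} {col : ι₀ ⊕ ι₁ → C} {lab : ι₀ ⊕ ι₁ → L} (h : Shape ν col lab)
    (hμ : Shape μ (col ∘ .inl) (lab ∘ .inl)) {w₀ : Wd ι₀ A₀} {w₁ : Wd ι₁ A₁} (h₀ : Sees w₀ μ)
    (h₁ : Pairs w₁ (col ∘ .inr) (lab ∘ .inr)) : Sees (ox w₀ w₁) ν := by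
  classical
  have : Fintype (Set.range (lab ∘ Sum.inl)) := Fintype.ofFinite _
  have hμ' := outerb_fin hμ
  obtain ⟨g, t, ht⟩ := h₁
  refine ((h₀.gen hμ').ox ((Gen.refl w₁).act g)).sub ν (h.sees
    (t := Sum.elim (fun a l => if a.1 = l then 1 else 0) t) ?_)
  set x := pt (col ∘ Sum.inl) (Set.rangeFactorization (lab ∘ Sum.inl)) with hx
  have key : ∀ a₀ a₁, x a₀ * act g w₁ a₁ *
      E col lab (Sum.elim (fun a l => if a.1 = l then 1 else 0) t) (Sum.map a₀ a₁) =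
      x a₀ * x a₀ * (act g w₁ a₁ * E (col ∘ .inr) (lab ∘ .inr) t a₁) := by
    intro a₀ a₁
    by_cases h0 : x a₀ = 0
    · simp [h0]
    obtain ⟨σ, hσ, rfl⟩ := pt_ne_zero h0
    have e : E col lab (Sum.elim (fun a : Set.range (lab ∘ Sum.inl) => fun l =>
        if a.1 = l then 1 else 0) t) (Sum.map (Set.rangeFactorization (lab ∘ Sum.inl) ∘ σ) a₁) =
        x (Set.rangeFactorization (lab ∘ Sum.inl) ∘ σ) * E (col ∘ .inr) (lab ∘ .inr) t a₁ := by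
      refine (cdet_sum₁₂ _ _ _ fun i j hij => if_neg fun e => ?_).trans ?_
      · have := h.inj (.inl (σ i)) (.inr j) ((mem_cg.1 hσ i).trans hij) e
        cases this
      · congr 1
        refine cdet_congr (fun _ _ => Iff.rfl) fun i j _ => ?_
        simp [Subtype.ext_iff]
    rw [e]
    ring
  rw [ip_ox]
  simp only [key, ← Finset.mul_sum, ← Finset.sum_mul]
  refine mul_ne_zero ?_ ht
  have := ip_conj_ne_zero hμ'.sees_pt.ne_zero
  simp only [conj_pt] at this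
  exact this

/-- COLUMN SPLIT.  Work on `(Σ c, Fin (p c)) ⊕ (Σ c, Fin (q c))` with labels `x` and `p c + x`
(`shape_ofCols`, `shape_sigma`, `pairs_pt`), transport by `Sub.ox`. -/
theorem sees_ox_cols [Fintype C] (p q : C → ℕ) {w₀ : Wd ι₀ A₀} {w₁ : Wd ι₁ A₁}
    (h₀ : Sees w₀ (ofCols p)) (h₁ : Sees w₁ (ofCols q)) : Sees (ox w₀ w₁) (ofCols (p + q)) := by
  classical
  let col : (Σ c, Fin (p c)) ⊕ (Σ c, Fin (q c)) → C := Sum.elim (fun x => x.1) fun x => x.1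
  let lab : (Σ c, Fin (p c)) ⊕ (Σ c, Fin (q c)) → ℕ :=
    Sum.elim (fun x => x.2) fun x => p x.1 + x.2
  have hinj : ∀ i j, col i = col j → lab i = lab j → i = j := by
    rintro (⟨c, i⟩ | ⟨c, i⟩) (⟨d, j⟩ | ⟨d, j⟩) (rfl : c = d) hl
    · obtain rfl : i = j := Fin.ext hl
      rfl
    · have : (i : ℕ) = p c + j := hl
      omega
    · have : p c + (i : ℕ) = j := hl
      omega
    · obtain rfl : i = j := Fin.ext (Nat.add_left_cancel hl)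
      rfl
  have hS : Shape (ofCols (cnt col)) col lab := by
    refine shape_ofCols hinj ?_
    rintro (⟨c, i⟩ | ⟨c, i⟩) r hr
    · exact ⟨.inl ⟨c, r, lt_trans hr i.2⟩, rfl, rfl⟩
    · by_cases h : r < p c
      · exact ⟨.inl ⟨c, r, h⟩, rfl, rfl⟩
      · have h1 : r < p c + i := hr
        exact ⟨.inr ⟨c, r - p c, by omega⟩, rfl, show p c + (r - p c) = r by omega⟩
  have hcnt : cnt col = p + q := by
    funext c
    have h : ∀ r : C → ℕ, ∑ d, ∑ _i : Fin (r d), (if d = c then 1 else 0) = r c := fun r => by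
      simp only [Finset.sum_const, Finset.card_univ, Fintype.card_fin, smul_eq_mul, mul_ite,
        mul_one, mul_zero, Finset.sum_ite_eq', Finset.mem_univ, if_true]
    simp only [cnt, col, Finset.card_filter, Fintype.sum_sum_type, Fintype.sum_sigma,
      Sum.elim_inl, Sum.elim_inr, Pi.add_apply]
    congr 1
    · convert h p
    · convert h q
  rw [hcnt] at hS
  have : Fintype (Set.range fun x : Σ c, Fin (p c) => (x.2 : ℕ)) := Fintype.ofFinite _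
  have : Fintype (Set.range fun x : Σ c, Fin (q c) => (x.2 : ℕ)) := Fintype.ofFinite _
  have s₀ := outerb_fin (shape_sigma p)
  have s₁ := outerb_fin (shape_sigma q)
  refine ((h₀.sub_pt s₀).ox (h₁.sub_pt s₁)) _ (sees_ox hS (shape_sigma p) s₀.sees_pt ?_)
  exact pairs_pt (fun i j hc hl => Sum.inr_injective (hinj _ _ hc hl)) s₁.inj

theorem outerb_rowLen {μ : YoungDiagram} (hle : μ ≤ ν) (r : ℕ) : μ.rowLen r ≤ ν.rowLen r :=
  le_of_forall_lt fun _ hc =>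
    YoungDiagram.mem_iff_lt_rowLen.1 (hle (YoungDiagram.mem_iff_lt_rowLen.2 hc))

theorem outerb_colLen {μ : YoungDiagram} (hle : μ ≤ ν) (c : ℕ) : μ.colLen c ≤ ν.colLen c :=
  le_of_forall_lt fun _ hc =>
    YoungDiagram.mem_iff_lt_colLen.1 (hle (YoungDiagram.mem_iff_lt_colLen.2 hc))

/-- column split along `μ ≤ ν` -/
theorem sees_ox_skew {μ : YoungDiagram} (hle : μ ≤ ν) {N : ℕ} (hN : ν.rowLen 0 ≤ N) {w₀ : Wd ι₀ A₀}
    {w₁ : Wd ι₁ A₁} (h₀ : Sees w₀ μ)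
    (h₁ : Sees w₁ (ofCols fun c : Fin N => ν.colLen c - μ.colLen c)) : Sees (ox w₀ w₁) ν := by
  have h := sees_ox_cols (fun c : Fin N => μ.colLen c) _
    (by rwa [ofCols_colLen μ ((outerb_rowLen hle 0).trans hN)]) h₁
  rwa [show ((fun c : Fin N => μ.colLen c) + fun c : Fin N => ν.colLen c - μ.colLen c) =
    fun c : Fin N => ν.colLen c from funext fun c => Nat.add_sub_cancel' (outerb_colLen hle c),
    ofCols_colLen ν hN] at h

theorem outerb_card {μ : YoungDiagram} (hle : μ ≤ ν) {n : ℕ} (hc : ν.card = μ.card + n) :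
    (ofCols fun c : Fin (ν.rowLen 0) => ν.colLen c - μ.colLen c).card = n := by
  rw [card_eq_sum_colLen ν le_rfl, card_eq_sum_colLen μ (outerb_rowLen hle 0)] at hc
  rw [card_ofCols, Fin.sum_univ_eq_sum_range fun c => ν.colLen c - μ.colLen c,
    Finset.sum_tsub_distrib _ fun c _ => outerb_colLen hle c]
  omega

/-- CONTAINMENT -/
theorem sees_ox_full {μ : YoungDiagram} (hle : μ ≤ ν) {w₀ : Wd ι₀ A₀} {w₁ : Wd ι₁ A₁}
    (h₀ : Sees w₀ μ) (h₁ : Full w₁) (hc : ν.card = μ.card + Fintype.card ι₁) :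
    Sees (ox w₀ w₁) ν := by
  exact sees_ox_skew hle le_rfl h₀ (h₁ _ (outerb_card hle hc))

/-- strips with at most `k` cells in each column -/
theorem sees_ox_rows {μ : YoungDiagram} (hle : μ ≤ ν) {k : ℕ} {w₀ : Wd ι₀ A₀} {w₁ : Wd ι₁ A₁}
    (h₀ : Sees w₀ μ)
    (h₁ : ∀ κ : YoungDiagram, κ.card = Fintype.card ι₁ → κ.colLen 0 ≤ k → Sees w₁ κ)
    (hc : ν.card = μ.card + Fintype.card ι₁) (hk : ∀ c, ν.colLen c ≤ μ.colLen c + k) :
    Sees (ox w₀ w₁) ν := by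
  exact sees_ox_skew hle le_rfl h₀ (h₁ _ (outerb_card hle hc)
    (colLen_ofCols_le _ fun c => by have := hk c; omega))

/-- a vector that sees all shapes with at most `k` rows dominates every vector on `k` letters -/
theorem sub_of_rows {k : ℕ} {w : Wd ι A}
    (h : ∀ κ : YoungDiagram, κ.card = Fintype.card ι → κ.colLen 0 ≤ k → Sees w κ) (x : Wd κ₀ B₀)
    (hc : Fintype.card κ₀ = Fintype.card ι) (hk : Fintype.card B₀ ≤ k) : Sub w x :=
  fun κ hκ => h κ (hκ.card.trans hc) (hκ.colLen_le.trans hk)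

end Crest.Agent.R195
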