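import Crest.Agent.R195.Table

/-!
Row 195 (helper2).  The Clifford path lemma: the table vector of an alternating path of odd length
pairs non-trivially with every polytabloid whose columns have height `≤ 4` and are laid
consecutively along the path.
-/

set_option autoImplicit false
set_option linter.unusedSectionVars false

namespace Crest.Agent.R195

open Equiv Finset

section Swap
variable {ι κ A : Type*} [Fintype ι] [DecidableEq ι] [DecidableEq κ] [DecidableEq A]

theorem BlockInj.comp {c : ι → κ} {r : ι → A} (hr : BlockInj c r) {g : Perm ι}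
    (hg : g ∈ blockGrp c) : BlockInj c (r ∘ g) := by
  intro i j hc h
  rw [mem_blockGrp] at hg
  exact g.injective (hr _ _ (by rw [hg, hg, hc]) h)

theorem swap_mem_blockGrp {c : ι → κ} {i j : ι} (h : c i = c j) : swap i j ∈ blockGrp c := by
  rw [mem_blockGrp]; intro k
  rw [swap_apply_def]; split_ifs with h1 h2
  · rw [h1, h]
  · rw [h2, h]
  · rfl

/-- a function that is alternating under transpositions inside blocks is alternating under the
block group -/
theorem sign_of_swap {M : Type*} [AddCommGroup M] {c : ι → κ} (f : (ι → A) → M)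
    (hf : ∀ u, BlockInj c u → ∀ i j, i ≠ j → c i = c j → f (u ∘ swap i j) = - f u)
    {r : ι → A} (hr : BlockInj c r) {g : Perm ι} (hg : g ∈ blockGrp c) :
    f (r ∘ g) = ((Perm.sign g : ℤˣ) : ℤ) • f r := by
  induction' hn : g.support.card using Nat.strong_induction_on with n ih generalizing g
  by_cases h1 : g = 1
  · subst h1; simp
  · obtain ⟨i, hi⟩ : ∃ i, g i ≠ i := by
      by_contra hc; push Not at hc; exact h1 (Equiv.ext hc)
    set j := g⁻¹ i with hj
    have hji : j ≠ i := by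
      intro e; apply hi; rw [← e]; nth_rewrite 2 [e]; simp [hj]
    have hc : c j = c i := by
      have := mem_blockGrp.1 hg j; rw [← this]; simp [hj]
    have hmem : g * swap j i ∈ blockGrp c := mul_mem_blockGrp hg (swap_mem_blockGrp hc)
    have hlt : (g * swap j i).support.card < n := by
      rw [← hn]
      apply Finset.card_lt_card
      refine ⟨?_, ?_⟩
      · intro k hk
        rw [Perm.mem_support] at *
        intro hgk
        apply hk
        have hki : k ≠ i := by rintro rfl; exact hi hgk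
        have hkj : k ≠ j := by
          rintro rfl; apply hji; rw [← hgk]; simp [hj]
        simp [swap_apply_of_ne_of_ne hkj hki, hgk]
      · intro hsub
        have := hsub (Perm.mem_support.2 hi)
        rw [Perm.mem_support] at this
        apply this; simp [hj]
    have e1 := ih _ hlt hmem rfl
    have e2 := hf (r ∘ ⇑(g * swap j i)) (hr.comp hmem) j i hji hc
    have e3 : (r ∘ ⇑(g * swap j i)) ∘ swap j i = r ∘ g := by
      funext k; simp
    rw [e3, e1] at e2
    rw [e2, Perm.sign_mul, Perm.sign_swap hji]; simp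

theorem exists_blockGrp_of_image {c : ι → κ} {r u : ι → A} (hu : BlockInj c u)
    (him : ∀ i, ∃ j, c j = c i ∧ r j = u i) : ∃ g ∈ blockGrp c, u = r ∘ g := by
  choose φ hφ using him
  have hinj : Function.Injective φ := by
    intro i j e
    refine hu i j ?_ ?_
    · rw [← (hφ i).1, ← (hφ j).1, e]
    · rw [← (hφ i).2, ← (hφ j).2, e]
  refine ⟨Equiv.ofBijective φ (Finite.injective_iff_bijective.1 hinj), ?_, ?_⟩
  · rw [mem_blockGrp]; intro i; exact (hφ i).1
  · funext i; exact (hφ i).2.symm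

/-- characterisation of wedge vectors -/
theorem eq_EZ {c : ι → κ} {r : ι → A} (hr : BlockInj c r) (f : (ι → A) → ℤ)
    (hf : ∀ u, BlockInj c u → ∀ i j, i ≠ j → c i = c j → f (u ∘ swap i j) = - f u)
    (hs : ∀ u, f u ≠ 0 → ∃ g ∈ blockGrp c, u = r ∘ g) (u : ι → A) :
    f u = f r * EZ c r u := by
  by_cases h : ∃ g ∈ blockGrp c, u = r ∘ g
  · obtain ⟨g, hg, rfl⟩ := h
    rw [sign_of_swap f hf hr hg, EZ_of_mem hr hg, smul_eq_mul, mul_comm]
  · have h1 : f u = 0 := by by_contra hc; exact h (hs u hc)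
    have h2 : EZ c r u = 0 := by by_contra hc; exact h (exists_of_EZ_ne_zero hc)
    rw [h1, h2, mul_zero]

/-- pairing of a wedge vector with an arbitrary function -/
theorem sum_EZ_smul [Fintype A] {M : Type*} [AddCommGroup M] (c : ι → κ) (r : ι → A)
    (F : (ι → A) → M) :
    ∑ u, EZ c r u • F u = ∑ g ∈ blockGrp c, ((Perm.sign g : ℤˣ) : ℤ) • F (r ∘ g) := by
  unfold EZ
  simp only [Finset.sum_smul, ite_smul, zero_smul]
  rw [Finset.sum_comm]
  refine Finset.sum_congr rfl fun g _ => ?_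
  rw [Finset.sum_ite_eq' univ (r ∘ g)]; simp

theorem sum_EZ_smul_of_alt [Fintype A] {M : Type*} [AddCommGroup M] {c : ι → κ} {r : ι → A}
    (hr : BlockInj c r) (F : (ι → A) → M)
    (hF : ∀ u, BlockInj c u → ∀ i j, i ≠ j → c i = c j → F (u ∘ swap i j) = - F u) :
    ∑ u, EZ c r u • F u = ((blockGrp c).card : ℤ) • F r := by
  rw [sum_EZ_smul, Finset.sum_congr rfl (fun g hg => by rw [sign_of_swap F hF hr hg])]
  simp only [smul_smul, sign_mul_self', one_smul, Finset.sum_const]
  simp

theorem card_blockGrp_pos (c : ι → κ) : 0 < (blockGrp c).card :=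
  Finset.card_pos.2 ⟨1, one_mem_blockGrp c⟩

end Swap

section Prod
variable {R : Type*} [Ring R]

/-- ordered product -/
def prodF {L : ℕ} (N : Fin L → R) : R := (List.ofFn N).prod

@[simp] theorem prodF_zero (N : Fin 0 → R) : prodF N = 1 := by simp [prodF]

theorem prodF_succ {L : ℕ} (N : Fin (L + 1) → R) :
    prodF N = N 0 * prodF (fun i : Fin L => N i.succ) := by
  simp [prodF, List.ofFn_succ]

theorem prodF_succ' {L : ℕ} (N : Fin (L + 1) → R) :
    prodF N = prodF (fun i : Fin L => N i.castSucc) * N (Fin.last L) := by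
  simp [prodF, List.ofFn_succ', -List.ofFn_succ]

theorem sum_prodF {X : Type*} [Fintype X] {L : ℕ} (y : Fin L → X → ℤ) (N : Fin L → X → R) :
    ∑ a : Fin L → X, (∏ i, y i (a i)) • prodF (fun i => N i (a i)) =
      prodF (fun i => ∑ x, y i x • N i x) := by
  induction L with
  | zero => simp
  | succ L ih =>
    rw [← (Fin.consEquiv fun _ => X).sum_comp, Fintype.sum_prod_type, prodF_succ, ← ih,
      Finset.sum_mul_sum]
    refine Finset.sum_congr rfl fun x _ => Finset.sum_congr rfl fun a _ => ?_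
    rw [prodF_succ, Fin.prod_univ_succ]
    rw [smul_mul_smul_comm]
    simp only [Fin.consEquiv, Equiv.coe_fn_mk, Fin.cons_zero, Fin.cons_succ]

theorem prodF_local {L : ℕ} (N N' : Fin L → R) (s : ℤ) (j : ℕ) (hj : j + 1 < L)
    (h : ∀ i : Fin L, i.1 ≠ j → i.1 ≠ j + 1 → N' i = N i)
    (hl : N' ⟨j, by omega⟩ * N' ⟨j + 1, hj⟩ = s • (N ⟨j, by omega⟩ * N ⟨j + 1, hj⟩)) :
    prodF N' = s • prodF N := by
  induction j generalizing L with
  | zero =>
    obtain ⟨L, rfl⟩ : ∃ L', L = L' + 2 := ⟨L - 2, by omega⟩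
    rw [prodF_succ, prodF_succ, prodF_succ N, prodF_succ (fun i : Fin (L + 1) => N i.succ),
      ← mul_assoc, ← mul_assoc, ← smul_mul_assoc]
    congr 1
    congr 1; funext i; apply h <;> simp
  | succ j ih =>
    obtain ⟨L, rfl⟩ : ∃ L', L = L' + 1 := ⟨L - 1, by omega⟩
    rw [prodF_succ, prodF_succ N, ← mul_smul_comm, h 0 (by simp) (by simp)]
    congr 1
    refine ih _ _ (by omega) ?_ hl
    intro i h1 h2
    apply h <;> simp <;> omega

theorem prodF_monomial {L : ℕ} (N : Fin L → Matrix (Fin 2) (Fin 2) ℤ) (D : Fin L → Fin 2)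
    (h : ∀ i s t, N i s t ≠ 0 ↔ t = s + D i) (s t : Fin 2) :
    prodF N s t ≠ 0 ↔ t = s + ∑ i, D i := by
  induction L generalizing s with
  | zero =>
    simp only [prodF_zero, Finset.univ_eq_empty, Finset.sum_empty, add_zero]
    fin_cases s <;> fin_cases t <;> simp
  | succ L ih =>
    rw [prodF_succ, Matrix.mul_apply, Finset.sum_eq_single (s + D 0), mul_ne_zero_iff,
      ih _ (fun i => D i.succ) (fun i => h i.succ), Fin.sum_univ_succ, add_assoc]
    · simp [h]
    · intro b _ hb
      have : N 0 s b = 0 := by by_contra hc; exact hb ((h 0 s b).1 hc)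
      simp [this]
    · simp

end Prod

/-- `Y` at even positions, its adjugate at odd positions -/
def altG (i : ℕ) (Y : Matrix (Fin 2) (Fin 2) ℤ) : Matrix (Fin 2) (Fin 2) ℤ :=
  if i % 2 = 0 then Y else !![Y 1 1, -Y 0 1; -Y 1 0, Y 0 0]

/-- matrix unit -/
def unitM (a : Fin 2 × Fin 2) : Matrix (Fin 2) (Fin 2) ℤ :=
  Matrix.of fun s t => if (s, t) = a then 1 else 0

theorem sum_altG_unitM (i : ℕ) (y : Fin 2 × Fin 2 → ℤ) :
    ∑ a, y a • altG i (unitM a) = altG i (Matrix.of fun s t => y (s, t)) := by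
  unfold altG
  split_ifs <;> ext s t <;> fin_cases s <;> fin_cases t <;>
    simp [unitM, Matrix.sum_apply]

/-- row blocks of the path: `{0}, {1,2}, {3,4}, …` -/
def pathC₁ (L : ℕ) (i : Fin L) : ℕ := (i.1 + 1) / 2
/-- column blocks of the path: `{0,1}, {2,3}, …` -/
def pathC₂ (L : ℕ) (i : Fin L) : ℕ := i.1 / 2
/-- reference labels of the path -/
def pathR (L : ℕ) (i : Fin L) : Fin 2 := ⟨i.1 % 2, Nat.mod_lt _ (by norm_num)⟩

/-- the transfer matrix of a word -/
def pathM {L : ℕ} (α β : Fin L → Fin 2) : Matrix (Fin 2) (Fin 2) ℤ :=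
  prodF fun i => altG i.1 (unitM (α i, β i))

theorem pathC₁_inj (L : ℕ) : BlockInj (pathC₁ L) (pathR L) := by
  intro i j h1 h2
  simp only [pathC₁, pathR, Fin.mk.injEq] at h1 h2
  ext; omega

theorem pathC₂_inj (L : ℕ) : BlockInj (pathC₂ L) (pathR L) := by
  intro i j h1 h2
  simp only [pathC₂, pathR, Fin.mk.injEq] at h1 h2
  ext; omega

theorem loc_even (j : ℕ) (hj : j % 2 = 0) (a b c d : Fin 2) :
    altG j (unitM (a, d)) * altG (j + 1) (unitM (c, b)) =
      (-1 : ℤ) • (altG j (unitM (a, b)) * altG (j + 1) (unitM (c, d))) := by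
  have h2 : ¬ (j + 1) % 2 = 0 := by omega
  simp only [altG, if_pos hj, if_neg h2]
  revert a b c d; decide

theorem loc_odd (j : ℕ) (hj : j % 2 = 1) (a b c d : Fin 2) :
    altG j (unitM (c, b)) * altG (j + 1) (unitM (a, d)) =
      (-1 : ℤ) • (altG j (unitM (a, b)) * altG (j + 1) (unitM (c, d))) := by
  have h1 : ¬ j % 2 = 0 := by omega
  have h2 : (j + 1) % 2 = 0 := by omega
  simp only [altG, if_neg h1, if_pos h2]
  revert a b c d; decide

theorem swap_adj {L : ℕ} {X : Type*} (u : Fin L → X) (j : ℕ) (hj : j + 1 < L) (i : Fin L)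
    (h1 : i.1 ≠ j) (h2 : i.1 ≠ j + 1) :
    (u ∘ swap (⟨j, by omega⟩ : Fin L) ⟨j + 1, hj⟩) i = u i := by
  simp only [Function.comp]
  rw [swap_apply_of_ne_of_ne] <;> intro e <;> simp [e] at h1 h2

theorem pathM_swap₂ {L : ℕ} (α β : Fin L → Fin 2) (i j : Fin L) (hij : i ≠ j)
    (h : pathC₂ L i = pathC₂ L j) : pathM α (β ∘ swap i j) = - pathM α β := by
  wlog hlt : i < j generalizing i j
  · rw [swap_comm]; exact this j i hij.symm h.symm (lt_of_le_of_ne (not_lt.1 hlt) hij.symm)
  obtain ⟨i, hi⟩ := i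
  obtain ⟨j, hj⟩ := j
  simp only [pathC₂, Fin.mk_lt_mk] at h hlt
  obtain rfl : j = i + 1 := by omega
  rw [← neg_one_zsmul]
  refine prodF_local _ _ _ i hj ?_ ?_
  · intro k h1 h2; rw [swap_adj β i hj k h1 h2]
  · simp only [Function.comp, swap_apply_left, swap_apply_right]
    exact loc_even i (by omega) _ _ _ _

theorem pathM_swap₁ {L : ℕ} (α β : Fin L → Fin 2) (i j : Fin L) (hij : i ≠ j)
    (h : pathC₁ L i = pathC₁ L j) : pathM (α ∘ swap i j) β = - pathM α β := by
  wlog hlt : i < j generalizing i j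
  · rw [swap_comm]; exact this j i hij.symm h.symm (lt_of_le_of_ne (not_lt.1 hlt) hij.symm)
  obtain ⟨i, hi⟩ := i
  obtain ⟨j, hj⟩ := j
  simp only [pathC₁, Fin.mk_lt_mk] at h hlt
  obtain rfl : j = i + 1 := by omega
  rw [← neg_one_zsmul]
  refine prodF_local _ _ _ i hj ?_ ?_
  · intro k h1 h2; rw [swap_adj α i hj k h1 h2]
  · simp only [Function.comp, swap_apply_left, swap_apply_right]
    exact loc_odd i (by omega) _ _ _ _

theorem eq_zero_of_eq_neg' {M : Matrix (Fin 2) (Fin 2) ℤ} (h : M = -M) : M = 0 := by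
  ext s t
  have := congrFun (congrFun h s) t
  simp only [Matrix.neg_apply] at this
  simp; omega

theorem comp_swap_eq {ι X : Type*} [DecidableEq ι] (u : ι → X) {i j : ι} (h : u i = u j) :
    u ∘ swap i j = u := by
  funext k; simp only [Function.comp]; rw [swap_apply_def]; split_ifs with h1 h2
  · rw [h1, h]
  · rw [h2, h]
  · rfl

theorem pathM_inj₁ {L : ℕ} {α β : Fin L → Fin 2} (h : pathM α β ≠ 0) : BlockInj (pathC₁ L) α := by
  intro i j hc e
  by_contra hij
  have := pathM_swap₁ α β i j hij hc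
  rw [comp_swap_eq α e] at this
  exact h (eq_zero_of_eq_neg' this)

theorem pathM_inj₂ {L : ℕ} {α β : Fin L → Fin 2} (h : pathM α β ≠ 0) : BlockInj (pathC₂ L) β := by
  intro i j hc e
  by_contra hij
  have := pathM_swap₂ α β i j hij hc
  rw [comp_swap_eq β e] at this
  exact h (eq_zero_of_eq_neg' this)

theorem pathM_first {k : ℕ} {α β : Fin (k + 1) → Fin 2} {s t : Fin 2} (h : pathM α β s t ≠ 0) :
    α 0 = s := by
  by_contra hc
  apply h
  unfold pathM
  rw [prodF_succ, Matrix.mul_apply]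
  apply Finset.sum_eq_zero
  intro b _
  have : altG ((0 : Fin (k + 1)) : ℕ) (unitM (α 0, β 0)) s b = 0 := by
    simp [altG, unitM, Ne.symm hc]
  rw [this, zero_mul]

theorem pathM_last {k : ℕ} {α β : Fin (2 * k + 1) → Fin 2} {s t : Fin 2}
    (h : pathM α β s t ≠ 0) : β (Fin.last _) = t := by
  by_contra hc
  apply h
  unfold pathM
  rw [prodF_succ', Matrix.mul_apply]
  apply Finset.sum_eq_zero
  intro b _
  have : altG ((Fin.last (2 * k) : Fin (2 * k + 1)) : ℕ)
      (unitM (α (Fin.last _), β (Fin.last _))) b t = 0 := by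
    simp [altG, unitM, Ne.symm hc]
  rw [this, mul_zero]

theorem pathM_ref (L : ℕ) : pathM (pathR L) (pathR L) 0 0 = 1 := by
  have : ∀ (L : ℕ) (N : Fin L → Matrix (Fin 2) (Fin 2) ℤ), (∀ i, N i = unitM (0, 0)) →
      prodF N 0 0 = 1 := by
    intro L
    induction L with
    | zero => intro N _; simp
    | succ L ih =>
      intro N hN
      rw [prodF_succ, Matrix.mul_apply, Fin.sum_univ_two, ih _ (fun i => hN _), hN]
      simp [unitM]
  apply this
  intro i
  unfold altG pathR
  split_ifs with h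
  · simp [h]
  · have : i.1 % 2 = 1 := by omega
    have e : (⟨i.1 % 2, Nat.mod_lt _ (by norm_num)⟩ : Fin 2) = 1 := Fin.ext this
    rw [e]; decide

theorem two_cases (x y z : Fin 2) (h : x ≠ y) : z = x ∨ z = y := by revert x y z; decide

theorem pathM_eq (k : ℕ) (α β : Fin (2 * k + 1) → Fin 2) :
    pathM α β 0 0 = EZ (pathC₁ _) (pathR _) α * EZ (pathC₂ _) (pathR _) β := by
  have s1 : ∀ α β : Fin (2 * k + 1) → Fin 2, pathM α β 0 0 ≠ 0 →
      ∃ g ∈ blockGrp (pathC₁ (2 * k + 1)), α = pathR _ ∘ g := by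
    intro α β h
    have hne : pathM α β ≠ 0 := fun e => h (by rw [e]; rfl)
    apply exists_blockGrp_of_image (pathM_inj₁ hne)
    intro i
    by_cases hi : i.1 = 0
    · obtain rfl : i = 0 := Fin.ext hi
      exact ⟨0, rfl, by rw [pathM_first h]; rfl⟩
    · have hlt := i.2
      have hx : (α i).1 < 2 := (α i).2
      refine ⟨⟨2 * ((i.1 + 1) / 2) - (α i).1, by omega⟩, ?_, ?_⟩
      · simp only [pathC₁]; omega
      · ext; simp only [pathR]; omega
  have s2 : ∀ α β : Fin (2 * k + 1) → Fin 2, pathM α β 0 0 ≠ 0 →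
      ∃ g ∈ blockGrp (pathC₂ (2 * k + 1)), β = pathR _ ∘ g := by
    intro α β h
    have hne : pathM α β ≠ 0 := fun e => h (by rw [e]; rfl)
    apply exists_blockGrp_of_image (pathM_inj₂ hne)
    intro i
    by_cases hi : i.1 = 2 * k
    · obtain rfl : i = Fin.last _ := Fin.ext hi
      refine ⟨Fin.last _, rfl, ?_⟩
      rw [pathM_last h]; ext; simp [pathR]
    · have hlt := i.2
      have hx : (β i).1 < 2 := (β i).2
      refine ⟨⟨2 * (i.1 / 2) + (β i).1, by omega⟩, ?_, ?_⟩
      · simp only [pathC₂]; omega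
      · ext; simp only [pathR]; omega
  rw [eq_EZ (pathC₁_inj _) (fun α => pathM α β 0 0)
      (fun u _ i j hij hc => by rw [pathM_swap₁ u β i j hij hc]; rfl) (fun u h => s1 u β h) α,
    eq_EZ (pathC₂_inj _) (fun β => pathM (pathR _) β 0 0)
      (fun u _ i j hij hc => by rw [pathM_swap₂ _ u i j hij hc]; rfl) (fun u h => s2 _ u h) β,
    pathM_ref, one_mul, mul_comm]

/-- four orthogonal, non-isotropic generators (`ε = 1`: columns swapped) -/
def cliff (ε : Fin 2) (u : Fin 4) : Matrix (Fin 2) (Fin 2) ℤ :=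
  if ε = 0 then ![!![1, 0; 0, 1], !![1, 0; 0, -1], !![0, 1; 1, 0], !![0, 1; -1, 0]] u
  else ![!![0, 1; 1, 0], !![0, 1; -1, 0], !![1, 0; 0, 1], !![1, 0; 0, -1]] u

def cliffD (u : Fin 4) : Fin 2 := ![0, 0, 1, 1] u

theorem cliff_anti (ε : Fin 2) (j : ℕ) (u v : Fin 4) (h : u ≠ v) :
    altG j (cliff ε v) * altG (j + 1) (cliff ε u) =
      (-1 : ℤ) • (altG j (cliff ε u) * altG (j + 1) (cliff ε v)) := by
  by_cases hj : j % 2 = 0
  · have h2 : ¬ (j + 1) % 2 = 0 := by omega
    simp only [altG, if_pos hj, if_neg h2]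
    revert ε u v; decide
  · have h2 : (j + 1) % 2 = 0 := by omega
    simp only [altG, if_neg hj, if_pos h2]
    revert ε u v; decide

theorem cliff_mono (ε : Fin 2) (j : ℕ) (u : Fin 4) (s t : Fin 2) :
    altG j (cliff ε u) s t ≠ 0 ↔ t = s + (cliffD u + ε) := by
  unfold altG
  split_ifs <;> revert ε u s t <;> decide

/-- the Clifford product along a word (starting at parity `p`) -/
def cliffP (ε : Fin 2) (p : ℕ) {L : ℕ} (u : Fin L → Fin 4) : Matrix (Fin 2) (Fin 2) ℤ :=
  prodF fun i => altG (p + i.1) (cliff ε (u i))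

theorem cliffP_swap (ε : Fin 2) (p : ℕ) {L : ℕ} {κ : Type*} [DecidableEq κ] (cT : Fin L → κ)
    (hconv : ∀ i j k : Fin L, i ≤ k → k ≤ j → cT i = cT j → cT k = cT i)
    (u : Fin L → Fin 4) (hu : BlockInj cT u) (i j : Fin L) (hij : i ≠ j) (hc : cT i = cT j) :
    cliffP ε p (u ∘ swap i j) = - cliffP ε p u := by
  wlog hlt : i < j generalizing i j
  · rw [swap_comm]; exact this j i hij.symm hc.symm (lt_of_le_of_ne (not_lt.1 hlt) hij.symm)
  have adj : ∀ (u : Fin L → Fin 4), BlockInj cT u → ∀ (x : ℕ) (hx : x + 1 < L),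
      cT ⟨x, by omega⟩ = cT ⟨x + 1, hx⟩ →
      cliffP ε p (u ∘ swap ⟨x, by omega⟩ ⟨x + 1, hx⟩) = - cliffP ε p u := by
    intro u hu x hx hc
    rw [← neg_one_zsmul]
    refine prodF_local _ _ _ x hx ?_ ?_
    · intro k h1 h2; rw [swap_adj u x hx k h1 h2]
    · simp only [Function.comp, swap_apply_left, swap_apply_right]
      rw [← add_assoc]
      apply cliff_anti
      intro e
      have := hu _ _ hc e
      simp at this
  obtain ⟨j, hj⟩ := j
  obtain ⟨d, rfl⟩ : ∃ d, j = i.1 + d + 1 := ⟨j - i.1 - 1, by rw [Fin.lt_def] at hlt; simp at hlt; omega⟩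
  clear hlt hij
  induction d generalizing u with
  | zero => exact adj u hu i.1 hj hc
  | succ d ih =>
    have hj' : i.1 + d + 1 < L := by omega
    set a : Fin L := ⟨i.1 + d + 1, hj'⟩ with ha
    set b : Fin L := ⟨i.1 + (d + 1) + 1, hj⟩ with hb
    have hia : cT a = cT i := hconv i b a (by rw [Fin.le_def]; simp [ha]; omega)
      (by rw [Fin.le_def]; simp [ha, hb]) hc
    have hab : cT a = cT b := hia.trans hc
    have hne1 : i ≠ a := by intro e; have := congrArg Fin.val e; simp [ha] at this; omega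
    have hne2 : i ≠ b := by intro e; have := congrArg Fin.val e; simp [hb] at this; omega
    have e : swap i b = swap a b * swap i a * swap a b := by
      rw [swap_mul_swap_mul_swap hne1 hne2, swap_comm]
    have m1 := swap_mem_blockGrp hab
    have m2 := swap_mem_blockGrp hia.symm
    have h1 := adj u hu (i.1 + d + 1) hj hab
    have h2 := ih (u ∘ swap a b) (hu.comp m1) hj' hia.symm adj
    have h3 := adj ((u ∘ swap a b) ∘ swap i a) ((hu.comp m1).comp m2) (i.1 + d + 1) hj hab
    rw [e]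
    have : u ∘ ⇑(swap a b * swap i a * swap a b) = ((u ∘ swap a b) ∘ swap i a) ∘ swap a b := rfl
    rw [this]
    erw [h3, h2, h1]; simp

/-- evaluation of the open path against a polytabloid with consecutive columns -/
theorem sum_EZ_cliffP (ε : Fin 2) (p : ℕ) {L : ℕ} {κ : Type*} [DecidableEq κ] (cT : Fin L → κ)
    (rT : Fin L → Fin 4) (hT : BlockInj cT rT)
    (hconv : ∀ i j k : Fin L, i ≤ k → k ≤ j → cT i = cT j → cT k = cT i) :
    ∑ u, EZ cT rT u • cliffP ε p u = ((blockGrp cT).card : ℤ) • cliffP ε p rT :=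
  sum_EZ_smul_of_alt hT _ fun u hu i j hij hc => cliffP_swap ε p cT hconv u hu i j hij hc

/-- **Path lemma** -/
theorem path_lemma (k : ℕ) {κ : Type*} [DecidableEq κ] (cT : Fin (2 * k + 1) → κ)
    (rT : Fin (2 * k + 1) → Fin 4) (hT : BlockInj cT rT)
    (hconv : ∀ i j l : Fin (2 * k + 1), i ≤ l → l ≤ j → cT i = cT j → cT l = cT i) :
    ∃ y : Fin 2 × Fin 2 → Fin 4 → ℤ,
      ∑ u, ∑ a : Fin (2 * k + 1) → Fin 2 × Fin 2,
        EZ cT rT u * ((EZ (pathC₁ _) (pathR _) (fun i => (a i).1) *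
          EZ (pathC₂ _) (pathR _) (fun i => (a i).2)) * ∏ i, y (a i) (u i)) ≠ 0 := by
  set ε : Fin 2 := ∑ i, cliffD (rT i) with hε
  refine ⟨fun a u => cliff ε u a.1 a.2, ?_⟩
  have key : ∀ u : Fin (2 * k + 1) → Fin 4, ∑ a : Fin (2 * k + 1) → Fin 2 × Fin 2,
      ((EZ (pathC₁ _) (pathR _) (fun i => (a i).1) *
          EZ (pathC₂ _) (pathR _) (fun i => (a i).2)) * ∏ i, cliff ε (u i) (a i).1 (a i).2) =
      cliffP ε 0 u 0 0 := by
    intro u
    have := sum_prodF (fun i (x : Fin 2 × Fin 2) => cliff ε (u i) x.1 x.2)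
      (fun (i : Fin (2 * k + 1)) x => altG i.1 (unitM x))
    simp only [sum_altG_unitM] at this
    have e := congrFun (congrFun this 0) 0
    rw [Matrix.sum_apply] at e
    simp only [cliffP, zero_add]
    refine Eq.trans ?_ e
    refine Finset.sum_congr rfl fun a _ => ?_
    rw [← pathM_eq, Matrix.smul_apply, smul_eq_mul, mul_comm]; rfl
  simp only [← Finset.mul_sum, key]
  have h := congrFun (congrFun (sum_EZ_cliffP ε 0 cT rT hT hconv) 0) 0
  rw [Matrix.sum_apply] at h
  simp only [Matrix.smul_apply, smul_eq_mul] at h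
  rw [h]
  apply mul_ne_zero
  · have := card_blockGrp_pos cT; omega
  · unfold cliffP
    rw [prodF_monomial _ (fun i => cliffD (rT i) + ε) (fun i => cliff_mono ε _ _),
      Finset.sum_add_distrib, ← hε]
    simp only [Finset.sum_const, Finset.card_univ, Fintype.card_fin, zero_add]
    have : ∀ e : Fin 2, (2 * k + 1) • e = e := by
      intro e
      rw [succ_nsmul, mul_comm, mul_nsmul']
      have : ∀ e : Fin 2, 2 • e = 0 := by decide
      rw [this]; simp
    rw [this]
    generalize ε = e; revert e; decide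

end Crest.Agent.R195
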