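import Crest.Agent.R195.Shape

/-!
# R195 / Polar : polarisation, basic calculus of `Pairs`, `Sees`, `Sub`; generic minors; semigroup
-/

set_option autoImplicit false
open Finset

noncomputable section
namespace Crest.Agent.R195

variable {ι ι' ι'' ι₀ ι₁ A B B' C L : Type} [Fintype ι] [DecidableEq ι] [Fintype ι']
  [DecidableEq ι'] [Fintype ι''] [DecidableEq ι''] [Fintype ι₀] [DecidableEq ι₀] [Fintype ι₁]
  [DecidableEq ι₁] [Fintype A] [Fintype B] [Fintype B'] {ν : YoungDiagram}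

theorem polara_core {Y : Type} [Fintype Y] (f K : (ι → Y) → ℂ)
    (hK : ∀ u (g : Equiv.Perm ι), K (u ∘ g) = K u)
    (h : ∀ t : Y → ℂ, ∑ u, f u * ∏ i, t (u i) = 0) : ∑ u, f u * K u = 0 := by
  classical
  let D : (ι → Y) → (Y →₀ ℕ) := fun u => ∑ i, Finsupp.single (u i) 1
  have hD : ∀ u y, D u y = cnt u y := by
    intro u y
    simp only [D, cnt, Finsupp.finsetSum_apply, Finsupp.single_apply, Finset.card_filter]
  let κ : (Y →₀ ℕ) → ℂ := fun d => if h : ∃ u, d = D u then K h.choose else 0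
  have hκ : ∀ u, κ (D u) = K u := by
    intro u
    have h1 : ∃ u', D u = D u' := ⟨u, rfl⟩
    have h2 : κ (D u) = K h1.choose := dif_pos h1
    obtain ⟨g, hg⟩ := exists_perm_of_cnt (u := u) (u' := h1.choose) fun y => by
      rw [← hD, ← hD, ← h1.choose_spec]
    rw [h2, hg, hK]
  let Λ : MvPolynomial Y ℂ →ₗ[ℂ] ℂ := (MvPolynomial.basisMonomials Y ℂ).constr ℂ κ
  have hΛ : ∀ u : ι → Y, Λ (∏ i, MvPolynomial.X (u i)) = K u := by
    intro u
    have h1 : (∏ i, MvPolynomial.X (u i) : MvPolynomial Y ℂ) =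
        MvPolynomial.basisMonomials Y ℂ (D u) := by
      rw [MvPolynomial.coe_basisMonomials]
      simp only [D]
      rw [MvPolynomial.monomial_sum_one]
      rfl
    rw [h1, Module.Basis.constr_basis, hκ]
  have hF : (∑ u : ι → Y, f u • ∏ i, MvPolynomial.X (u i) : MvPolynomial Y ℂ) = 0 := by
    refine MvPolynomial.funext fun t => ?_
    rw [map_zero, map_sum, ← h t]
    refine Finset.sum_congr rfl fun u _ => ?_
    rw [MvPolynomial.smul_eval, map_prod]
    simp
  have h3 := congrArg Λ hF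
  rw [map_zero, map_sum] at h3
  rw [← h3]
  refine Finset.sum_congr rfl fun u _ => ?_
  rw [map_smul, hΛ, smul_eq_mul]

theorem polara_sum_prod (F : (ι → A) → (ι → B) → ℂ) :
    ∑ u : ι → A × B, F (fun i => (u i).1) (fun i => (u i).2) = ∑ a, ∑ b, F a b := by
  rw [← Fintype.sum_prod_type']
  exact Fintype.sum_equiv (Equiv.arrowProdEquivProdArrow ι (fun _ => A) fun _ => B) _ _ fun _ => rfl

/-- POLARISATION.  `K a b = Φ (dl a) b` is invariant.  Let
`F = ∑ a b, C (w a * z b) * ∏ i, X (a i, b i) : MvPolynomial (A × B) ℂ`.  If `eval t F = 0` for all `t`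
then `F = 0` (`MvPolynomial.funext`).  Define the linear functional `Λ` on `MvPolynomial` with
`Λ (monomial d 1) = K a b` for a chosen word `(a,b)` of content `d` (`0` if none); `exists_perm_of_cnt`
gives `Λ (∏ i, X (a i, b i)) = K a b`, so `Λ F = ip (Φ w) z`. -/
theorem Eqv.polar {Φ : Wd ι A →ₗ[ℂ] Wd ι B} (h : Eqv Φ) {w : Wd ι A} {z : Wd ι B}
    (hz : ip (Φ w) z ≠ 0) : ∃ t : A → B → ℂ, ip (lm t w) z ≠ 0 := by
  by_contra hne
  push Not at hne
  apply hz
  have key := polara_core (ι := ι) (Y := A × B)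
    (fun u => w (fun i => (u i).1) * z (fun i => (u i).2))
    (fun u => Φ (dl fun i => (u i).1) fun i => (u i).2) ?_ ?_
  · rw [polara_sum_prod (fun a b => w a * z b * Φ (dl a) b), Finset.sum_comm] at key
    rw [← key]
    conv_lhs => rw [eq_sum_dl w]
    simp only [ip, map_sum, map_smul, Finset.sum_apply, Pi.smul_apply, smul_eq_mul, Finset.sum_mul]
    refine Finset.sum_congr rfl fun b _ => Finset.sum_congr rfl fun a _ => by ring
  · intro u g
    have h1 : (dl fun i => ((u ∘ g) i).1 : Wd ι A) = act g⁻¹ (dl fun i => (u i).1) := by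
      rw [act_dl]; rfl
    rw [h1, h, act_apply]
    refine congrArg (Φ (dl fun i => (u i).1)) (funext fun i => ?_)
    simp
  · intro t
    have h1 := hne fun a b => t (a, b)
    rw [polara_sum_prod (fun a b => w a * z b * ∏ i, t (a i, b i)), Finset.sum_comm, ← h1]
    simp only [ip, lm_apply, Finset.sum_mul]
    refine Finset.sum_congr rfl fun b _ => Finset.sum_congr rfl fun a _ => by ring

/-- `lm s (E col lab t) = E col lab (s t)` (multilinearity: `cdet_eq_sum`, `Finset.prod_univ_sum`). -/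
theorem lm_E (s : A → B → ℂ) (col : ι → C) (lab : ι → L) (t : A → L → ℂ) :
    lm s (E col lab t) = E col lab fun b l => ∑ a, s a b * t a l := by
  classical
  funext b
  simp only [lm_apply, E, cdet_eq_sum, Finset.sum_mul]
  rw [Finset.sum_comm]
  refine Finset.sum_congr rfl fun σ _ => ?_
  rw [Finset.prod_univ_sum, Fintype.piFinset_univ, Finset.mul_sum]
  refine Finset.sum_congr rfl fun a _ => ?_
  rw [Finset.prod_mul_distrib]
  ring

theorem Pairs.of_eqv {Φ : Wd ι A →ₗ[ℂ] Wd ι B} (h : Eqv Φ) {w : Wd ι A} {col : ι → C} {lab : ι → L}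
    (hw : Pairs (Φ w) col lab) : Pairs w col lab := by
  obtain ⟨g, t, ht⟩ := hw
  rw [← h] at ht
  obtain ⟨s, hs⟩ := h.polar ht
  rw [ip_lm, lm_E] at hs
  exact ⟨g, _, hs⟩
theorem Pairs.of_gen {w : Wd ι A} {x : Wd ι B} (h : Gen w x) {col : ι → C} {lab : ι → L}
    (hx : Pairs x col lab) : Pairs w col lab := by
  by_contra hw
  have key : ∀ y : Wd ι B, Gen w y → ∀ g t, ip (act g y) (E col lab t) = 0 := by
    intro y hy
    induction hy using Submodule.span_induction with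
    | mem y hy =>
      obtain ⟨Φ, hΦ, g', rfl⟩ := hy
      intro g t
      by_contra hne
      rw [← act_mul] at hne
      exact hw (Pairs.of_eqv hΦ ⟨_, t, hne⟩)
    | zero => intro g t; rw [map_zero, ip_zero_left]
    | add y y' _ _ h1 h2 => intro g t; rw [map_add, ip_add_left, h1, h2, add_zero]
    | smul c y _ h1 => intro g t; rw [map_smul, ip_smul_left, h1, mul_zero]
  obtain ⟨g, t, ht⟩ := hx
  exact ht (key x h g t)
theorem polara_E_congr {C' L' : Type} {col : ι → C} {lab : ι → L} {col' : ι → C'}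
    {lab' : ι → L'} (hc : ∀ i j, col i = col j ↔ col' i = col' j)
    (hl : ∀ i j, lab' i = lab' j → lab i = lab j) (t : A → L → ℂ) :
    ∃ t' : A → L' → ℂ, E col lab t = E col' lab' t' := by
  classical
  refine ⟨fun a l => if h : ∃ j, lab' j = l then t a (lab h.choose) else 0, ?_⟩
  funext a
  refine cdet_congr hc fun i j _ => ?_
  have h1 : ∃ j', lab' j' = lab' j := ⟨j, rfl⟩
  show _ = dite _ _ _
  rw [dif_pos h1, hl _ _ h1.choose_spec]

/-- only the set partitions matter: if `lab i = lab j ↔ lab' i = lab' j` then `t ∘ lab` factors. -/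
theorem Pairs.congr {C' L' : Type} {w : Wd ι A} {col : ι → C} {lab : ι → L} {col' : ι → C'}
    {lab' : ι → L'} (h : Pairs w col lab) (hc : ∀ i j, col i = col j ↔ col' i = col' j)
    (hl : ∀ i j, lab' i = lab' j → lab i = lab j) : Pairs w col' lab' := by
  obtain ⟨g, t, ht⟩ := h
  obtain ⟨t', ht'⟩ := polara_E_congr hc hl t
  exact ⟨g, t', ht' ▸ ht⟩
theorem sees_iff_pairs {col : ι → C} {lab : ι → L} (h : Shape ν col lab) (w : Wd ι A) :
    Sees w ν ↔ Pairs w col lab := by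
  obtain ⟨T, hT, hc, hl⟩ := h
  constructor
  · rintro ⟨T', hT', t, ht⟩
    obtain ⟨e, rfl⟩ := hT.exists_equiv hT'
    have h1 : Pairs w (fun i => (T i).2) (fun i => (T i).1) := by
      refine ⟨e, t, ?_⟩
      rw [ip_act_left, act_E]
      exact ht
    exact h1.congr (fun i j => (hc i j).symm) fun i j hij => (hl i j).1 hij
  · intro hp
    obtain ⟨g, t, ht⟩ := hp.congr hc fun i j hij => (hl i j).2 hij
    rw [ip_act_left, act_E] at ht
    exact ⟨T ∘ g, hT.comp_equiv g, t, ht⟩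
theorem Shape.sees {col : ι → C} {lab : ι → L} (h : Shape ν col lab) {w : Wd ι A} {t : A → L → ℂ}
    (ht : ip w (E col lab t) ≠ 0) : Sees w ν := (sees_iff_pairs h w).2 ⟨1, t, ht⟩

theorem Sees.card {w : Wd ι A} (h : Sees w ν) : ν.card = Fintype.card ι := by
  obtain ⟨T, hT, -⟩ := h
  exact hT.card
theorem Sees.ne_zero {w : Wd ι A} (h : Sees w ν) : w ≠ 0 := by
  rintro rfl
  obtain ⟨T, -, t, ht⟩ := h
  exact ht (ip_zero_left _)
theorem Gen.sub {w : Wd ι A} {x : Wd ι B} (h : Gen w x) : Sub w x := by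
  intro ν hν
  obtain ⟨T, hT, -⟩ := id hν
  exact (sees_iff_pairs hT.shape w).2 (((sees_iff_pairs hT.shape x).1 hν).of_gen h)
theorem Sub.refl (w : Wd ι A) : Sub w w := fun _ h => h
theorem Sub.trans {w : Wd ι A} {x : Wd ι' B} {y : Wd ι'' B'} (h : Sub w x) (h' : Sub x y) :
    Sub w y := fun ν hν => h ν (h' ν hν)
theorem Eqv.sub' {Φ : Wd ι A →ₗ[ℂ] Wd ι B} (h : Eqv Φ) (w : Wd ι A) : Sub w (Φ w) :=
  (Gen.of_eqv h w).sub
theorem sub_pb (j : B → A) (w : Wd ι A) : Sub w (pb j w) := (eqv_pb j).sub' w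
theorem sub_alt (col : ι → C) (w : Wd ι A) : Sub w (alt col w) := (gen_alt col w).sub
theorem sees_act (g : Equiv.Perm ι) (w : Wd ι A) : Sees (act g w) ν ↔ Sees w ν :=
  ⟨((Gen.refl w).act g).sub ν, fun h => ((Gen.refl (act g w)).act g⁻¹).sub ν (by rwa [act_inv_act])⟩
theorem sees_smul {c : ℂ} (hc : c ≠ 0) (w : Wd ι A) : Sees (c • w) ν ↔ Sees w ν :=
  ⟨((Gen.refl w).smul c).sub ν, fun h => ((Gen.refl (c • w)).smul c⁻¹).sub ν
    (by rwa [smul_smul, inv_mul_cancel₀ hc, one_smul])⟩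
theorem sees_rx (e : ι ≃ ι') (w : Wd ι A) : Sees (rx e w) ν ↔ Sees w ν := by
  constructor
  · rintro ⟨T, hT, t, ht⟩
    refine ⟨T ∘ e, hT.comp_equiv e, t, ?_⟩
    rw [← ip_rx e, rx_E]
    convert ht using 3 <;> funext i <;> simp
  · rintro ⟨T, hT, t, ht⟩
    refine ⟨T ∘ e.symm, hT.comp_equiv e.symm, t, ?_⟩
    rw [← ip_rx e, rx_E] at ht
    exact ht
theorem Sees.of_sum {K : Type*} {s : Finset K} {w : K → Wd ι A} (h : Sees (∑ k ∈ s, w k) ν) :
    ∃ k ∈ s, Sees (w k) ν := by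
  obtain ⟨T, hT, t, ht⟩ := h
  rw [ip_sum_left] at ht
  obtain ⟨k, hk, hk'⟩ := Finset.exists_ne_zero_of_sum_ne_zero ht
  exact ⟨k, hk, T, hT, t, hk'⟩
theorem Full.sub {w : Wd ι A} (h : Full w) (x : Wd ι' B) (hc : Fintype.card ι' = Fintype.card ι) :
    Sub w x := fun ν hν => h ν (hν.card.trans hc)
/-- an equivariant map that is injective on an invariant subspace loses nothing -/
theorem Eqv.sub_of_inj {Φ : Wd ι A →ₗ[ℂ] Wd ι B} (h : Eqv Φ) {U : Submodule ℂ (Wd ι A)}
    (hU : Inv U) (hinj : ∀ u ∈ U, Φ u = 0 → u = 0) {w : Wd ι A} (hw : w ∈ U) : Sub (Φ w) w := by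
  obtain ⟨Ψ, hΨ, h1⟩ := h.exists_leftInv hU hinj
  have := hΨ.sub' (Φ w)
  rwa [h1 w hw] at this

/-- GENERIC MINORS.  The polynomial `cdet col lab (fun i l => X (u i, l)) : MvPolynomial (A × L) ℂ` is
nonzero: e.g. by `cdet_eq_prod` (replace `C` by the finite range of `col`, `cdet_congr`) it is a product
of determinants with pairwise distinct variables, each of which specialises to the identity matrix;
then `MvPolynomial.funext` and `map_cdet`. -/
theorem exists_E_ne_zero {A : Type} {col : ι → C} {lab : ι → L} {u : ι → A}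
    (hu : ∀ i j, col i = col j → u i = u j → i = j)
    (hl : ∀ i j, col i = col j → lab i = lab j → i = j) : ∃ t : A → L → ℂ, E col lab t u ≠ 0 := by
  classical
  by_contra hne
  push Not at hne
  have : Fintype (Set.range col) := Fintype.ofFinite _
  let col' : ι → Set.range col := fun i => ⟨col i, Set.mem_range_self i⟩
  have hc : ∀ i j, col' i = col' j ↔ col i = col j := fun i j => Subtype.ext_iff
  have hP : cdet col' lab (fun i l => (MvPolynomial.X (u i, l) : MvPolynomial (A × L) ℂ)) = 0 := by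
    refine MvPolynomial.funext fun x => ?_
    rw [map_cdet, map_zero, ← hne fun a l => x (a, l)]
    exact cdet_congr hc fun i j _ => by simp
  rw [cdet_eq_prod, Finset.prod_eq_zero_iff] at hP
  obtain ⟨c, -, hc0⟩ := hP
  let x : A × L → ℂ := fun p => if ∃ i, col' i = c ∧ u i = p.1 ∧ lab i = p.2 then 1 else 0
  have h1 := congrArg (MvPolynomial.eval x) hc0
  rw [RingHom.map_det, map_zero] at h1
  have h2 : (MvPolynomial.eval x).mapMatrix (Matrix.of fun i j : {i // col' i = c} =>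
      (MvPolynomial.X (u i, lab j) : MvPolynomial (A × L) ℂ)) = 1 := by
    ext i j
    simp only [RingHom.mapMatrix_apply, Matrix.map_apply, Matrix.of_apply, MvPolynomial.eval_X,
      Matrix.one_apply, x]
    refine if_congr ⟨?_, ?_⟩ rfl rfl
    · rintro ⟨k, hk, h3, h4⟩
      have e1 : k = i := hu _ _ ((hc _ _).1 (hk.trans i.2.symm)) h3
      have e2 : k = j := hl _ _ ((hc _ _).1 (hk.trans j.2.symm)) h4
      exact Subtype.ext (e1.symm.trans e2)
    · rintro rfl
      exact ⟨i, i.2, rfl, rfl⟩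
  rw [h2, Matrix.det_one] at h1
  exact one_ne_zero h1

/-- `ip (pt col lab') (E col lab t) = |cg col| * E col lab t lab'` (`ip_pt`, `act_E_cg`). -/
theorem pairs_pt {col : ι → C} {lab : ι → L} {lab' : ι → A}
    (hl : ∀ i j, col i = col j → lab i = lab j → i = j)
    (hl' : ∀ i j, col i = col j → lab' i = lab' j → i = j) : Pairs (pt col lab') col lab := by
  obtain ⟨t, ht⟩ := exists_E_ne_zero hl' hl
  refine ⟨1, t, ?_⟩
  rw [act_one, ip_pt]
  have h1 : ∀ σ ∈ cg col, sg σ * E col lab t (lab' ∘ σ) = E col lab t lab' := by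
    intro σ hσ
    rw [← act_apply σ (E col lab t) lab', act_E_cg hσ, Pi.smul_apply, smul_eq_mul, ← mul_assoc,
      sg_mul_self, one_mul]
  rw [Finset.sum_congr rfl h1, Finset.sum_const, nsmul_eq_mul]
  refine mul_ne_zero ?_ ht
  exact Nat.cast_ne_zero.2 (Finset.card_pos.2 ⟨1, one_mem_cg col⟩).ne'

theorem Shape.sees_pt {col : ι → C} {lab : ι → A} (h : Shape ν col lab) : Sees (pt col lab) ν :=
  (sees_iff_pairs h _).2 (pairs_pt h.inj h.inj)

/-- KOSTKA positivity -/
theorem sees_dl {u : ι → A} (hν : ν.card = Fintype.card ι)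
    (h : ∀ S : Finset A, ∑ a ∈ S, cnt u a ≤ ∑ r ∈ range S.card, ν.rowLen r) : Sees (dl u) ν := by
  obtain ⟨T, hT, hu⟩ := gale_ryser hν h
  obtain ⟨t, ht⟩ := exists_E_ne_zero hu hT.shape.inj
  exact ⟨T, hT, t, by rwa [ip_dl]⟩

theorem polarb_inj_of_E {A : Type} {col : ι → C} {lab : ι → L} {t : A → L → ℂ} {u : ι → A}
    (h : E col lab t u ≠ 0) : ∀ i j, col i = col j → u i = u j → i = j := by
  intro i j hc hu
  by_contra hij
  exact h (cdet_eq_zero_of_row lab (m := fun i => t (u i)) hij hc (by simp only [hu]))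

/-- a column longer than the alphabet has two equal rows (`cdet_eq_zero_of_row`, pigeonhole). -/
theorem Sees.colLen_le {w : Wd ι A} (h : Sees w ν) : ν.colLen 0 ≤ Fintype.card A := by
  classical
  obtain ⟨T, hT, t, ht⟩ := h
  obtain ⟨u, -, hu⟩ := Finset.exists_ne_zero_of_sum_ne_zero ht
  have hinj := polarb_inj_of_E (right_ne_zero_of_mul hu)
  rw [← hT.cnt_col 0, ← Finset.card_univ]
  unfold cnt
  refine Finset.card_le_card_of_injOn u (fun _ _ => Finset.mem_coe.2 (Finset.mem_univ _)) ?_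
  intro i hi j hj hij
  simp only [Finset.coe_filter, Finset.mem_univ, true_and, Set.mem_ofPred_eq] at hi hj
  exact hinj i j (hi.trans hj.symm) hij

theorem Sees.dom_of_dl {u : ι → A} (h : Sees (dl u) ν) (S : Finset A) :
    ∑ a ∈ S, cnt u a ≤ ∑ r ∈ range S.card, ν.rowLen r := by
  obtain ⟨T, hT, t, ht⟩ := h
  rw [ip_dl] at ht
  exact hT.dom_of_inj (polarb_inj_of_E ht) S

/-- `t ↦ ip w (E col lab t)` is a polynomial function -/
theorem polarb_poly (w : Wd ι A) (col : ι → C) (lab : ι → L) :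
    ∃ P : MvPolynomial (A × L) ℂ, ∀ x : A × L → ℂ,
      MvPolynomial.eval x P = ip w (E col lab fun a l => x (a, l)) := by
  refine ⟨∑ u, MvPolynomial.C (w u) * cdet col lab fun i l => MvPolynomial.X (u i, l), fun x => ?_⟩
  rw [map_sum]
  refine Finset.sum_congr rfl fun u _ => ?_
  rw [map_mul, MvPolynomial.eval_C, map_cdet]
  simp only [MvPolynomial.eval_X]
  rfl

theorem polarb_cnt_elim {A : Type} (u₀ : ι₀ → A) (u₁ : ι₁ → A) (a : A) :
    cnt (Sum.elim u₀ u₁) a = cnt u₀ a + cnt u₁ a := by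
  classical
  unfold cnt
  simp only [Finset.card_filter]
  rw [Fintype.sum_sum_type]
  congr 1

theorem polarb_down {T : ι → ℕ × ℕ} (hT : IsTab ν T) (i : ι) {r : ℕ} (hr : r < (T i).1) :
    ∃ j, (T j).2 = (T i).2 ∧ (T j).1 = r := by
  have h1 : T i ∈ ν := (hT.2 _).2 ⟨i, rfl⟩
  have h2 : (r, (T i).2) ∈ ν := ν.up_left_mem hr.le le_rfl h1
  obtain ⟨j, hj⟩ := (hT.2 _).1 h2
  exact ⟨j, by rw [hj], by rw [hj]⟩

/-- SEMIGROUP.  `t ↦ ip w (E col lab t)` is the evaluation of a polynomial (`map_cdet`); two nonzero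
polynomials have a common nonvanishing point; `E` of the disjoint union is `mulS` (`cdet_sum₁₂`);
`shape_of_straight` for `col = Sum.map col₀ col₁`, `lab = Sum.elim row₀ row₁`. -/
theorem Sees.mulS {w₀ : Wd ι₀ A} {w₁ : Wd ι₁ A} {ν₀ ν₁ : YoungDiagram} (h₀ : Sees w₀ ν₀)
    (h₁ : Sees w₁ ν₁) (h : ∀ r, ν.rowLen r = ν₀.rowLen r + ν₁.rowLen r) : Sees (mulS w₀ w₁) ν := by
  obtain ⟨T₀, hT₀, t₀, ht₀⟩ := h₀
  obtain ⟨T₁, hT₁, t₁, ht₁⟩ := h₁
  obtain ⟨P₀, hP₀⟩ := polarb_poly w₀ (fun i => (T₀ i).2) (fun i => (T₀ i).1)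
  obtain ⟨P₁, hP₁⟩ := polarb_poly w₁ (fun i => (T₁ i).2) (fun i => (T₁ i).1)
  have n₀ : P₀ ≠ 0 := by
    rintro rfl
    exact ht₀ (by simpa using (hP₀ fun p => t₀ p.1 p.2).symm)
  have n₁ : P₁ ≠ 0 := by
    rintro rfl
    exact ht₁ (by simpa using (hP₁ fun p => t₁ p.1 p.2).symm)
  obtain ⟨x, hx⟩ : ∃ x, MvPolynomial.eval x (P₀ * P₁) ≠ 0 := by
    by_contra hne
    push Not at hne
    exact mul_ne_zero n₀ n₁ (MvPolynomial.funext fun x => by rw [hne, map_zero])
  rw [map_mul, hP₀, hP₁, ← ip_mulS] at hx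
  let col : ι₀ ⊕ ι₁ → ℕ ⊕ ℕ := Sum.map (fun i => (T₀ i).2) (fun i => (T₁ i).2)
  let lab : ι₀ ⊕ ι₁ → ℕ := Sum.elim (fun i => (T₀ i).1) (fun i => (T₁ i).1)
  have hS : Shape ν col lab := by
    refine shape_of_straight ?_ ?_ ?_
    · rintro (i | i) (j | j) hc hl
      · exact congrArg Sum.inl (hT₀.shape.inj i j (Sum.inl_injective hc) hl)
      · exact absurd hc Sum.inl_ne_inr
      · exact absurd hc Sum.inr_ne_inl
      · exact congrArg Sum.inr (hT₁.shape.inj i j (Sum.inr_injective hc) hl)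
    · rintro (i | i) r hr
      · obtain ⟨j, h1, h2⟩ := polarb_down hT₀ i hr
        exact ⟨.inl j, congrArg Sum.inl h1, h2⟩
      · obtain ⟨j, h1, h2⟩ := polarb_down hT₁ i hr
        exact ⟨.inr j, congrArg Sum.inr h1, h2⟩
    · intro r
      rw [h, ← hT₀.cnt_row, ← hT₁.cnt_row]
      exact polarb_cnt_elim _ _ r
  refine hS.sees (t := fun a l => x (a, l)) ?_
  convert hx using 2
  funext u
  change cdet col lab _ = cdet _ _ _ * cdet _ _ _
  rw [cdet_sum₁₂ col lab _ fun i j hc => absurd hc Sum.inl_ne_inr]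
  congr 1
  · exact cdet_congr (fun i j => Sum.inl_injective.eq_iff) fun _ _ _ => rfl
  · exact cdet_congr (fun i j => Sum.inr_injective.eq_iff) fun _ _ _ => rfl

end Crest.Agent.R195
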