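import Crest.Agent.R195.Path

/-!
Row 195 (helper2).  The tall case: a sign-twisted equivariant kernel sends the table vector to the
orbit indicator of the row labelling under the column group; one-cell moves of orbit indicators
are `sl₂` lowering operators.
-/

set_option autoImplicit false
set_option linter.unusedSectionVars false

namespace Crest.Agent.R195

open Equiv Finset

section
variable {ι κ₁ κ₂ A B : Type*} [Fintype ι] [DecidableEq ι] [DecidableEq κ₁] [DecidableEq κ₂]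
  [DecidableEq A] [DecidableEq B]

/-- indicator of the orbit of `ρ` under the block group of `c` -/
def orbInd (c : ι → κ₂) (ρ u : ι → A) : ℤ := if ∃ h ∈ blockGrp c, u = ρ ∘ h then 1 else 0

theorem orbInd_comp {c : ι → κ₂} (ρ u : ι → A) {h : Perm ι} (hh : h ∈ blockGrp c) :
    orbInd c ρ (u ∘ h) = orbInd c ρ u := by
  unfold orbInd
  have : (∃ g ∈ blockGrp c, u ∘ h = ρ ∘ g) ↔ ∃ g ∈ blockGrp c, u = ρ ∘ g := by
    constructor
    · rintro ⟨g, hg, e⟩
      refine ⟨g * h⁻¹, mul_mem_blockGrp hg (inv_mem_blockGrp hh), ?_⟩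
      funext i; have := congrFun e (h⁻¹ i); simpa using this
    · rintro ⟨g, hg, rfl⟩; exact ⟨g * h, mul_mem_blockGrp hg hh, rfl⟩
  simp only [this]

/-- a word that is constant on blocks is alone in its orbit -/
theorem orbInd_pure (c : ι → κ₂) (o : κ₂ → A) (u : ι → A) :
    orbInd c (o ∘ c) u = if u = o ∘ c then 1 else 0 := by
  unfold orbInd
  have : (∃ g ∈ blockGrp c, u = (o ∘ c) ∘ g) ↔ u = o ∘ c := by
    constructor
    · rintro ⟨g, hg, rfl⟩; funext i; simp [mem_blockGrp.1 hg i]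
    · rintro rfl; exact ⟨1, one_mem_blockGrp c, rfl⟩
  simp only [this]

/-- the lowering operator `p → q` -/
def lowerZ (p q : A) (w : (ι → A) → ℤ) (u : ι → A) : ℤ :=
  ∑ i, if u i = q then w (Function.update u i p) else 0

theorem lowerZ_orbInd (c : ι → κ₂) (ρ : ι → A) (x : ι) (q : A)
    (hp : ∀ i, ρ i = ρ x → c i = c x) (hq : ∀ i, c i = c x → ρ i ≠ q) (u : ι → A) :
    lowerZ (ρ x) q (orbInd c ρ) u = orbInd c (Function.update ρ x q) u := by
  have key : ∀ i, u i = q → (∃ h ∈ blockGrp c, Function.update u i (ρ x) = ρ ∘ h) →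
      ∃ h ∈ blockGrp c, h i = x ∧ u = Function.update ρ x q ∘ h := by
    rintro i hi ⟨h, hh, e⟩
    have e1 : ρ (h i) = ρ x := by have := congrFun e i; simpa using this.symm
    refine ⟨swap x (h i) * h, mul_mem_blockGrp (swap_mem_blockGrp (hp _ e1).symm) hh, by simp, ?_⟩
    funext k
    by_cases hk : k = i
    · subst hk; simp [hi]
    · have e2 := congrFun e k
      rw [Function.update_of_ne hk] at e2
      have hne : swap x (h i) (h k) ≠ x := by
        intro e3; apply hk; apply h.injective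
        have := congrArg (swap x (h i)) e3; simpa using this
      simp only [Function.comp, Perm.coe_mul]
      rw [Function.update_of_ne hne, e2]
      exact (congrFun (comp_swap_eq ρ e1.symm) (h k)).symm
  unfold lowerZ
  by_cases hu : ∃ h ∈ blockGrp c, u = Function.update ρ x q ∘ h
  · rw [orbInd, if_pos hu]
    obtain ⟨h, hh, rfl⟩ := hu
    rw [Finset.sum_eq_single (h⁻¹ x)]
    · rw [if_pos (by simp), orbInd, if_pos]
      refine ⟨h, hh, ?_⟩
      funext k
      by_cases hk : k = h⁻¹ x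
      · subst hk; simp
      · have : h k ≠ x := by rintro rfl; simp at hk
        rw [Function.update_of_ne hk]
        simp [Function.update_of_ne this]
    · intro i _ hi
      split_ifs with h1
      · rw [orbInd, if_neg]
        intro h2
        obtain ⟨h', hh', e1, _⟩ := key i h1 h2
        have hx : h i ≠ x := by rintro rfl; simp at hi
        have hc : c (h i) = c x := by
          rw [mem_blockGrp.1 hh, ← e1, mem_blockGrp.1 hh']
        apply hq _ hc
        simpa [Function.update_of_ne hx] using h1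
      · rfl
    · simp
  · rw [orbInd, if_neg hu]
    apply Finset.sum_eq_zero
    intro i _
    split_ifs with h1
    · rw [orbInd, if_neg]
      intro h2
      obtain ⟨h', hh', _, e⟩ := key i h1 h2
      exact hu ⟨h', hh', e⟩
    · rfl

variable [Fintype A] [Fintype B]

/-- the sign-twisted kernel -/
def tallK (R : ι → κ₁) (r₁ : ι → A) (ψ : κ₁ → B) (a : ι → A × B) (u : ι → κ₁) : ℤ :=
  ∑ g : Perm ι, if u = R ∘ g ∧ (fun i => (a i).2) = ψ ∘ u then
    ((Perm.sign g : ℤˣ) : ℤ) * EZ R r₁ (fun i => (a (g⁻¹ i)).1) else 0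

theorem tallK_comp (R : ι → κ₁) (r₁ : ι → A) (ψ : κ₁ → B) (a : ι → A × B) (u : ι → κ₁)
    (h : Perm ι) : tallK R r₁ ψ (a ∘ h) (u ∘ h) = ((Perm.sign h : ℤˣ) : ℤ) * tallK R r₁ ψ a u := by
  unfold tallK
  rw [Finset.mul_sum, ← Equiv.sum_comp (Equiv.mulRight h)]
  refine Finset.sum_congr rfl fun g _ => ?_
  have e1 : (u ∘ h = R ∘ ⇑((Equiv.mulRight h) g)) ↔ u = R ∘ g := by
    constructor
    · intro e; funext i; have := congrFun e (h⁻¹ i); simpa using this
    · rintro rfl; rfl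
  have e2 : ((fun i => ((a ∘ h) i).2) = ψ ∘ u ∘ h) ↔ (fun i => (a i).2) = ψ ∘ u := by
    constructor
    · intro e; funext i; have := congrFun e (h⁻¹ i); simpa using this
    · intro e; funext i; exact congrFun e (h i)
  simp only [e1, e2]
  split_ifs
  · simp [mul_comm, mul_left_comm]
  · simp

/-- Gram function of a wedge vector -/
def gramZ (R : ι → κ₁) (r₁ : ι → A) (g : Perm ι) : ℤ := ∑ α, EZ R r₁ α * EZ R r₁ (α ∘ g)

theorem sum_words_comp {M : Type*} [AddCommMonoid M] (g : Perm ι) (F : (ι → A) → M) :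
    ∑ α : ι → A, F (α ∘ g) = ∑ α, F α :=
  Equiv.sum_comp (Equiv.arrowCongr g.symm (Equiv.refl A)) F

theorem tall_apply (R : ι → κ₁) (r₁ : ι → A) (C : ι → κ₂) (r₂ : ι → B) (ψ : κ₁ → B)
    (u : ι → κ₁) :
    ∑ a : ι → A × B, tallK R r₁ ψ a u *
        (EZ R r₁ (fun i => (a i).1) * EZ C r₂ (fun i => (a i).2)) =
      EZ C r₂ (ψ ∘ u) * ∑ g : Perm ι, if u = R ∘ g then
        ((Perm.sign g : ℤˣ) : ℤ) * gramZ R r₁ g else 0 := by
  unfold tallK
  simp only [Finset.sum_mul]
  rw [Finset.sum_comm, Finset.mul_sum]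
  refine Finset.sum_congr rfl fun g _ => ?_
  by_cases hg : u = R ∘ g
  · simp only [hg, true_and, if_true]
    rw [← (Equiv.arrowProdEquivProdArrow ι (fun _ => A) (fun _ => B)).symm.sum_comp,
      Fintype.sum_prod_type]
    unfold gramZ
    rw [Finset.mul_sum, Finset.mul_sum, ← sum_words_comp g]
    refine Finset.sum_congr rfl fun α _ => ?_
    rw [Finset.sum_eq_single (ψ ∘ R ∘ g)]
    · simp only [Equiv.arrowProdEquivProdArrow_symm_apply]
      rw [if_pos trivial]
      have : (fun i => (α ∘ g) (g⁻¹ i)) = α := by funext i; simp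
      rw [this]
      change _ * _ * (EZ R r₁ (α ∘ g) * EZ C r₂ (ψ ∘ R ∘ g)) = _
      ring
    · intro β _ hβ
      simp only [Equiv.arrowProdEquivProdArrow_symm_apply]
      rw [if_neg hβ, zero_mul]
    · simp
  · simp [hg]

theorem gramZ_mul_left {R : ι → κ₁} (r₁ : ι → A) {k : Perm ι} (hk : k ∈ blockGrp R) (h : Perm ι) :
    gramZ R r₁ (k * h) = ((Perm.sign k : ℤˣ) : ℤ) * gramZ R r₁ h := by
  unfold gramZ
  rw [Finset.mul_sum, ← sum_words_comp k (fun α => ((Perm.sign k : ℤˣ) : ℤ) *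
    (EZ R r₁ α * EZ R r₁ (α ∘ h)))]
  refine Finset.sum_congr rfl fun α _ => ?_
  rw [EZ_comp hk, ← mul_assoc, ← mul_assoc, sign_mul_self', one_mul]; rfl

theorem sum_gramZ_ne_zero (R : ι → κ₁) (r₁ : ι → A) (C : ι → κ₂) (φ : κ₂ → A)
    (hφ : EZ R r₁ (φ ∘ C) ≠ 0) : ∑ h ∈ blockGrp C, gramZ R r₁ h ≠ 0 := by
  set S : (ι → A) → ℤ := fun α => ∑ h ∈ blockGrp C, EZ R r₁ (α ∘ h) with hS
  have hSinv : ∀ α, ∀ k ∈ blockGrp C, S (α ∘ k) = S α := by
    intro α k hk
    exact sum_blockGrp_mul_left hk (fun h => EZ R r₁ (α ∘ h))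
  have h1 : ∑ h ∈ blockGrp C, gramZ R r₁ h = ∑ α, EZ R r₁ α * S α := by
    unfold gramZ; rw [Finset.sum_comm]
    simp only [hS, Finset.mul_sum]
  have h2 : ∑ α, S α * S α = ((blockGrp C).card : ℤ) * ∑ α, EZ R r₁ α * S α := by
    calc ∑ α, S α * S α = ∑ α : ι → A, ∑ k ∈ blockGrp C, EZ R r₁ (α ∘ k) * S (α ∘ k) := by
          refine Finset.sum_congr rfl fun α _ => ?_
          rw [Finset.sum_congr rfl (fun k hk => by rw [hSinv α k hk]), ← Finset.sum_mul]
      _ = ∑ k ∈ blockGrp C, ∑ α : ι → A, EZ R r₁ α * S α := by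
          rw [Finset.sum_comm]
          exact Finset.sum_congr rfl fun k _ => sum_words_comp k (fun α => EZ R r₁ α * S α)
      _ = _ := by simp
  have h3 : S (φ ∘ C) ≠ 0 := by
    have : S (φ ∘ C) = ((blockGrp C).card : ℤ) * EZ R r₁ (φ ∘ C) := by
      simp only [hS]
      rw [Finset.sum_congr rfl (g := fun _ => EZ R r₁ (φ ∘ C))]
      · simp
      · intro h hh; congr 1; funext i; simp [mem_blockGrp.1 hh i]
    rw [this]
    exact mul_ne_zero (by have := card_blockGrp_pos C; omega) hφ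
  intro h0
  rw [h1] at h0
  rw [h0, mul_zero] at h2
  have := (Finset.sum_eq_zero_iff_of_nonneg (fun α _ => mul_self_nonneg (S α))).1 h2 (φ ∘ C)
    (Finset.mem_univ _)
  exact h3 (mul_self_eq_zero.1 this)

/-- **Tall lemma**: the column-symmetrised image of the table vector under the twisted kernel is a
non-zero multiple of the orbit indicator of the row labelling. -/
theorem tall_lemma (R : ι → κ₁) (r₁ : ι → A) (C : ι → κ₂) (r₂ : ι → B)
    (ψ : κ₁ → B) (hψi : Function.Injective ψ) (hψ : EZ C r₂ (ψ ∘ R) ≠ 0)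
    (φ : κ₂ → A) (hφ : EZ R r₁ (φ ∘ C) ≠ 0) :
    ∃ γ : ℤ, γ ≠ 0 ∧ ∀ u : ι → κ₁,
      ∑ h ∈ blockGrp C, ∑ a : ι → A × B, tallK R r₁ ψ a (u ∘ h) *
        (EZ R r₁ (fun i => (a i).1) * EZ C r₂ (fun i => (a i).2)) = γ * orbInd C R u := by
  simp only [tall_apply]
  set V : (ι → κ₁) → ℤ := fun u => ∑ h ∈ blockGrp C, EZ C r₂ (ψ ∘ u ∘ h) *
    ∑ g : Perm ι, if u ∘ h = R ∘ g then ((Perm.sign g : ℤˣ) : ℤ) * gramZ R r₁ g else 0 with hV
  have hinv : ∀ u, ∀ k ∈ blockGrp C, V (u ∘ k) = V u := by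
    intro u k hk
    exact sum_blockGrp_mul_left hk (fun h => EZ C r₂ (ψ ∘ u ∘ h) *
      ∑ g : Perm ι, if u ∘ h = R ∘ g then ((Perm.sign g : ℤˣ) : ℤ) * gramZ R r₁ g else 0)
  have hval : V R = EZ C r₂ (ψ ∘ R) * ((blockGrp R).card * ∑ h ∈ blockGrp C, gramZ R r₁ h) := by
    simp only [hV]
    rw [Finset.mul_sum, Finset.mul_sum]
    refine Finset.sum_congr rfl fun h hh => ?_
    have e1 : EZ C r₂ (ψ ∘ R ∘ h) = ((Perm.sign h : ℤˣ) : ℤ) * EZ C r₂ (ψ ∘ R) := EZ_comp hh _ (ψ ∘ R)
    have e2 : (∑ g : Perm ι, if R ∘ h = R ∘ g then ((Perm.sign g : ℤˣ) : ℤ) * gramZ R r₁ g else 0) =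
        ∑ k ∈ blockGrp R, ((Perm.sign h : ℤˣ) : ℤ) * gramZ R r₁ h := by
      rw [← Equiv.sum_comp (Equiv.mulRight h), blockGrp, Finset.sum_filter]
      refine Finset.sum_congr rfl fun k _ => ?_
      have : (R ∘ h = R ∘ ⇑((Equiv.mulRight h) k)) ↔ ∀ i, R (k i) = R i := by
        constructor
        · intro e i; have := congrFun e (h⁻¹ i); simpa using this.symm
        · intro e; funext i; simp [e]
      simp only [this]
      split_ifs with hk
      · simp only [Equiv.coe_mulRight]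
        rw [gramZ_mul_left r₁ (mem_blockGrp.2 hk), Perm.sign_mul, Units.val_mul]
        have := sign_mul_self' k
        linear_combination (((Perm.sign h : ℤˣ) : ℤ) * gramZ R r₁ h) * this
      · rfl
    rw [e1, e2, Finset.sum_const, nsmul_eq_mul]
    have := sign_mul_self' h
    linear_combination (EZ C r₂ (ψ ∘ R) * ((blockGrp R).card * gramZ R r₁ h)) * this
  refine ⟨V R, ?_, fun u => ?_⟩
  · rw [hval]
    exact mul_ne_zero hψ (mul_ne_zero (by have := card_blockGrp_pos R; omega)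
      (sum_gramZ_ne_zero R r₁ C φ hφ))
  · change V u = _
    unfold orbInd
    split_ifs with hu
    · obtain ⟨h, hh, rfl⟩ := hu
      rw [hinv R h hh, mul_one]
    · rw [mul_zero]
      apply Finset.sum_eq_zero
      intro h hh
      have : EZ C r₂ (ψ ∘ u ∘ h) = 0 := by
        by_contra hne
        obtain ⟨g, hg, e⟩ := exists_of_EZ_ne_zero hne
        obtain ⟨g', hg', e'⟩ := exists_of_EZ_ne_zero hψ
        apply hu
        refine ⟨g'⁻¹ * g * h⁻¹, mul_mem_blockGrp (mul_mem_blockGrp (inv_mem_blockGrp hg') hg)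
          (inv_mem_blockGrp hh), ?_⟩
        funext i
        apply hψi
        have a1 := congrFun e (h⁻¹ i)
        have a2 := congrFun e' (g'⁻¹ (g (h⁻¹ i)))
        simp only [Function.comp, Perm.coe_mul] at a1 a2 ⊢
        rw [a2]; simpa using a1
      rw [this, zero_mul]

end

end Crest.Agent.R195
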