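import Crest.Agent.R195.QGlue
import Crest.Agent.R195.Tall

/-!
# R195 / QBlk2 (helper50): the block inside a single `T`-column
-/

set_option autoImplicit false
set_option linter.unusedSectionVars false
open Finset

noncomputable section
namespace Crest.Agent.R195

/-- private letters: the `T`-label `2 b + a` goes with the pair `(a, b)` -/
def rho2 (a b c : ℕ) : ℤ := if c = 2 * b + a then 1 else 0

/-- labels of the single `T`-column: a bijection onto `0, …, 2t+3+δ` when `δ ≤ 1` -/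
def tbL (t δ : ℕ) (i : TB t δ) : ℕ := 2 * tbI t δ i + tbC t δ i

theorem qb2a_det {M : Matrix (Fin 4) (Fin 4) ℤ} (h : M * M.transpose = (2 : ℤ) • 1) : M.det ≠ 0 := by
  intro h0
  have h1 := congrArg Matrix.det h
  rw [Matrix.det_mul, h0, zero_mul, Matrix.det_smul, Matrix.det_one] at h1
  norm_num at h1

theorem qb2a_lt (t δ : ℕ) (j : TB t δ) : tbC t δ j < 2 := by
  cases j <;> simp [tbC]

theorem qb2a_inj {t δ : ℕ} {i j : TB t δ} (h : tbC t δ i = tbC t δ j) (h' : tbI t δ i = tbI t δ j) :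
    i = j := by
  cases i <;> cases j <;> simp_all [tbC, tbI, Fin.ext_iff]

theorem qb2a_injL {t δ : ℕ} {i j : TB t δ} (h : tbL t δ i = tbL t δ j) : i = j := by
  have h1 := qb2a_lt t δ i
  have h2 := qb2a_lt t δ j
  unfold tbL at h
  exact qb2a_inj (by omega) (by omega)

theorem qb2a_cell (t δ : ℕ) {a b : ℕ} (ha : a < 2) (hb : b < 2) :
    ∃ j : TB t δ, tbC t δ j = a ∧ tbI t δ j = b := by
  by_cases h : a = 0
  · exact ⟨.inl ⟨b, by omega⟩, h.symm, rfl⟩
  · exact ⟨.inr ⟨b, by omega⟩, show 1 = a by omega, rfl⟩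

/-- the `4 × 4` Clifford determinant (`decide` after unfolding) -/
theorem IsCl.det4 {τ : ℕ → ℕ → ℕ → ℤ} (h : IsCl τ) :
    (Matrix.of fun u c : Fin 4 => τ ((u : ℕ) % 2) ((u : ℕ) / 2) c).det ≠ 0 := by
  obtain ⟨ε, h | h⟩ := h
  · rw [show (Matrix.of fun u c : Fin 4 => τ ((u : ℕ) % 2) ((u : ℕ) / 2) c) = Matrix.of
      fun u c : Fin 4 => cliff ε c ⟨u % 2, by omega⟩ ⟨u / 2, by omega⟩ from
        Matrix.ext fun u c => h ⟨u % 2, by omega⟩ ⟨u / 2, by omega⟩ c]
    refine qb2a_det ?_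
    clear h
    revert ε
    decide
  · rw [show (Matrix.of fun u c : Fin 4 => τ ((u : ℕ) % 2) ((u : ℕ) / 2) c) = Matrix.of
      fun u c : Fin 4 => cliff ε c ⟨u / 2, by omega⟩ ⟨u % 2, by omega⟩ from
        Matrix.ext fun u c => h ⟨u % 2, by omega⟩ ⟨u / 2, by omega⟩ c]
    refine qb2a_det ?_
    clear h
    revert ε
    decide

/-- `M = P * G` with `P i j = [a i = tbC j ∧ b i = tbI j]`, `G j j' = τ (tbC j) (tbI j) (tbL j')` (if the pair
`(a i, b i)` is not a cell then `2 ≤ b i` and `2 * b i + a i` is not a label, the row vanishes);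
`G` is block triangular (rows with `tbI j ≥ 2` are unit rows), `det G = ± det4 ≠ 0`
(e.g. `G *ᵥ v = 0 → v = 0`, `Matrix.exists_mulVec_eq_zero_iff` over `ℚ`, or reindex by `tbL` and expand). -/
theorem blk2_det (t δ : ℕ) (hδ : δ ≤ 1) (τ : ℕ → ℕ → ℕ → ℤ) (hτ : IsCl τ)
    (hb : ∀ a b c, a < 2 → 2 ≤ b → τ a b c = rho2 a b c) :
    ∃ g : ℤ, g ≠ 0 ∧ ∀ a b : TB t δ → ℕ, (∀ i, a i < 2) →
      cdet (fun _ => (0 : ℕ)) (tbL t δ) (fun i c => τ (a i) (b i) c) =
        g * (Matrix.of fun i j : TB t δ =>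
          if a i = tbC t δ j ∧ b i = tbI t δ j then (1 : ℤ) else 0).det := by
  refine ⟨(Matrix.of fun j j' : TB t δ => τ (tbC t δ j) (tbI t δ j) (tbL t δ j')).det, fun h0 => ?_,
    fun a b ha => ?_⟩
  · obtain ⟨v, hv, h1⟩ := Matrix.exists_mulVec_eq_zero_iff.2 h0
    have h2 : ∀ j, 2 ≤ tbI t δ j → v j = 0 := fun j hj => by
      have h2 := congrFun h1 j
      rw [Matrix.mulVec, dotProduct, sum_eq_single j (fun j' _ hj' => by
        rw [Matrix.of_apply, hb _ _ _ (qb2a_lt t δ j) hj, rho2, ← tbL,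
          if_neg fun h => hj' (qb2a_injL h), zero_mul]) (by simp), Matrix.of_apply, hb _ _ _ (qb2a_lt t δ j) hj, rho2, tbL, if_pos rfl,
        one_mul] at h2
      exact h2
    choose e he he' using fun u : Fin 4 => qb2a_cell t δ (a := u % 2) (b := u / 2) (by omega) (by omega)
    have hL : ∀ u, tbL t δ (e u) = u := fun u => by rw [tbL, he, he']; omega
    have h3 : ∀ j, j ∉ Set.range e → v j = 0 := fun j hj => h2 j (by
      by_contra h3
      have h4 := qb2a_lt t δ j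
      exact hj ⟨⟨tbL t δ j, by unfold tbL; omega⟩, qb2a_injL (hL _)⟩)
    have h4 : v ∘ e = 0 := by
      by_contra h4
      refine hτ.det4 (Matrix.exists_mulVec_eq_zero_iff.1 ⟨v ∘ e, h4, funext fun u => ?_⟩)
      refine Eq.trans ?_ (congrFun h1 (e u))
      rw [Matrix.mulVec, Matrix.mulVec, dotProduct, dotProduct]
      refine Fintype.sum_of_injective e (fun u u' h => Fin.ext (by rw [← hL, h, hL])) _ _
        (fun j hj => by rw [h3 j hj, mul_zero]) fun c => ?_
      simp only [Matrix.of_apply, he, he', hL, Function.comp_apply]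
    refine hv (funext fun j => ?_)
    by_cases hj : j ∈ Set.range e
    · obtain ⟨u, rfl⟩ := hj
      exact congrFun h4 u
    · exact h3 j hj
  · rw [cdet, mul_comm, ← Matrix.det_mul]
    congr 1
    ext i j'
    rw [Matrix.of_apply, if_pos rfl, Matrix.mul_apply]
    simp only [Matrix.of_apply]
    by_cases h : ∃ j, a i = tbC t δ j ∧ b i = tbI t δ j
    · obtain ⟨j, h⟩ := h
      rw [sum_eq_single j (fun j' _ hj' => by
        rw [if_neg fun h' => hj' (qb2a_inj (h'.1.symm.trans h.1) (h'.2.symm.trans h.2)), zero_mul])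
        (by simp), if_pos h, one_mul, h.1, h.2]
    · rw [sum_eq_zero fun j _ => by rw [if_neg fun h' => h ⟨j, h'⟩, zero_mul], hb _ _ _ (ha i), rho2,
        if_neg fun h' => h ⟨j', ?_⟩]
      · have h1 := ha i
        have h2 := qb2a_lt t δ j'
        unfold tbL at h'
        omega
      · by_contra h1
        obtain ⟨j, h2, h3⟩ := qb2a_cell t δ (ha i) (not_le.1 h1)
        exact h ⟨j, h2.symm, h3.symm⟩

/-- for `a = tbC ∘ r` the determinant is `sign r * EZ tbC tbB (b ∘ r⁻¹)` (permute the rows by `r`; for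
`a = tbC` it is `cdet tbC tbI [b i = ·] = EZ`, `cdet_eq_sum`). -/
theorem blk2_ker (t δ : ℕ) (r : Equiv.Perm (TB t δ)) (b : TB t δ → Fin (t + 2 + δ)) :
    (Matrix.of fun i j : TB t δ =>
      if tbC t δ (r i) = tbC t δ j ∧ (b i : ℕ) = tbI t δ j then (1 : ℤ) else 0).det =
      ((Equiv.Perm.sign r : ℤˣ) : ℤ) * EZ (tbC t δ) (tbB t δ) (b ∘ ⇑r⁻¹) := by
  have hB : ∀ j, tbI t δ j = tbB t δ j := fun j => by cases j <;> rfl
  rw [show (Matrix.of fun i j : TB t δ =>
      if tbC t δ (r i) = tbC t δ j ∧ (b i : ℕ) = tbI t δ j then (1 : ℤ) else 0) =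
    (Matrix.of fun i j : TB t δ => if tbC t δ i = tbC t δ j ∧ (b ∘ ⇑r⁻¹) i = tbB t δ j then (1 : ℤ)
      else 0).submatrix r id from Matrix.ext fun i j => by simp [hB, Fin.ext_iff],
    Matrix.det_permute]
  congr 1
  generalize b ∘ ⇑r⁻¹ = u
  rw [← Matrix.det_transpose, Matrix.det_apply', EZ, blockGrp, sum_filter]
  refine sum_congr rfl fun σ _ => ?_
  simp only [Matrix.transpose_apply, Matrix.of_apply, Fintype.prod_boole, forall_and, funext_iff,
    Function.comp_apply, eq_comm (a := tbC t δ (σ _)), ← ite_and, Int.cast_id, mul_ite, mul_one,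
    mul_zero]

theorem qb2b_A (t δ : ℕ) (i : TB t δ) : (tbA t δ i : ℕ) = tbC t δ i := by
  cases i <;> rfl

theorem qb2b_B (t δ : ℕ) (i : TB t δ) : (tbB t δ i : ℕ) = tbI t δ i := by
  cases i <;> rfl

theorem qb2b_C_lt (t δ : ℕ) (i : TB t δ) : tbC t δ i < 2 := by
  cases i <;> simp [tbC]

theorem qb2b_alone (t δ : ℕ) (hδ : δ ≤ 1) (i : TB t δ) (h : tbR t δ i = tbR t δ (tbZ t δ)) :
    i = tbZ t δ := by
  have hz : tbR t δ (tbZ t δ) = t + 3 := by simp [tbR, tbZ]
  rw [hz] at h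
  rcases i with i | i
  · have := i.2
    simp only [tbR, Sum.elim_inl] at h
    omega
  · have := i.2
    simp only [tbR, Sum.elim_inr] at h
    unfold tbZ
    congr 1
    ext
    split_ifs at h
    · omega
    · simp only [Fin.val_last]; omega

theorem qb2b_inj (t δ : ℕ) : BlockInj (tbC t δ) (tbB t δ) := by
  rintro (i | i) (j | j) h1 h2
  · simpa [tbB] using h2
  · simp [tbC] at h1
  · simp [tbC] at h1
  · simpa [tbB] using h2

theorem qb2b_phi (t δ : ℕ) (hδ : δ ≤ 1) :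
    ∃ φ : ℕ → Fin (t + 2 + δ), φ ∘ tbR t δ = tbB t δ := by
  refine ⟨fun n => if h : n < t + 2 + δ then ⟨n, h⟩ else ⟨t + 1, by omega⟩, ?_⟩
  funext i
  rcases i with i | i
  · have := i.2
    simp [tbR, tbB]
  · have := i.2
    ext
    simp only [tbR, tbB, Function.comp, Sum.elim_inr, Fin.val_castLE]
    split_ifs <;> simp only [] <;> omega

theorem qb2b_sum_inv {ι κ : Type} [Fintype ι] [DecidableEq ι] [DecidableEq κ] (c : ι → κ)
    (F : Equiv.Perm ι → ℤ) : ∑ g ∈ blockGrp c, F g⁻¹ = ∑ g ∈ blockGrp c, F g := by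
  refine Finset.sum_bij' (fun g _ => g⁻¹) (fun g _ => g⁻¹) ?_ ?_ ?_ ?_ ?_
  · intro g hg; exact inv_mem_blockGrp hg
  · intro g hg; exact inv_mem_blockGrp hg
  · intro g _; simp
  · intro g _; simp
  · intro g _; rfl

/-- `x = 1`: `update a z 1 = a`, the words in the support of `EZ tbR tbA` are `tbA ∘ r`, `r ∈ blockGrp tbR`
(`sum_EZ_smul`; they have `a z = 1`), so `Φ = g * ∑_{r} gramZ tbC tbB r⁻¹ ≠ 0` by
`sum_gramZ_ne_zero tbC tbB tbR φ` (`tbB = φ ∘ tbR`, `EZ_self`).  `x = 0`: a nonzero determinant gives a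
permutation `σ` with `a i = tbC (σ i)`, so `∑ a = t + 2`, but `∑ update a z 1 = t + 2`
(`sum_of_EZ_ne_zero`), i.e. `∑ a = t + 1`. -/
theorem blkOK2 (t δ : ℕ) (hδ : δ ≤ 1) : BlkOK t δ (fun _ => 0) (tbL t δ) rho2 1 := by
  intro τ hτ hb
  obtain ⟨g, hg, hdet⟩ := blk2_det t δ hδ τ hτ hb
  have hAz : (tbA t δ (tbZ t δ) : ℕ) = 1 := rfl
  constructor
  · have h1 : blkPhi (tbR t δ) (tbC t δ) (tbA t δ) (tbB t δ) (tbZ t δ) (fun _ => 0) (tbL t δ) τ
        ((1 : Fin 2) : ℕ) = ∑ a : TB t δ → Fin (t + 2 + δ), EZ (tbR t δ) (tbA t δ) a •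
          ∑ b : TB t δ → Fin (t + 2 + δ), EZ (tbC t δ) (tbB t δ) b *
            cdet (fun _ => (0 : ℕ)) (tbL t δ) (fun i c => τ (a i) (b i) c) := by
      unfold blkPhi
      refine Finset.sum_congr rfl fun a _ => ?_
      rw [smul_eq_mul, Finset.mul_sum]
      refine Finset.sum_congr rfl fun b _ => ?_
      split_ifs with h
      · have e : tbA t δ (tbZ t δ) = a (tbZ t δ) := Fin.ext (by rw [hAz, h]; rfl)
        rw [e, Function.update_eq_self, mul_assoc]
      · by_cases h0 : EZ (tbR t δ) (tbA t δ) a = 0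
        · rw [h0, zero_mul]
        · exfalso
          obtain ⟨r, hr, rfl⟩ := exists_of_EZ_ne_zero h0
          apply h
          have := qb2b_alone t δ hδ _ (mem_blockGrp.1 hr (tbZ t δ))
          simp only [Function.comp, this, hAz]
          rfl
    have h2 : ∀ r ∈ blockGrp (tbR t δ), ((Equiv.Perm.sign r : ℤˣ) : ℤ) •
        (∑ b : TB t δ → Fin (t + 2 + δ), EZ (tbC t δ) (tbB t δ) b *
            cdet (fun _ => (0 : ℕ)) (tbL t δ) (fun i c => τ ((tbA t δ ∘ r) i) (b i) c)) =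
        g * gramZ (tbC t δ) (tbB t δ) r⁻¹ := by
      intro r _
      unfold gramZ
      rw [smul_eq_mul, Finset.mul_sum, Finset.mul_sum]
      refine Finset.sum_congr rfl fun b _ => ?_
      have e := hdet (fun i => tbC t δ (r i)) (fun i => (b i : ℕ)) (fun i => qb2b_C_lt t δ _)
      simp only [Function.comp, qb2b_A]
      rw [e, blk2_ker t δ r b]
      have s := sign_mul_self' r
      linear_combination (g * EZ (tbC t δ) (tbB t δ) b * EZ (tbC t δ) (tbB t δ) (b ∘ ⇑r⁻¹)) * s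
    rw [h1, sum_EZ_smul, Finset.sum_congr rfl h2, ← Finset.mul_sum, qb2b_sum_inv]
    obtain ⟨φ, hφ⟩ := qb2b_phi t δ hδ
    refine mul_ne_zero hg (sum_gramZ_ne_zero _ _ _ φ ?_)
    rw [hφ, EZ_self (qb2b_inj t δ)]
    exact one_ne_zero
  · unfold blkPhi
    refine Finset.sum_eq_zero fun a _ => Finset.sum_eq_zero fun b _ => ?_
    split_ifs with h
    swap
    · rfl
    have h' : (a (tbZ t δ) : ℕ) = 0 := h
    by_cases h0 : EZ (tbR t δ) (tbA t δ) (Function.update a (tbZ t δ) (tbA t δ (tbZ t δ))) = 0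
    · rw [h0, zero_mul, zero_mul]
    have hs := sum_of_EZ_ne_zero h0 (fun _ x => (x : ℕ))
    obtain ⟨r, hr, hr'⟩ := exists_of_EZ_ne_zero h0
    have ha : ∀ i, (a i : ℕ) < 2 := by
      intro i
      by_cases hi : i = tbZ t δ
      · rw [hi, h']; norm_num
      · have := congrFun hr' i
        rw [Function.update_of_ne hi] at this
        rw [this, Function.comp, qb2b_A]
        exact qb2b_C_lt _ _ _
    rw [hdet (fun i => (a i : ℕ)) (fun i => (b i : ℕ)) ha]
    suffices hd : (Matrix.of fun i j : TB t δ =>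
        if (a i : ℕ) = tbC t δ j ∧ (b i : ℕ) = tbI t δ j then (1 : ℤ) else 0).det = 0 by
      rw [hd]; simp
    rw [Matrix.det_apply]
    refine Finset.sum_eq_zero fun σ _ => ?_
    suffices hp : ∃ j, (a (σ j) : ℕ) ≠ tbC t δ j by
      obtain ⟨j, hj⟩ := hp
      rw [Finset.prod_eq_zero (Finset.mem_univ j)]
      · simp
      · simp [hj]
    by_contra hc
    push Not at hc
    have e1 : ∑ j, (a j : ℕ) = ∑ j, (tbA t δ j : ℕ) := by
      rw [← Equiv.sum_comp σ (fun j => (a j : ℕ))]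
      exact Finset.sum_congr rfl fun j _ => by rw [hc, qb2b_A]
    have e2 : ∑ j, ((Function.update a (tbZ t δ) (tbA t δ (tbZ t δ)) j : Fin _) : ℕ) =
        ∑ j, (a j : ℕ) + 1 := by
      rw [← Finset.add_sum_erase _ _ (Finset.mem_univ (tbZ t δ)),
        ← Finset.add_sum_erase _ (fun j => (a j : ℕ)) (Finset.mem_univ (tbZ t δ)),
        Function.update_self, hAz, h',
        Finset.sum_congr rfl (fun j hj => by rw [Function.update_of_ne (Finset.ne_of_mem_erase hj)])]
      omega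
    omega

end Crest.Agent.R195
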