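import Crest.Agent.R195.QBlk4X

/-!
# R195 / QBlk4 (helper50): the block whose `T`-columns are the two table columns
-/

set_option autoImplicit false
set_option linter.unusedSectionVars false
open Finset

noncomputable section
namespace Crest.Agent.R195

/-- private letters: the `T`-label `c ≥ 2` goes with the column letter `c` and the row letter `c % 2` -/
def rho4 (a b c : ℕ) : ℤ := if c = b ∧ a = b % 2 then 1 else 0

/-- Laplace expansion along the last column, induction on `n` (`Matrix.det_succ_column`). -/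
theorem blk4_det (τ : ℕ → ℕ → ℕ → ℤ) (hb : ∀ a b c, a < 2 → 2 ≤ b → τ a b c = rho4 a b c) (n : ℕ)
    (α : Fin (n + 2) → ℕ) (hα : ∀ i, α i < 2) :
    (Matrix.of fun i j : Fin (n + 2) => τ (α i) j i).det =
      (τ (α 0) 0 0 * τ (α 1) 1 1 - τ (α 0) 1 0 * τ (α 1) 0 1) *
        ∏ i : Fin n, if α i.succ.succ = (i : ℕ) % 2 then 1 else 0 := by
  induction n with
  | zero => simp [Matrix.det_fin_two]
  | succ n ih =>
    have hcol : ∀ i : Fin (n + 1 + 2), τ (α i) (Fin.last (n + 2) : ℕ) i =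
        if (i : ℕ) = n + 2 ∧ α i = (n + 2) % 2 then 1 else 0 := fun i => by
      rw [Fin.val_last, hb _ _ _ (hα i) (by omega)]; rfl
    rw [Matrix.det_succ_column _ (Fin.last (n + 2)), sum_eq_single (Fin.last (n + 2))]
    · have h1 : (Matrix.of fun i j : Fin (n + 1 + 2) => τ (α i) j i).submatrix
          (Fin.last (n + 2)).succAbove (Fin.last (n + 2)).succAbove =
          Matrix.of fun i j : Fin (n + 2) => τ ((α ∘ Fin.castSucc) i) j i := by
        ext i j
        simp [Fin.succAbove_last]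
      rw [h1, ih (α ∘ Fin.castSucc) fun i => hα _, Fin.prod_univ_castSucc, Matrix.of_apply, hcol]
      have h2 : (Fin.last n).succ.succ = Fin.last (n + 2) := rfl
      have h3 : ((-1 : ℤ)) ^ ((Fin.last (n + 2) : ℕ) + (Fin.last (n + 2) : ℕ)) = 1 :=
        Even.neg_one_pow ⟨_, rfl⟩
      have h4 : (n + 2) % 2 = n % 2 := by omega
      rw [h2, h3, h4]
      simp only [Fin.val_last, true_and, Function.comp_apply, Fin.val_castSucc, Fin.succ_castSucc,
        Fin.castSucc_zero, Fin.castSucc_one]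
      ring
    · intro i _ hi
      rw [Matrix.of_apply, hcol, if_neg fun h => hi (Fin.ext h.1)]
      ring
    · exact fun h => absurd (mem_univ _) h

/-- for a Clifford system the `2 × 2` factor is `g * [a ≠ a']` with `g ≠ 0` (`decide` after `fin_cases`) -/
theorem IsCl.pair {τ : ℕ → ℕ → ℕ → ℤ} (h : IsCl τ) : ∃ g : ℤ, g ≠ 0 ∧ ∀ a a' : ℕ, a < 2 → a' < 2 →
    τ a 0 0 * τ a' 1 1 - τ a 1 0 * τ a' 0 1 = if a = a' then 0 else g := by
  obtain ⟨ε, h⟩ := h
  refine ⟨τ 0 0 0 * τ 1 1 1 - τ 0 1 0 * τ 1 0 1, ?_⟩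
  rcases h with h | h
  all_goals
    have e1 : τ 0 0 0 = _ := h 0 0 0
    have e2 : τ 0 0 1 = _ := h 0 0 1
    have e3 : τ 0 1 0 = _ := h 0 1 0
    have e4 : τ 0 1 1 = _ := h 0 1 1
    have e5 : τ 1 0 0 = _ := h 1 0 0
    have e6 : τ 1 0 1 = _ := h 1 0 1
    have e7 : τ 1 1 0 = _ := h 1 1 0
    have e8 : τ 1 1 1 = _ := h 1 1 1
    refine ⟨?_, fun a a' ha ha' => ?_⟩
    · rw [e1, e3, e6, e8]
      clear e1 e2 e3 e4 e5 e6 e7 e8 h
      revert ε; decide
    · interval_cases a <;> interval_cases a' <;> simp only [e1, e2, e3, e4, e5, e6, e7, e8] <;>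
        clear e1 e2 e3 e4 e5 e6 e7 e8 h <;> revert ε <;> decide

theorem qb4a_det (τ : ℕ → ℕ → ℕ → ℤ) (hb : ∀ a b c, a < 2 → 2 ≤ b → τ a b c = rho4 a b c) {g : ℤ}
    (hg : ∀ a a' : ℕ, a < 2 → a' < 2 → τ a 0 0 * τ a' 1 1 - τ a 1 0 * τ a' 0 1 = if a = a' then 0 else g)
    {N n : ℕ} (hN : N = n + 2) (α : Fin N → ℕ) (hα : ∀ i, α i < 2) [Decidable (qb4a_P α)] :
    (cdet (fun _ : Fin N => ()) (fun i => (i : ℕ)) fun j b => τ (α j) b j) =
      if qb4a_P α then g else 0 := by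
  subst hN
  have h1 := blk4_det τ hb n α hα
  unfold cdet
  simp only [if_true]
  rw [h1, hg _ _ (hα 0) (hα 1), prod_boole]
  simp only [qb4a_P_iff, mem_univ, forall_const]
  by_cases h2 : α 0 = α 1 <;> by_cases h3 : ∀ i : Fin n, α i.succ.succ = (i : ℕ) % 2 <;> simp [h2, h3]

/-- the pattern of row letters along one column -/
def Pat4 {n : ℕ} (α : Fin (n + 2) → ℕ) : Prop :=
  α 0 ≠ α 1 ∧ ∀ i : Fin n, α i.succ.succ = (i : ℕ) % 2

/-- SUM OVER THE COLUMN LETTERS.  With `a i < 2` for all `i`: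
`∑ b, EZ tbC tbB b * cdet tbC tbI (τ (a i) (b i) ·) = g² * #{h ∈ blockGrp tbC | both columns of a ∘ h have
the pattern Pat4}`.  Expand `cdet` (`cdet_eq_sum`) over `h`, `EZ` over `g` (`sum_EZ_smul`); the sum over `g`
is `cdet tbC tbB' (fun i b => τ (a i) b (tbI (h i)))`; permute the rows by `h` (`cdet_perm`), split into the two
columns (`cdet_sum₁₂`), `blk4_det`, `IsCl.pair`.  Only this consequence is needed: -/
theorem blk4_col (t δ : ℕ) (τ : ℕ → ℕ → ℕ → ℤ) (hτ : IsCl τ)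
    (hb : ∀ a b c, a < 2 → 2 ≤ b → τ a b c = rho4 a b c) :
    ∃ g : ℤ, 0 < g ∧ ∀ a : TB t δ → ℕ, (∀ i, a i < 2) → ∃ n : ℕ,
      (∑ b : TB t δ → Fin (t + 2 + δ), EZ (tbC t δ) (tbB t δ) b *
        cdet (tbC t δ) (tbI t δ) fun i c => τ (a i) (b i) c) = g * n ∧
      (0 < n ↔ (∑ i, a (.inl i) = (t + δ) / 2 + 1 ∧ ∑ i, a (.inr i) = t / 2 + 1)) := by
  classical
  obtain ⟨g, hg0, hg⟩ := hτ.pair
  refine ⟨g * g, mul_self_pos.2 hg0, fun a ha => ⟨((blockGrp (tbC t δ)).filter fun h =>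
    qb4a_P (fun i => a (h⁻¹ (.inl i))) ∧ qb4a_P fun i => a (h⁻¹ (.inr i))).card, ?_, ?_⟩⟩
  · rw [qb4a_expand (tbC t δ) (tbB t δ) (tbI t δ) (by rintro (i | i) <;> rfl) τ a, card_filter]
    push_cast
    rw [mul_sum]
    refine sum_congr rfl fun h _ => ?_
    rw [cdet_sum₁₂ _ _ _ fun i j hij => absurd hij (by simp [tbC])]
    have e1 := qb4a_det τ hb hg (N := t + 2 + δ) (n := t + δ) (by omega) (fun i => a (h⁻¹ (.inl i)))
      fun i => ha _
    have e2 := qb4a_det τ hb hg (N := t + 2) (n := t) rfl (fun i => a (h⁻¹ (.inr i))) fun i => ha _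
    refine (congrArg₂ (· * ·)
      ((cdet_congr (col := tbC t δ ∘ Sum.inl) (fun _ _ => by simp [tbC]) fun _ _ _ => rfl).trans e1)
      ((cdet_congr (col := tbC t δ ∘ Sum.inr) (fun _ _ => by simp [tbC]) fun _ _ _ => rfl).trans e2)).trans ?_
    by_cases h1 : qb4a_P (fun i => a (h⁻¹ (.inl i))) <;> by_cases h2 : qb4a_P (fun i => a (h⁻¹ (.inr i))) <;>
      simp only [h1, h2, if_true, if_false, and_self, and_false, and_true, mul_one, mul_zero,
        zero_mul]
  · rw [card_pos]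
    constructor
    · rintro ⟨h, hh⟩
      obtain ⟨hh, h1, h2⟩ := mem_filter.1 hh
      have s0 := qb4a_sum_blk (inv_mem_blockGrp hh) a 0
      have s1 := qb4a_sum_blk (inv_mem_blockGrp hh) a 1
      have p1 := qb4a_P_sum (n := t + δ) (by omega) (fun i => ha _) h1
      have p2 := qb4a_P_sum (n := t) rfl (fun i => ha _) h2
      simp only [Fintype.sum_sum_type, tbC, Sum.elim_inl, Sum.elim_inr, if_true, zero_ne_one,
        one_ne_zero, if_false, sum_const_zero, add_zero, zero_add] at s0 s1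
      exact ⟨s0.symm.trans p1, s1.symm.trans p2⟩
    · rintro ⟨h1, h2⟩
      obtain ⟨σ₁, p1⟩ := qb4a_exists_perm (n := t + δ) (by omega) (fun i => ha (.inl i)) h1
      obtain ⟨σ₂, p2⟩ := qb4a_exists_perm (n := t) rfl (fun i => ha (.inr i)) h2
      refine ⟨(Equiv.sumCongr σ₁ σ₂ : Equiv.Perm (TB t δ))⁻¹, mem_filter.2 ⟨inv_mem_blockGrp ?_, ?_, ?_⟩⟩
      · rw [mem_blockGrp]
        rintro (i | i) <;> rfl
      · rw [inv_inv]; exact p1
      · rw [inv_inv]; exact p2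

/-- the forced letter -/
def x4 (t δ : ℕ) : Fin 2 := if t % 2 = 0 ∨ δ = 1 then 1 else 0

theorem qb4b_inj {t δ : ℕ} {A : Type} {u : TB t δ → A}
    (h : ∀ (i : Fin (t + 2 + δ)) (j : Fin (t + 2)), tbR t δ (.inl i) = tbR t δ (.inr j) →
      u (.inl i) ≠ u (.inr j)) : BlockInj (tbR t δ) u := by
  rintro (i | i) (j | j) h1 h2
  · exact congrArg _ (Fin.ext h1)
  · exact absurd h2 (h i j h1)
  · exact absurd h2.symm (h j i h1.symm)
  · simp only [tbR, Sum.elim_inr] at h1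
    refine congrArg _ (Fin.ext ?_)
    split_ifs at h1 <;> omega

theorem qb4b_sign {t δ : ℕ} {g : Equiv.Perm (TB t δ)} (hg : g ∈ blockGrp (tbR t δ)) :
    ((Equiv.Perm.sign g : ℤˣ) : ℤ) = (-1) ^ ∑ i, (tbA t δ (g (.inl i)) : ℕ) := by
  have hs : ∀ u : TB t δ → Bool, ∀ i j, u (.inl i) ≠ u (.inr j) →
      (∏ k, if (u ∘ Equiv.swap (.inl i) (.inr j)) (.inl k) then (-1 : ℤ) else 1) =
        -∏ k, if u (.inl k) then (-1 : ℤ) else 1 := by
    intro u i j hne
    rw [Fintype.prod_eq_mul_prod_compl i, Fintype.prod_eq_mul_prod_compl i, ← neg_mul]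
    congr 1
    · simp only [Function.comp_apply, Equiv.swap_apply_left]
      revert hne
      cases u (.inl i) <;> cases u (.inr j) <;> simp
    · refine prod_congr rfl fun k hk => ?_
      rw [Function.comp_apply, Equiv.swap_apply_of_ne_of_ne (by simpa using hk) (by simp)]
  have h := sign_of_swap (c := tbR t δ) (fun u : TB t δ → Bool =>
    ∏ k, if u (.inl k) then (-1 : ℤ) else 1) (by
      rintro u hu (i | i) (j | j) hne hc
      · exact absurd (qb4b_inj (u := Sum.isRight) (by simp) _ _ hc rfl) hne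
      · exact hs u i j fun h => hne (hu _ _ hc h)
      · rw [Equiv.swap_comm]
        exact hs u j i fun h => hne (hu _ _ hc h.symm)
      · exact absurd (qb4b_inj (u := Sum.isRight) (by simp) _ _ hc rfl) hne)
    (r := Sum.isRight) (qb4b_inj (by simp)) hg
  simp only [Sum.isRight_inl, Bool.false_eq_true, if_false, prod_const_one, smul_eq_mul,
    mul_one] at h
  rw [← h, ← prod_pow_eq_pow_sum]
  refine prod_congr rfl fun k _ => ?_
  rw [Function.comp_apply]
  cases g (.inl k) <;> simp [tbA]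

theorem qb4b_supp {t δ : ℕ} (a : TB t δ → Fin (t + 2 + δ)) (hz : (a (tbZ t δ) : ℕ) < 2)
    (hE : EZ (tbR t δ) (tbA t δ) (Function.update a (tbZ t δ) (tbA t δ (tbZ t δ))) ≠ 0) :
    (∀ i, (a i : ℕ) < 2) ∧
      ∑ i, (a (.inl i) : ℕ) + ∑ i, (a (.inr i) : ℕ) + 1 = t + 2 + a (tbZ t δ) ∧
      EZ (tbR t δ) (tbA t δ) (Function.update a (tbZ t δ) (tbA t δ (tbZ t δ))) =
        (-1) ^ ∑ i, (a (.inl i) : ℕ) := by
  obtain ⟨g, hg, e⟩ := exists_of_EZ_ne_zero hE
  have h1 : ∀ i, i ≠ tbZ t δ → a i = tbA t δ (g i) := fun i hi => by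
    have := congrFun e i
    rwa [Function.update_of_ne hi] at this
  refine ⟨fun i => ?_, ?_, ?_⟩
  · by_cases hi : i = tbZ t δ
    · rwa [hi]
    · rw [h1 i hi]
      cases g i <;> simp [tbA]
  · have h2 : ∑ i, (tbA t δ (g i) : ℕ) = t + 2 := by
      rw [Equiv.sum_comp g fun i => (tbA t δ i : ℕ)]
      simp [tbA]
    have h3 : (tbA t δ (g (tbZ t δ)) : ℕ) = 1 := by
      have := congrFun e (tbZ t δ)
      rw [Function.update_self, Function.comp_apply] at this
      rw [← this]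
      rfl
    rw [← Fintype.sum_sum_type fun i => (a i : ℕ), Fintype.sum_eq_add_sum_compl (tbZ t δ),
      sum_congr rfl fun i hi => by rw [h1 i (by simpa using hi)]]
    rw [Fintype.sum_eq_add_sum_compl (tbZ t δ), h3] at h2
    omega
  · rw [e, EZ_of_mem (qb4b_inj (by simp [tbA])) hg, qb4b_sign hg]
    congr 1
    exact sum_congr rfl fun i _ => by rw [h1 _ (by simp [tbZ])]

theorem qb4b_word (t δ : ℕ) (hδ : δ ≤ 1) (K : ℕ) (hK : K ≤ t + 1) :
    ∃ u : TB t δ → Fin (t + 2 + δ), EZ (tbR t δ) (tbA t δ) u ≠ 0 ∧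
      tbA t δ (tbZ t δ) = u (tbZ t δ) ∧ ∑ i, (u (.inl i) : ℕ) = K := by
  refine ⟨Sum.elim (fun i => if (i : ℕ) < K then ⟨1, by omega⟩ else ⟨0, by omega⟩)
    fun i => if (i : ℕ) < K then ⟨0, by omega⟩ else ⟨1, by omega⟩, ?_, ?_, ?_⟩
  · obtain ⟨g, hg, e⟩ := exists_blockGrp_of_image (c := tbR t δ) (r := tbA t δ)
      (u := Sum.elim (fun i => if (i : ℕ) < K then ⟨1, by omega⟩ else ⟨0, by omega⟩)
        fun i => if (i : ℕ) < K then ⟨0, by omega⟩ else ⟨1, by omega⟩) (qb4b_inj fun i j h => by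
          simp only [tbR, Sum.elim_inl, Sum.elim_inr] at h ⊢
          have := i.2
          split_ifs at h ⊢ <;> simp <;> omega) (by
        rintro (i | i)
        · by_cases h : (i : ℕ) < K
          · exact ⟨.inr ⟨i, by omega⟩, by simp [tbR]; omega, by simp [tbA, h]⟩
          · exact ⟨.inl i, rfl, by simp [tbA, h]⟩
        · by_cases h : (i : ℕ) < K
          · exact ⟨.inl ⟨i, by omega⟩, by simp [tbR]; omega, by simp [tbA, h]⟩
          · exact ⟨.inr i, rfl, by simp [tbA, h]⟩)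
    rw [e, EZ_of_mem (qb4b_inj (by simp [tbA])) hg]
    exact Units.ne_zero _
  · simp [tbA, tbZ, hK.not_gt]
  · simp only [Sum.elim_inl, apply_ite Fin.val, sum_boole, Nat.cast_id, Fin.card_filter_val_lt]
    omega

/-- A word `a` with `EZ tbR tbA (update a z 1) ≠ 0` has letters `< 2` off `z`, `a (inl i) + a (inr i) = 1`
for `i ≤ t`, `a (inl i) = 0` for `i > t`, and `EZ = (-1) ^ ∑ i, a (inl i)` (induct on the number of
exchanged rows with `EZ_comp` and row swaps, or `eq_EZ` for the explicit product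
`∏_{i ≤ t} (a (inr i) - a (inl i)) * …`).  So `∑ a (inr ·) = t + 1 - ∑ a (inl ·) + a z`; `blk4_col` forces
`a z = x4 t δ`, all terms have the sign `(-1) ^ ((t+δ)/2+1)`, and the word with `a (inl i) = 1` exactly for
`i < (t+δ)/2+1` contributes. -/
theorem blkOK4 (t δ : ℕ) (hδ : δ ≤ 1) : BlkOK t δ (tbC t δ) (tbI t δ) rho4 (x4 t δ) := by
  intro τ hτ hb
  obtain ⟨g, hg, H⟩ := blk4_col t δ τ hτ hb
  obtain ⟨G, hG⟩ : ∃ G : (TB t δ → Fin (t + 2 + δ)) → ℤ, ∀ a, G a =
      ∑ b : TB t δ → Fin (t + 2 + δ), EZ (tbC t δ) (tbB t δ) b *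
        cdet (tbC t δ) (tbI t δ) fun i c => τ (a i) (b i) c := ⟨_, fun _ => rfl⟩
  have e : ∀ x : ℕ, blkPhi (tbR t δ) (tbC t δ) (tbA t δ) (tbB t δ) (tbZ t δ) (tbC t δ) (tbI t δ) τ x =
      ∑ a : TB t δ → Fin (t + 2 + δ), if (a (tbZ t δ) : ℕ) = x then
        EZ (tbR t δ) (tbA t δ) (Function.update a (tbZ t δ) (tbA t δ (tbZ t δ))) * G a else 0 := by
    intro x
    refine sum_congr rfl fun a _ => ?_
    split_ifs
    · simp only [hG, mul_sum, mul_assoc]
    · exact sum_const_zero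
  have hx : ((x4 t δ : Fin 2) : ℕ) + t = (t + δ) / 2 + t / 2 + 1 := by
    unfold x4
    split_ifs <;> simp <;> omega
  have key : ∀ a : TB t δ → Fin (t + 2 + δ), (a (tbZ t δ) : ℕ) < 2 →
      EZ (tbR t δ) (tbA t δ) (Function.update a (tbZ t δ) (tbA t δ (tbZ t δ))) ≠ 0 → ∃ n : ℕ,
      (-1) ^ ((t + δ) / 2 + 1) * (EZ (tbR t δ) (tbA t δ)
        (Function.update a (tbZ t δ) (tbA t δ (tbZ t δ))) * G a) = g * n ∧
      (0 < n ↔ ∑ i, (a (.inl i) : ℕ) = (t + δ) / 2 + 1 ∧ (a (tbZ t δ) : ℕ) = x4 t δ) := by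
    intro a hz hE
    obtain ⟨h1, h2, h3⟩ := qb4b_supp a hz hE
    obtain ⟨n, hn, hn'⟩ := H (fun i => a i) h1
    refine ⟨n, ?_, hn'.trans ⟨fun h => ⟨h.1, by omega⟩, fun h => ⟨h.1, by omega⟩⟩⟩
    rw [hG, hn, h3]
    rcases Nat.eq_zero_or_pos n with rfl | h0
    · simp
    · rw [(hn'.1 h0).1, ← mul_assoc, ← mul_pow]
      simp
  constructor
  · refine right_ne_zero_of_mul (a := (-1) ^ ((t + δ) / 2 + 1)) (ne_of_gt ?_)
    rw [e, mul_sum]
    refine sum_pos' (fun a _ => ?_) ?_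
    · split_ifs with hz
      · by_cases hE : EZ (tbR t δ) (tbA t δ) (Function.update a (tbZ t δ) (tbA t δ (tbZ t δ))) = 0
        · simp [hE]
        · obtain ⟨n, hn, -⟩ := key a (hz ▸ (x4 t δ).2) hE
          rw [hn]
          positivity
      · simp
    · obtain ⟨u, hu1, hu2, hu3⟩ := qb4b_word t δ hδ ((t + δ) / 2 + 1) (by omega)
      have hz : ((Function.update u (tbZ t δ) (Fin.castLE (by omega) (x4 t δ)) (tbZ t δ) :
        Fin (t + 2 + δ)) : ℕ) = x4 t δ := by simp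
      refine ⟨Function.update u (tbZ t δ) (Fin.castLE (by omega) (x4 t δ)), mem_univ _, ?_⟩
      obtain ⟨n, hn, hn'⟩ := key _ (hz ▸ (x4 t δ).2) (by
        rwa [Function.update_idem, hu2, Function.update_eq_self])
      rw [if_pos hz, hn]
      exact mul_pos hg (Nat.cast_pos.2 (hn'.2 ⟨by simpa [tbZ] using hu3, hz⟩))
  · rw [e]
    refine sum_eq_zero fun a _ => ?_
    split_ifs with hz
    · by_contra hne
      obtain ⟨n, hn, hn'⟩ := key a (hz ▸ (x4 t δ + 1).2) (left_ne_zero_of_mul hne)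
      rcases Nat.eq_zero_or_pos n with rfl | h0
      · simp [hne] at hn
      · have h1 := hz.symm.trans (hn'.1 h0).2
        revert h1
        generalize x4 t δ = x
        revert x
        decide
    · rfl

end Crest.Agent.R195
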