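import Crest.Agent.R195.QGlue

/-!
# R195 / QBlk4X (helper87): helpers for `QBlk4` (column patterns, double expansion)
-/

set_option autoImplicit false
set_option linter.unusedSectionVars false
open Finset

noncomputable section
namespace Crest.Agent.R195

/-- the pattern of row letters along a column of arbitrary length -/
def qb4a_P {N : ℕ} (α : Fin N → ℕ) : Prop :=
  (∀ i j : Fin N, (i : ℕ) = 0 → (j : ℕ) = 1 → α i ≠ α j) ∧ ∀ i : Fin N, 2 ≤ (i : ℕ) → α i = (i : ℕ) % 2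

theorem qb4a_P_iff {n : ℕ} (α : Fin (n + 2) → ℕ) :
    qb4a_P α ↔ α 0 ≠ α 1 ∧ ∀ i : Fin n, α i.succ.succ = (i : ℕ) % 2 := by
  constructor
  · rintro ⟨h1, h2⟩
    refine ⟨h1 0 1 rfl rfl, fun i => ?_⟩
    rw [h2 _ (by simp)]
    simp only [Fin.val_succ]
    omega
  · rintro ⟨h1, h2⟩
    refine ⟨fun i j hi hj => ?_, fun i hi => ?_⟩
    · obtain rfl : i = 0 := Fin.ext hi
      obtain rfl : j = 1 := Fin.ext hj
      exact h1
    · have h3 := h2 ⟨i - 2, by omega⟩
      have h4 : (⟨i - 2, by omega⟩ : Fin n).succ.succ = i := Fin.ext (by simp only [Fin.val_succ]; omega)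
      rw [h4] at h3
      rw [h3]
      simp only
      omega

theorem qb4a_sum_mod (n : ℕ) : ∑ i : Fin n, (i : ℕ) % 2 = n / 2 := by
  induction n with
  | zero => rfl
  | succ n ih =>
    rw [Fin.sum_univ_castSucc]
    simp only [Fin.val_castSucc, Fin.val_last]
    omega

theorem qb4a_P_sum {N n : ℕ} (hN : N = n + 2) {α : Fin N → ℕ} (hα : ∀ i, α i < 2) (h : qb4a_P α) :
    ∑ i, α i = n / 2 + 1 := by
  subst hN
  rw [qb4a_P_iff] at h
  rw [Fin.sum_univ_succ, Fin.sum_univ_succ, sum_congr rfl fun i _ => h.2 i, qb4a_sum_mod]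
  have h0 := hα 0
  have h1 := hα 1
  have h2 := h.1
  have h3 : (Fin.succ 0 : Fin (n + 2)) = 1 := rfl
  rw [h3]
  omega

theorem qb4a_cnt {ι : Type} [Fintype ι] [DecidableEq ι] {u : ι → ℕ} (hu : ∀ i, u i < 2) (k : ℕ) :
    cnt u k = if k = 0 then Fintype.card ι - ∑ i, u i else if k = 1 then ∑ i, u i else 0 := by
  have h1 : ∀ k, cnt u k = ∑ i, if u i = k then 1 else 0 := fun k => by
    unfold cnt
    rw [card_filter]
    exact sum_congr rfl fun i _ => by congr
  rw [h1]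
  split_ifs with h0 h2
  · subst h0
    have : (∑ i, if u i = 0 then 1 else 0) + ∑ i, u i = Fintype.card ι := by
      rw [← sum_add_distrib, Fintype.card, card_eq_sum_ones]
      refine sum_congr rfl fun i _ => ?_
      have := hu i
      split_ifs <;> omega
    omega
  · subst h2
    refine sum_congr rfl fun i _ => ?_
    have := hu i
    split_ifs <;> omega
  · refine sum_eq_zero fun i _ => ?_
    have := hu i
    rw [if_neg (by omega)]

theorem qb4a_exists_perm {N n : ℕ} (hN : N = n + 2) {α : Fin N → ℕ} (hα : ∀ i, α i < 2)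
    (h : ∑ i, α i = n / 2 + 1) : ∃ σ : Equiv.Perm (Fin N), qb4a_P (α ∘ σ) := by
  have hp : ∀ i : Fin N, (i : ℕ) % 2 < 2 := fun i => Nat.mod_lt _ two_pos
  have hs : ∑ i : Fin N, (i : ℕ) % 2 = ∑ i, α i := by rw [qb4a_sum_mod, h]; omega
  obtain ⟨σ, hσ⟩ := exists_perm_of_cnt (u := α) (u' := fun i : Fin N => (i : ℕ) % 2) fun k => by
    rw [qb4a_cnt hα, qb4a_cnt hp, hs]
  refine ⟨σ, ?_⟩
  rw [← hσ]
  exact ⟨fun i j hi hj => by simp only [hi, hj]; omega, fun i _ => rfl⟩

/-- sums over a block are invariant under the block group -/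
theorem qb4a_sum_blk {ι κ : Type} [Fintype ι] [DecidableEq ι] [DecidableEq κ] {c : ι → κ}
    {h : Equiv.Perm ι} (hh : h ∈ blockGrp c) (a : ι → ℕ) (k : κ) :
    (∑ i, if c i = k then a (h i) else 0) = ∑ i, if c i = k then a i else 0 := by
  rw [← Equiv.sum_comp h fun i => if c i = k then a i else 0]
  exact sum_congr rfl fun i _ => by rw [mem_blockGrp.1 hh i]

/-- the double expansion -/
theorem qb4a_expand {ι : Type} [Fintype ι] [DecidableEq ι] {N : ℕ} (c : ι → ℕ) (B : ι → Fin N)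
    (I : ι → ℕ) (hI : ∀ i, (B i : ℕ) = I i) (τ : ℕ → ℕ → ℕ → ℤ) (a : ι → ℕ) :
    (∑ b : ι → Fin N, EZ c B b * cdet c I fun i x => τ (a i) (b i) x) =
      ∑ h ∈ blockGrp c, cdet c I fun j b => τ (a (h⁻¹ j)) b (I j) := by
  have h1 := sum_EZ_smul c B fun b => cdet c I fun i x => τ (a i) (b i) x
  simp only [smul_eq_mul] at h1
  rw [h1]
  simp only [cdet_eq_sum c I fun i x => τ (a i) _ x, cg_eq_blockGrp, mul_sum]
  rw [sum_comm]
  refine sum_congr rfl fun h hh => ?_
  have h2 := cdet_perm (col := c) (σ := h) (by rwa [cg_eq_blockGrp]) I fun j b => τ (a (h⁻¹ j)) b (I j)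
  have h3 : (cdet c I fun j b => τ (a (h⁻¹ j)) b (I j)) = ((Equiv.Perm.sign h : ℤˣ) : ℤ) *
      cdet c I ((fun j b => τ (a (h⁻¹ j)) b (I j)) ∘ h) := by
    rw [h2]
    simp only [Int.cast_id]
    rw [← mul_assoc, sign_mul_self', one_mul]
  rw [h3, cdet_eq_sum, cg_eq_blockGrp, mul_sum]
  refine sum_congr rfl fun g _ => ?_
  simp only [Function.comp_apply, hI, Int.cast_id, Equiv.Perm.coe_inv, Equiv.symm_apply_apply]
  ring

end Crest.Agent.R195
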