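import Crest.Agent.R195.QGR

/-!
# R195 / QCond (helper50): the numerical conditions of the tools (`M = n + 4`)
-/

set_option autoImplicit false
open Finset

namespace Crest.Agent.R195

/-- the first `b` columns carry blocks of heights `g`, a path of `P` cells takes at most four cells from
each other column, the rest goes to the inner table -/
def Cond (n b : ℕ) (g : ℕ → ℕ) (P s₁ s₂ : ℕ) (c : ℕ → ℕ) : Prop :=
  (∀ i < b, g i ≤ c i) ∧ ∀ (J : Finset ℕ) (k : ℕ), J ⊆ range b →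
    ∑ i ∈ J, (c i - g i) + ∑ i ∈ range k, c (b + i) ≤ Th s₁ s₂ (J.card + k) n + min P (4 * k)

/-- block heights for four columns -/
def g4 (t δ i : ℕ) : ℕ := if i < 2 then t + 2 + δ else t + 2

/-- one of the tools applies to the column heights `c` (supported below `N`) -/
def Tool (n e δ N : ℕ) (c : ℕ → ℕ) : Prop :=
  (e + 2 + δ ≤ c 1 ∧ e + 2 ≤ c 3 ∧ 2 * n ≤ ∑ i ∈ range N, min (c (4 + i)) 4 + 1) ∨
  (2 * e + 4 + δ ≤ c 1 ∧ 2 * n ≤ ∑ i ∈ range N, min (c (2 + i)) 4 + 1) ∨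
  (∃ t < e, Cond n 4 (g4 t δ) (2 * (n + (e - t)) - 1) (e - t) (e - t) c) ∨
  (∃ t < e, Cond n 2 (fun _ => 2 * t + 4 + δ) (2 * (n + (e - t)) - 1) (e - t) (e - t) c) ∨
  (δ = 0 ∧ Cond n 0 (fun _ => 0) (2 * (n + e) + 7) e e c) ∨
  (δ = 1 ∧ Cond n 1 (fun _ => 1) (2 * (n + e) + 7) (e + 1) e c)

/-- no semigroup reduction applies to the column gaps -/
def Irr (e δ : ℕ) (c : ℕ → ℕ) : Prop :=
  (1 ≤ e → c 0 ≤ c 1 + 3) ∧ (δ = 1 → c 0 ≤ c 1 + 1) ∧ (2 ≤ e → c 1 ≤ c 2 + 3) ∧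
    (3 ≤ e → c 2 ≤ c 3 + 3) ∧ (3 ≤ e → c 0 ≤ c 1 + 1 ∨ c 1 ≤ c 2 + 1 ∨ c 2 ≤ c 3 + 1)

end Crest.Agent.R195
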