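import Crest.Agent.R195.QCond

/-!
# R195 / QCov1 (helper50): features of a column sequence and two criteria for `Cond`
-/

set_option autoImplicit false
open Finset

namespace Crest.Agent.R195

/-- `∑ i ∈ range k, f i`, kernel friendly -/
def sm (f : ℕ → ℕ) : ℕ → ℕ
  | 0 => 0
  | k + 1 => sm f k + f k

theorem sm_eq (f : ℕ → ℕ) (k : ℕ) : sm f k = ∑ i ∈ range k, f i := by
  induction k with
  | zero => rfl
  | succ k ih => rw [sm, ih, sum_range_succ]

/-- what is used about the columns beyond the fourth: `R` cells in all, at least `cap` of them in the first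
four rows -/
structure Feat (c : ℕ → ℕ) (R cap : ℕ) : Prop where
  anti : Antitone c
  le_R : ∀ k, ∑ i ∈ range k, c (4 + i) ≤ R
  le_cap : ∀ k, ∑ i ∈ range k, c (4 + i) + cap ≤ R + 4 * k

theorem Feat.mono {c : ℕ → ℕ} {R cap cap' : ℕ} (h : Feat c R cap) (hc : cap' ≤ cap) : Feat c R cap' :=
  ⟨h.anti, h.le_R, fun k => le_trans (by omega) (h.le_cap k)⟩

theorem qc1a_ext {f : ℕ → ℕ} {N : ℕ} (hf : ∀ j, N ≤ j → f j = 0) (M : ℕ) (hM : N ≤ M) :
    ∑ i ∈ range N, f i = ∑ i ∈ range M, f i := by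
  refine sum_subset (range_subset_range.2 hM) fun i _ hi => hf i ?_
  simpa using hi

/-- the true values.  For `k ≥ N` the extra terms vanish; for `k ≤ N` split `range N` at `k`
(`Finset.sum_range_add`/`sum_Ico`); `4 * c ≤ min c 4 * max (c 3) 4` termwise. -/
theorem feat_true {c : ℕ → ℕ} (hc : Antitone c) {N : ℕ} (h4 : 4 ≤ N) (hN : ∀ j, N ≤ j → c j = 0) :
    Feat c (∑ i ∈ range N, c (4 + i)) (∑ i ∈ range N, min (c (4 + i)) 4) ∧
    ∑ j ∈ range N, c j = c 0 + c 1 + c 2 + c 3 + ∑ i ∈ range N, c (4 + i) ∧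
    ∑ j ∈ range N, min (c j) 4 = min (c 0) 4 + min (c 1) 4 + min (c 2) 4 + min (c 3) 4 +
      ∑ i ∈ range N, min (c (4 + i)) 4 ∧
    ∑ j ∈ range N, min (c (2 + j)) 4 = min (c 2) 4 + min (c 3) 4 + ∑ i ∈ range N, min (c (4 + i)) 4 ∧
    4 * ∑ i ∈ range N, c (4 + i) ≤ (∑ i ∈ range N, min (c (4 + i)) 4) * max (c 3) 4 ∧
    ∑ i ∈ range N, min (c (4 + i)) 4 ≤ ∑ i ∈ range N, c (4 + i) ∧
    (c 3 = 0 → ∑ i ∈ range N, c (4 + i) = 0) := by
  have _ := h4
  have h0 : ∀ j, N ≤ j → c (4 + j) = 0 := fun j hj => hN _ (by omega)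
  have h1 : ∀ j, N ≤ j → min (c (4 + j)) 4 = 0 := fun j hj => by rw [h0 j hj]; rfl
  refine ⟨⟨hc, fun k => ?_, fun k => ?_⟩, ?_, ?_, ?_, ?_, ?_, fun h3 => ?_⟩
  · rw [qc1a_ext h0 (k + N) (by omega), sum_range_add]
    exact Nat.le_add_right _ _
  · rw [qc1a_ext h0 (k + N) (by omega), qc1a_ext h1 (k + N) (by omega), sum_range_add, sum_range_add]
    have ha : ∑ i ∈ range k, min (c (4 + i)) 4 ≤ 4 * k := by
      calc ∑ i ∈ range k, min (c (4 + i)) 4 ≤ ∑ _i ∈ range k, 4 := sum_le_sum fun i _ => min_le_right _ _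
        _ = 4 * k := by simp [mul_comm]
    have hb : ∑ i ∈ range N, min (c (4 + (k + i))) 4 ≤ ∑ i ∈ range N, c (4 + (k + i)) :=
      sum_le_sum fun i _ => min_le_left _ _
    omega
  · rw [qc1a_ext hN (4 + N) (by omega), sum_range_add]
    simp [sum_range_succ]
  · rw [qc1a_ext (f := fun j => min (c j) 4) (fun j hj => by simp [hN j hj]) (4 + N) (by omega),
      sum_range_add]
    simp [sum_range_succ]
  · rw [qc1a_ext (f := fun j => min (c (2 + j)) 4) (fun j hj => by simp [hN (2 + j) (by omega)]) (2 + N)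
      (by omega), sum_range_add]
    have : ∀ i, 2 + (2 + i) = 4 + i := fun i => by omega
    simp [sum_range_succ, this]
  · rw [mul_sum, sum_mul]
    refine sum_le_sum fun i _ => ?_
    have hi : c (4 + i) ≤ c 3 := hc (by omega)
    rcases le_total (c (4 + i)) 4 with h | h
    · rw [min_eq_left h, mul_comm]
      exact Nat.mul_le_mul_left _ (le_max_right _ _)
    · rw [min_eq_right h]
      exact Nat.mul_le_mul_left _ (hi.trans (le_max_left _ _))
  · exact sum_le_sum fun i _ => min_le_left _ _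
  · refine sum_eq_zero fun i _ => ?_
    have hi : c (4 + i) ≤ c 3 := hc (by omega)
    omega

/-- the path always fits.  `L = c₀+c₁+c₂+c₃`; suppose `cap ≤ 2n - 2`.  If `c₃ ≥ 4`: `L ≤ cap + 16`,
`4 c₃ ≤ L`, `16 (L + R) ≤ L (cap + 16) ≤ (2n+14)²`, against `2 (L+R) ≥ (n+4)(n+5) + 4`.  If `c₃ ≤ 3`:
`cap = R`, `L ≤ cap + 15`. -/
theorem cap_ge {n c₀ c₁ c₂ c₃ R cap : ℕ} (hn : 1 ≤ n) (h01 : c₁ ≤ c₀) (h12 : c₂ ≤ c₁) (h23 : c₃ ≤ c₂)
    (htot : (n + 4) * (n + 5) + 4 ≤ 2 * (c₀ + c₁ + c₂ + c₃ + R))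
    (hor : c₀ + c₁ + c₂ + c₃ ≤ min c₀ 4 + min c₁ 4 + min c₂ 4 + min c₃ 4 + cap)
    (h2 : 4 * R ≤ cap * max c₃ 4) (h3 : cap ≤ R) : 2 * n ≤ cap + 1 := by
  by_contra hcon
  have hcap : cap + 2 ≤ 2 * n := by omega
  rcases le_or_gt 4 c₃ with h | h
  · rw [max_eq_left h] at h2
    obtain ⟨L, hL⟩ : ∃ L, L = c₀ + c₁ + c₂ + c₃ := ⟨_, rfl⟩
    rw [← hL] at htot hor
    have hL1 : L ≤ cap + 16 := by omega
    have hL2 : 4 * c₃ ≤ L := by omega
    have e1 : 16 * R ≤ cap * L := by nlinarith [Nat.mul_le_mul_left cap hL2]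
    have e2 : L * (cap + 16) ≤ (2 * n + 14) * (2 * n + 14) :=
      Nat.mul_le_mul (by omega) (by omega)
    nlinarith
  · rw [max_eq_right h.le] at h2
    have hL1 : c₀ + c₁ + c₂ + c₃ ≤ cap + 15 := by omega
    have hR : R ≤ cap := by omega
    nlinarith

/-- bound for the leftover of `j` of the `b` block columns (`gm ≤ g i`) -/
def DJ (c : ℕ → ℕ) (b : ℕ) (g : ℕ → ℕ) (gm j : ℕ) : ℕ :=
  min (sm (fun i => c i - gm) j) (sm (fun i => c i - g i) b)

/-- bound for `∑ i < k, c (b + i)` -/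
def UB (c : ℕ → ℕ) (R cap b k : ℕ) : ℕ :=
  if b + k ≤ 4 then sm (fun i => c (b + i)) k
  else sm (fun i => c (b + i)) (4 - b) +
    min ((b + k - 4) * c 3) (min R (R + 4 * (b + k - 4) - cap))

/-- saturation point of `Th` -/
def kz (n s₁ : ℕ) : ℕ := max (max ((2 * n + 6) / 4) (2 + s₁)) 3

/-- end point criterion -/
def uniB (n : ℕ) (c : ℕ → ℕ) (cap b : ℕ) (g : ℕ → ℕ) (gm P s₁ s₂ : ℕ) : Bool :=
  decide (P ≤ cap + sm (fun i => min (c (b + i)) 4) (4 - b)) &&
    (List.range (b + 1)).all (fun j => decide (DJ c b g gm j ≤ Th s₁ s₂ j n)) &&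
    decide (DJ c b g gm b + kz n s₁ * c (min b 3) ≤ Tt s₁ s₂ n + min P (4 * kz n s₁))

/-- direct criterion -/
def fulB (n : ℕ) (c : ℕ → ℕ) (R cap b : ℕ) (g : ℕ → ℕ) (gm P s₁ s₂ : ℕ) : Bool :=
  (List.range (max (kz n s₁) ((P + 3) / 4))).all fun k => (List.range (b + 1)).all fun j =>
    decide (DJ c b g gm j + UB c R cap b k ≤ Th s₁ s₂ (j + k) n + min P (4 * k))

section
variable {n b : ℕ} {c c' g : ℕ → ℕ} {R cap gm P s₁ s₂ : ℕ}

/-- `sum_le_sorted` for the antitone `i ↦ c i - gm`, and `J ⊆ range b` -/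
theorem sum_le_DJ (hc : Antitone c) (hcc : ∀ i < 4, c' i = c i) (hb : b ≤ 4) (hgm : ∀ i < b, gm ≤ g i)
    {J : Finset ℕ} (hJ : J ⊆ range b) : ∑ i ∈ J, (c i - g i) ≤ DJ c' b g gm J.card := by
  have hcard : J.card ≤ b := by simpa using card_le_card hJ
  unfold DJ
  rw [sm_eq, sm_eq]
  refine le_min ?_ ?_
  · have ha : Antitone fun i => c i - gm := fun i j hij => Nat.sub_le_sub_right (hc hij) _
    calc ∑ i ∈ J, (c i - g i) ≤ ∑ i ∈ J, (c i - gm) :=
          sum_le_sum fun i hi => Nat.sub_le_sub_left (hgm i (mem_range.1 (hJ hi))) _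
      _ ≤ ∑ i ∈ range J.card, (c (0 + i) - gm) := sum_le_sorted ha 0 J fun j _ => Nat.zero_le j
      _ = ∑ i ∈ range J.card, (c' i - gm) :=
          sum_congr rfl fun i hi => by rw [zero_add, hcc i (by have := mem_range.1 hi; omega)]
  · calc ∑ i ∈ J, (c i - g i) ≤ ∑ i ∈ range b, (c i - g i) := sum_le_sum_of_subset hJ
      _ = ∑ i ∈ range b, (c' i - g i) :=
          sum_congr rfl fun i hi => by rw [hcc i (by have := mem_range.1 hi; omega)]

theorem sum_le_UB (h : Feat c R cap) (hcc : ∀ i < 4, c' i = c i) (hb : b ≤ 4) (k : ℕ) :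
    ∑ i ∈ range k, c (b + i) ≤ UB c' R cap b k := by
  unfold UB
  split_ifs with hk
  · rw [sm_eq]
    exact (sum_congr rfl fun i hi => (hcc _ (by have := mem_range.1 hi; omega)).symm).le
  · obtain ⟨m, rfl⟩ : ∃ m, k = (4 - b) + m := ⟨b + k - 4, by omega⟩
    have hm : b + (4 - b + m) - 4 = m := by omega
    rw [sm_eq, hm, sum_range_add, hcc 3 (by omega)]
    refine Nat.add_le_add
      (sum_congr rfl fun i hi => (hcc _ (by have := mem_range.1 hi; omega)).symm).le ?_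
    have he : ∑ i ∈ range m, c (b + (4 - b + i)) = ∑ i ∈ range m, c (4 + i) :=
      sum_congr rfl fun i _ => by congr 1; omega
    rw [he]
    refine le_min ?_ (le_min (h.le_R m) ?_)
    · calc ∑ i ∈ range m, c (4 + i) ≤ ∑ _i ∈ range m, c 3 := sum_le_sum fun i _ => h.anti (by omega)
        _ = m * c 3 := by simp
    · have := h.le_cap m
      omega

theorem qc1b_le_tot (h : Feat c R cap) (hb : b ≤ 4) (k : ℕ) :
    ∑ i ∈ range k, c (b + i) ≤ ∑ i ∈ range (4 - b), c (b + i) + R := by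
  have h1 : ∑ i ∈ range k, c (b + i) ≤ ∑ i ∈ range (4 - b + k), c (b + i) :=
    sum_le_sum_of_subset (range_mono (by omega))
  rw [sum_range_add] at h1
  have h2 : ∑ i ∈ range k, c (b + (4 - b + i)) = ∑ i ∈ range k, c (4 + i) :=
    sum_congr rfl fun i _ => by congr 1; omega
  have := h.le_R k
  omega

theorem qc1b_min (f : ℕ → ℕ) (m : ℕ) : ∑ i ∈ range m, min (f i) 4 ≤ 4 * m := by
  have := sum_le_card_nsmul (range m) (fun i => min (f i) 4) 4 fun i _ => min_le_right _ _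
  rwa [card_range, smul_eq_mul, mul_comm] at this

theorem qc1b_le_cap (h : Feat c R cap) (hb : b ≤ 4) (k : ℕ) :
    ∑ i ∈ range k, c (b + i) + (cap + ∑ i ∈ range (4 - b), min (c (b + i)) 4) ≤
      ∑ i ∈ range (4 - b), c (b + i) + R + 4 * k := by
  rcases le_total k (4 - b) with hk | hk
  · obtain ⟨d, hd⟩ := Nat.exists_eq_add_of_le hk
    rw [hd, sum_range_add, sum_range_add]
    have h1 := qc1b_min (fun i => c (b + i)) k
    have h2 : ∑ i ∈ range d, min (c (b + (k + i))) 4 ≤ ∑ i ∈ range d, c (b + (k + i)) :=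
      sum_le_sum fun i _ => min_le_left _ _
    have h3 := h.le_cap 0
    rw [sum_range_zero] at h3
    omega
  · obtain ⟨d, rfl⟩ := Nat.exists_eq_add_of_le hk
    rw [sum_range_add]
    have h1 := qc1b_min (fun i => c (b + i)) (4 - b)
    have h2 : ∑ i ∈ range d, c (b + (4 - b + i)) = ∑ i ∈ range d, c (4 + i) :=
      sum_congr rfl fun i _ => by congr 1; omega
    have h3 := h.le_cap d
    omega

theorem qc1b_tot (hb : b ≤ 4) (hg : ∀ i < b, g i ≤ c i)
    (htot : c 0 + c 1 + c 2 + c 3 + R = Tt s₁ s₂ n + P + ∑ i ∈ range b, g i)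
    {J : Finset ℕ} (hJ : J ⊆ range b) :
    ∑ i ∈ J, (c i - g i) + (∑ i ∈ range (4 - b), c (b + i) + R) ≤ Tt s₁ s₂ n + P := by
  have h1 : ∑ i ∈ J, (c i - g i) ≤ ∑ i ∈ range b, (c i - g i) := sum_le_sum_of_subset hJ
  have h2 : ∑ i ∈ range b, (c i - g i) + ∑ i ∈ range b, g i = ∑ i ∈ range b, c i := by
    rw [← sum_add_distrib]
    exact sum_congr rfl fun i hi => Nat.sub_add_cancel (hg i (mem_range.1 hi))
  have h3 : ∑ i ∈ range b, c i + ∑ i ∈ range (4 - b), c (b + i) = c 0 + c 1 + c 2 + c 3 := by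
    rw [← sum_range_add, show b + (4 - b) = 4 by omega]
    simp [sum_range_succ]
  omega

theorem qc1b_sat (hs : s₂ ≤ s₁) {k : ℕ} (hk : kz n s₁ ≤ k) (j : ℕ) :
    Th s₁ s₂ (j + k) n = Tt s₁ s₂ n := by
  unfold kz at hk
  exact Th_sat hs (by omega) (by omega) (by omega)

/-- For `k` beyond the checked range `Th` is saturated (`Th_sat`), `min P (4k) = P`, and the left side is
at most the total `htot`. -/
theorem cond_of_ful (h : Feat c R cap) (hcc : ∀ i < 4, c' i = c i) (hb : b ≤ 4) (hs : s₂ ≤ s₁)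
    (hg : ∀ i < b, g i ≤ c i) (hgm : ∀ i < b, gm ≤ g i)
    (htot : c 0 + c 1 + c 2 + c 3 + R = Tt s₁ s₂ n + P + ∑ i ∈ range b, g i)
    (hB : fulB n c' R cap b g gm P s₁ s₂ = true) : Cond n b g P s₁ s₂ c := by
  refine ⟨hg, fun J k hJ => ?_⟩
  have hj : J.card ≤ b := by simpa using card_le_card hJ
  by_cases hk : k < max (kz n s₁) ((P + 3) / 4)
  · simp only [fulB, List.all_eq_true, List.mem_range, decide_eq_true_eq] at hB
    have h1 := hB k hk J.card (by omega)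
    have h2 := sum_le_DJ h.anti hcc hb hgm hJ
    have h3 := sum_le_UB h hcc hb k
    omega
  · rw [qc1b_sat hs (by omega)]
    have h1 := qc1b_tot hb hg htot hJ
    have h2 := qc1b_le_tot h hb k
    omega

/-- For `k ≤ kz`: `Conc.line` for `k ↦ Th s₁ s₂ (j+k) n + min P (4k)` with `D = DJ j ≤ DJ b`, slope
`c (min b 3) ≥ c (b+i)`.  For `k ≥ kz`: `Th` is saturated; with `U k = ∑ i < k, c (b+i)` and
`Utot = ∑_{b ≤ i < 4} c i + R` one has `U k ≤ Utot` and `U k + cap_b ≤ Utot + 4k` (`Feat.le_cap`, and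
`min (c i) 4 ≤ 4`, `≤ c i` for the first columns), `cap_b ≥ P`, `∑_{i<b} (c i - g i) + Utot = Tt + P`. -/
theorem cond_of_uni (h : Feat c R cap) (hcc : ∀ i < 4, c' i = c i) (hb : b ≤ 4) (hs : s₂ ≤ s₁)
    (hg : ∀ i < b, g i ≤ c i) (hgm : ∀ i < b, gm ≤ g i)
    (htot : c 0 + c 1 + c 2 + c 3 + R = Tt s₁ s₂ n + P + ∑ i ∈ range b, g i)
    (hB : uniB n c' cap b g gm P s₁ s₂ = true) : Cond n b g P s₁ s₂ c := by
  refine ⟨hg, fun J k hJ => ?_⟩
  have hj : J.card ≤ b := by simpa using card_le_card hJ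
  simp only [uniB, Bool.and_eq_true, List.all_eq_true, List.mem_range, decide_eq_true_eq] at hB
  obtain ⟨⟨hP, h0⟩, h1⟩ := hB
  rcases le_total k (kz n s₁) with hk | hk
  · have hF := ((conc_Th s₁ s₂ n).shift J.card).add (conc_min P 4)
    have hD : DJ c' b g gm J.card ≤ DJ c' b g gm b := by
      unfold DJ
      refine min_le_min ?_ le_rfl
      rw [sm_eq, sm_eq]
      exact sum_le_sum_of_subset (range_mono hj)
    have h2 := hF.line (D := DJ c' b g gm J.card) (H := c' (min b 3)) (k₀ := kz n s₁)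
      (by simpa using h0 J.card (by omega))
      (by show _ ≤ Th s₁ s₂ (J.card + kz n s₁) n + min P (4 * kz n s₁)
          rw [qc1b_sat hs le_rfl]
          omega) hk
    have h3 := sum_le_DJ h.anti hcc hb hgm hJ
    have h4 : ∑ i ∈ range k, c (b + i) ≤ k * c' (min b 3) := by
      rw [hcc _ (by omega)]
      have := sum_le_card_nsmul (range k) (fun i => c (b + i)) (c (min b 3))
        fun i _ => h.anti (by omega)
      rwa [card_range, smul_eq_mul] at this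
    have h5 : DJ c' b g gm J.card + k * c' (min b 3) ≤
      Th s₁ s₂ (J.card + k) n + min P (4 * k) := h2
    omega
  · rw [qc1b_sat hs hk]
    have h2 := qc1b_tot hb hg htot hJ
    have h3 := qc1b_le_tot h hb k
    have h4 := qc1b_le_cap h hb k
    have h5 : sm (fun i => min (c' (b + i)) 4) (4 - b) =
        ∑ i ∈ range (4 - b), min (c (b + i)) 4 := by
      rw [sm_eq]
      exact sum_congr rfl fun i hi => by rw [hcc _ (by have := mem_range.1 hi; omega)]
    omega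

end

/-- the last four tools -/
def Tool' (n e δ : ℕ) (c : ℕ → ℕ) : Prop :=
  (∃ t < e, Cond n 4 (g4 t δ) (2 * (n + (e - t)) - 1) (e - t) (e - t) c) ∨
  (∃ t < e, Cond n 2 (fun _ => 2 * t + 4 + δ) (2 * (n + (e - t)) - 1) (e - t) (e - t) c) ∨
  (δ = 0 ∧ Cond n 0 (fun _ => 0) (2 * (n + e) + 7) e e c) ∨
  (δ = 1 ∧ Cond n 1 (fun _ => 1) (2 * (n + e) + 7) (e + 1) e c)

/-- the hypotheses of the remaining case -/
structure Rest (n e δ : ℕ) (c : ℕ → ℕ) (R cap : ℕ) : Prop where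
  feat : Feat c R cap
  hδ : δ ≤ 1
  pos : 1 ≤ 2 * e + δ
  range : 2 * (2 * e + δ) ≤ 3 * n + 16
  tot : 2 * (c 0 + c 1 + c 2 + c 3 + R) = (n + 4) * (n + 5) + 4 * (2 * e + δ)
  orient : c 0 + c 1 + c 2 + c 3 ≤ min (c 0) 4 + min (c 1) 4 + min (c 2) 4 + min (c 3) 4 + cap
  area : 4 * R ≤ cap * max (c 3) 4
  cap_le : cap ≤ R
  zero : c 3 = 0 → R = 0
  irr : Irr e δ c
  not4 : c 1 < e + 2 + δ ∨ c 3 < e + 2
  not2 : c 1 < 2 * e + 4 + δ

end Crest.Agent.R195
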