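import Crest.Agent.R195.QCov2X

/-! # R195 / QCov2D (helper50): kernel runs of the coverage checker, one small run for each `E` -/

set_option autoImplicit false

namespace Crest.Agent.R195

theorem chkN_11 : chkN 11 = true := chkN_of 11 (by
  intro E hE
  have hE' : E < 24 := hE
  interval_cases E <;> decide +kernel)

end Crest.Agent.R195
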