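import Crest.Agent.R195.QCov2A
import Crest.Agent.R195.QCov2B
import Crest.Agent.R195.QCov2C
import Crest.Agent.R195.QCov2D

/-!
# R195 / QCov2 (helper50): coverage for `2 ≤ n ≤ 11` by a kernel check
-/

set_option autoImplicit false
open Finset

namespace Crest.Agent.R195

theorem Rest.small {n e δ : ℕ} {c : ℕ → ℕ} {R cap : ℕ} (h : Rest n e δ c R cap) (hn : 2 ≤ n)
    (hn' : n ≤ 11) : Tool' n e δ c := by
  refine chkN_tool h ?_
  interval_cases n
  exacts [chkN_2, chkN_3, chkN_4, chkN_5, chkN_6, chkN_7, chkN_8, chkN_9, chkN_10, chkN_11]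

end Crest.Agent.R195
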