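import Crest.Agent.R195.QCov2X

/-! # R195 / QCov2A (helper50): kernel runs of the coverage checker, one small run for each `E` -/

set_option autoImplicit false

namespace Crest.Agent.R195

theorem chkN_2 : chkN 2 = true := chkN_of 2 (by
  intro E hE
  have hE' : E < 11 := hE
  interval_cases E <;> decide +kernel)

theorem chkN_3 : chkN 3 = true := chkN_of 3 (by
  intro E hE
  have hE' : E < 12 := hE
  interval_cases E <;> decide +kernel)

theorem chkN_4 : chkN 4 = true := chkN_of 4 (by
  intro E hE
  have hE' : E < 14 := hE
  interval_cases E <;> decide +kernel)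

theorem chkN_5 : chkN 5 = true := chkN_of 5 (by
  intro E hE
  have hE' : E < 15 := hE
  interval_cases E <;> decide +kernel)

theorem chkN_6 : chkN 6 = true := chkN_of 6 (by
  intro E hE
  have hE' : E < 17 := hE
  interval_cases E <;> decide +kernel)

end Crest.Agent.R195
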