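import Crest.Agent.R195.QCov1

/-!
# R195 / QCov2X (helper50): the Boolean checker for the coverage of small `n`
-/

set_option autoImplicit false
open Finset

namespace Crest.Agent.R195

/-- the first four columns -/
def c4 (c₀ c₁ c₂ c₃ i : ℕ) : ℕ := if i = 0 then c₀ else if i = 1 then c₁ else if i = 2 then c₂ else c₃

def modeB (ful : Bool) (n : ℕ) (c : ℕ → ℕ) (R cap b : ℕ) (g : ℕ → ℕ) (gm P s₁ s₂ : ℕ) : Bool :=
  match ful with
  | true => fulB n c R cap b g gm P s₁ s₂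
  | false => uniB n c cap b g gm P s₁ s₂

def t4 (e δ : ℕ) (c : ℕ → ℕ) : ℕ := min (min (c 3 - 2) (c 1 - 2 - δ)) (e - 1)
def t2 (e δ : ℕ) (c : ℕ → ℕ) : ℕ := min ((c 1 - 4 - δ) / 2) (e - 1)

def tryB (ful : Bool) (n e δ : ℕ) (c : ℕ → ℕ) (R cap : ℕ) : Bool :=
  (decide (2 ≤ c 3) && decide (2 + δ ≤ c 1) && decide (1 ≤ e) &&
    modeB ful n c R cap 4 (g4 (t4 e δ c) δ) (t4 e δ c + 2) (2 * (n + (e - t4 e δ c)) - 1)
      (e - t4 e δ c) (e - t4 e δ c)) ||
  (decide (4 + δ ≤ c 1) && decide (1 ≤ e) &&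
    modeB ful n c R cap 2 (fun _ => 2 * t2 e δ c + 4 + δ) (2 * t2 e δ c + 4 + δ)
      (2 * (n + (e - t2 e δ c)) - 1) (e - t2 e δ c) (e - t2 e δ c)) ||
  (decide (δ ≤ c 0) && modeB ful n c R cap δ (fun _ => δ) δ (2 * (n + e) + 7) (e + δ) e)

/-- lower bound for the capacity -/
def capL (c₀ c₁ c₂ c₃ R : ℕ) : ℕ :=
  max (c₀ + c₁ + c₂ + c₃ - (min c₀ 4 + min c₁ 4 + min c₂ 4 + min c₃ 4))
    ((4 * R + max c₃ 4 - 1) / max c₃ 4)

def featB (n e δ c₀ c₁ c₂ c₃ R cap : ℕ) : Bool :=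
  (decide (c₃ = 0) && decide (0 < R)) || decide (R < cap) ||
    tryB false n e δ (c4 c₀ c₁ c₂ c₃) R cap || tryB true n e δ (c4 c₀ c₁ c₂ c₃) R cap

def colB (n e δ tot c₀ c₁ c₂ c₃ : ℕ) : Bool :=
  decide (2 * e + 4 + δ ≤ c₁) || (decide (e + 2 + δ ≤ c₁) && decide (e + 2 ≤ c₃)) ||
    decide (tot < c₀ + c₁ + c₂ + c₃) ||
    featB n e δ c₀ c₁ c₂ c₃ (tot - (c₀ + c₁ + c₂ + c₃)) (capL c₀ c₁ c₂ c₃ (tot - (c₀ + c₁ + c₂ + c₃)))

def chkE (n e δ : ℕ) : Bool :=
  (List.range (e + 2 + δ)).all fun c₃ =>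
    (List.range (if 3 ≤ e then 4 else 9)).all fun g₃ =>
      (List.range (if 2 ≤ e then 4 else 9)).all fun g₂ =>
        (List.range (if δ = 1 then 2 else 4)).all fun g₁ =>
          (decide (3 ≤ e) && decide (2 ≤ g₁) && decide (2 ≤ g₂) && decide (2 ≤ g₃)) ||
            colB n e δ ((n + 4) * (n + 5) / 2 + 2 * (2 * e + δ)) (c₃ + g₃ + g₂ + g₁) (c₃ + g₃ + g₂)
              (c₃ + g₃) c₃

def chkN (n : ℕ) : Bool :=
  (List.range ((3 * n + 16) / 2)).all fun E => chkE n ((E + 1) / 2) ((E + 1) % 2)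

section
variable {n e δ b : ℕ} {c c' g : ℕ → ℕ} {R cap cap' gm P s₁ s₂ : ℕ} {ful : Bool}

theorem modeB_cond (h : Feat c R cap) (hcc : ∀ i < 4, c' i = c i) (hb : b ≤ 4) (hs : s₂ ≤ s₁)
    (hg : ∀ i < b, g i ≤ c i) (hgm : ∀ i < b, gm ≤ g i)
    (htot : c 0 + c 1 + c 2 + c 3 + R = Tt s₁ s₂ n + P + ∑ i ∈ range b, g i)
    (hB : modeB ful n c' R cap b g gm P s₁ s₂ = true) : Cond n b g P s₁ s₂ c := by
  cases ful
  · exact cond_of_uni h hcc hb hs hg hgm htot hB
  · exact cond_of_ful h hcc hb hs hg hgm htot hB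

theorem tryB_tool (h : Rest n e δ c R cap) (hc : cap' ≤ cap) (hcc : ∀ i < 4, c' i = c i)
    (hB : tryB ful n e δ c' R cap' = true) : Tool' n e δ c := by
  have hf := h.feat.mono hc
  have ha := h.feat.anti
  have a01 := ha (show 0 ≤ 1 by omega)
  have a12 := ha (show 1 ≤ 2 by omega)
  have a23 := ha (show 2 ≤ 3 by omega)
  have ht := h.tot
  have hδ := h.hδ
  have hq : (n + 4) * (n + 5) = (n + 2) * (n + 3) + 4 * n + 14 := by ring
  have e0 := hcc 0 (by omega)
  have e1 := hcc 1 (by omega)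
  have e3 := hcc 3 (by omega)
  simp only [tryB, Bool.or_eq_true, Bool.and_eq_true, decide_eq_true_eq] at hB
  rcases hB with (⟨⟨⟨h1, h2⟩, h3⟩, hB⟩ | ⟨⟨h1, h2⟩, hB⟩) | ⟨h1, hB⟩
  · have k1 : t4 e δ c' + 2 ≤ c 3 := by unfold t4; omega
    have k2 : t4 e δ c' + 2 + δ ≤ c 1 := by unfold t4; omega
    have k3 : t4 e δ c' < e := by unfold t4; omega
    generalize t4 e δ c' = t at *
    refine Or.inl ⟨t, k3, modeB_cond hf hcc le_rfl le_rfl (fun i hi => ?_) (fun i hi => ?_) ?_ hB⟩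
    · unfold g4; interval_cases i <;> simp <;> omega
    · unfold g4; split_ifs <;> omega
    · have := two_mul_Tt (e - t) (e - t) n
      simp only [sum_range_succ, sum_range_zero, g4]
      norm_num
      omega
  · have k2 : 2 * t2 e δ c' + 4 + δ ≤ c 1 := by unfold t2; omega
    have k3 : t2 e δ c' < e := by unfold t2; omega
    generalize t2 e δ c' = t at *
    refine Or.inr (Or.inl ⟨t, k3, modeB_cond hf hcc (by omega) le_rfl (fun i hi => ?_)
      (fun i hi => le_rfl) ?_ hB⟩)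
    · interval_cases i <;> omega
    · have := two_mul_Tt (e - t) (e - t) n
      simp only [sum_range_succ, sum_range_zero]
      omega
  · have hC : Cond n δ (fun _ => δ) (2 * (n + e) + 7) (e + δ) e c := by
      refine modeB_cond hf hcc (by omega) (by omega) (fun i hi => ?_) (fun i hi => le_rfl) ?_ hB
      · obtain rfl : i = 0 := by omega
        omega
      · have := two_mul_Tt (e + δ) e n
        have : ∑ i ∈ range δ, δ = δ := by interval_cases δ <;> simp
        omega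
    interval_cases δ
    · exact Or.inr (Or.inr (Or.inl ⟨rfl, hC⟩))
    · exact Or.inr (Or.inr (Or.inr ⟨rfl, hC⟩))

theorem colB_tool (h : Rest n e δ c R cap)
    (hB : colB n e δ ((n + 4) * (n + 5) / 2 + 2 * (2 * e + δ)) (c 0) (c 1) (c 2) (c 3) = true) :
    Tool' n e δ c := by
  have ht := h.tot
  have hR : (n + 4) * (n + 5) / 2 + 2 * (2 * e + δ) - (c 0 + c 1 + c 2 + c 3) = R := by omega
  have hcap : capL (c 0) (c 1) (c 2) (c 3) R ≤ cap := by
    refine max_le (by have := h.orient; omega) ?_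
    have h4 : 0 < max (c 3) 4 := lt_of_lt_of_le (by norm_num) (le_max_right _ _)
    rw [← Nat.lt_add_one_iff, Nat.div_lt_iff_lt_mul h4, Nat.add_mul]
    have := h.area
    omega
  have hcc : ∀ i < 4, c4 (c 0) (c 1) (c 2) (c 3) i = c i := by
    intro i hi; interval_cases i <;> rfl
  have := h.not2; have := h.not4; have := h.zero; have := h.cap_le
  simp only [colB, featB, hR, Bool.or_eq_true, Bool.and_eq_true, decide_eq_true_eq] at hB
  rcases hB with ((hB | hB) | hB) | ((hB | hB) | hB) | hB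
  · omega
  · omega
  · omega
  · omega
  · omega
  · exact tryB_tool h hcap hcc hB
  · exact tryB_tool h hcap hcc hB

theorem chkN_tool (h : Rest n e δ c R cap) (hB : chkN n = true) : Tool' n e δ c := by
  have ha := h.feat.anti
  have a01 := ha (show 0 ≤ 1 by omega)
  have a12 := ha (show 1 ≤ 2 by omega)
  have a23 := ha (show 2 ≤ 3 by omega)
  have hδ := h.hδ; have := h.pos; have := h.range; have := h.not2; have := h.not4
  obtain ⟨i1, i2, i3, i4, i5⟩ := h.irr
  simp only [chkN, chkE, List.all_eq_true, List.mem_range] at hB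
  have h1 := hB (2 * e + δ - 1) (by omega)
  rw [show (2 * e + δ - 1 + 1) / 2 = e by omega, show (2 * e + δ - 1 + 1) % 2 = δ by omega] at h1
  have h2 := h1 (c 3) (by omega) (c 2 - c 3) (by split_ifs <;> omega) (c 1 - c 2)
    (by split_ifs <;> omega) (c 0 - c 1) (by split_ifs <;> omega)
  rw [show c 3 + (c 2 - c 3) = c 2 by omega, show c 2 + (c 1 - c 2) = c 1 by omega,
    show c 1 + (c 0 - c 1) = c 0 by omega] at h2
  simp only [Bool.or_eq_true, Bool.and_eq_true, decide_eq_true_eq] at h2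
  rcases h2 with h2 | h2
  · omega
  · exact colB_tool h h2

end

theorem chkN_of (n : ℕ)
    (h : ∀ E, E < (3 * n + 16) / 2 → chkE n ((E + 1) / 2) ((E + 1) % 2) = true) : chkN n = true := by
  simpa only [chkN, List.all_eq_true, List.mem_range] using h

end Crest.Agent.R195
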