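import Crest.Agent.R195.QCov1

/-!
# R195 / QCov3 (helper50): coverage for `n ≥ 12` (`M ≥ 16`)
-/

set_option autoImplicit false
open Finset

namespace Crest.Agent.R195

variable {n e δ : ℕ} {c : ℕ → ℕ} {R cap : ℕ}

theorem qc3a_cap {n e f s L R cap T : ℕ} (hn : 12 ≤ n) (he : 4 * e ≤ 3 * n + 16) (_hf : 2 ≤ f)
    (hs : s + f ≤ e + 3) (hL : L ≤ 4 * f + 16) (hT : (n + 4) * (n + 5) + 8 * e ≤ T)
    (htot : 2 * (L + R) = T) (harea : 4 * R ≤ cap * max f 4) : 2 * (n + s) - 1 ≤ cap := by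
  by_contra hc
  have hc' : cap + 2 * f ≤ 2 * n + 2 * e + 4 := by omega
  rcases le_total f 4 with h4 | h4
  · rw [max_eq_right h4] at harea
    nlinarith
  · rw [max_eq_left h4] at harea
    have h1 : (cap + 2 * f) * f ≤ (2 * n + 2 * e + 4) * f := Nat.mul_le_mul_right f hc'
    have h2 : (0 : ℤ) ≤ ((n : ℤ) + e + 10 - 2 * f) ^ 2 := sq_nonneg _
    have h3 : e * (4 * e) ≤ e * (3 * n + 16) := Nat.mul_le_mul_left e he
    have h5 : n * (4 * e) ≤ n * (3 * n + 16) := Nat.mul_le_mul_left n he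
    have h6 : 12 * n ≤ n * n := Nat.mul_le_mul_right n hn
    have h7 : 12 * e ≤ n * e := Nat.mul_le_mul_right e hn
    zify at *
    nlinarith

theorem qc3a_end {n e f s K T m : ℕ} (hn : 12 ≤ n) (he : 4 * e ≤ 3 * n + 16) (hs1 : 1 ≤ s)
    (hs : s + f ≤ e + 3) (hK : 2 * K ≤ n + 3 ∨ K = 2 + s) (hT : 2 * T = (n + 2) * (n + 3) + 2 * (s + s))
    (hm : 2 * n + 1 ≤ m) : 16 + K * f ≤ T + m := by
  have h6 : 12 * n ≤ n * n := Nat.mul_le_mul_right n hn
  rcases hK with hK | hK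
  · have h1 : (2 * K) * (4 * f) ≤ (n + 3) * (3 * n + 24) := Nat.mul_le_mul hK (by omega)
    nlinarith
  · have h2 : (0 : ℤ) ≤ ((K : ℤ) - f) ^ 2 := sq_nonneg _
    have h1 : (4 * (K + f)) * (4 * (K + f)) ≤ (3 * n + 36) * (3 * n + 36) :=
      Nat.mul_le_mul (by omega) (by omega)
    zify at *
    nlinarith

/-- Main case.  `t = min (c 3 - 2) (c 1 - 2 - δ) < e`, so `c 3 - 3 ≤ t ≤ c 3 - 2`, `s = e - t ≤ e + 3 - c 3`,
`c 3 ≤ e + 2`, `4 e ≤ 3 n + 16`.  `cond_of_uni` (`c' = c`, `gm = t + 2`): every `DJ j ≤ 16` (gaps `≤ 3`, not all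
`≥ 2`; second entry of the `min`), `DJ 0 = 0`, `16 ≤ 2n+1 ≤ Th 1 ≤ Th j` (`le_Th_one`, `Th_mono`);
`P = 2(n+s) - 1 ≤ cap`: if `c 3 ≥ 4` suppose `cap + 2 c 3 ≤ 2n + 2e + 4 =: Q`, then `8 cap c₃ ≤ Q²` while
`cap * c 3 ≥ 4 R`, `R ≥ total - 4 c 3 - 18`; if `c 3 ≤ 3`, `cap = R`.  End point: `kz ≤ (n+3)/2` or
`kz = 2 + s ≤ e + 5 - c 3` (then `4 kz c₃ ≤ (e+5)²`); `two_mul_Tt`; `nlinarith`. -/
theorem Rest.big4 (h : Rest n e δ c R cap) (hn : 12 ≤ n) (he : 3 ≤ e) (h3 : 2 ≤ c 3)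
    (h1 : 2 + δ ≤ c 1) :
    ∃ t < e, Cond n 4 (g4 t δ) (2 * (n + (e - t)) - 1) (e - t) (e - t) c := by
  obtain ⟨i1, i2, i3, i4, i5⟩ := h.irr
  have i1 := i1 (by omega)
  have i3 := i3 (by omega)
  have i4 := i4 he
  have i5 := i5 he
  have hδ := h.hδ
  have hr := h.range
  have n4 := h.not4
  have a0 := h.feat.anti (show 0 ≤ 1 by omega)
  have a1 := h.feat.anti (show 1 ≤ 2 by omega)
  have a2 := h.feat.anti (show 2 ≤ 3 by omega)
  obtain ⟨t, ht⟩ : ∃ t, t = min (c 3 - 2) (c 1 - 2 - δ) := ⟨_, rfl⟩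
  have hte : t < e := by omega
  refine ⟨t, hte, ?_⟩
  obtain ⟨s, hs⟩ : ∃ s, s = e - t := ⟨_, rfl⟩
  rw [← hs]
  have g0 : g4 t δ 0 = t + 2 + δ := rfl
  have g1 : g4 t δ 1 = t + 2 + δ := rfl
  have g2 : g4 t δ 2 = t + 2 := rfl
  have g3 : g4 t δ 3 = t + 2 := rfl
  have hT := two_mul_Tt s s n
  have htot := h.tot
  have hD : ∀ j, DJ c 4 (g4 t δ) (t + 2) j ≤ 16 := fun j => by
    refine (min_le_right _ _).trans ?_
    simp only [sm, g0, g1, g2, g3]
    omega
  refine cond_of_uni (c' := c) (gm := t + 2) h.feat (fun _ _ => rfl) le_rfl le_rfl ?_ ?_ ?_ ?_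
  · intro i hi
    interval_cases i <;> omega
  · intro i hi
    interval_cases i <;> omega
  · simp only [sum_range_succ, sum_range_zero, g0, g1, g2, g3]
    have e1 : (n + 4) * (n + 5) = (n + 2) * (n + 3) + 4 * n + 14 := by ring
    omega
  · simp only [uniB, Bool.and_eq_true, decide_eq_true_eq, List.all_eq_true, List.mem_range]
    refine ⟨⟨?_, fun j _ => ?_⟩, ?_⟩
    · exact (qc3a_cap (e := e) (L := c 0 + c 1 + c 2 + c 3) hn (by omega) h3 (by omega) (by omega)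
        (by omega) htot h.area).trans (Nat.le_add_right _ _)
    · rcases Nat.eq_zero_or_pos j with rfl | hj
      · exact (min_le_left _ _).trans (Nat.zero_le _)
      · have := le_Th_one s s n
        have := Th_mono s s n (show 1 ≤ j from hj)
        have := hD j
        simp only at *
        omega
    · have := qc3a_end (e := e) (f := c 3) (s := s) (K := kz n s) (T := Tt s s n)
        (m := min (2 * (n + s) - 1) (4 * kz n s)) hn (by omega) (by omega) (by omega)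
        (by unfold kz; omega) hT (by unfold kz; omega)
      have := hD 4
      have e1 : min 4 3 = 3 := rfl
      rw [e1]
      omega

/-- all columns have height `≤ 11`.  `cond_of_uni` with `b = δ`; `P = 2(n+e)+7 ≤ cap + ∑ min (c i) 4`
because `11 * cap ≥ 4 R` and `R ≥ total - 44`; `DJ ≤ 10 ≤ Th 1`; end point: `kz ≤ (n+3)/2` or
`kz = 2 + e + δ`. -/
theorem Rest.bigII (h : Rest n e δ c R cap) (hn : 12 ≤ n) (h0 : c 0 ≤ 11) :
    (δ = 0 ∧ Cond n 0 (fun _ => 0) (2 * (n + e) + 7) e e c) ∨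
      (δ = 1 ∧ Cond n 1 (fun _ => 1) (2 * (n + e) + 7) (e + 1) e c) := by
  have a0 : c 1 ≤ c 0 := h.feat.anti (show 0 ≤ 1 by omega)
  have a1 : c 2 ≤ c 1 := h.feat.anti (show 1 ≤ 2 by omega)
  have a2 : c 3 ≤ c 2 := h.feat.anti (show 2 ≤ 3 by omega)
  have htot := h.tot
  have hrange := h.range
  have hz := h.zero
  have hcl := h.cap_le
  have hN : 12 * n ≤ n * n := Nat.mul_le_mul_right n hn
  have e1 : (n + 4) * (n + 5) = n * n + 9 * n + 20 := by ring
  have e2 : (n + 2) * (n + 3) = n * n + 5 * n + 6 := by ring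
  have h11 : 4 * R ≤ cap * 11 := h.area.trans (Nat.mul_le_mul_left _ (by omega))
  have h4 : c 3 ≤ 4 → 4 * R ≤ cap * 4 := fun hc => h.area.trans (Nat.mul_le_mul_left _ (by omega))
  rw [e1] at htot
  obtain hδ | hδ : δ = 0 ∨ δ = 1 := by have := h.hδ; omega
  · subst hδ
    have hT := two_mul_Tt e e n
    rw [e2] at hT
    refine Or.inl ⟨rfl, cond_of_uni (c' := c) (gm := 0) h.feat (fun _ _ => rfl) (by omega) le_rfl
      (fun i hi => by omega) (fun i hi => by omega) (by simp only [sum_const_zero]; omega) ?_⟩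
    have hk : kz n e * c 0 ≤ kz n e * 11 := Nat.mul_le_mul_left _ h0
    have hkz : 2 * kz n e ≤ n + 3 ∨ kz n e = 2 + e := by unfold kz; omega
    simp only [uniB, Bool.and_eq_true, decide_eq_true_eq, List.all_eq_true, List.mem_range]
    refine ⟨⟨?_, fun j hj => ?_⟩, ?_⟩
    · simp only [sm, Nat.sub_zero, zero_add]
      omega
    · simp [DJ, sm]
    · simp only [DJ, sm, Nat.zero_min, Nat.min_self, zero_add]
      omega
  · subst hδ
    have hT := two_mul_Tt (e + 1) e n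
    rw [e2] at hT
    refine Or.inr ⟨rfl, cond_of_uni (c' := c) (gm := 1) h.feat (fun _ _ => rfl) (by omega) (by omega)
      (fun i hi => ?_) (fun i hi => le_rfl) (by simp only [sum_range_one]; omega) ?_⟩
    · obtain rfl : i = 0 := by omega
      omega
    have hk : kz n (e + 1) * c 1 ≤ kz n (e + 1) * 11 := Nat.mul_le_mul_left _ (by omega)
    have hkz : 2 * kz n (e + 1) ≤ n + 3 ∨ kz n (e + 1) = 3 + e := by unfold kz; omega
    have hth := le_Th_one (e + 1) e n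
    simp only [uniB, Bool.and_eq_true, decide_eq_true_eq, List.all_eq_true, List.mem_range]
    refine ⟨⟨?_, fun j hj => ?_⟩, ?_⟩
    · simp only [sm, Nat.reduceSub, Nat.reduceAdd, add_zero, zero_add]
      omega
    · obtain rfl | rfl : j = 0 ∨ j = 1 := by omega
      · simp [DJ, sm]
      · simp only [DJ, sm]
        omega
    · have : min 1 3 = 1 := rfl
      simp only [DJ, sm, this]
      omega

theorem Rest.big (h : Rest n e δ c R cap) (hn : 12 ≤ n) : Tool' n e δ c := by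
  by_cases hc : 3 ≤ e ∧ 2 ≤ c 3 ∧ 2 + δ ≤ c 1
  · exact Or.inl (h.big4 hn hc.1 hc.2.1 hc.2.2)
  · refine Or.inr (Or.inr (h.bigII hn ?_))
    obtain ⟨i1, i2, i3, i4, i5⟩ := h.irr
    have := h.not2; have := h.hδ; have := h.pos
    have a1 := h.feat.anti (show 1 ≤ 2 by omega)
    have a2 := h.feat.anti (show 2 ≤ 3 by omega)
    omega

end Crest.Agent.R195
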