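import Mathlib

/-!
# R195 / QGR (helper50): Gale–Ryser peeling, the capacity function `Th`, concavity
-/

set_option autoImplicit false
open Finset

namespace Crest.Agent.R195

/-- discrete concavity -/
def Conc (F : ℕ → ℕ) : Prop := ∀ k, F (k + 2) + F k ≤ 2 * F (k + 1)

theorem conc_min (P q : ℕ) : Conc fun k => min P (q * k) := by
  intro k
  simp only [mul_add]
  omega

theorem Conc.add {F G : ℕ → ℕ} (hF : Conc F) (hG : Conc G) : Conc fun k => F k + G k := by
  intro k
  have := hF k
  have := hG k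
  dsimp only
  omega

theorem Conc.shift {F : ℕ → ℕ} (hF : Conc F) (j : ℕ) : Conc fun k => F (j + k) := by
  exact fun k => hF (j + k)

/-- a concave function that lies above a line at `0` and at `k₀` lies above it in between
(increments are antitone: if `F k < D + k H` some increment before `k` is `< H`, hence all later ones). -/
theorem Conc.line {F : ℕ → ℕ} (hF : Conc F) {D H k₀ k : ℕ} (h0 : D ≤ F 0)
    (h1 : D + k₀ * H ≤ F k₀) (hk : k ≤ k₀) : D + k * H ≤ F k := by
  have key : ∀ n, F n < D + n * H → F (n + 1) < F n + H := by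
    intro n
    induction n with
    | zero => intro h; omega
    | succ n ih =>
      intro h
      have := hF n
      rw [add_mul] at h
      show F (n + 2) < _
      omega
  by_contra hc
  have : ∀ m, k ≤ m → F m < D + m * H := by
    intro m hm
    induction m, hm using Nat.le_induction with
    | base => omega
    | succ m _ ih =>
      have := key m ih
      rw [add_mul]
      omega
  have := this k₀ hk
  omega

theorem qga_sum {D : Type} [DecidableEq D] {h : D → ℕ} {K : Finset D} (hK : ∀ c ∈ K, 1 ≤ h c)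
    (J : Finset D) : ∑ c ∈ J, (h c - if c ∈ K then 1 else 0) + (J ∩ K).card = ∑ c ∈ J, h c := by
  rw [← filter_mem_eq_inter, card_filter, ← sum_add_distrib]
  refine sum_congr rfl fun c _ => ?_
  split_ifs with hc
  · exact Nat.sub_add_cancel (hK c hc)
  · rfl

theorem qga_lt1 {D : Type} [DecidableEq D] {K J : Finset D} (B : Finset D) {j : D} (hj : j ∈ K)
    (hjJ : j ∉ J) : (K \ insert j J ∪ insert j J \ (K ∪ B)).card < (K \ J ∪ J \ (K ∪ B)).card := by
  refine card_lt_card ⟨fun c => ?_, fun H => ?_⟩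
  · simp only [mem_union, mem_sdiff, mem_insert]
    grind
  · have := @H j
    simp [hj, hjJ] at this

theorem qga_lt2 {D : Type} [DecidableEq D] {K J B : Finset D} {i : D} (hi : i ∈ J) (hiK : i ∉ K)
    (hiB : i ∉ B) : (K \ J.erase i ∪ J.erase i \ (K ∪ B)).card < (K \ J ∪ J \ (K ∪ B)).card := by
  refine card_lt_card ⟨fun c => ?_, fun H => ?_⟩
  · simp only [mem_union, mem_sdiff, mem_erase]
    grind
  · have := @H i
    simp [hi, hiK, hiB] at this

/-- ONE ROW.  `K` = a `k`-subset of `Bᶜ ∩ supp h` maximising `∑_K h` (first: `supp h \ B` has at least `k`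
elements, apply `hJ` to `supp h ∪ B` ... use `htot`, `hT`), so `h j ≥ h i` for `j ∈ K`, `i ∉ K ∪ B`.  If `J`
violates the claim and there are `j ∈ K \ J`, `i ∈ J \ (K ∪ B)`, then by `hG` one of `insert j J`,
`J.erase i` violates it too; induct on `|K \ J| + |J \ (K ∪ B)|`.  If `K ⊆ J` or `J \ B ⊆ K` use `hJ`. -/
theorem gr_one {D : Type} [Fintype D] [DecidableEq D] (h : D → ℕ) (B : Finset D) (G : Finset D → ℕ)
    (hG : ∀ J i j, i ∈ J → i ∉ B → j ∉ J → j ∉ B → G (insert j J) + G (J.erase i) ≤ 2 * G J)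
    (T k : ℕ) (hT : ∀ J, G J ≤ T) (htot : ∑ c, h c = T + k)
    (hJ : ∀ J : Finset D, ∑ c ∈ J, h c ≤ G J + min k (J \ B).card) :
    ∃ K : Finset D, K.card = k ∧ Disjoint K B ∧ (∀ c ∈ K, 1 ≤ h c) ∧
      ∀ J : Finset D, ∑ c ∈ J, (h c - if c ∈ K then 1 else 0) ≤ G J := by
  have hA : k ≤ ((univ.filter fun c => 1 ≤ h c) \ B).card := by
    have h1 := hJ (univ.filter fun c => 1 ≤ h c)
    have h2 := hT (univ.filter fun c => 1 ≤ h c)
    rw [sum_filter_of_ne fun c _ hc => Nat.one_le_iff_ne_zero.2 hc, htot] at h1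
    omega
  obtain ⟨K, hK, hmax⟩ := exists_max_image (powersetCard k ((univ.filter fun c => 1 ≤ h c) \ B))
    (fun K => ∑ c ∈ K, h c) (powersetCard_nonempty.2 hA)
  obtain ⟨hKA, hKk⟩ := mem_powersetCard.1 hK
  have hK1 : ∀ c ∈ K, 1 ≤ h c := fun c hc => (mem_filter.1 (mem_sdiff.1 (hKA hc)).1).2
  have hKB : ∀ c ∈ K, c ∉ B := fun c hc => (mem_sdiff.1 (hKA hc)).2
  have hle : ∀ j ∈ K, ∀ i, i ∉ K → i ∉ B → h i ≤ h j := by
    intro j hj i hi hiB
    rcases Nat.eq_zero_or_pos (h i) with h0 | h0
    · omega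
    have hi' : i ∉ K.erase j := fun H => hi (mem_of_mem_erase H)
    have h1 := hmax (insert i (K.erase j)) (mem_powersetCard.2 ⟨insert_subset
      (mem_sdiff.2 ⟨mem_filter.2 ⟨mem_univ _, h0⟩, hiB⟩) ((erase_subset _ _).trans hKA), by
        rw [card_insert_of_notMem hi', card_erase_add_one hj, hKk]⟩)
    rw [sum_insert hi', ← add_sum_erase K h hj] at h1
    omega
  refine ⟨K, hKk, disjoint_left.2 hKB, hK1, fun J => ?_⟩
  induction hn : ((K \ J) ∪ (J \ (K ∪ B))).card using Nat.strong_induction_on generalizing J with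
  | _ n ih =>
    have e := qga_sum hK1 J
    have h1 := hJ J
    by_cases c1 : K ⊆ J
    · rw [inter_eq_right.2 c1, hKk] at e
      omega
    by_cases c2 : J \ B ⊆ K
    · have := card_le_card (subset_inter sdiff_subset c2)
      omega
    obtain ⟨j, hj, hjJ⟩ := not_subset.1 c1
    obtain ⟨i, hi, hiK⟩ := not_subset.1 c2
    obtain ⟨hiJ, hiB⟩ := mem_sdiff.1 hi
    have h2 := ih _ (hn ▸ qga_lt1 B hj hjJ) (insert j J) rfl
    have h3 := ih _ (hn ▸ qga_lt2 hiJ hiK hiB) (J.erase i) rfl
    have h4 := hG J i j hiJ hiB hjJ (hKB j hj)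
    have h5 := hle j hj i hiK hiB
    have h6 := hK1 j hj
    rw [sum_insert hjJ, if_pos hj] at h2
    have h7 := add_sum_erase J (fun c => h c - if c ∈ K then 1 else 0) hiJ
    simp only [if_neg hiK] at h7
    omega

/-- `q` ROWS.  Induction on `q`: with `k₁ = ⌈k/(q+1)⌉`, `min k ((q+1) s) = min k₁ s + min (k-k₁) (q s)`;
`gr_one` with `G J = F |J| + min (k-k₁) (q |J \ B|)`.  (`q = 0`: `hJ univ` forces `k = 0`.) -/
theorem gr_step {D : Type} [Fintype D] [DecidableEq D] (q : ℕ) (h : D → ℕ) (B : Finset D) (F : ℕ → ℕ)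
    (hF : Conc F) (T k : ℕ) (hT : ∀ s, F s ≤ T) (htot : ∑ c, h c = T + k)
    (hJ : ∀ J : Finset D, ∑ c ∈ J, h c ≤ F J.card + min k (q * (J \ B).card)) :
    ∃ x : D → ℕ, (∀ c, x c ≤ q) ∧ (∀ c, x c ≤ h c) ∧ (∀ c ∈ B, x c = 0) ∧ ∑ c, x c = k ∧
      ∀ J : Finset D, ∑ c ∈ J, (h c - x c) ≤ F J.card := by
  induction q generalizing h k with
  | zero =>
    have h1 := hJ univ
    have h2 := hT (univ : Finset D).card
    obtain rfl : k = 0 := by omega
    exact ⟨0, fun _ => le_rfl, fun _ => Nat.zero_le _, fun _ _ => rfl, by simp,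
      fun J => by simpa using hJ J⟩
  | succ q ih =>
    obtain ⟨k₁, e1, e2⟩ : ∃ k₁, k ≤ q * k₁ + k₁ ∧ q * k₁ + k₁ ≤ k + q := by
      have h1 := Nat.div_add_mod (k + q) (q + 1)
      have h2 : (k + q) % (q + 1) < q + 1 := Nat.mod_lt _ q.succ_pos
      rw [add_mul, one_mul] at h1
      generalize (k + q) / (q + 1) = a at h1
      generalize (k + q) % (q + 1) = b at h1 h2
      exact ⟨a, by omega, by omega⟩
    have e3 : k₁ ≤ k := by
      rcases k₁ with _ | k₁
      · exact Nat.zero_le _
      · rw [mul_add] at e2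
        omega
    obtain ⟨K, hKk, hKB, hK1, hK⟩ := gr_one h B
      (fun J => F J.card + min (k - k₁) (q * (J \ B).card)) (fun J i j hi hiB hj hjB => by
        have h1 : insert j J \ B = insert j (J \ B) := insert_sdiff_of_notMem _ hjB
        have h2 : J.erase i \ B = (J \ B).erase i := erase_sdiff_comm _ _ _
        have h3 := card_erase_add_one hi
        have h4 := card_erase_add_one (mem_sdiff.2 ⟨hi, hiB⟩)
        have h5 := hF (J.erase i).card
        rw [h1, h2, card_insert_of_notMem hj, card_insert_of_notMem fun H => hj (mem_sdiff.1 H).1,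
          ← h3, ← h4, add_assoc (J.erase i).card, one_add_one_eq_two, mul_add q, mul_add q, mul_one]
        omega)
      (T + (k - k₁)) k₁ (fun J => add_le_add (hT _) (min_le_left _ _)) (by omega) (fun J => by
        have h1 := hJ J
        rw [add_mul, one_mul] at h1
        rcases le_or_gt k₁ (J \ B).card with c | c
        · have := Nat.mul_le_mul_left q c
          omega
        · have := Nat.mul_le_mul_left q (Nat.succ_le_of_lt c)
          rw [Nat.mul_succ] at this
          omega)
    have e4 := qga_sum hK1 univ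
    rw [univ_inter, hKk] at e4
    obtain ⟨x, h1, h2, h3, h4, h5⟩ := ih (fun c => h c - if c ∈ K then 1 else 0) (k - k₁) (by omega) hK
    refine ⟨fun c => x c + if c ∈ K then 1 else 0, fun c => ?_, fun c => ?_, fun c hc => ?_, ?_,
      fun J => le_trans (le_of_eq (sum_congr rfl fun c _ => ?_)) (h5 J)⟩
    · have := h1 c
      simp only
      split_ifs <;> omega
    · have h6 := h2 c
      simp only
      split_ifs at h6 ⊢ with hc
      · have := hK1 c hc
        omega
      · exact h6
    · simp only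
      rw [h3 c hc, if_neg (disjoint_right.1 hKB hc)]
    · rw [sum_add_distrib, h4, sum_ite_mem, univ_inter, sum_const, hKk, smul_eq_mul]
      omega
    · simp only
      omega

/-- take cells off the columns outside `B`, at most `4` from each -/
theorem exists_cap {D : Type} [Fintype D] [DecidableEq D] (h : D → ℕ) (B : Finset D) (P : ℕ)
    (hP : P ≤ ∑ c ∈ univ \ B, min (h c) 4) :
    ∃ x : D → ℕ, (∀ c, x c ≤ 4) ∧ (∀ c, x c ≤ h c) ∧ (∀ c ∈ B, x c = 0) ∧ ∑ c, x c = P := by
  induction P with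
  | zero => exact ⟨fun _ => 0, by simp, by simp, by simp, by simp⟩
  | succ P ih =>
    obtain ⟨x, h1, h2, h3, h4⟩ := ih (by omega)
    have h5 : ∑ c ∈ univ \ B, x c ≤ P := h4 ▸ sum_le_sum_of_subset (subset_univ _)
    obtain ⟨c, hc, h6⟩ := exists_lt_of_sum_lt (s := univ \ B) (f := x) (g := fun c => min (h c) 4)
      (by omega)
    refine ⟨fun d => x d + if d = c then 1 else 0, fun d => ?_, fun d => ?_, fun d hd => ?_, ?_⟩
    · have := h1 d
      dsimp only
      split_ifs with e
      · subst e; omega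
      · omega
    · have := h2 d
      dsimp only
      split_ifs with e
      · subst e; omega
      · omega
    · dsimp only
      rw [h3 d hd, if_neg fun e : d = c => (mem_sdiff.1 hc).2 (e ▸ hd)]
    · rw [sum_add_distrib, h4, sum_ite_eq' univ c, if_pos (mem_univ c)]

/-- the largest partial sums of an antitone sequence (induct on the maximum of `J`, or
`Finset.orderEmbOfFin`). -/
theorem sum_le_sorted {c : ℕ → ℕ} (hc : Antitone c) (b : ℕ) (J : Finset ℕ) (hJ : ∀ j ∈ J, b ≤ j) :
    ∑ j ∈ J, c j ≤ ∑ i ∈ range J.card, c (b + i) := by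
  induction J using Finset.induction_on_max with
  | empty => simp
  | insert a s ha ih =>
    have h1 : a ∉ s := fun h => lt_irrefl _ (ha a h)
    have h2 : s ⊆ Ico b a := fun j hj => mem_Ico.2 ⟨hJ j (mem_insert_of_mem hj), ha j hj⟩
    have h3 := card_le_card h2
    have h4 := hJ a (mem_insert_self _ _)
    rw [Nat.card_Ico] at h3
    rw [sum_insert h1, card_insert_of_notMem h1, sum_range_succ, add_comm]
    exact add_le_add (ih fun j hj => hJ j (mem_insert_of_mem hj)) (hc (by omega))

/-- capacity of `k` columns in the inner table with `n + 2` rows: bands `2b - 1`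
(`b = n+2, n, … ≥ 4`, at most four cells per column), three free cells (`n` odd), and two rows
`2 + s₁`, `1 + s₂` -/
def Th (s₁ s₂ k : ℕ) : ℕ → ℕ
  | 0 => min (2 + s₁) k + min (1 + s₂) k
  | 1 => min 3 k + (min (2 + s₁) k + min (1 + s₂) k)
  | n + 2 => min (2 * n + 7) (4 * k) + Th s₁ s₂ k n

/-- number of cells of the inner table -/
def Tt (s₁ s₂ n : ℕ) : ℕ := (n + 2) * (n + 3) / 2 + s₁ + s₂

theorem two_mul_Tt (s₁ s₂ n : ℕ) : 2 * Tt s₁ s₂ n = (n + 2) * (n + 3) + 2 * (s₁ + s₂) := by
  have := Nat.two_mul_div_two_of_even (Nat.even_mul_succ_self (n + 2))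
  unfold Tt
  rw [mul_add, mul_add, show n + 3 = n + 2 + 1 from rfl, this]
  ring

theorem Tt_succ_succ (s₁ s₂ n : ℕ) : Tt s₁ s₂ (n + 2) = Tt s₁ s₂ n + (2 * n + 7) := by
  have h1 := two_mul_Tt s₁ s₂ n
  have h2 := two_mul_Tt s₁ s₂ (n + 2)
  have h3 : (n + 2 + 2) * (n + 2 + 3) = (n + 2) * (n + 3) + 2 * (2 * n + 7) := by ring
  omega

theorem conc_Th (s₁ s₂ n : ℕ) : Conc fun k => Th s₁ s₂ k n := by
  induction n using Nat.twoStepInduction with
  | zero => intro k; simp only [Th]; omega
  | one => intro k; simp only [Th]; omega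
  | more n ih _ => exact (conc_min _ 4).add ih

theorem Th_le (s₁ s₂ k n : ℕ) : Th s₁ s₂ k n ≤ Tt s₁ s₂ n := by
  induction n using Nat.twoStepInduction with
  | zero => simp only [Th, Tt]; omega
  | one => simp only [Th, Tt]; omega
  | more n ih _ => rw [Th, Tt_succ_succ]; omega

theorem Th_mono (s₁ s₂ n : ℕ) : Monotone fun k => Th s₁ s₂ k n := by
  intro k k' hk
  dsimp only
  induction n using Nat.twoStepInduction with
  | zero => simp only [Th]; omega
  | one => simp only [Th]; omega
  | more n ih _ => rw [Th, Th]; omega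

/-- saturation -/
theorem Th_sat {s₁ s₂ k n : ℕ} (hs : s₂ ≤ s₁) (h1 : 2 * n + 3 ≤ 4 * k) (h2 : 2 + s₁ ≤ k) (h3 : 3 ≤ k) :
    Th s₁ s₂ k n = Tt s₁ s₂ n := by
  induction n using Nat.twoStepInduction with
  | zero => simp only [Th, Tt]; omega
  | one => simp only [Th, Tt]; omega
  | more n ih _ => rw [Th, Tt_succ_succ, ih (by omega)]; omega

theorem le_Th_one (s₁ s₂ n : ℕ) : 2 * n + 1 ≤ Th s₁ s₂ 1 n := by
  induction n using Nat.twoStepInduction with
  | zero => simp only [Th]; omega
  | one => simp only [Th]; omega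
  | more n ih _ => rw [Th]; omega

end Crest.Agent.R195
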