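import Mathlib

/-!
# R195 / QGlueC : bookkeeping of finite sums for `glue`
-/

set_option autoImplicit false
open Finset

namespace Crest.Agent.R195

theorem qglc_split {ι₀ ι₁ X : Type} [Fintype ι₀] [DecidableEq ι₀] [Fintype ι₁] [DecidableEq ι₁]
    [Fintype X] (F : (ι₀ ⊕ ι₁ → X) → ℤ) : ∑ a, F a = ∑ a₀, ∑ a₁, F (Sum.elim a₀ a₁) := by
  rw [← (Equiv.sumArrowEquivProdArrow ι₀ ι₁ X).symm.sum_comp, Fintype.sum_prod_type]
  rfl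

theorem qglc_book {U₁ UP U₂ V₁ VP V₂ X Y : Type} [Fintype U₁] [Fintype UP] [Fintype U₂]
    [Fintype V₁] [Fintype VP] [Fintype V₂] [Fintype X] [Fintype Y] (s : X → ℤ) (s' : Y → ℤ)
    (A₁ : X → U₁ → ℤ) (AP : X → UP → ℤ) (A₂ : U₂ → ℤ) (B₁ : V₁ → ℤ) (BP : Y → VP → ℤ)
    (B₂ : Y → V₂ → ℤ) (D₁ : U₁ → V₁ → ℤ) (DP : UP → VP → ℤ) (D₂ : U₂ → V₂ → ℤ) :
    ∑ a₁, ∑ aP, ∑ a₂, ∑ b₁, ∑ bP, ∑ b₂, (∑ x, s x * (A₁ x a₁ * AP x aP * A₂ a₂)) *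
        (∑ y, s' y * (B₂ y b₂ * BP y bP * B₁ b₁)) * (D₁ a₁ b₁ * (DP aP bP * D₂ a₂ b₂)) =
      ∑ x, ∑ y, s x * s' y * ((∑ a, ∑ b, A₁ x a * B₁ b * D₁ a b) *
        ((∑ a, ∑ b, AP x a * BP y b * DP a b) * ∑ b, ∑ a, B₂ y b * A₂ a * D₂ a b)) := by
  have h : ∀ a₁ aP a₂ b₁ bP b₂, (∑ x, s x * (A₁ x a₁ * AP x aP * A₂ a₂)) *
      (∑ y, s' y * (B₂ y b₂ * BP y bP * B₁ b₁)) * (D₁ a₁ b₁ * (DP aP bP * D₂ a₂ b₂)) =
      ∑ p : X × Y, s p.1 * s' p.2 * ((A₁ p.1 a₁ * B₁ b₁ * D₁ a₁ b₁) *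
        ((AP p.1 aP * BP p.2 bP * DP aP bP) * (B₂ p.2 b₂ * A₂ a₂ * D₂ a₂ b₂))) := by
    intros
    rw [Fintype.sum_prod_type, sum_mul_sum, sum_mul]
    refine sum_congr rfl fun x _ => ?_
    rw [sum_mul]
    exact sum_congr rfl fun y _ => by ring
  simp only [h, sum_comm (t := (univ : Finset (X × Y))), ← mul_sum, ← sum_mul]
  rw [Fintype.sum_prod_type]
  simp only [sum_comm (s := (univ : Finset U₂)) (t := (univ : Finset V₂))]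

theorem qglc_one {U W : Type} [Fintype U] [DecidableEq U] [Fintype W] (ι : W → U) (q : W → Prop)
    [DecidablePred q] (F : W → ℤ) (H : U → ℤ) :
    ∑ a, (∑ α, if a = ι α ∧ q α then F α else 0) * H a = ∑ α, if q α then F α * H (ι α) else 0 := by
  simp only [sum_mul, ite_and, ite_mul, zero_mul]
  rw [sum_comm]
  simp

theorem qglc_mid {U W : Type} [Fintype U] [DecidableEq U] [Fintype W] (ι : W → U) (q q' : W → Prop)
    [DecidablePred q] [DecidablePred q'] (F G : W → ℤ) (D : U → U → ℤ) :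
    ∑ a, ∑ b, (∑ α, if a = ι α ∧ q α then F α else 0) * (∑ β, if b = ι β ∧ q' β then G β else 0) *
      D a b = ∑ α, ∑ β, if q α ∧ q' β then F α * G β * D (ι α) (ι β) else 0 := by
  simp only [mul_assoc, ← mul_sum, qglc_one]
  refine sum_congr rfl fun α _ => ?_
  by_cases h : q α <;> simp [h, mul_sum]

theorem qglc_two (x₁ : Fin 2) (f : Fin 2 → ℤ) (h : f (x₁ + 1) = 0) : ∑ x, f x = f x₁ := by
  rw [Fin.sum_univ_two]
  fin_cases x₁ <;> simp_all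

end Crest.Agent.R195
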