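import Crest.Agent.R195.QTab
import Crest.Agent.R195.QGlueC

/-!
# R195 / QGlue (helper50): two blocks joined by the Clifford path
-/

set_option autoImplicit false
set_option linter.unusedSectionVars false
open Finset

noncomputable section
namespace Crest.Agent.R195

/-- the trilinear evaluation -/
def tri {ι : Type} [Fintype ι] [DecidableEq ι] {N : ℕ} (R C : ι → ℕ) (a₀ b₀ : ι → Fin N)
    (col lab : ι → ℕ) (τ : ℕ → ℕ → ℕ → ℤ) : ℤ :=
  ∑ a : ι → Fin N, ∑ b : ι → Fin N,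
    EZ R a₀ a * EZ C b₀ b * cdet col lab fun i c => τ (a i) (b i) c

/-- the same with the row letter of the cell `z` (alone in its row) prescribed to be `x` -/
def blkPhi {β : Type} [Fintype β] [DecidableEq β] {N : ℕ} (R C : β → ℕ) (a₀ b₀ : β → Fin N) (z : β)
    (col lab : β → ℕ) (τ : ℕ → ℕ → ℕ → ℤ) (x : ℕ) : ℤ :=
  ∑ a : β → Fin N, ∑ b : β → Fin N, if (a z : ℕ) = x then
    EZ R a₀ (Function.update a z (a₀ z)) * EZ C b₀ b * cdet col lab fun i c => τ (a i) (b i) c else 0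

/-- `EZ_congr_blocks`, `cdet_congr` -/
theorem blkPhi_congr {β : Type} [Fintype β] [DecidableEq β] {N : ℕ} {R C R' C' : β → ℕ}
    (a₀ b₀ : β → Fin N) (z : β) {col col' : β → ℕ} (lab : β → ℕ) (τ : ℕ → ℕ → ℕ → ℤ) (x : ℕ)
    (hR : ∀ i j, R i = R j ↔ R' i = R' j) (hC : ∀ i j, C i = C j ↔ C' i = C' j)
    (hT : ∀ i j, col i = col j ↔ col' i = col' j) :
    blkPhi R C a₀ b₀ z col lab τ x = blkPhi R' C' a₀ b₀ z col' lab τ x := by
  unfold blkPhi
  refine sum_congr rfl fun a _ => sum_congr rfl fun b _ => ?_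
  rw [EZ_congr_blocks hR, EZ_congr_blocks hC,
    cdet_congr (lab' := lab) (m' := fun i c => τ (a i) (b i) c) hT fun _ _ _ => rfl]

/-- `Shape.sees` with `t = fun p c => (τ p.1 p.2 c : ℂ)`; `pt_eq_EZ`, `map_cdet (Int.castRingHom ℂ)`,
`polara_sum_prod`. -/
theorem sees_of_tri {ι : Type} [Fintype ι] [DecidableEq ι] {N : ℕ} {R C : ι → ℕ} {a₀ b₀ : ι → Fin N}
    {col lab : ι → ℕ} {τ : ℕ → ℕ → ℕ → ℤ} {ν : YoungDiagram} (hν : Shape ν col lab)
    (h : tri R C a₀ b₀ col lab τ ≠ 0) : Sees (inn (pt R a₀) (pt C b₀)) ν := by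
  refine hν.sees (t := fun p c => (τ p.1 p.2 c : ℂ)) ?_
  have h1 := polara_sum_prod (ι := ι) fun (a b : ι → Fin N) => pt R a₀ a * pt C b₀ b *
    cdet col lab fun i c => (τ (a i) (b i) c : ℂ)
  have h2 : ip (inn (pt R a₀) (pt C b₀)) (E col lab fun (p : Fin N × Fin N) c => (τ p.1 p.2 c : ℂ)) =
      (tri R C a₀ b₀ col lab τ : ℂ) := by
    refine h1.trans ?_
    unfold tri
    push_cast
    refine sum_congr rfl fun a _ => sum_congr rfl fun b _ => ?_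
    rw [pt_eq_EZ, pt_eq_EZ]
    congr 1
    exact (map_cdet (Int.castRingHom ℂ) col lab fun i c => τ (a i) (b i) c).symm
  rw [h2]
  exact Int.cast_ne_zero.2 h

/-- the letters `0, 1` -/
def e2 {N : ℕ} (hN : 2 ≤ N) (x : Fin 2) : Fin N := Fin.castLE hN x

/-- the sign `+1` for `x = 1`, `-1` for `x = 0` -/
def sg2 (x : Fin 2) : ℤ := if x = 1 then 1 else -1

section
variable {β₁ β₂ : Type} [Fintype β₁] [DecidableEq β₁] [Fintype β₂] [DecidableEq β₂] {N k : ℕ}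

theorem qgla_tag {ι κ A : Type} [Fintype ι] [DecidableEq ι] [DecidableEq κ] [DecidableEq A]
    (c : ι → κ) (r u : ι → A) :
    EZ c r u = EZ c (fun i => (c i, r i)) (fun i => (c i, u i)) := by
  unfold EZ
  refine Finset.sum_congr rfl fun g hg => ?_
  rw [mem_blockGrp] at hg
  refine if_congr ?_ rfl rfl
  constructor
  · rintro rfl
    funext i
    simp [hg i]
  · intro h
    funext i
    exact congrArg Prod.snd (congrFun h i)

theorem qgla_sum {ι₀ ι₁ κ A : Type} [Fintype ι₀] [DecidableEq ι₀] [Fintype ι₁] [DecidableEq ι₁]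
    [DecidableEq κ] [DecidableEq A] (c₀ : ι₀ → κ) (c₁ : ι₁ → κ) (r₀ u₀ : ι₀ → A) (r₁ u₁ : ι₁ → A)
    (P : κ → A → Prop) (hr : ∀ i, P (c₁ i) (r₁ i)) (hu : ∀ i, ¬ P (c₀ i) (u₀ i)) :
    EZ (Sum.elim c₀ c₁) (Sum.elim r₀ r₁) (Sum.elim u₀ u₁) = EZ c₀ r₀ u₀ * EZ c₁ r₁ u₁ := by
  rw [qgla_tag, EZ_sum _ _ _ (fun a : κ × A => P a.1 a.2) hr hu, qgla_tag c₀, qgla_tag c₁]
  rfl

theorem qgla_e2_inj (hN : 2 ≤ N) : Function.Injective (e2 hN) := Fin.castLE_injective hN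

theorem qgla_path (hN : 2 ≤ N) (RP : Fin (2 * k + 1) → ℕ) (p₀ : Fin (2 * k + 1))
    (cP : Fin (2 * k + 1) → ℕ) (hP : ∀ p q, RP p = RP q ↔ cP p = cP q)
    (aP : Fin (2 * k + 1) → Fin N) (y : Fin 2) :
    (∑ α : Fin (2 * k + 1) → Fin 2, if aP = e2 hN ∘ α ∧ α p₀ = y then
        EZ cP (pathR _) (Function.update α p₀ 0) else 0) =
      if aP p₀ = e2 hN y then EZ RP (e2 hN ∘ pathR _) (Function.update aP p₀ (e2 hN 0)) else 0 := by
  by_cases h : ∃ α₀ : Fin (2 * k + 1) → Fin 2, aP = e2 hN ∘ α₀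
  · obtain ⟨α₀, rfl⟩ := h
    rw [Finset.sum_eq_single α₀]
    · rw [← Function.comp_update, EZ_map (qgla_e2_inj hN), EZ_congr_blocks hP]
      simp [(qgla_e2_inj hN).eq_iff]
    · intro α _ hα
      rw [if_neg]
      rintro ⟨h1, -⟩
      exact hα ((qgla_e2_inj hN).comp_left h1).symm
    · simp
  · rw [Finset.sum_eq_zero]
    · split_ifs with hy
      · by_contra hne
        obtain ⟨g, -, hg⟩ := exists_of_EZ_ne_zero (Ne.symm hne)
        refine h ⟨Function.update (pathR _ ∘ g) p₀ y, ?_⟩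
        funext p
        by_cases hp : p = p₀
        · subst hp; simpa using hy
        · have := congrFun hg p
          simpa [Function.update_of_ne hp] using this
      · rfl
    · intro α _
      rw [if_neg]
      rintro ⟨h1, -⟩
      exact h ⟨α, h1⟩

/-- ROW FACTORISATION.  The rows of `β₁ ⊕ path ⊕ β₂`: those of `β₁`, of the path and of `β₂`, except that
`z₁` and the first path cell form one row with reference letters `1, 0`.  Proof: `eq_EZ` for the right-hand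
side as a function of the whole word (antisymmetry under swaps inside a row: cases; support), or split
`β₂` off by `cdet_sum₁₂`/`pt_eq_EZ`, and if `a₁ z₁ = 0` first apply the swap of `z₁` and the first path
cell (`EZ_comp`), then `EZ_sum`-type splitting: a row-preserving permutation compatible with the word
fixes `z₁`. -/
theorem EZ_glue (hN : 2 ≤ N) (R₁ : β₁ → ℕ) (RP : Fin (2 * k + 1) → ℕ) (R₂ : β₂ → ℕ)
    (r₁ : β₁ → Fin N) (r₂ : β₂ → Fin N) (z₁ : β₁) (p₀ : Fin (2 * k + 1)) (cP : Fin (2 * k + 1) → ℕ)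
    (hz : ∀ i, R₁ i = R₁ z₁ → i = z₁) (hp : ∀ p, cP p = cP p₀ → p = p₀)
    (h1P : ∀ i p, R₁ i = RP p ↔ i = z₁ ∧ p = p₀) (h12 : ∀ i j, R₁ i ≠ R₂ j)
    (hP2 : ∀ p j, RP p ≠ R₂ j) (hP : ∀ p q, RP p = RP q ↔ cP p = cP q)
    (hr₁ : BlockInj R₁ r₁) (hr₂ : BlockInj R₂ r₂) (hrP : BlockInj cP (pathR _))
    (hrz : r₁ z₁ = e2 hN 1) (hrp : pathR _ p₀ = 0)
    (a₁ : β₁ → Fin N) (aP : Fin (2 * k + 1) → Fin N) (a₂ : β₂ → Fin N) :
    EZ (Sum.elim R₁ (Sum.elim RP R₂)) (Sum.elim r₁ (Sum.elim (e2 hN ∘ pathR _) r₂))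
        (Sum.elim a₁ (Sum.elim aP a₂)) =
      ∑ x : Fin 2, ∑ α : Fin (2 * k + 1) → Fin 2,
        if a₁ z₁ = e2 hN x ∧ aP = e2 hN ∘ α ∧ α p₀ = x + 1 then
          sg2 x * (EZ R₁ r₁ (Function.update a₁ z₁ (r₁ z₁)) *
            EZ cP (pathR _) (Function.update α p₀ 0) * EZ R₂ r₂ a₂) else 0 := by
  have h01 : e2 hN 0 ≠ e2 hN 1 := fun h => by simpa using qgla_e2_inj hN h
  -- the path factor vanishes unless the first cell carries `0`
  have hW : ∀ aP : Fin (2 * k + 1) → Fin N, aP p₀ ≠ e2 hN 0 → EZ RP (e2 hN ∘ pathR _) aP = 0 := by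
    intro aP h
    by_contra hne
    obtain ⟨g, hg, rfl⟩ := exists_of_EZ_ne_zero hne
    have : g p₀ = p₀ := hp _ ((hP _ _).1 (mem_blockGrp.1 hg p₀))
    apply h
    simp [this, hrp]
  -- splitting when `z₁` carries `1`
  have hD : ∀ (a₁ : β₁ → Fin N) (aP : Fin (2 * k + 1) → Fin N), a₁ z₁ = e2 hN 1 →
      EZ (Sum.elim R₁ (Sum.elim RP R₂)) (Sum.elim r₁ (Sum.elim (e2 hN ∘ pathR _) r₂))
        (Sum.elim a₁ (Sum.elim aP a₂)) =
      EZ R₁ r₁ a₁ * EZ RP (e2 hN ∘ pathR _) aP * EZ R₂ r₂ a₂ := by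
    intro a₁ aP h
    rw [qgla_sum _ _ _ _ _ _
        (fun κ a => (∃ j, κ = Sum.elim RP R₂ j) ∧ ¬ (κ = R₁ z₁ ∧ a = e2 hN 1)),
      qgla_sum _ _ _ _ _ _ (fun κ _ => ∃ j, κ = R₂ j), mul_assoc]
    · intro j; exact ⟨j, rfl⟩
    · rintro p ⟨j, hj⟩; exact hP2 p j hj
    · intro j
      refine ⟨⟨j, rfl⟩, ?_⟩
      rintro ⟨e1, e2'⟩
      rcases j with p | j
      · have := ((h1P z₁ p).1 e1.symm).2
        subst this
        simp only [Sum.elim_inl, Function.comp, hrp] at e2'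
        exact h01 e2'
      · exact h12 _ _ e1.symm
    · rintro i ⟨⟨j, hj⟩, hn⟩
      rcases j with p | j
      · have := ((h1P i p).1 hj).1
        subst this
        exact hn ⟨rfl, h⟩
      · exact h12 _ _ hj
  -- closed form of the right-hand side
  have hR : ∀ x : Fin 2, (∑ α : Fin (2 * k + 1) → Fin 2,
        if a₁ z₁ = e2 hN x ∧ aP = e2 hN ∘ α ∧ α p₀ = x + 1 then
          sg2 x * (EZ R₁ r₁ (Function.update a₁ z₁ (r₁ z₁)) *
            EZ cP (pathR _) (Function.update α p₀ 0) * EZ R₂ r₂ a₂) else 0) =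
      if a₁ z₁ = e2 hN x then sg2 x * (EZ R₁ r₁ (Function.update a₁ z₁ (r₁ z₁)) *
        (if aP p₀ = e2 hN (x + 1) then
          EZ RP (e2 hN ∘ pathR _) (Function.update aP p₀ (e2 hN 0)) else 0) * EZ R₂ r₂ a₂)
      else 0 := by
    intro x
    by_cases hx : a₁ z₁ = e2 hN x
    · rw [if_pos hx, ← qgla_path hN RP p₀ cP hP aP (x + 1), Finset.mul_sum, Finset.sum_mul,
        Finset.mul_sum]
      refine Finset.sum_congr rfl fun α _ => ?_
      simp only [hx, true_and]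
      split_ifs <;> simp
    · simp [hx]
  rw [Finset.sum_congr rfl fun x _ => hR x, Fin.sum_univ_two]
  have e01 : (0 : Fin 2) + 1 = 1 := rfl
  have e10 : (1 : Fin 2) + 1 = 0 := rfl
  have s0 : sg2 0 = -1 := rfl
  have s1 : sg2 1 = 1 := rfl
  rw [e01, e10, s0, s1]
  by_cases h1 : a₁ z₁ = e2 hN 1
  · rw [hD a₁ aP h1, if_neg (by rw [h1]; exact h01.symm), if_pos h1, hrz, ← h1,
      Function.update_eq_self]
    by_cases h0 : aP p₀ = e2 hN 0
    · rw [if_pos h0, ← h0, Function.update_eq_self]; ring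
    · rw [if_neg h0, hW aP h0]; ring
  · rw [if_neg h1, add_zero]
    by_cases h2 : aP p₀ = e2 hN 1
    · have hs : Equiv.swap (Sum.inl z₁ : β₁ ⊕ (Fin (2 * k + 1) ⊕ β₂)) (Sum.inr (Sum.inl p₀)) ∈
          blockGrp (Sum.elim R₁ (Sum.elim RP R₂)) :=
        swap_mem_blockGrp ((h1P z₁ p₀).2 ⟨rfl, rfl⟩)
      have hc := EZ_comp hs (Sum.elim r₁ (Sum.elim (e2 hN ∘ pathR _) r₂))
        (Sum.elim a₁ (Sum.elim aP a₂))
      have hu : (Sum.elim a₁ (Sum.elim aP a₂)) ∘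
          (Equiv.swap (Sum.inl z₁ : β₁ ⊕ (Fin (2 * k + 1) ⊕ β₂)) (Sum.inr (Sum.inl p₀))) =
          Sum.elim (Function.update a₁ z₁ (e2 hN 1))
            (Sum.elim (Function.update aP p₀ (a₁ z₁)) a₂) := by
        funext i
        rw [Function.comp_apply]
        rcases i with i | p | j
        · by_cases hi : i = z₁
          · subst hi
            rw [Equiv.swap_apply_left]
            simp only [Sum.elim_inl, Sum.elim_inr, Function.update_self, h2]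
          · rw [Equiv.swap_apply_of_ne_of_ne (fun h => hi (Sum.inl_injective h)) Sum.inl_ne_inr]
            simp only [Sum.elim_inl, Function.update_of_ne hi]
        · by_cases hi : p = p₀
          · subst hi
            rw [Equiv.swap_apply_right]
            simp only [Sum.elim_inl, Sum.elim_inr, Function.update_self]
          · rw [Equiv.swap_apply_of_ne_of_ne Sum.inr_ne_inl
              (fun h => hi (Sum.inl_injective (Sum.inr_injective h)))]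
            simp only [Sum.elim_inl, Sum.elim_inr, Function.update_of_ne hi]
        · rw [Equiv.swap_apply_of_ne_of_ne Sum.inr_ne_inl
            (fun h => Sum.inr_ne_inl (Sum.inr_injective h))]
          simp only [Sum.elim_inr]
      rw [hu, hD _ _ (by simp), Equiv.Perm.sign_swap (by simp)] at hc
      rw [if_pos h2, hrz]
      by_cases h0 : a₁ z₁ = e2 hN 0
      · rw [if_pos h0, ← h0, hc]; simp
      · rw [if_neg h0]
        rw [hW _ (by simpa using h0)] at hc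
        simpa using hc
    · rw [if_neg h2]
      have : EZ (Sum.elim R₁ (Sum.elim RP R₂)) (Sum.elim r₁ (Sum.elim (e2 hN ∘ pathR _) r₂))
          (Sum.elim a₁ (Sum.elim aP a₂)) = 0 := by
        by_contra hne
        obtain ⟨g, hg, hu⟩ := exists_of_EZ_ne_zero hne
        have e1 := congrFun hu (g⁻¹ (Sum.inl z₁))
        have e2' := mem_blockGrp.1 (inv_mem_blockGrp hg) (Sum.inl z₁)
        have e3 : g (g⁻¹ (Sum.inl z₁)) = Sum.inl z₁ := by simp
        rw [Function.comp_apply, e3] at e1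
        generalize g⁻¹ (Sum.inl z₁) = w at e1 e2'
        simp only [Sum.elim_inl, hrz] at e1 e2'
        rcases w with i | p | j
        · have := hz i e2'
          subst this
          exact h1 e1
        · have := ((h1P z₁ p).1 e2'.symm).2
          subst this
          exact h2 e1
        · exact h12 _ _ e2'.symm
      rw [this]; simp

theorem qglb_first {L : ℕ} (α β : Fin (L + 1) → Fin 2) (t : Fin 2) :
    pathM α β (α 0) t = pathM (Function.update α 0 0) β 0 t := by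
  unfold pathM
  rw [prodF_succ, prodF_succ, Matrix.mul_apply, Matrix.mul_apply]
  refine sum_congr rfl fun b _ => ?_
  simp only [Function.update_self, Function.update_of_ne (Fin.succ_ne_zero _)]
  congr 1
  simp [altG, unitM]

theorem qglb_last (α β : Fin (2 * k + 1) → Fin 2) (s : Fin 2) :
    pathM α β s (β (Fin.last _)) = pathM α (Function.update β (Fin.last _) 0) s 0 := by
  unfold pathM
  rw [prodF_succ', prodF_succ', Matrix.mul_apply, Matrix.mul_apply]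
  refine sum_congr rfl fun b _ => ?_
  simp only [Function.update_self, Function.update_of_ne (Fin.castSucc_ne_last _)]
  congr 1
  simp [altG, unitM]

theorem qglb_key (ε : Fin 2) {L : ℕ} (u : Fin L → Fin 4) (s t : Fin 2) :
    ∑ α : Fin L → Fin 2, ∑ β : Fin L → Fin 2, pathM α β s t * ∏ i, cliff ε (u i) (α i) (β i) =
      cliffP ε 0 u s t := by
  have := sum_prodF (fun i (x : Fin 2 × Fin 2) => cliff ε (u i) x.1 x.2)
    (fun (i : Fin L) x => altG i.1 (unitM x))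
  simp only [sum_altG_unitM] at this
  have e := congrFun (congrFun this s) t
  rw [Matrix.sum_apply] at e
  simp only [cliffP, zero_add]
  refine Eq.trans ?_ e
  rw [← Fintype.sum_prod_type']
  refine (Fintype.sum_equiv (Equiv.arrowProdEquivProdArrow _ (fun _ => Fin 2) fun _ => Fin 2) _ _
    fun a => ?_).symm
  rw [Matrix.smul_apply, smul_eq_mul, mul_comm]; rfl

/-- the open path: `pathM α β s t` only depends on `α 0`, `β last` through `s`, `t`
(`pathM_first`, `pathM_last`, `prodF_succ`, `prodF_succ'`, `pathM_eq`). -/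
theorem pathM_open (α β : Fin (2 * k + 1) → Fin 2) :
    pathM α β (α 0) (β (Fin.last _)) =
      EZ (pathC₁ _) (pathR _) (Function.update α 0 0) *
        EZ (pathC₂ _) (pathR _) (Function.update β (Fin.last _) 0) := by
  rw [qglb_first, qglb_last, pathM_eq]

/-- the middle factor.  As in `path_lemma` (`sum_prodF`, `sum_altG_unitM`, `sum_EZ_cliffP`), with
`cdet colP (val ∘ rT) m = ∑ u, EZ colP rT u * ∏ i, m i (u i)` (`cdet_eq_sum`, `sum_EZ_smul`),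
`pathM_open`, `pathM_first`, `pathM_last`. -/
theorem mid_eq (ε : Fin 2) (colP : Fin (2 * k + 1) → ℕ) (rT : Fin (2 * k + 1) → Fin 4)
    (hT : BlockInj colP rT)
    (hconv : ∀ i j l : Fin (2 * k + 1), i ≤ l → l ≤ j → colP i = colP j → colP l = colP i)
    (τ : ℕ → ℕ → ℕ → ℤ) (hτ : ∀ (a b : Fin 2) (c : Fin 4), τ a b c = cliff ε c a b) (s t : Fin 2) :
    (∑ α : Fin (2 * k + 1) → Fin 2, ∑ β : Fin (2 * k + 1) → Fin 2,
      if α 0 = s ∧ β (Fin.last _) = t then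
        EZ (pathC₁ _) (pathR _) (Function.update α 0 0) *
          EZ (pathC₂ _) (pathR _) (Function.update β (Fin.last _) 0) *
          cdet colP (fun i => (rT i : ℕ)) (fun i c => τ (α i) (β i) c) else 0) =
      ((blockGrp colP).card : ℤ) * cliffP ε 0 rT s t := by
  have h := congrFun (congrFun (sum_EZ_cliffP ε 0 colP rT hT hconv) s) t
  rw [sum_EZ_smul, Matrix.sum_apply] at h
  simp only [Matrix.smul_apply, smul_eq_mul] at h
  rw [← h]
  simp only [← qglb_key, mul_sum]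
  conv_rhs => rw [sum_comm]
  refine sum_congr rfl fun α _ => ?_
  conv_rhs => rw [sum_comm]
  refine sum_congr rfl fun β _ => ?_
  split_ifs with hst
  · obtain ⟨rfl, rfl⟩ := hst
    rw [← pathM_open, cdet_eq_sum, cg_eq_blockGrp, mul_sum]
    refine sum_congr rfl fun σ _ => ?_
    simp only [hτ, Function.comp_apply, Int.cast_id]
    ring
  · have h0 : pathM α β s t = 0 := by
      by_contra h0
      exact hst ⟨pathM_first h0, pathM_last h0⟩
    simp [h0]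

/-- `EZ_glue` as a sum of products -/
theorem qglc_EZ (hN : 2 ≤ N) (R₁ : β₁ → ℕ) (RP : Fin (2 * k + 1) → ℕ) (R₂ : β₂ → ℕ)
    (r₁ : β₁ → Fin N) (r₂ : β₂ → Fin N) (z₁ : β₁) (p₀ : Fin (2 * k + 1)) (cP : Fin (2 * k + 1) → ℕ)
    (hz : ∀ i, R₁ i = R₁ z₁ → i = z₁) (hp : ∀ p, cP p = cP p₀ → p = p₀)
    (h1P : ∀ i p, R₁ i = RP p ↔ i = z₁ ∧ p = p₀) (h12 : ∀ i j, R₁ i ≠ R₂ j)
    (hP2 : ∀ p j, RP p ≠ R₂ j) (hP : ∀ p q, RP p = RP q ↔ cP p = cP q)
    (hr₁ : BlockInj R₁ r₁) (hr₂ : BlockInj R₂ r₂) (hrP : BlockInj cP (pathR _))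
    (hrz : r₁ z₁ = e2 hN 1) (hrp : pathR _ p₀ = 0)
    (a₁ : β₁ → Fin N) (aP : Fin (2 * k + 1) → Fin N) (a₂ : β₂ → Fin N) :
    EZ (Sum.elim R₁ (Sum.elim RP R₂)) (Sum.elim r₁ (Sum.elim (e2 hN ∘ pathR _) r₂))
        (Sum.elim a₁ (Sum.elim aP a₂)) =
      ∑ x : Fin 2, sg2 x *
        ((if a₁ z₁ = e2 hN x then EZ R₁ r₁ (Function.update a₁ z₁ (r₁ z₁)) else 0) *
          (∑ α : Fin (2 * k + 1) → Fin 2, if aP = e2 hN ∘ α ∧ α p₀ = x + 1 then
            EZ cP (pathR _) (Function.update α p₀ 0) else 0) * EZ R₂ r₂ a₂) := by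
  rw [EZ_glue hN R₁ RP R₂ r₁ r₂ z₁ p₀ cP hz hp h1P h12 hP2 hP hr₁ hr₂ hrP hrz hrp]
  refine sum_congr rfl fun x _ => ?_
  simp only [mul_sum, sum_mul]
  refine sum_congr rfl fun α _ => ?_
  by_cases h1 : a₁ z₁ = e2 hN x <;> by_cases h2 : aP = e2 hN ∘ α ∧ α p₀ = x + 1 <;>
    simp only [h1, h2, and_self, true_and, false_and, if_true, if_false, mul_zero, zero_mul]

theorem qglc_swap {P : Type} [Fintype P] [DecidableEq P] (C₁ : β₁ → ℕ) (CP : P → ℕ) (C₂ : β₂ → ℕ)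
    (r₁ b₁ : β₁ → Fin N) (rP bP : P → Fin N) (r₂ b₂ : β₂ → Fin N) :
    EZ (Sum.elim C₁ (Sum.elim CP C₂)) (Sum.elim r₁ (Sum.elim rP r₂)) (Sum.elim b₁ (Sum.elim bP b₂)) =
      EZ (Sum.elim C₂ (Sum.elim CP C₁)) (Sum.elim r₂ (Sum.elim rP r₁))
        (Sum.elim b₂ (Sum.elim bP b₁)) := by
  rw [← EZ_reindex ((Equiv.sumComm β₂ (P ⊕ β₁)).trans ((Equiv.sumCongr (Equiv.sumComm P β₁)
    (Equiv.refl β₂)).trans (Equiv.sumAssoc β₁ P β₂)))]
  congr 1 <;> funext i <;> rcases i with i | i | i <;> rfl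

/-- GLUE.  Split the words (`Equiv.sumArrowEquivProdArrow`), `EZ_glue` for the rows, `EZ_glue` for the
columns with the roles of `β₁`, `β₂` exchanged (`EZ_reindex` along
`β₂ ⊕ P ⊕ β₁ ≃ β₁ ⊕ P ⊕ β₂`), `cdet_sum₁₂` twice, `mid_eq`:
`tri = ∑ x y, sg2 x * sg2 y * Φ₁ x * Φ₂ y * card * cliffP ε 0 rT (x+1) (y+1)`. -/
theorem glue (hN : 2 ≤ N) (ε : Fin 2) (R₁ C₁ T₁ l₁ : β₁ → ℕ) (RP CP TP : Fin (2 * k + 1) → ℕ)
    (rT : Fin (2 * k + 1) → Fin 4) (R₂ C₂ T₂ l₂ : β₂ → ℕ) (a₁ b₁ : β₁ → Fin N) (a₂ b₂ : β₂ → Fin N)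
    (z₁ : β₁) (z₂ : β₂) (τ : ℕ → ℕ → ℕ → ℤ)
    (hz₁ : ∀ i, R₁ i = R₁ z₁ → i = z₁) (hR1P : ∀ i p, R₁ i = RP p ↔ i = z₁ ∧ p = 0)
    (hR12 : ∀ i j, R₁ i ≠ R₂ j) (hRP2 : ∀ p j, RP p ≠ R₂ j)
    (hRP : ∀ p q, RP p = RP q ↔ pathC₁ _ p = pathC₁ _ q)
    (hz₂ : ∀ j, C₂ j = C₂ z₂ → j = z₂) (hC2P : ∀ j p, C₂ j = CP p ↔ j = z₂ ∧ p = Fin.last _)
    (hC21 : ∀ j i, C₂ j ≠ C₁ i) (hCP1 : ∀ p i, CP p ≠ C₁ i)
    (hCP : ∀ p q, CP p = CP q ↔ pathC₂ _ p = pathC₂ _ q)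
    (hT1P : ∀ i p, T₁ i ≠ TP p) (hT12 : ∀ i j, T₁ i ≠ T₂ j) (hTP2 : ∀ p j, TP p ≠ T₂ j)
    (hT : BlockInj TP rT)
    (hconv : ∀ i j l : Fin (2 * k + 1), i ≤ l → l ≤ j → TP i = TP j → TP l = TP i)
    (ha₁ : BlockInj R₁ a₁) (ha₂ : BlockInj R₂ a₂) (hb₁ : BlockInj C₁ b₁) (hb₂ : BlockInj C₂ b₂)
    (haz : a₁ z₁ = e2 hN 1) (hbz : b₂ z₂ = e2 hN 1)
    (hτ : ∀ (a b : Fin 2) (c : Fin 4), τ a b c = cliff ε c a b) (x₁ x₂ : Fin 2)
    (hΦ₁ : blkPhi R₁ C₁ a₁ b₁ z₁ T₁ l₁ τ x₁ ≠ 0)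
    (hΦ₁' : blkPhi R₁ C₁ a₁ b₁ z₁ T₁ l₁ τ ((x₁ + 1 : Fin 2) : ℕ) = 0)
    (hΦ₂ : blkPhi C₂ R₂ b₂ a₂ z₂ T₂ l₂ (fun b a c => τ a b c) x₂ ≠ 0)
    (hΦ₂' : blkPhi C₂ R₂ b₂ a₂ z₂ T₂ l₂ (fun b a c => τ a b c) ((x₂ + 1 : Fin 2) : ℕ) = 0)
    (hc : cliffP ε 0 rT (x₁ + 1) (x₂ + 1) ≠ 0) :
    tri (Sum.elim R₁ (Sum.elim RP R₂)) (Sum.elim C₁ (Sum.elim CP C₂))
      (Sum.elim a₁ (Sum.elim (e2 hN ∘ pathR _) a₂)) (Sum.elim b₁ (Sum.elim (e2 hN ∘ pathR _) b₂))
      (Sum.elim T₁ (Sum.elim TP T₂)) (Sum.elim l₁ (Sum.elim (fun p => (rT p : ℕ)) l₂)) τ ≠ 0 := by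
  have he : ∀ (a : Fin N) (x : Fin 2), a = e2 hN x ↔ (a : ℕ) = x := fun a x => Fin.ext_iff
  have hR := qglc_EZ hN R₁ RP R₂ a₁ a₂ z₁ 0 (pathC₁ _) hz₁
    (fun p hp => Fin.ext (by simp only [pathC₁, Fin.val_zero] at hp ⊢; omega)) hR1P hR12 hRP2 hRP
    ha₁ ha₂ (pathC₁_inj _) haz rfl
  have hC := qglc_EZ hN C₂ CP C₁ b₂ b₁ z₂ (Fin.last _) (pathC₂ _) hz₂
    (fun p hp => Fin.ext (by have := p.2; simp only [pathC₂, Fin.val_last] at hp ⊢; omega)) hC2P
    hC21 hCP1 hCP hb₂ hb₁ (pathC₂_inj _) hbz (Fin.ext (by simp [pathR]))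
  have hD : ∀ (u₁ v₁ : β₁ → Fin N) (uP vP : Fin (2 * k + 1) → Fin N) (u₂ v₂ : β₂ → Fin N),
      (cdet (Sum.elim T₁ (Sum.elim TP T₂)) (Sum.elim l₁ (Sum.elim (fun p => (rT p : ℕ)) l₂))
        fun i c => τ (Sum.elim u₁ (Sum.elim uP u₂) i : Fin N)
          (Sum.elim v₁ (Sum.elim vP v₂) i : Fin N) c) =
      (cdet T₁ l₁ fun i c => τ (u₁ i) (v₁ i) c) *
        ((cdet TP (fun p => (rT p : ℕ)) fun i c => τ (uP i) (vP i) c) *
          cdet T₂ l₂ fun i c => τ (u₂ i) (v₂ i) c) := by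
    intros
    rw [cdet_sum₁₂, cdet_sum₁₂ (_ ∘ Sum.inr)]
    · rfl
    · exact fun i j h => absurd h (hTP2 i j)
    · rintro i (j | j) h
      exacts [absurd h (hT1P i j), absurd h (hT12 i j)]
  rw [tri, qglc_split]
  simp only [qglc_split (ι₀ := Fin (2 * k + 1)), qglc_split (ι₀ := β₁)]
  simp only [hR, qglc_swap C₁, hC, hD]
  rw [qglc_book]
  simp only [qglc_mid, he, ite_mul, zero_mul]
  have hs : ∀ x, sg2 x ≠ 0 := by decide
  refine (sum_congr rfl fun x _ => sum_congr rfl fun y _ => congrArg (fun m => sg2 x * sg2 y *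
    (blkPhi R₁ C₁ a₁ b₁ z₁ T₁ l₁ τ x * (m * blkPhi C₂ R₂ b₂ a₂ z₂ T₂ l₂ (fun b a c => τ a b c) y)))
    (mid_eq ε TP rT hT hconv τ hτ (x + 1) (y + 1))).trans_ne ?_
  rw [qglc_two x₁ _ (by simp only [hΦ₁', zero_mul, mul_zero, sum_const_zero]),
    qglc_two x₂ _ (by simp only [hΦ₂', mul_zero])]
  exact mul_ne_zero (mul_ne_zero (hs _) (hs _)) (mul_ne_zero hΦ₁ (mul_ne_zero
    (mul_ne_zero (Int.natCast_ne_zero.2 (card_blockGrp_pos TP).ne') hc) hΦ₂))

/-- one of the two Clifford systems hits the prescribed entry (`prodF_monomial`, `cliff_mono`, odd length;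
see the end of `path_lemma`). -/
theorem exists_cliffP (rT : Fin (2 * k + 1) → Fin 4) (s t : Fin 2) :
    ∃ ε : Fin 2, cliffP ε 0 rT s t ≠ 0 := by
  refine ⟨s + t + ∑ i, cliffD (rT i), ?_⟩
  unfold cliffP
  rw [prodF_monomial _ (fun i => cliffD (rT i) + (s + t + ∑ i, cliffD (rT i)))
    (fun i => cliff_mono _ _ _), sum_add_distrib]
  simp only [sum_const, card_univ, Fintype.card_fin]
  have : ∀ e : Fin 2, (2 * k + 1) • e = e := by
    intro e
    rw [succ_nsmul, mul_comm, mul_nsmul']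
    have : ∀ e : Fin 2, 2 • e = 0 := by decide
    rw [this]; simp
  rw [this]
  generalize ∑ i, cliffD (rT i) = e
  revert e s t; decide

end

/-! ### the tall block -/

/-- cells of the tall block: column `0` and column `1` -/
abbrev TB (t δ : ℕ) : Type := Fin (t + 2 + δ) ⊕ Fin (t + 2)

/-- rows: `i ≤ t` are rows of length two; the other cells are alone -/
def tbR (t δ : ℕ) : TB t δ → ℕ := Sum.elim (fun i => i) fun i => if (i : ℕ) ≤ t then i else t + 3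
/-- columns -/
def tbC (t δ : ℕ) : TB t δ → ℕ := Sum.elim (fun _ => 0) fun _ => 1
/-- position inside the column -/
def tbI (t δ : ℕ) : TB t δ → ℕ := Sum.elim (fun i => i) fun i => i
/-- reference row letters = column number -/
def tbA (t δ : ℕ) : TB t δ → Fin (t + 2 + δ) :=
  Sum.elim (fun _ => ⟨0, by omega⟩) fun _ => ⟨1, by omega⟩
/-- reference column letters = position -/
def tbB (t δ : ℕ) : TB t δ → Fin (t + 2 + δ) :=
  Sum.elim (fun i => i) fun i => Fin.castLE (by omega) i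
/-- the cell joined to the path -/
def tbZ (t δ : ℕ) : TB t δ := Sum.inr (Fin.last (t + 1))

/-- `τ` restricted to the letters `0, 1` is one of the Clifford systems or its transpose -/
def IsCl (τ : ℕ → ℕ → ℕ → ℤ) : Prop :=
  ∃ ε : Fin 2, (∀ (a b : Fin 2) (c : Fin 4), τ a b c = cliff ε c a b) ∨
    ∀ (a b : Fin 2) (c : Fin 4), τ a b c = cliff ε c b a

/-- a system `(col, lab)` of `T`-columns on the block, with private letters `ρ`, evaluates to a nonzero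
multiple of the letter `x₀` -/
def BlkOK (t δ : ℕ) (col lab : TB t δ → ℕ) (ρ : ℕ → ℕ → ℕ → ℤ) (x₀ : Fin 2) : Prop :=
  ∀ τ : ℕ → ℕ → ℕ → ℤ, IsCl τ → (∀ a b c, a < 2 → 2 ≤ b → τ a b c = ρ a b c) →
    blkPhi (tbR t δ) (tbC t δ) (tbA t δ) (tbB t δ) (tbZ t δ) col lab τ x₀ ≠ 0 ∧
      blkPhi (tbR t δ) (tbC t δ) (tbA t δ) (tbB t δ) (tbZ t δ) col lab τ ((x₀ + 1 : Fin 2) : ℕ) = 0

end Crest.Agent.R195
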