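import Crest.Agent.R195.QPiece
import Crest.Agent.R195.QGR

/-!
# R195 / QInner (helper50): the inner table (bands around a twisted core)
-/

set_option autoImplicit false
set_option linter.unusedSectionVars false
open Finset

noncomputable section
namespace Crest.Agent.R195

/-- row sizes `(n+2+s₁, n+1+s₂, n, n-1, …, 1)` -/
def yS (n s₁ s₂ j : ℕ) : ℕ := if j = 0 then n + 2 + s₁ else if j = 1 then n + 1 + s₂ else n + 2 - j

/-- column sizes: the first two are exchanged -/
def yC (n s₁ s₂ j : ℕ) : ℕ := if j = 0 then n + 1 + s₂ else if j = 1 then n + 2 + s₁ else n + 2 - j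

/-- a shape given by column heights `≤ k` -/
theorem ofCols_small {D : Type} [Fintype D] (x : D → ℕ) {k : ℕ} (hx : ∀ c, x c ≤ k) :
    (ofCols x).card = ∑ c, x c ∧ (ofCols x).colLen 0 ≤ k := ⟨card_ofCols x, colLen_ofCols_le x hx⟩

/-- peel `k` cells, at most `q` from each column, off a vector of capacity `Th · n + min k (q ·)` -/
theorem qin_peel {D : Type} [Fintype D] [DecidableEq D] {n s₁ s₂ : ℕ} (q k : ℕ) (h : D → ℕ)
    (htot : ∑ c, h c = Tt s₁ s₂ n + k)
    (hJ : ∀ J : Finset D, ∑ c ∈ J, h c ≤ Th s₁ s₂ J.card n + min k (q * J.card)) :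
    ∃ x : D → ℕ, (∀ c, x c ≤ q) ∧ ∑ c, x c = k ∧ (fun c => h c - x c) + x = h ∧
      ∑ c, (h c - x c) = Tt s₁ s₂ n ∧
      ∀ J : Finset D, ∑ c ∈ J, (h c - x c) ≤ Th s₁ s₂ J.card n := by
  obtain ⟨x, hx, hxh, -, sx, hJ'⟩ := gr_step q h ∅ (fun k => Th s₁ s₂ k n) (conc_Th s₁ s₂ n)
    (Tt s₁ s₂ n) k (fun s => Th_le s₁ s₂ s n) htot fun J => by simpa using hJ J
  refine ⟨x, hx, sx, funext fun c => Nat.sub_add_cancel (hxh c), ?_, hJ'⟩
  have : ∑ c, (h c - x c) + ∑ c, x c = ∑ c, h c := by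
    rw [← sum_add_distrib]; exact sum_congr rfl fun c _ => Nat.sub_add_cancel (hxh c)
  omega

/-- the core -/
theorem qin_zero {D : Type} [Fintype D] [DecidableEq D] {s₁ s₂ : ℕ} (hs : s₂ ≤ s₁) (h : D → ℕ)
    (htot : ∑ c, h c = Tt s₁ s₂ 0) (hJ : ∀ J : Finset D, ∑ c ∈ J, h c ≤ Th s₁ s₂ J.card 0) :
    HT (fun i j => i + j < 0 + 2) (yS 0 s₁ s₂) (yC 0 s₁ s₂) (ofCols h) := by
  have hT : Tt s₁ s₂ 0 = (1 + s₂) + (2 + s₁) := by unfold Tt; omega
  obtain ⟨x, hx, hxh, -, sx, hJ'⟩ := gr_step 1 h ∅ (fun k => min (1 + s₂) (1 * k)) (conc_min _ 1)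
    (1 + s₂) (2 + s₁) (fun s => min_le_left _ _) (htot.trans hT) fun J => by
      have := hJ J
      simp only [Th] at this
      simp only [sdiff_empty, one_mul]
      omega
  have hsum : ∑ c, x c + ∑ c, (h c - x c) = ∑ c, h c := by
    rw [← sum_add_distrib]; exact sum_congr rfl fun c _ => Nat.add_sub_cancel' (hxh c)
  have h1 := HT.core (α := 2 + s₁) (β := 1 + s₂) (by omega) x (fun c => h c - x c) hx
    (fun c => by have := hJ' {c}; simp only [sum_singleton, card_singleton] at this; omega) sx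
    (by omega)
  have e : x + (fun c => h c - x c) = h := funext fun c => Nat.add_sub_cancel' (hxh c)
  rw [e] at h1
  refine h1.mono (fun i j hij => by omega) (fun j => ?_) (fun j => ?_)
  · simp only [yS]; split_ifs <;> omega
  · simp only [yC]; split_ifs <;> omega

/-- Two-step induction on `n` (generalising `h`).  `n = 0`: `gr_step` with `q = 1` twice (first
`k = 2 + s₁`, `F = min (1+s₂) ·`; then `k = 1 + s₂`, `F = 0`), `HT.core`.  `n = 1`: `gr_step` (`q = 1`,
`k = 3`), `HT.cut 2` of the case `n = 0` with `HT.diag 3`.  `n + 2`: `gr_step` (`q = 4`, `k = 2n+7`,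
`B = ∅`), `HT.cut (n+2)` of the induction hypothesis with `HT.band (n+4)`; write
`h = (h - x) + x`; `HT.mono` (`simp [yS, yC, bS]; split_ifs; omega`). -/
theorem HT.inner {D : Type} [Fintype D] [DecidableEq D] (n : ℕ) {s₁ s₂ : ℕ} (hs : s₂ ≤ s₁) (h : D → ℕ)
    (htot : ∑ c, h c = Tt s₁ s₂ n) (hJ : ∀ J : Finset D, ∑ c ∈ J, h c ≤ Th s₁ s₂ J.card n) :
    HT (fun i j => i + j < n + 2) (yS n s₁ s₂) (yC n s₁ s₂) (ofCols h) := by
  induction n using Nat.twoStepInduction generalizing h with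
  | zero => exact qin_zero hs h htot hJ
  | one =>
    have hT : Tt s₁ s₂ 1 = Tt s₁ s₂ 0 + 3 := by unfold Tt; omega
    obtain ⟨x, hx, sx, hsum, hy, hJ'⟩ := qin_peel (n := 0) 1 3 h (htot.trans hT) fun J => by
      have := hJ J
      simp only [Th] at this ⊢
      omega
    have h0 := qin_zero hs _ hy hJ'
    have h1 := HT.diag 3 (ν := ofCols x) ((card_ofCols x).trans sx) (colLen_ofCols_le x hx)
    have h2 := HT.cut 2 h0 h1 (fun i j hij => hij) (fun i j hij => by omega)
      (fun i j => by simp only [yS]; split_ifs <;> omega)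
      (fun i j => by simp only [yC]; split_ifs <;> omega)
    rw [hsum] at h2
    refine h2.mono (fun i j hij => by omega) (fun j => ?_) (fun j => ?_)
    · simp only [Pi.add_apply, yS]; split_ifs <;> omega
    · simp only [Pi.add_apply, yC]; split_ifs <;> omega
  | more n ih _ =>
    obtain ⟨x, hx, sx, hsum, hy, hJ'⟩ := qin_peel (n := n) 4 (2 * n + 7) h
      (htot.trans (Tt_succ_succ s₁ s₂ n)) fun J => by
        have := hJ J
        simp only [Th] at this
        omega
    have h0 := ih _ hy hJ'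
    have h1 := HT.band (K := n + 4) (by omega) (ν := ofCols x)
      (by rw [card_ofCols, sx]; omega) (colLen_ofCols_le x hx)
    have h2 := HT.cut (n + 2) h0 h1 (fun i j hij => hij) (fun i j hij => by omega)
      (fun i j => by simp only [yS, bS]; split_ifs <;> omega)
      (fun i j => by simp only [yC, bS]; split_ifs <;> omega)
    rw [hsum] at h2
    refine h2.mono (fun i j hij => by omega) (fun j => ?_) (fun j => ?_)
    · simp only [Pi.add_apply, yS, bS]; split_ifs <;> omega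
    · simp only [Pi.add_apply, yC, bS]; split_ifs <;> omega

/-- with the first two columns exchanged (`HT.permC (Equiv.swap 0 1)`) -/
theorem HT.inner' {D : Type} [Fintype D] [DecidableEq D] (n : ℕ) {s₁ s₂ : ℕ} (hs : s₂ ≤ s₁) (h : D → ℕ)
    (htot : ∑ c, h c = Tt s₁ s₂ n) (hJ : ∀ J : Finset D, ∑ c ∈ J, h c ≤ Th s₁ s₂ J.card n) :
    HT (fun i j => i + j < n + 3) (yS n s₁ s₂) (yS n s₁ s₂) (ofCols h) := by
  refine ((HT.inner n hs h htot hJ).permC (Equiv.swap 0 1)).mono (fun i j hij => ?_)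
    (fun _ => rfl) (fun j => ?_)
  · simp only [Equiv.swap_apply_def] at hij
    split_ifs at hij <;> omega
  · by_cases h0 : j = 0
    · subst h0; simp [yC, yS]
    · by_cases h1 : j = 1
      · subst h1; simp [yC, yS]
      · rw [Equiv.swap_apply_of_ne_of_ne h0 h1]; simp [yC, yS, h0, h1]

end Crest.Agent.R195
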