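import Crest.Agent.R195.SmallEval
import Crest.Agent.R195.SmallCA
import Crest.Agent.R195.SmallCB
import Crest.Agent.R195.SmallCC
import Crest.Agent.R195.SmallCD
import Crest.Agent.R195.Twist

/-!
Row 195 (helper44).  The certificate checker is sound for `Kron`; small values of `n`.
-/

set_option autoImplicit false

namespace Crest.Agent.R195.Small

open Finset

/-- the diagram with the given list of column heights -/
noncomputable def Y (a : List ℕ) : YoungDiagram := ofCols fun i : Fin a.length => a.get i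

theorem rowLen_Y (a : List ℕ) (r : ℕ) : (Y a).rowLen r = (cj a).getD r 0 := by
  rw [Y, rowLen_ofCols, getD_cj]
  conv_rhs => rw [← List.ofFn_get a, List.ofFn_eq_map, List.countP_map,
    List.countP_eq_length_filter,
    ← List.toFinset_card_of_nodup ((List.nodup_finRange _).filter _)]
  congr 1; ext j; simp

theorem card_Y (a : List ℕ) : (Y a).card = a.sum := by
  rw [Y, card_ofCols, ← List.sum_ofFn, List.ofFn_get]

theorem Y_congr {a a' : List ℕ} (h : cj a = cj a') : Y a = Y a' :=
  ext_rowLen fun r => by rw [rowLen_Y, rowLen_Y, h]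

theorem colLen_Y (a : List ℕ) (j : ℕ) : (Y a).colLen j = (cj (cj a)).getD j 0 := by
  refine eq_of_forall_lt_iff fun i => ?_
  rw [← YoungDiagram.mem_iff_lt_colLen, YoungDiagram.mem_iff_lt_rowLen, rowLen_Y, getD_cj (cj a),
    lt_countP_iff _ (fun i j h => anti_cj a h)]

theorem Y_cj (a : List ℕ) : Y (cj a) = (Y a).transpose :=
  ext_rowLen fun r => by rw [rowLen_Y, YoungDiagram.rowLen_transpose, colLen_Y]

theorem rowLen_Y_append (a a' : List ℕ) (r : ℕ) :
    (Y (a ++ a')).rowLen r = (Y a).rowLen r + (Y a').rowLen r := by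
  simp only [rowLen_Y, getD_cj, List.countP_append]

theorem exists_Y (ν : YoungDiagram) : ∃ a : List ℕ, Y a = ν := by
  refine ⟨List.ofFn fun c : Fin (ν.rowLen 0) => ν.colLen c, ?_⟩
  refine Eq.trans ?_ (ofCols_colLen ν le_rfl)
  refine ext_rowLen fun r => ?_
  rw [rowLen_Y, getD_cj, rowLen_ofCols, List.ofFn_eq_map, List.countP_map,
    List.countP_eq_length_filter,
    ← List.toFinset_card_of_nodup ((List.nodup_finRange _).filter _)]
  congr 1; ext j; simp

theorem pt_eq_EZ {ι C L : Type} [Fintype ι] [DecidableEq ι] [DecidableEq C] [DecidableEq L]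
    (col : ι → C) (lab u : ι → L) : pt col lab u = ((EZ col lab u : ℤ) : ℂ) := by
  classical
  unfold pt E EZ
  rw [cdet_eq_sum]
  have : cg col = blockGrp col := by ext g; rw [mem_cg, mem_blockGrp]
  rw [this, Int.cast_sum]
  refine Finset.sum_congr rfl fun g _ => ?_
  by_cases h : u = lab ∘ g
  · subst h; simp
  · rw [if_neg h]
    obtain ⟨i, hi⟩ := Function.ne_iff.1 h
    rw [Finset.prod_eq_zero (mem_univ i) (by simpa using hi)]; simp

theorem EZ_clamp {n : ℕ} (c r u : Fin n → ℕ) (hr : ∀ i, r i < n) :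
    EZ c r (fun i => min (u i) n) = EZ c r u := by
  by_cases h : ∀ i, u i < n
  · congr 1; funext i; have := h i; omega
  · push Not at h
    obtain ⟨i, hi⟩ := h
    have a : EZ c r u = 0 := by
      by_contra hne
      obtain ⟨g, -, e⟩ := exists_of_EZ_ne_zero hne
      have h1 := congrFun e i; have h2 := hr (g i)
      simp only [Function.comp] at h1; omega
    have b : EZ c r (fun i => min (u i) n) = 0 := by
      by_contra hne
      obtain ⟨g, -, e⟩ := exists_of_EZ_ne_zero hne
      have h1 := congrFun e i; have h2 := hr (g i)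
      simp only [Function.comp] at h1; omega
    rw [a, b]

theorem pt_fin {n : ℕ} (c r u : Fin n → ℕ) (hr : ∀ i, r i < n) :
    pt c (fun i => (⟨r i, (hr i).trans n.lt_succ_self⟩ : Fin (n + 1)))
      (fun i => (⟨min (u i) n, by omega⟩ : Fin (n + 1))) = ((EZ c r u : ℤ) : ℂ) := by
  rw [pt_eq_EZ, ← EZ_map Fin.val_injective, ← EZ_clamp c r u hr]
  rfl

theorem kron_of_sum {n m : ℕ} {l₁ l₂ l₃ : YoungDiagram} {c₁ c₂ c₃ r₁ r₂ r₃ : Fin n → ℕ}
    (S₁ : Shape l₁ c₁ r₁) (S₂ : Shape l₂ c₂ r₂) (S₃ : Shape l₃ c₃ r₃)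
    (h₁ : ∀ i, r₁ i < n) (h₂ : ∀ i, r₂ i < n) (p q s : Fin m → ℕ)
    (h : ∑ φ : Fin n → Fin m, EZ c₁ r₁ (fun i => p (φ i)) * EZ c₂ r₂ (fun i => q (φ i)) *
      EZ c₃ r₃ (fun i => s (φ i)) ≠ 0) : Kron l₁ l₂ l₃ := by
  classical
  refine Kron.intro (c₁ := c₁) (c₂ := c₂)
    (l₁ := fun i => (⟨r₁ i, (h₁ i).trans n.lt_succ_self⟩ : Fin (n + 1)))
    (l₂ := fun i => (⟨r₂ i, (h₂ i).trans n.lt_succ_self⟩ : Fin (n + 1)))
    (S₁.congr (fun _ _ => Iff.rfl) (fun _ _ => by simp))
    (S₂.congr (fun _ _ => Iff.rfl) (fun _ _ => by simp)) ?_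
  refine sub_pb (fun k : Fin m => ((⟨min (p k) n, by omega⟩ : Fin (n + 1)),
    (⟨min (q k) n, by omega⟩ : Fin (n + 1)))) _ _ ?_
  refine S₃.sees (t := fun k l => if s k = l then 1 else 0) ?_
  intro h0
  apply h
  apply Int.cast_injective (α := ℂ)
  rw [Int.cast_zero, ← h0, ip, Int.cast_sum]
  refine Finset.sum_congr rfl fun φ _ => ?_
  rw [Int.cast_mul, Int.cast_mul, ← pt_fin c₁ r₁ _ h₁, ← pt_fin c₂ r₂ _ h₂, ← pt_eq_EZ]
  congr 1
  unfold pt E
  congr 1
  funext i l
  by_cases e : s (φ i) = l <;> simp [e]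

theorem rk_down {n : ℕ} (c : Fin n → ℕ) (i : Fin n) (r : ℕ) (hr : r < rk c i) :
    ∃ j, c j = c i ∧ rk c j = r := by
  have himg : (univ.filter fun j => c j = c i).image (rk c) =
      range (univ.filter fun j => c j = c i).card := by
    apply Finset.eq_of_subset_of_card_le
    · intro x hx
      obtain ⟨j, hj, rfl⟩ := mem_image.1 hx
      rw [mem_range, ← (mem_filter.1 hj).2]; exact rk_lt c j
    · rw [card_range, Finset.card_image_of_injOn]
      intro a ha b hb e
      exact rk_blockInj c a b (((mem_filter.1 (mem_coe.1 ha)).2).trans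
        ((mem_filter.1 (mem_coe.1 hb)).2).symm) e
  have : r ∈ (univ.filter fun j => c j = c i).image (rk c) := by
    rw [himg, mem_range]; exact hr.trans (rk_lt c i)
  obtain ⟨j, hj, e⟩ := mem_image.1 this
  exact ⟨j, (mem_filter.1 hj).2, e⟩

theorem rk_lt_n {n : ℕ} (c : Fin n → ℕ) (i : Fin n) : rk c i < n :=
  (rk_lt c i).trans_le ((card_filter_le _ _).trans (by simp))

theorem shape_rk {n : ℕ} (c : Fin n → ℕ) (hc : ∀ i, c i < n) :
    Shape (Y (hts (List.ofFn c))) c (rk c) := by
  have S := shape_ofCols (col := fun i => (⟨c i, hc i⟩ : Fin n)) (lab := rk c)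
    (fun i j e e' => rk_blockInj c i j (by simpa using e) e')
    (fun i r hr => by
      obtain ⟨j, h1, h2⟩ := rk_down c i r hr
      exact ⟨j, by simpa using h1, h2⟩)
  have e : ofCols (cnt fun i => (⟨c i, hc i⟩ : Fin n)) = Y (hts (List.ofFn c)) := by
    refine ext_rowLen fun r => ?_
    rw [rowLen_Y, getD_cj, rowLen_ofCols]
    have e1 : hts (List.ofFn c) = List.ofFn fun b : Fin n => cnt (fun i => (⟨c i, hc i⟩ : Fin n)) b := by
      apply List.ext_getElem (by simp [hts])
      intro b h1 h2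
      have hb : b < n := by simpa using h2
      rw [← List.getD_eq_getElem _ 0 h1, getD_hts c b hb, List.getElem_ofFn, cnt]
      congr 1; ext i; simp [Fin.ext_iff]
    rw [e1, List.ofFn_eq_map, List.countP_map, List.countP_eq_length_filter,
      ← List.toFinset_card_of_nodup ((List.nodup_finRange _).filter _)]
    congr 1; ext j; simp
  rw [← e]
  exact S.congr (fun _ _ => by simp) (fun _ _ => Iff.rfl)

theorem api : API fun a b c => Kron (Y a) (Y b) (Y c) where
  congr a a' b c h hk := by rwa [← Y_congr h]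
  swap12 a b c hk := hk.symm
  swap23 a b c hk := hk.swap₂₃
  twist a b c hk := by rw [Y_cj, Y_cj]; exact hk.conj₁₂
  add a b c a' b' c' h h' :=
    Kron.add h h' (rowLen_Y_append _ _) (rowLen_Y_append _ _) (rowLen_Y_append _ _)
  leaf cells L h := by
    rw [← List.ofFn_get cells, ← List.ofFn_get L] at h
    obtain ⟨hb, hs⟩ := leaf_sum _ _ h
    rw [← List.ofFn_get cells]
    simp only [List.map_ofFn]
    exact kron_of_sum (shape_rk _ fun i => (hb i).1) (shape_rk _ fun i => (hb i).2.1)
      (shape_rk _ fun i => (hb i).2.2) (rk_lt_n _) (rk_lt_n _) (fun k => (L.get k).1)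
      (fun k => (L.get k).2.1) (fun k => (L.get k).2.2) hs

theorem full_of {n : ℕ} (lam : List ℕ) (hs : lam.sum = n)
    (h : ∀ nu : List ℕ, nu.sum = n → Kron (Y lam) (Y lam) (Y nu)) :
    ∃ l : YoungDiagram, l.card = n ∧ ∀ ν : YoungDiagram, ν.card = n → Kron l l ν := by
  refine ⟨Y lam, by rw [card_Y, hs], fun ν hν => ?_⟩
  obtain ⟨a, rfl⟩ := exists_Y ν
  exact h a (by rw [← card_Y, hν])

/-- the non-triangular values `n ≤ 14` other than `2, 4, 9`, and the even values up to `26` -/
theorem small_full (n : ℕ) (hn : n ∈ [5, 7, 8, 11, 12, 13, 14, 16, 18, 20, 22, 24, 26]) :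
    ∃ l : YoungDiagram, l.card = n ∧ ∀ ν : YoungDiagram, ν.card = n → Kron l l ν := by
  simp only [List.mem_cons, List.not_mem_nil, or_false] at hn
  rcases hn with rfl | rfl | rfl | rfl | rfl | rfl | rfl | rfl | rfl | rfl | rfl | rfl | rfl
  · exact full_of _ rfl api.full5
  · exact full_of _ rfl api.full7
  · exact full_of _ rfl api.full8
  · exact full_of _ rfl api.full11
  · exact full_of _ rfl api.full12
  · exact full_of _ rfl api.full13
  · exact full_of _ rfl api.full14
  · exact full_of _ rfl api.full16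
  · exact full_of _ rfl api.full18
  · exact full_of _ rfl api.full20
  · exact full_of _ rfl api.full22
  · exact full_of _ rfl api.full24
  · exact full_of _ rfl api.full26

/-- `small_full` together with `n = 17, 19` -/
theorem small_full' (n : ℕ) (hn : n ∈ [5, 7, 8, 11, 12, 13, 14, 16, 17, 18, 19, 20, 22, 24, 26]) :
    ∃ l : YoungDiagram, l.card = n ∧ ∀ ν : YoungDiagram, ν.card = n → Kron l l ν := by
  by_cases h17 : n = 17
  · subst h17; exact full_of _ rfl api.full17
  by_cases h19 : n = 19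
  · subst h19; exact full_of _ rfl api.full19
  refine small_full n ?_
  simp only [List.mem_cons, List.not_mem_nil, or_false] at hn ⊢
  omega

theorem atom1 : Kron (Y [1]) (Y [1]) (Y [1]) := api.base ([1], [1], [1]) (by decide)

theorem atom2 : Kron (Y [2]) (Y [2]) (Y [1, 1]) := api.base ([2], [2], [1, 1]) (by decide)

theorem atom4 : Kron (Y [2, 2]) (Y [2, 2]) (Y [2, 2]) :=
  api.base ([2, 2], [2, 2], [2, 2]) (by decide)

theorem atom6 : Kron (Y [2, 2, 2]) (Y [2, 2, 2]) (Y [3, 3]) :=
  api.twist [3, 3] [3, 3] [3, 3] (api.base ([3, 3], [3, 3], [3, 3]) (by decide))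

end Crest.Agent.R195.Small
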