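import Crest.Agent.R195.QTool
import Crest.Agent.R195.QCov2
import Crest.Agent.R195.QCov3
import Crest.Agent.R195.Small

/-!
# R195 / QMain (helper50): coverage, semigroup reductions, the induction
-/

set_option autoImplicit false
set_option linter.unusedSectionVars false
open Finset

noncomputable section
namespace Crest.Agent.R195

/-- COVERAGE.  `feat_true`, `cap_ge`, `Rest.small`, `Rest.big`. -/
theorem cover {n e δ N : ℕ} {c : ℕ → ℕ} (hn : 2 ≤ n) (hδ : δ ≤ 1) (hpos : 1 ≤ 2 * e + δ)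
    (hr : 2 * (2 * e + δ) ≤ 3 * n + 16) (hc : Antitone c) (h4 : 4 ≤ N) (hN : ∀ j, N ≤ j → c j = 0)
    (htot : 2 * ∑ j ∈ range N, c j = (n + 4) * (n + 5) + 4 * (2 * e + δ))
    (hor : c 0 + c 1 + c 2 + c 3 ≤ ∑ j ∈ range N, min (c j) 4) (hi : Irr e δ c) :
    Tool n e δ N c := by
  obtain ⟨f1, f2, f3, f4, f5, f6, f7⟩ := feat_true hc h4 hN
  have hcap : 2 * n ≤ ∑ i ∈ range N, min (c (4 + i)) 4 + 1 := by
    refine cap_ge (c₀ := c 0) (c₁ := c 1) (c₂ := c 2) (c₃ := c 3)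
      (R := ∑ i ∈ range N, c (4 + i)) (by omega) (hc (by omega)) (hc (by omega)) (hc (by omega))
      ?_ ?_ f5 f6
    · rw [← f2, htot]
      omega
    · rw [← f3]
      exact hor
  by_cases t1 : e + 2 + δ ≤ c 1 ∧ e + 2 ≤ c 3
  · exact Or.inl ⟨t1.1, t1.2, hcap⟩
  by_cases t2 : 2 * e + 4 + δ ≤ c 1
  · refine Or.inr (Or.inl ⟨t2, ?_⟩)
    rw [f4]
    omega
  have hR : Rest n e δ c (∑ i ∈ range N, c (4 + i)) (∑ i ∈ range N, min (c (4 + i)) 4) :=
    ⟨f1, hδ, hpos, hr, by rw [← f2, htot], by rw [← f3]; exact hor, f5, f6, f7, hi, by omega,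
      by omega⟩
  refine Or.inr (Or.inr ?_)
  by_cases hn' : n ≤ 11
  · exact hR.small hn hn'
  · exact hR.big (by omega)

/-- a diagram with prescribed rows: `(ofCols fun r : Fin N => f r).transpose`, `colLen_ofCols_anti` -/
theorem exists_rows {f : ℕ → ℕ} (hf : Antitone f) {N : ℕ} (hN : ∀ j, N ≤ j → f j = 0) :
    ∃ μ : YoungDiagram, (∀ r, μ.rowLen r = f r) ∧ μ.card = ∑ r ∈ range N, f r := by
  refine ⟨(ofCols fun r : Fin N => f r).transpose, fun r => ?_, ?_⟩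
  · rw [YoungDiagram.rowLen_transpose]
    rcases lt_or_ge r N with h | h
    · exact colLen_ofCols_anti (h := fun r : Fin N => f r) (fun a b hab => hf hab) ⟨r, h⟩
    · rw [hN r h]
      refine Nat.eq_zero_of_not_pos fun hp => ?_
      have h1 := (mem_ofCols (fun r : Fin N => f r) 0 r).1 (YoungDiagram.mem_iff_lt_colLen.2 hp)
      have h2 := card_filter_le (univ : Finset (Fin N)) fun c : Fin N => 0 < f c
      rw [card_univ, Fintype.card_fin] at h2
      omega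
  · rw [card_transpose, card_ofCols, Finset.sum_range]

/-- the atoms `g((h,h),(h,h),(2^h)) > 0`, `h = 1, 2, 3` (`Small.api.leaf` by `decide`, e.g. `h` double cells:
or from `Small.api.base`; `Small.rowLen_Y`) -/
theorem atom_two {h : ℕ} (h1 : 1 ≤ h) (h3 : h ≤ 3) : ∃ A B : YoungDiagram,
    (∀ r, A.rowLen r = if r < 2 then h else 0) ∧ (∀ r, B.rowLen r = if r < h then 2 else 0) ∧
      Kron A A B := by
  interval_cases h
  · refine ⟨_, _, fun r => ?_, fun r => ?_, Small.atom2⟩ <;>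
      simp only [Small.rowLen_Y, Small.getD_cj, List.countP_cons, List.countP_nil,
        decide_eq_true_eq] <;> split_ifs <;> rfl
  · refine ⟨_, _, fun r => ?_, fun r => ?_, Small.atom4⟩ <;>
      simp only [Small.rowLen_Y, Small.getD_cj, List.countP_cons, List.countP_nil,
        decide_eq_true_eq] <;> split_ifs <;> rfl
  · refine ⟨_, _, fun r => ?_, fun r => ?_, Small.atom6⟩ <;>
      simp only [Small.rowLen_Y, Small.getD_cj, List.countP_cons, List.countP_nil,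
        decide_eq_true_eq] <;> split_ifs <;> rfl

theorem atom_one : ∃ A : YoungDiagram, (∀ r, A.rowLen r = if r < 1 then 1 else 0) ∧ Kron A A A := by
  refine ⟨_, fun r => ?_, Small.atom1⟩
  simp only [Small.rowLen_Y, Small.getD_cj, List.countP_cons, List.countP_nil, decide_eq_true_eq]
  split_ifs <;> rfl

section
variable {M e₁ d₁ e₂ d₂ : ℕ} {ν₀ ν : YoungDiagram}

/-- `Kron.add` with `atom_two`, `rowLen_lam` -/
theorem red_rows (hM : 3 ≤ M) {h : ℕ} (h1 : 1 ≤ h) (h3 : h ≤ 3)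
    (hk : Kron (lam M e₁ d₁ e₂ d₂) (lam M e₁ d₁ e₂ d₂) ν₀)
    (hν : ∀ r, ν.rowLen r = ν₀.rowLen r + if r < h then 2 else 0) :
    Kron (lam M e₁ d₁ (e₂ + h) d₂) (lam M e₁ d₁ (e₂ + h) d₂) ν := by
  obtain ⟨A, B, hA, hB, hAB⟩ := atom_two h1 h3
  have hl : ∀ r, (lam M e₁ d₁ (e₂ + h) d₂).rowLen r = (lam M e₁ d₁ e₂ d₂).rowLen r + A.rowLen r := by
    intro r
    rw [rowLen_lam hM, rowLen_lam hM, hA]
    unfold lamF
    split_ifs <;> omega
  exact hk.add hAB hl hl fun r => by rw [hν, hB]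

/-- `Kron.conj₁₂`, `transpose_lam`, `red_rows` -/
theorem red_cols (hM : 3 ≤ M) {h : ℕ} (h1 : 1 ≤ h) (h3 : h ≤ 3)
    (hk : Kron (lam M e₁ d₁ e₂ d₂) (lam M e₁ d₁ e₂ d₂) ν₀)
    (hν : ∀ r, ν.rowLen r = ν₀.rowLen r + if r < h then 2 else 0) :
    Kron (lam M (e₁ + h) d₁ e₂ d₂) (lam M (e₁ + h) d₁ e₂ d₂) ν := by
  have h' := hk.conj₁₂
  rw [transpose_lam hM] at h'
  have h2 := (red_rows hM h1 h3 h' hν).conj₁₂
  rwa [transpose_lam hM] at h2

theorem red_rows_one (hM : 3 ≤ M) (hk : Kron (lam M e₁ d₁ e₂ d₂) (lam M e₁ d₁ e₂ d₂) ν₀)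
    (hν : ∀ r, ν.rowLen r = ν₀.rowLen r + if r < 1 then 1 else 0) :
    Kron (lam M e₁ d₁ e₂ (d₂ + 1)) (lam M e₁ d₁ e₂ (d₂ + 1)) ν := by
  obtain ⟨A, hA, hAB⟩ := atom_one
  have hl : ∀ r, (lam M e₁ d₁ e₂ (d₂ + 1)).rowLen r = (lam M e₁ d₁ e₂ d₂).rowLen r + A.rowLen r := by
    intro r
    rw [rowLen_lam hM, rowLen_lam hM, hA]
    unfold lamF
    split_ifs <;> omega
  exact hk.add hAB hl hl fun r => by rw [hν, hA]

theorem red_cols_one (hM : 3 ≤ M) (hk : Kron (lam M e₁ d₁ e₂ d₂) (lam M e₁ d₁ e₂ d₂) ν₀)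
    (hν : ∀ r, ν.rowLen r = ν₀.rowLen r + if r < 1 then 1 else 0) :
    Kron (lam M (e₁) (d₁ + 1) e₂ d₂) (lam M e₁ (d₁ + 1) e₂ d₂) ν := by
  have h' := hk.conj₁₂
  rw [transpose_lam hM] at h'
  have h2 := (red_rows_one hM h' hν).conj₁₂
  rwa [transpose_lam hM] at h2

end

/-- all shapes of the right size occur in the square of `lam M e δ e δ` -/
def Sq (M e δ : ℕ) : Prop := ∀ ν : YoungDiagram, 2 * ν.card = M * (M + 1) + 4 * (2 * e + δ) →
  Kron (lam M e δ e δ) (lam M e δ e δ) ν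

/-- remove `a` cells from each of the first `h` rows -/
theorem qmb_remove (ν : YoungDiagram) {h a : ℕ} (h1 : 1 ≤ h)
    (hgap : ν.rowLen h + a ≤ ν.rowLen (h - 1)) :
    ∃ ν₀ : YoungDiagram, (∀ r, ν.rowLen r = ν₀.rowLen r + if r < h then a else 0) ∧
      ν.card = ν₀.card + h * a := by
  have hanti := ν.rowLen_anti
  have hge : ∀ r, r < h → a ≤ ν.rowLen r := fun r hr => by
    have := hanti r (h - 1) (by omega); omega
  have hf : Antitone fun r => ν.rowLen r - if r < h then a else 0 := by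
    intro r r' hrr
    have h2 := hanti r r' hrr
    simp only
    split_ifs with c1 c2 c2
    · omega
    · omega
    · have := hanti r (h - 1) (by omega)
      have := hanti h r' (by omega)
      omega
    · omega
  have hz : ∀ j, ν.colLen 0 + h ≤ j → ν.rowLen j = 0 := fun j hj => by
    by_contra hne
    have : (j, 0) ∈ ν := YoungDiagram.mem_iff_lt_rowLen.2 (Nat.pos_of_ne_zero hne)
    have := YoungDiagram.mem_iff_lt_colLen.1 this
    omega
  obtain ⟨μ, hμ, hc⟩ := exists_rows hf (N := ν.colLen 0 + h) fun j hj => by simp [hz j hj]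
  have hrow : ∀ r, ν.rowLen r = μ.rowLen r + if r < h then a else 0 := fun r => by
    rw [hμ r]
    split_ifs with c
    · have := hge r c; omega
    · omega
  refine ⟨μ, hrow, ?_⟩
  rw [hc, card_eq_sum_rowLen ν (N := ν.colLen 0 + h) (by omega), sum_congr rfl fun r _ => hrow r,
    sum_add_distrib, sum_congr rfl fun r _ => hμ r]
  congr 1
  rw [← sum_filter, sum_const, smul_eq_mul]
  congr 1
  rw [show filter (fun r => r < h) (range (ν.colLen 0 + h)) = range h from by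
    ext r; simp only [mem_filter, mem_range]; omega, card_range]

theorem qmb_red4 {M e δ h : ℕ} (hM : 3 ≤ M) (hδ : δ ≤ 1)
    (IH : ∀ e' δ', δ' ≤ 1 → 2 * e' + δ' < 2 * e + δ → Sq M e' δ') {ν : YoungDiagram}
    (hν : 2 * ν.card = M * (M + 1) + 4 * (2 * e + δ)) (h1 : 1 ≤ h) (h3 : h ≤ 3) (he : h ≤ e)
    (hgap : ν.rowLen h + 4 ≤ ν.rowLen (h - 1)) : Kron (lam M e δ e δ) (lam M e δ e δ) ν := by
  obtain ⟨ν₁, r₁, c₁⟩ := qmb_remove ν (a := 2) h1 (by omega)
  have g1 := r₁ h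
  have g2 := r₁ (h - 1)
  rw [if_neg (by omega)] at g1
  rw [if_pos (by omega)] at g2
  obtain ⟨ν₀, r₀, c₀⟩ := qmb_remove ν₁ (a := 2) h1 (by omega)
  obtain ⟨e', rfl⟩ := Nat.exists_eq_add_of_le' he
  exact red_cols hM h1 h3 (red_rows hM h1 h3 (IH e' δ hδ (by omega) ν₀ (by omega)) r₀) r₁

/-- REDUCTION.  `¬ Irr` gives one of five row-gap patterns.  Gap `≥ 4` below row `h` (`h ≤ e`): remove
`2·[r<h]` twice (`exists_rows` for `rowLen - 2[r<h]` and `rowLen - 4[r<h]`; cardinalities by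
`card_eq_sum_rowLen`), `IH (e-h) δ`, `red_rows`, `red_cols`.  `δ = 1`, gap `≥ 2`: `IH e 0`, `red_rows_one`,
`red_cols_one`.  Three gaps `≥ 2`, `e ≥ 3`: remove `2[r<1] + 2[r<2] + 2[r<3]`, `IH (e-3) δ`, `red_rows` with
`h = 1`, then `h = 2`, `red_cols` with `h = 3`. -/
theorem reduce {M e δ : ℕ} (hM : 3 ≤ M) (hδ : δ ≤ 1)
    (IH : ∀ e' δ', δ' ≤ 1 → 2 * e' + δ' < 2 * e + δ → Sq M e' δ') {ν : YoungDiagram}
    (hν : 2 * ν.card = M * (M + 1) + 4 * (2 * e + δ)) (h : ¬ Irr e δ ν.rowLen) :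
    Kron (lam M e δ e δ) (lam M e δ e δ) ν := by
  by_cases a1 : 1 ≤ e ∧ ν.rowLen 1 + 4 ≤ ν.rowLen 0
  · exact qmb_red4 (h := 1) hM hδ IH hν le_rfl (by omega) a1.1 a1.2
  by_cases a2 : 2 ≤ e ∧ ν.rowLen 2 + 4 ≤ ν.rowLen 1
  · exact qmb_red4 (h := 2) hM hδ IH hν (by omega) (by omega) a2.1 a2.2
  by_cases a3 : 3 ≤ e ∧ ν.rowLen 3 + 4 ≤ ν.rowLen 2
  · exact qmb_red4 (h := 3) hM hδ IH hν (by omega) le_rfl a3.1 a3.2
  by_cases a4 : δ = 1 ∧ ν.rowLen 1 + 2 ≤ ν.rowLen 0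
  · obtain ⟨rfl, a4⟩ := a4
    obtain ⟨ν₁, r₁, c₁⟩ := qmb_remove ν (h := 1) (a := 1) le_rfl (by simpa using by omega)
    have g1 := r₁ 1
    have g2 := r₁ 0
    rw [if_neg (by omega)] at g1
    rw [if_pos (by omega)] at g2
    obtain ⟨ν₀, r₀, c₀⟩ := qmb_remove ν₁ (h := 1) (a := 1) le_rfl (by simpa using by omega)
    exact red_cols_one (d₁ := 0) (d₂ := 1) hM
      (red_rows_one (d₂ := 0) hM (IH e 0 (by omega) (by omega) ν₀ (by omega)) r₀) r₁
  have a5 : 3 ≤ e ∧ ν.rowLen 1 + 2 ≤ ν.rowLen 0 ∧ ν.rowLen 2 + 2 ≤ ν.rowLen 1 ∧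
      ν.rowLen 3 + 2 ≤ ν.rowLen 2 := by
    unfold Irr at h
    omega
  obtain ⟨he, b1, b2, b3⟩ := a5
  obtain ⟨ν₂, r₂, c₂⟩ := qmb_remove ν (h := 3) (a := 2) (by omega) b3
  have g0 := r₂ 0
  have g1 := r₂ 1
  have g2 := r₂ 2
  rw [if_pos (by omega)] at g0 g1 g2
  obtain ⟨ν₁, r₁, c₁⟩ := qmb_remove ν₂ (h := 2) (a := 2) (by omega) (by simpa using by omega)
  have k0 := r₁ 0
  have k1 := r₁ 1
  rw [if_pos (by omega)] at k0 k1
  obtain ⟨ν₀, r₀, c₀⟩ := qmb_remove ν₁ (h := 1) (a := 2) le_rfl (by simpa using by omega)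
  obtain ⟨e', rfl⟩ := Nat.exists_eq_add_of_le' he
  exact red_cols (h := 3) hM (by omega) le_rfl
    (red_rows (h := 2) (e₂ := e' + 1) hM (by omega) (by omega)
      (red_rows (h := 1) hM le_rfl (by omega) (IH e' δ hδ (by omega) ν₀ (by omega)) r₀) r₁) r₂

/-- `HT.stair`, `HT.kron`, `colLen_lam` -/
theorem sq_zero (hS : SaxlCyc) {M : ℕ} (hM : 3 ≤ M) : Sq M 0 0 := by
  intro ν hν
  have h : ∀ j, M - j = (lam M 0 0 0 0).colLen j := fun j => by
    rw [colLen_lam hM]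
    unfold lamF
    split_ifs <;> omega
  exact (HT.stair hS M (ν := ν) (by omega)).kron h h

/-- `∑ j < N, min (colLen j) 4 = rowLen 0 + … + rowLen 3` (`sum_rowLen_ofCols`, `ofCols_colLen`) -/
theorem sum_min_colLen (ν : YoungDiagram) {N : ℕ} (hN : ν.rowLen 0 ≤ N) :
    ∑ j ∈ range N, min (ν.colLen j) 4 = ν.rowLen 0 + ν.rowLen 1 + ν.rowLen 2 + ν.rowLen 3 := by
  have h := sum_rowLen_ofCols (fun c : Fin N => ν.colLen c) 4
  rw [ofCols_colLen ν hN] at h
  rw [sum_range fun j => min (ν.colLen j) 4, ← h]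
  simp [sum_range_succ]

/-- Strong induction on `2e + δ`.  By `Kron.conj_self` + `transpose_lam` (and `card_transpose`) assume that
the first four rows of `ν` contain at least as many cells as the first four columns.  If
`Irr e δ ν.colLen`: `cover` (`N = ν.rowLen 0 + 4`, `card_eq_sum_colLen`, `sum_min_colLen`), `Tool.kron`.
Otherwise `reduce` for `ν.transpose` and `Kron.conj_self`. -/
theorem sq_all (hS : SaxlCyc) {n : ℕ} (hn : 2 ≤ n) (e δ : ℕ) (hδ : δ ≤ 1)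
    (hr : 2 * (2 * e + δ) ≤ 3 * n + 16) : Sq (n + 4) e δ := by
  induction' hk : 2 * e + δ using Nat.strong_induction_on with k ih generalizing e δ
  subst hk
  have hM : 3 ≤ n + 4 := by omega
  have IH : ∀ e' δ', δ' ≤ 1 → 2 * e' + δ' < 2 * e + δ → Sq (n + 4) e' δ' :=
    fun e' δ' h1 h2 => ih _ h2 e' δ' h1 (by omega) rfl
  rcases Nat.eq_zero_or_pos (2 * e + δ) with h0 | hpos
  · obtain rfl : e = 0 := by omega
    obtain rfl : δ = 0 := by omega
    exact sq_zero hS hM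
  have hT := transpose_lam hM e δ e δ
  have key : ∀ ν : YoungDiagram, 2 * ν.card = (n + 4) * (n + 4 + 1) + 4 * (2 * e + δ) →
      ν.colLen 0 + ν.colLen 1 + ν.colLen 2 + ν.colLen 3 ≤
        ν.rowLen 0 + ν.rowLen 1 + ν.rowLen 2 + ν.rowLen 3 →
      Kron (lam (n + 4) e δ e δ) (lam (n + 4) e δ e δ) ν := by
    intro ν hν hle
    by_cases hi : Irr e δ ν.colLen
    · have hN : ν.rowLen 0 ≤ ν.rowLen 0 + 4 := by omega
      refine Tool.kron hS (by omega) hδ hν hN (by omega)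
        (cover hn hδ hpos hr (fun a b hab => ν.colLen_anti a b hab) (by omega) (fun j hj => ?_) ?_
          ?_ hi)
      · by_contra hne
        have : (0, j) ∈ ν := YoungDiagram.mem_iff_lt_colLen.2 (Nat.pos_of_ne_zero hne)
        have := YoungDiagram.mem_iff_lt_rowLen.1 this
        omega
      · rw [← card_eq_sum_colLen ν hN]; exact hν
      · rw [sum_min_colLen ν hN]; exact hle
    · have e1 : ν.transpose.rowLen = ν.colLen := funext fun r => by simp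
      have h1 := reduce hM hδ IH (ν := ν.transpose) (by rw [card_transpose]; exact hν)
        (by rw [e1]; exact hi)
      simpa using h1.conj_self hT
  intro ν hν
  rcases le_total (ν.colLen 0 + ν.colLen 1 + ν.colLen 2 + ν.colLen 3)
    (ν.rowLen 0 + ν.rowLen 1 + ν.rowLen 2 + ν.rowLen 3) with h | h
  · exact key ν hν h
  · have h1 := key ν.transpose (by rw [card_transpose]; exact hν) (by simpa using h)
    simpa using h1.conj_self hT

/-- `M'` maximal with `M'(M'+1)/2 ≤ k`; take `M = M'`, `M'-1` or `M'-2` according to parity. -/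
theorem exists_M {k : ℕ} (hk : 21 ≤ k) (h22 : k ≠ 22) (h24 : k ≠ 24) (h26 : k ≠ 26) :
    ∃ n E, 2 ≤ n ∧ 2 * k = (n + 4) * (n + 5) + 4 * E ∧ 2 * E ≤ 3 * n + 16 := by
  have key : ∀ d : ℕ, ∃ m t, 6 ≤ m ∧ t ≤ m ∧ 2 * (21 + d) = m * (m + 1) + 2 * t := by
    intro d
    induction d with
    | zero => exact ⟨6, 0, by norm_num⟩
    | succ d ih =>
      obtain ⟨m, t, h1, h2, h3⟩ := ih
      rcases h2.lt_or_eq with h | rfl
      · exact ⟨m, t + 1, h1, h, by omega⟩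
      · exact ⟨t + 1, 0, by omega, by omega, by nlinarith⟩
  obtain ⟨d, rfl⟩ := Nat.exists_eq_add_of_le hk
  obtain ⟨m, t, h1, h2, h3⟩ := key d
  obtain ⟨u, rfl⟩ := Nat.exists_eq_add_of_le h1
  by_cases p0 : t % 2 = 0
  · refine ⟨u + 2, t / 2, by omega, ?_, by omega⟩
    have : (u + 2 + 4) * (u + 2 + 5) = (6 + u) * (6 + u + 1) := by ring
    omega
  by_cases p1 : u % 2 = 1
  · obtain ⟨v, rfl⟩ : ∃ v, u = v + 1 := ⟨u - 1, by omega⟩
    refine ⟨v + 2, (t + v + 7) / 2, by omega, ?_, by omega⟩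
    have : (v + 2 + 4) * (v + 2 + 5) + 2 * (v + 7) = (6 + (v + 1)) * (6 + (v + 1) + 1) := by ring
    omega
  rcases Nat.eq_zero_or_pos u with rfl | hu
  · exfalso
    omega
  obtain ⟨v, rfl⟩ : ∃ v, u = v + 2 := ⟨u - 2, by omega⟩
  refine ⟨v + 2, (t + 2 * v + 15) / 2, by omega, ?_, by omega⟩
  have : (v + 2 + 4) * (v + 2 + 5) + 2 * (2 * v + 15) = (6 + (v + 2)) * (6 + (v + 2) + 1) := by ring
  omega

theorem big_full (hS : SaxlCyc) {k : ℕ} (hk : 21 ≤ k) (h22 : k ≠ 22) (h24 : k ≠ 24) (h26 : k ≠ 26) :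
    ∃ l : YoungDiagram, l.card = k ∧ ∀ ν : YoungDiagram, ν.card = k → Kron l l ν := by
  obtain ⟨n, E, hn, hE, hr⟩ := exists_M hk h22 h24 h26
  refine ⟨lam (n + 4) (E / 2) (E % 2) (E / 2) (E % 2), ?_, fun ν hν => ?_⟩
  · have := card_lam (M := n + 4) (by omega) (E / 2) (E % 2) (E / 2) (E % 2)
    have e1 : 2 * (E / 2) + E % 2 = E := by omega
    rw [e1, show n + 4 + 1 = n + 5 from rfl] at this
    omega
  · refine sq_all hS hn (E / 2) (E % 2) (by omega) (by omega) ν ?_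
    have e1 : 2 * (E / 2) + E % 2 = E := by omega
    rw [e1, hν, show n + 4 + 1 = n + 5 from rfl]; omega

end Crest.Agent.R195
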