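import Crest.Agent.R195.QBlk4
import Crest.Agent.R195.QBlk2

/-!
# R195 / QOut (helper50): the outer piece = tall block, path, wide block
-/

set_option autoImplicit false
set_option linter.unusedSectionVars false
open Finset

noncomputable section
namespace Crest.Agent.R195

/-- row (and column) sizes of the outer piece -/
def oS (K t δ j : ℕ) : ℕ :=
  if j = 0 then t + 2 + δ else if j = 1 then t + 2 else if j + 1 < K + t then 2
  else if j < K + t + δ then 1 else 0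

/-- the short coordinate of a block cell (`K = k + 5`): `k + 3 + i`, except `k + 2` for the cell `tbZ` -/
def tbX (k t δ : ℕ) : TB t δ → ℕ :=
  Sum.elim (fun i => k + 3 + i) fun i => if (i : ℕ) ≤ t then k + 3 + i else k + 2

/-- rows of the outer piece -/
def outR (k t δ : ℕ) : TB t δ ⊕ Fin (2 * k + 1) ⊕ TB t δ → ℕ :=
  Sum.elim (tbX k t δ) (Sum.elim (fun p => k + 2 - ((p : ℕ) + 1) / 2) (tbC t δ))
/-- columns of the outer piece -/
def outC (k t δ : ℕ) : TB t δ ⊕ Fin (2 * k + 1) ⊕ TB t δ → ℕ :=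
  Sum.elim (tbC t δ) (Sum.elim (fun p => 2 + (p : ℕ) / 2) (tbX k t δ))

theorem two_le_N (t δ : ℕ) : 2 ≤ t + 2 + δ := by omega

/-- reference row letters -/
def outA (k t δ : ℕ) : TB t δ ⊕ Fin (2 * k + 1) ⊕ TB t δ → Fin (t + 2 + δ) :=
  Sum.elim (tbA t δ) (Sum.elim (e2 (two_le_N t δ) ∘ pathR _) (tbB t δ))
/-- reference column letters -/
def outB (k t δ : ℕ) : TB t δ ⊕ Fin (2 * k + 1) ⊕ TB t δ → Fin (t + 2 + δ) :=
  Sum.elim (tbB t δ) (Sum.elim (e2 (two_le_N t δ) ∘ pathR _) (tbA t δ))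

theorem qoa_cnt_Ico (n : ℕ) (f : ℕ → ℕ) (j a b : ℕ) (hb : b ≤ n)
    (h : ∀ i < n, f i = j ↔ a ≤ i ∧ i < b) : cnt (fun i : Fin n => f i) j = b - a := by
  rw [shapec_cnt_nat, ← Nat.card_Ico]
  refine Finset.card_bij (fun i _ => (i : ℕ)) (fun i hi => ?_) (fun i _ i' _ e => Fin.ext e)
    fun x hx => ?_
  · exact Finset.mem_Ico.2 ((h i i.2).1 (Finset.mem_filter.1 hi).2)
  · have hx' := Finset.mem_Ico.1 hx
    have hn : x < n := by omega
    exact ⟨⟨x, hn⟩, Finset.mem_filter.2 ⟨Finset.mem_univ _, (h x hn).2 hx'⟩, rfl⟩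

theorem qoa_cnt_tbX (k t δ j : ℕ) : cnt (tbX k t δ) j =
    (if k + 3 ≤ j ∧ j < k + 5 + t + δ then 1 else 0) +
      if k + 2 ≤ j ∧ j ≤ k + 3 + t then 1 else 0 := by
  rw [tbX, polarb_cnt_elim]
  congr 1
  · split_ifs with h
    · rw [qoa_cnt_Ico _ (fun i => k + 3 + i) j (j - (k + 3)) (j - (k + 3) + 1) (by omega)
        fun i _ => by omega]
      omega
    · exact qoa_cnt_Ico _ (fun i => k + 3 + i) j 0 0 (by omega) fun i _ => by omega
  · split_ifs with h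
    · by_cases hj : j = k + 2
      · rw [qoa_cnt_Ico _ (fun i => if i ≤ t then k + 3 + i else k + 2) j (t + 1) (t + 2) le_rfl
          fun i _ => by split_ifs <;> omega]
        omega
      · rw [qoa_cnt_Ico _ (fun i => if i ≤ t then k + 3 + i else k + 2) j (j - (k + 3))
          (j - (k + 3) + 1) (by omega) fun i _ => by split_ifs <;> omega]
        omega
    · exact qoa_cnt_Ico _ (fun i => if i ≤ t then k + 3 + i else k + 2) j 0 0 (by omega)
        fun i _ => by split_ifs <;> omega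

theorem qoa_cnt_tbC (t δ j : ℕ) :
    cnt (tbC t δ) j = (if j = 0 then t + 2 + δ else 0) + if j = 1 then t + 2 else 0 := by
  rw [tbC, polarb_cnt_elim]
  congr 1
  · split_ifs with h
    · exact qoa_cnt_Ico _ (fun _ => 0) j 0 (t + 2 + δ) le_rfl fun i _ => by omega
    · exact qoa_cnt_Ico _ (fun _ => 0) j 0 0 (by omega) fun i _ => by omega
  · split_ifs with h
    · exact qoa_cnt_Ico _ (fun _ => 1) j 0 (t + 2) le_rfl fun i _ => by omega
    · exact qoa_cnt_Ico _ (fun _ => 1) j 0 0 (by omega) fun i _ => by omega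

theorem qoa_cnt_pR (k j : ℕ) : cnt (fun p : Fin (2 * k + 1) => k + 2 - ((p : ℕ) + 1) / 2) j =
    if j = k + 2 then 1 else if 2 ≤ j ∧ j < k + 2 then 2 else 0 := by
  split_ifs with h h'
  · exact qoa_cnt_Ico _ (fun p => k + 2 - (p + 1) / 2) j 0 1 (by omega) fun i _ => by omega
  · rw [qoa_cnt_Ico _ (fun p => k + 2 - (p + 1) / 2) j (2 * (k + 2 - j) - 1) (2 * (k + 2 - j) + 1)
      (by omega) fun i _ => by omega]
    omega
  · exact qoa_cnt_Ico _ (fun p => k + 2 - (p + 1) / 2) j 0 0 (by omega) fun i _ => by omega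

theorem qoa_cnt_pC (k j : ℕ) : cnt (fun p : Fin (2 * k + 1) => 2 + (p : ℕ) / 2) j =
    if j = k + 2 then 1 else if 2 ≤ j ∧ j < k + 2 then 2 else 0 := by
  split_ifs with h h'
  · rw [qoa_cnt_Ico _ (fun p => 2 + p / 2) j (2 * k) (2 * k + 1) le_rfl fun i _ => by omega]
    omega
  · rw [qoa_cnt_Ico _ (fun p => 2 + p / 2) j (2 * (j - 2)) (2 * (j - 2) + 2) (by omega)
      fun i _ => by omega]
    omega
  · exact qoa_cnt_Ico _ (fun p => 2 + p / 2) j 0 0 (by omega) fun i _ => by omega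

/-- `polarb_cnt_elim`; each part is counted by `Finset.card_eq_of_equiv`/`Fin.card_filter_val`-type
lemmas (e.g. turn `cnt` on `Fin n` into a count on `range n`, the filter is empty, a singleton or a pair). -/
theorem cnt_outR (k t δ j : ℕ) (hδ : δ ≤ 1) : cnt (outR k t δ) j = oS (k + 5) t δ j := by
  rw [outR, polarb_cnt_elim, polarb_cnt_elim, qoa_cnt_tbX, qoa_cnt_pR, qoa_cnt_tbC, oS]
  split_ifs <;> omega

theorem cnt_outC (k t δ j : ℕ) (hδ : δ ≤ 1) : cnt (outC k t δ) j = oS (k + 5) t δ j := by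
  rw [outC, polarb_cnt_elim, polarb_cnt_elim, qoa_cnt_tbX, qoa_cnt_pC, qoa_cnt_tbC, oS]
  split_ifs <;> omega

/-- case analysis on the cells; a letter `1` in a short row has the letter `0` next to it -/
theorem str_outA (k t δ : ℕ) (hδ : δ ≤ 1) : Str (outR k t δ) fun i => (outA k t δ i : ℕ) := by
  constructor
  · rintro ((i | i) | i | i | i) ((j | j) | j | j | j) h1 h2 <;>
    simp only [outR, outA, tbX, tbC, tbA, tbB, e2, pathR, Sum.elim_inl, Sum.elim_inr,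
      Function.comp_apply, Fin.val_castLE] at h1 h2 <;>
    have hi := i.2 <;> have hj := j.2 <;> (try split_ifs at h1) <;>
    first
      | (congr; apply Fin.ext; omega)
      | (exfalso; omega)
  · rintro ((i | i) | i | i | i) r hr <;>
    simp only [outA, tbA, tbB, e2, pathR, Sum.elim_inl, Sum.elim_inr,
      Function.comp_apply, Fin.val_castLE] at hr <;> have hi := i.2
    · omega
    · by_cases h : (i : ℕ) ≤ t
      · exact ⟨Sum.inl (Sum.inl ⟨i, by omega⟩), by simp [outR, tbX, h],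
          by simp only [outA, tbA, Sum.elim_inl]; omega⟩
      · exact ⟨Sum.inr (Sum.inl ⟨0, by omega⟩), by simp [outR, tbX, h],
          by simp only [outA, e2, pathR, Sum.elim_inl, Sum.elim_inr, Function.comp_apply,
            Fin.val_castLE]; omega⟩
    · exact ⟨Sum.inr (Sum.inl ⟨i + 1, by omega⟩),
        by simp only [outR, Sum.elim_inl, Sum.elim_inr]; omega,
        by simp only [outA, e2, pathR, Sum.elim_inl, Sum.elim_inr, Function.comp_apply,
          Fin.val_castLE]; omega⟩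
    · exact ⟨Sum.inr (Sum.inr (Sum.inl ⟨r, by omega⟩)), rfl, rfl⟩
    · exact ⟨Sum.inr (Sum.inr (Sum.inr ⟨r, by omega⟩)), rfl, rfl⟩

theorem str_outB (k t δ : ℕ) (hδ : δ ≤ 1) : Str (outC k t δ) fun i => (outB k t δ i : ℕ) := by
  constructor
  · rintro ((i | i) | i | i | i) ((j | j) | j | j | j) h1 h2 <;>
    simp only [outC, outB, tbX, tbC, tbA, tbB, e2, pathR, Sum.elim_inl, Sum.elim_inr,
      Function.comp_apply, Fin.val_castLE] at h1 h2 <;>
    have hi := i.2 <;> have hj := j.2 <;> (try split_ifs at h1) <;>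
    first
      | (congr; apply Fin.ext; omega)
      | (exfalso; omega)
  · rintro ((i | i) | i | i | i) r hr <;>
    simp only [outB, tbA, tbB, e2, pathR, Sum.elim_inl, Sum.elim_inr,
      Function.comp_apply, Fin.val_castLE] at hr <;> have hi := i.2
    · exact ⟨Sum.inl (Sum.inl ⟨r, by omega⟩), rfl, rfl⟩
    · exact ⟨Sum.inl (Sum.inr ⟨r, by omega⟩), rfl, rfl⟩
    · exact ⟨Sum.inr (Sum.inl ⟨i - 1, by omega⟩),
        by simp only [outC, Sum.elim_inl, Sum.elim_inr]; omega,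
        by simp only [outB, e2, pathR, Sum.elim_inl, Sum.elim_inr, Function.comp_apply,
          Fin.val_castLE]; omega⟩
    · omega
    · by_cases h : (i : ℕ) ≤ t
      · exact ⟨Sum.inr (Sum.inr (Sum.inl ⟨i, by omega⟩)), by simp [outC, tbX, h],
          by simp only [outB, tbA, Sum.elim_inl, Sum.elim_inr]; omega⟩
      · exact ⟨Sum.inr (Sum.inl ⟨2 * k, by omega⟩),
          by simp only [outC, tbX, Sum.elim_inl, Sum.elim_inr, if_neg h]; omega,
          by simp only [outB, e2, pathR, Sum.elim_inl, Sum.elim_inr, Function.comp_apply,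
            Fin.val_castLE]; omega⟩

theorem out_pos (k t δ : ℕ) (x : TB t δ ⊕ Fin (2 * k + 1) ⊕ TB t δ) :
    k + 5 ≤ outR k t δ x + outC k t δ x + 2 := by
  rcases x with (i | i) | i | i | i <;>
    simp only [outR, outC, tbX, tbC, Sum.elim_inl, Sum.elim_inr] <;> have hi := i.2 <;>
    (try split_ifs) <;> omega

/-- the `T`-columns of the path -/
theorem qob_path (k : ℕ) (ν : YoungDiagram) (hc : ν.card = 2 * k + 1) (h4 : ν.colLen 0 ≤ 4) :
    ∃ (colP : Fin (2 * k + 1) → ℕ) (rT : Fin (2 * k + 1) → Fin 4),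
      Str colP (fun p => (rT p : ℕ)) ∧ (∀ r, cnt (fun p => (rT p : ℕ)) r = ν.rowLen r) ∧
      ∀ i j l : Fin (2 * k + 1), i ≤ l → l ≤ j → colP i = colP j → colP l = colP i := by
  obtain ⟨col, lab, hsh, -, hconv⟩ := exists_consecutive (L := 2 * k + 1)
    (fun c : Fin (ν.rowLen 0) => ν.colLen c) (by
      rw [← hc, card_eq_sum_colLen ν le_rfl, Finset.sum_range])
  rw [ofCols_colLen ν le_rfl] at hsh
  obtain ⟨T, hT, hcol, -⟩ := hsh
  have hlt4 : ∀ i, (T i).1 < 4 := fun i => by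
    have h1 : ((T i).1, (T i).2) ∈ ν := (hT.2 _).2 ⟨i, rfl⟩
    have h2 := YoungDiagram.mem_iff_lt_colLen.1 h1
    exact lt_of_lt_of_le h2 ((ν.colLen_anti _ _ (Nat.zero_le _)).trans h4)
  refine ⟨fun i => (T i).2, fun i => ⟨(T i).1, hlt4 i⟩, ⟨fun i j h1 h2 => ?_, fun i r hr => ?_⟩,
    fun r => hT.cnt_row r, fun i j l h1 h2 h3 => ?_⟩
  · exact hT.1 (Prod.ext h2 h1)
  · exact polarb_down hT i hr
  · exact (hcol _ _).1 (hconv i j l h1 h2 ((hcol _ _).2 h3))

/-- the letter map on the outer piece -/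
def qobTau (ε : Fin 2) (ρ : ℕ → ℕ → ℕ → ℤ) (a b c : ℕ) : ℤ :=
  if ha : a < 2 then
    (if hb : b < 2 then (if hc : c < 4 then cliff ε ⟨c, hc⟩ ⟨a, ha⟩ ⟨b, hb⟩ else 0) else ρ a b c)
  else if b < 2 then ρ b a c else 0

theorem qob_tau_cl (ε : Fin 2) (ρ : ℕ → ℕ → ℕ → ℤ) (a b : Fin 2) (c : Fin 4) :
    qobTau ε ρ a b c = cliff ε c a b := by
  unfold qobTau
  rw [dif_pos a.2, dif_pos b.2, dif_pos c.2]

theorem qob_tau_r (ε : Fin 2) (ρ : ℕ → ℕ → ℕ → ℤ) (a b c : ℕ) (ha : a < 2) (hb : 2 ≤ b) :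
    qobTau ε ρ a b c = ρ a b c := by
  unfold qobTau
  rw [dif_pos ha, dif_neg (by omega)]

theorem qob_tau_l (ε : Fin 2) (ρ : ℕ → ℕ → ℕ → ℤ) (a b c : ℕ) (ha : a < 2) (hb : 2 ≤ b) :
    qobTau ε ρ b a c = ρ a b c := by
  unfold qobTau
  rw [dif_neg (by omega), if_pos ha]

theorem qob_X_eq (k t δ : ℕ) (i : TB t δ) : tbX k t δ i = k + 2 ↔ i = tbZ t δ := by
  rcases i with i | i
  · simp only [tbX, tbZ, Sum.elim_inl, reduceCtorEq, iff_false]; omega
  · have := i.2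
    simp only [tbX, tbZ, Sum.elim_inr, Sum.inr.injEq, Fin.ext_iff, Fin.val_last]
    split_ifs <;> omega

theorem qob_X_ge (k t δ : ℕ) (i : TB t δ) : k + 2 ≤ tbX k t δ i := by
  rcases i with i | i
  · simp only [tbX, Sum.elim_inl]; omega
  · simp only [tbX, Sum.elim_inr]; split_ifs <;> omega

theorem qob_C_le (t δ : ℕ) (i : TB t δ) : tbC t δ i ≤ 1 := by
  rcases i with i | i <;> simp [tbC]

theorem qob_X_R (k t δ : ℕ) (hδ : δ ≤ 1) (i j : TB t δ) :
    tbX k t δ i = tbX k t δ j ↔ tbR t δ i = tbR t δ j := by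
  rcases i with i | i <;> rcases j with j | j <;> have h1 := i.2 <;> have h2 := j.2 <;>
    simp only [tbX, tbR, Sum.elim_inl, Sum.elim_inr] <;> (try split_ifs) <;> omega

theorem qob_XA (k t δ : ℕ) : BlockInj (tbX k t δ) (tbA t δ) := by
  intro i j
  rcases i with i | i <;> rcases j with j | j <;> have h1 := i.2 <;> have h2 := j.2 <;>
    simp only [tbX, tbA, Sum.elim_inl, Sum.elim_inr, Sum.inl.injEq, Sum.inr.injEq, Fin.ext_iff,
      reduceCtorEq] <;> (try split_ifs) <;> intro _ _ <;> omega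

theorem qob_CB (t δ : ℕ) : BlockInj (tbC t δ) (tbB t δ) := by
  intro i j
  rcases i with i | i <;> rcases j with j | j <;>
    simp only [tbC, tbB, Sum.elim_inl, Sum.elim_inr, Sum.inl.injEq, Sum.inr.injEq, Fin.ext_iff,
      reduceCtorEq, Fin.val_castLE] <;> intro _ _ <;> omega

theorem qob_str3 {β₁ β β₂ : Type} {c₁ l₁ : β₁ → ℕ} {c l : β → ℕ} {c₂ l₂ : β₂ → ℕ} (h₁ : Str c₁ l₁)
    (h : Str c l) (h₂ : Str c₂ l₂) :
    Str (Sum.elim (fun i => 3 * c₁ i) (Sum.elim (fun i => 3 * c i + 1) fun i => 3 * c₂ i + 2))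
      (Sum.elim l₁ (Sum.elim l l₂)) := by
  constructor
  · rintro (i | i | i) (j | j | j) h1 h2 <;> simp only [Sum.elim_inl, Sum.elim_inr] at h1 h2
    · rw [h₁.1 i j (by omega) h2]
    · omega
    · omega
    · omega
    · rw [h.1 i j (by omega) h2]
    · omega
    · omega
    · omega
    · rw [h₂.1 i j (by omega) h2]
  · rintro (i | i | i) r hr
    · obtain ⟨j, h1, h2⟩ := h₁.2 i r hr
      exact ⟨.inl j, by simp only [Sum.elim_inl, h1], h2⟩
    · obtain ⟨j, h1, h2⟩ := h.2 i r hr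
      exact ⟨.inr (.inl j), by simp only [Sum.elim_inl, Sum.elim_inr, h1], h2⟩
    · obtain ⟨j, h1, h2⟩ := h₂.2 i r hr
      exact ⟨.inr (.inr j), by simp only [Sum.elim_inr, h1], h2⟩

/-- `exists_consecutive` for `ν₀` (as in `sees_path`) gives `colP, rT`; `T`-columns
`T₁ = 3 * col`, `TP = 3 * colP + 1`, `T₂ = 3 * col + 2`; labels `lab, rT, lab` are straight, so
`shape_of_straight` (with `polarb_cnt_elim`; `cnt rT r = ν₀.rowLen r` from the shape: `IsTab.cnt_row` or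
`shape_sigma`/`rowLen_ofCols`).  Take `ε` from `exists_cliffP rT (x₀+1) (x₀+1)` and
`τ a b c = if a < 2 then (if b < 2 then (if c < 4 then cliff ε c a b else 0) else ρ a b c)
else if b < 2 then ρ b a c else 0`; `glue` (with `blkPhi_congr`: `tbX` and `tbR` have the same blocks),
`sees_of_tri`, `Str.nest` + `Nest.congr`. -/
theorem HT.out_gen (k t δ : ℕ) (hδ : δ ≤ 1) {col lab : TB t δ → ℕ} {ρ : ℕ → ℕ → ℕ → ℤ} {x₀ : Fin 2}
    (hs : Str col lab) (hB : BlkOK t δ col lab ρ x₀) {ν₀ ν : YoungDiagram}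
    (hc : ν₀.card = 2 * k + 1) (h4 : ν₀.colLen 0 ≤ 4)
    (hν : ∀ r, ν.rowLen r = ν₀.rowLen r + 2 * cnt lab r) :
    HT (fun i j => k + 5 ≤ i + j + 2) (oS (k + 5) t δ) (oS (k + 5) t δ) ν := by
  obtain ⟨colP, rT, hsP, hcnt, hconv⟩ := qob_path k ν₀ hc h4
  obtain ⟨ε, hε⟩ := exists_cliffP rT (x₀ + 1) (x₀ + 1)
  refine ⟨_, inferInstance, inferInstance, outR k t δ, outC k t δ, out_pos k t δ,
    fun j => cnt_outR k t δ j hδ, fun j => cnt_outC k t δ j hδ, ?_⟩
  refine ⟨Fin (t + 2 + δ), Fin (t + 2 + δ), inferInstance, inferInstance, outA k t δ, outB k t δ,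
    (str_outA k t δ hδ).nest.congr (fun _ _ => Iff.rfl) (fun _ _ => Fin.val_inj),
    (str_outB k t δ hδ).nest.congr (fun _ _ => Iff.rfl) (fun _ _ => Fin.val_inj), ?_⟩
  have hS := qob_str3 hs hsP hs
  refine sees_of_tri (τ := qobTau ε ρ) (shape_of_straight hS.1 hS.2 fun r => ?_) ?_
  · rw [polarb_cnt_elim, polarb_cnt_elim, hcnt, hν]; ring
  have hB₁ := hB (qobTau ε ρ) ⟨ε, Or.inl (qob_tau_cl ε ρ)⟩ (qob_tau_r ε ρ)
  have hB₂ := hB (fun b a c => qobTau ε ρ a b c) ⟨ε, Or.inr fun a b c => qob_tau_cl ε ρ b a c⟩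
    (qob_tau_l ε ρ)
  have hX := qob_X_R k t δ hδ
  have hz : tbX k t δ (tbZ t δ) = k + 2 := (qob_X_eq k t δ _).2 rfl
  have e₁ : ∀ (τ : ℕ → ℕ → ℕ → ℤ) (x : ℕ),
      blkPhi (tbX k t δ) (tbC t δ) (tbA t δ) (tbB t δ) (tbZ t δ) (fun i => 3 * col i) lab τ x =
        blkPhi (tbR t δ) (tbC t δ) (tbA t δ) (tbB t δ) (tbZ t δ) col lab τ x := fun τ x =>
    blkPhi_congr _ _ _ _ _ _ hX (fun _ _ => Iff.rfl) (fun _ _ => by omega)
  have e₂ : ∀ (τ : ℕ → ℕ → ℕ → ℤ) (x : ℕ),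
      blkPhi (tbX k t δ) (tbC t δ) (tbA t δ) (tbB t δ) (tbZ t δ) (fun i => 3 * col i + 2) lab τ x =
        blkPhi (tbR t δ) (tbC t δ) (tbA t δ) (tbB t δ) (tbZ t δ) col lab τ x := fun τ x =>
    blkPhi_congr _ _ _ _ _ _ hX (fun _ _ => Iff.rfl) (fun _ _ => by omega)
  refine glue (two_le_N t δ) ε (tbX k t δ) (tbC t δ) (fun i => 3 * col i) lab
    (fun p => k + 2 - ((p : ℕ) + 1) / 2) (fun p => 2 + (p : ℕ) / 2) (fun p => 3 * colP p + 1) rT
    (tbC t δ) (tbX k t δ) (fun i => 3 * col i + 2) lab (tbA t δ) (tbB t δ) (tbB t δ) (tbA t δ)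
    (tbZ t δ) (tbZ t δ) (qobTau ε ρ) ?_ ?_ ?_ ?_ ?_ ?_ ?_ ?_ ?_ ?_ ?_ ?_ ?_ ?_ ?_ (qob_XA k t δ)
    (qob_CB t δ) (qob_CB t δ) (qob_XA k t δ) rfl rfl (qob_tau_cl ε ρ) x₀ x₀ ?_ ?_ ?_ ?_ hε
  · intro i hi
    exact (qob_X_eq k t δ i).1 (hi.trans hz)
  · intro i p
    have h1 := qob_X_ge k t δ i
    have h2 := p.2
    rw [← qob_X_eq k t δ i, Fin.ext_iff, Fin.val_zero]
    omega
  · intro i j
    have h1 := qob_X_ge k t δ i
    have h2 := qob_C_le t δ j
    omega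
  · intro p j
    have h1 := p.2
    have h2 := qob_C_le t δ j
    omega
  · intro p q
    have h1 := p.2
    have h2 := q.2
    simp only [pathC₁]
    omega
  · intro i hi
    exact (qob_X_eq k t δ i).1 (hi.trans hz)
  · intro i p
    have h1 := qob_X_ge k t δ i
    have h2 := p.2
    rw [← qob_X_eq k t δ i, Fin.ext_iff, Fin.val_last]
    omega
  · intro i j
    have h1 := qob_X_ge k t δ i
    have h2 := qob_C_le t δ j
    omega
  · intro p j
    have h2 := qob_C_le t δ j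
    omega
  · intro p q
    simp only [pathC₂]
    omega
  · intro i p
    omega
  · intro i j
    omega
  · intro p j
    omega
  · intro i j h1 h2
    exact hsP.1 i j (by simpa using h1) (congrArg Fin.val h2)
  · intro i j l h1 h2 h3
    have := hconv i j l h1 h2 (by omega)
    omega
  · rw [e₁]; exact hB₁.1
  · rw [e₁]; exact hB₁.2
  · rw [e₂]; exact hB₂.1
  · rw [e₂]; exact hB₂.2

theorem qob_cnt {ι : Type} [Fintype ι] [DecidableEq ι] {u : ι → ℕ} (hu : Function.Injective u) (r : ℕ)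
    (P : Prop) [Decidable P] (h : P ↔ ∃ i, u i = r) : cnt u r = if P then 1 else 0 := by
  rw [shapec_cnt_nat]
  split_ifs with hP
  · obtain ⟨i, rfl⟩ := h.1 hP
    rw [Finset.card_eq_one]
    refine ⟨i, ?_⟩
    ext j
    simp only [mem_filter, mem_univ, true_and, mem_singleton]
    exact hu.eq_iff
  · rw [Finset.card_eq_zero, Finset.filter_eq_empty_iff]
    exact fun i _ hi => hP (h.2 ⟨i, hi⟩)

theorem qob_cnt_val (n r : ℕ) : cnt (fun i : Fin n => (i : ℕ)) r = if r < n then 1 else 0 :=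
  qob_cnt Fin.val_injective r _ ⟨fun h => ⟨⟨r, h⟩, rfl⟩, fun ⟨i, hi⟩ => hi ▸ i.2⟩

/-- `HT.out_gen` with `blkOK4` -/
theorem HT.out4 (k t δ : ℕ) (hδ : δ ≤ 1) {ν₀ ν : YoungDiagram} (hc : ν₀.card = 2 * k + 1)
    (h4 : ν₀.colLen 0 ≤ 4) (hν : ∀ r, ν.rowLen r = ν₀.rowLen r +
      2 * ((if r < t + 2 + δ then 1 else 0) + if r < t + 2 then 1 else 0)) :
    HT (fun i j => k + 5 ≤ i + j + 2) (oS (k + 5) t δ) (oS (k + 5) t δ) ν := by
  refine HT.out_gen k t δ hδ ?_ (blkOK4 t δ hδ) hc h4 fun r => ?_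
  · constructor
    · rintro (i | i) (j | j) <;>
        simp only [tbC, tbI, Sum.elim_inl, Sum.elim_inr, Sum.inl.injEq, Sum.inr.injEq, Fin.ext_iff,
          reduceCtorEq] <;> intro _ _ <;> omega
    · rintro (i | i) r hr
      · exact ⟨.inl ⟨r, lt_trans hr i.2⟩, rfl, rfl⟩
      · exact ⟨.inr ⟨r, lt_trans hr i.2⟩, rfl, rfl⟩
  · rw [hν, tbI, polarb_cnt_elim, qob_cnt_val, qob_cnt_val]

theorem qob_L_inj (t δ : ℕ) : Function.Injective (tbL t δ) := by
  rintro (i | i) (j | j) <;>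
    simp only [tbL, tbC, tbI, Sum.elim_inl, Sum.elim_inr, Sum.inl.injEq, Sum.inr.injEq, Fin.ext_iff,
      reduceCtorEq] <;> omega

theorem qob_L_range (t δ : ℕ) (hδ : δ ≤ 1) (r : ℕ) : r < 2 * t + 4 + δ ↔ ∃ i, tbL t δ i = r := by
  constructor
  · intro hr
    rcases Nat.mod_two_eq_zero_or_one r with h | h
    · refine ⟨.inl ⟨r / 2, by omega⟩, ?_⟩
      simp only [tbL, tbC, tbI, Sum.elim_inl]; omega
    · refine ⟨.inr ⟨r / 2, by omega⟩, ?_⟩
      simp only [tbL, tbC, tbI, Sum.elim_inr]; omega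
  · rintro ⟨i | i, rfl⟩ <;> have := i.2 <;>
      simp only [tbL, tbC, tbI, Sum.elim_inl, Sum.elim_inr] <;> omega

/-- `HT.out_gen` with `blkOK2` -/
theorem HT.out2 (k t δ : ℕ) (hδ : δ ≤ 1) {ν₀ ν : YoungDiagram} (hc : ν₀.card = 2 * k + 1)
    (h4 : ν₀.colLen 0 ≤ 4)
    (hν : ∀ r, ν.rowLen r = ν₀.rowLen r + 2 * if r < 2 * t + 4 + δ then 1 else 0) :
    HT (fun i j => k + 5 ≤ i + j + 2) (oS (k + 5) t δ) (oS (k + 5) t δ) ν := by
  refine HT.out_gen k t δ hδ ?_ (blkOK2 t δ hδ) hc h4 fun r => ?_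
  · refine ⟨fun i j _ h => qob_L_inj t δ h, fun i r hr => ?_⟩
    have h1 := (qob_L_range t δ hδ _).2 ⟨i, rfl⟩
    obtain ⟨j, hj⟩ := (qob_L_range t δ hδ r).1 (lt_trans hr h1)
    exact ⟨j, rfl, hj⟩
  · rw [hν, qob_cnt (qob_L_inj t δ) r _ (qob_L_range t δ hδ r)]

end Crest.Agent.R195
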