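import Crest.Agent.R195.QTab

/-!
# R195 / QPiece (helper50): the elementary tables
-/

set_option autoImplicit false
set_option linter.unusedSectionVars false
open Finset

noncomputable section
namespace Crest.Agent.R195

/-- row (and column) sizes of the outer band of width two of the staircase with `K` rows -/
def bS (K j : ℕ) : ℕ := if j + 1 < K then 2 else if j < K then 1 else 0

theorem qpa_nest2 {ι C : Type} {col : ι → C} {lab : ι → Fin 2} (hinj : BlockInj col lab)
    (h0 : ∀ i, ∃ k, col k = col i ∧ lab k = 0) : Nest col lab := by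
  refine ⟨hinj, fun i j => ?_⟩
  by_cases h : ∃ k, col k = col j ∧ lab k = lab i
  · exact Or.inl h
  · refine Or.inr fun k hk => ?_
    obtain ⟨l, hl, hl0⟩ := h0 i
    obtain ⟨k0, hk0, hk00⟩ := h0 j
    refine ⟨l, hl, ?_⟩
    have h1 : lab k ≠ lab i := fun e => h ⟨k, hk, e⟩
    have h2 : lab k0 ≠ lab i := fun e => h ⟨k0, hk0, e⟩
    rw [hl0]
    rw [hk00] at h2
    omega

theorem qpa_cnt_fin {L : ℕ} (f : ℕ → ℕ) (a : ℕ) (t : Finset ℕ)
    (h : ∀ x, x ∈ t ↔ x < L ∧ f x = a) : cnt (fun i : Fin L => f i.1) a = t.card := by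
  rw [shapec_cnt_nat]
  refine card_bij (fun i _ => i.1) (fun i hi => ?_) (fun i _ j _ e => Fin.ext e) (fun x hx => ?_)
  · exact (h _).2 ⟨i.2, (mem_filter.1 hi).2⟩
  · obtain ⟨h1, h2⟩ := (h x).1 hx
    exact ⟨⟨x, h1⟩, mem_filter.2 ⟨mem_univ _, h2⟩, rfl⟩

/-- the band is the path: cells `x : Fin (2 (K-1) + 1)`, `R x = K - 1 - (x+1)/2`, `C x = x/2`;
`sees_path`, `TS.intro` (the parity labels `pathR` are nested for `pathC₁`, `pathC₂`). -/
theorem HT.band {K : ℕ} (hK : 1 ≤ K) {ν : YoungDiagram} (hc : ν.card + 1 = 2 * K)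
    (h4 : ν.colLen 0 ≤ 4) : HT (fun i j => K ≤ i + j + 2 ∧ i + j < K) (bS K) (bS K) ν := by
  obtain ⟨k, rfl⟩ : ∃ k, K = k + 1 := ⟨K - 1, by omega⟩
  refine ⟨Fin (2 * k + 1), inferInstance, inferInstance, fun x => k - (x.1 + 1) / 2,
    fun x => x.1 / 2, fun x => ?_, fun j => ?_, fun j => ?_, ?_⟩
  · have := x.2
    beta_reduce
    constructor <;> omega
  · unfold bS
    split_ifs with h1 h2
    · rw [qpa_cnt_fin (fun x => k - (x + 1) / 2) j {2 * (k - j) - 1, 2 * (k - j)}
        (fun x => by simp only [mem_insert, mem_singleton]; omega), card_pair (by omega)]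
    · rw [qpa_cnt_fin (fun x => k - (x + 1) / 2) j {0}
        (fun x => by simp only [mem_singleton]; omega), card_singleton]
    · rw [qpa_cnt_fin (fun x => k - (x + 1) / 2) j ∅
        (fun x => by simp only [notMem_empty, false_iff]; omega), card_empty]
  · unfold bS
    split_ifs with h1 h2
    · rw [qpa_cnt_fin (fun x => x / 2) j {2 * j, 2 * j + 1}
        (fun x => by simp only [mem_insert, mem_singleton]; omega), card_pair (by omega)]
    · rw [qpa_cnt_fin (fun x => x / 2) j {2 * j}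
        (fun x => by simp only [mem_singleton]; omega), card_singleton]
    · rw [qpa_cnt_fin (fun x => x / 2) j ∅
        (fun x => by simp only [notMem_empty, false_iff]; omega), card_empty]
  · refine TS.intro (qpa_nest2 (pathC₁_inj _) fun i => ?_) (qpa_nest2 (pathC₂_inj _) fun i => ?_)
      (sees_path k ν (by omega) h4) (fun i j => ?_) (fun i j => Iff.rfl)
    · have := i.2
      refine ⟨⟨2 * ((i.1 + 1) / 2), by omega⟩, ?_, ?_⟩
      · simp only [pathC₁]; omega
      · simp only [pathR, Fin.ext_iff, Fin.val_zero]; omega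
    · have := i.2
      refine ⟨⟨2 * (i.1 / 2), by omega⟩, ?_, ?_⟩
      · simp only [pathC₂]; omega
      · simp only [pathR, Fin.ext_iff, Fin.val_zero]; omega
    · have := i.2
      have := j.2
      simp only [pathC₁]; omega

theorem qpa_card_row {ν : YoungDiagram} (h1 : ν.colLen 0 ≤ 1) : ν.rowLen 0 = ν.card := by
  rw [YoungDiagram.rowLen_eq_card]
  congr 1
  ext ⟨i, j⟩
  rw [YoungDiagram.mem_row_iff, YoungDiagram.mem_cells]
  refine ⟨fun h => h.1, fun h => ⟨h, ?_⟩⟩
  have h2 := YoungDiagram.mem_iff_lt_colLen.1 h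
  have h3 := ν.colLen_anti 0 j (Nat.zero_le _)
  show i = 0
  omega

/-- cells in distinct rows and columns: with the labels `fun _ => ()` both `pt` equal `dl _`/`1`
(`pt_self`), the vector is `dl (fun _ => ((), ()))`; `sees_dl` (`ν.rowLen 0 = ν.card`). -/
theorem TS.free {ι : Type} [Fintype ι] [DecidableEq ι] {R C : ι → ℕ} (hR : Function.Injective R)
    (hC : Function.Injective C) {ν : YoungDiagram} (hc : ν.card = Fintype.card ι)
    (h1 : ν.colLen 0 ≤ 1) : TS R C ν := by
  refine ⟨Unit, Unit, inferInstance, inferInstance, fun _ => (), fun _ => (),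
    ⟨fun i j h _ => hR h, fun i j => Or.inl ⟨j, rfl, rfl⟩⟩,
    ⟨fun i j h _ => hC h, fun i j => Or.inl ⟨j, rfl, rfl⟩⟩, ?_⟩
  have e : inn (pt R fun _ => ()) (pt C fun _ => ()) = dl (fun _ : ι => ((), ())) := by
    funext u
    obtain rfl : u = fun _ => ((), ()) := Subsingleton.elim _ _
    simp only [inn, dl]
    rw [pt_self (fun i j h _ => hR h), pt_self (fun i j h _ => hC h)]
    simp
  rw [e]
  refine sees_dl hc fun S => ?_
  rcases S.eq_empty_or_nonempty with rfl | hS
  · simp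
  · rw [shapec_sum_cnt]
    refine le_trans (card_le_univ _) ?_
    rw [← hc, ← qpa_card_row h1]
    exact single_le_sum (f := fun r => ν.rowLen r) (fun _ _ => Nat.zero_le _)
      (mem_range.2 hS.card_pos)

/-- the antidiagonal: `ι = Fin K`, `R = val`, `C = rev`. -/
theorem HT.diag (K : ℕ) {ν : YoungDiagram} (hc : ν.card = K) (h1 : ν.colLen 0 ≤ 1) :
    HT (fun i j => i + j + 1 = K) (fun j => if j < K then 1 else 0)
      (fun j => if j < K then 1 else 0) ν := by
  refine ⟨Fin K, inferInstance, inferInstance, fun x => x.1, fun x => K - 1 - x.1,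
    fun x => ?_, fun j => ?_, fun j => ?_, TS.free Fin.val_injective (fun x y e => ?_) (by simpa using hc) h1⟩
  · have := x.2
    beta_reduce
    omega
  · beta_reduce
    split_ifs with h
    · rw [qpa_cnt_fin (fun x => x) j {j} (fun x => by simp only [mem_singleton]; omega),
        card_singleton]
    · rw [qpa_cnt_fin (fun x => x) j ∅ (fun x => by simp only [notMem_empty, false_iff]; omega),
        card_empty]
  · beta_reduce
    split_ifs with h
    · rw [qpa_cnt_fin (fun x => K - 1 - x) j {K - 1 - j}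
        (fun x => by simp only [mem_singleton]; omega), card_singleton]
    · rw [qpa_cnt_fin (fun x => K - 1 - x) j ∅
        (fun x => by simp only [notMem_empty, false_iff]; omega), card_empty]
  · have := x.2
    have := y.2
    beta_reduce at e
    exact Fin.ext (by omega)

/-- a single cell -/
theorem HT.cell (i₀ j₀ : ℕ) {ν : YoungDiagram} (hc : ν.card = 1) :
    HT (fun i j => i = i₀ ∧ j = j₀) (fun j => if j = i₀ then 1 else 0)
      (fun j => if j = j₀ then 1 else 0) ν := by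
  have h1 : ν.colLen 0 ≤ 1 := by
    rw [YoungDiagram.colLen_eq_card, ← hc]
    exact card_le_card (filter_subset _ _)
  have key : ∀ a j : ℕ, cnt (fun _ : Fin 1 => a) j = if j = a then 1 else 0 := by
    intro a j
    split_ifs with h
    · rw [qpa_cnt_fin (fun _ => a) j {0} (fun x => by simp only [mem_singleton]; omega),
        card_singleton]
    · rw [qpa_cnt_fin (fun _ => a) j ∅ (fun x => by simp only [notMem_empty, false_iff]; omega),
        card_empty]
  exact ⟨Fin 1, inferInstance, inferInstance, fun _ => i₀, fun _ => j₀, fun _ => ⟨rfl, rfl⟩,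
    key i₀, key j₀, TS.free (fun x y _ => Subsingleton.elim _ _)
      (fun x y _ => Subsingleton.elim _ _) (by simpa using hc) h1⟩

/-- Saxl's statement in cyclic form (proved by helper2 in `Saxl.lean`) -/
def SaxlCyc : Prop := ∀ m, Full (inn (pt (stR (m := m)) stL) (pt (stC (m := m)) stL))

/-- the staircase: `ι = St m`, `R = (stR · : ℕ)`, `C = (stC · : ℕ)`; row `i` carries the labels
`i, …, m-1` (nested); `card_St`. -/
theorem HT.stair (hS : SaxlCyc) (m : ℕ) {ν : YoungDiagram} (hc : 2 * ν.card = m * (m + 1)) :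
    HT (fun i j => i + j < m) (fun j => m - j) (fun j => m - j) ν := by
  refine ⟨St m, inferInstance, inferInstance, fun p => (stR p).1, fun p => (stC p).1,
    fun p => p.2, fun j => ?_, fun j => ?_, ?_⟩
  · beta_reduce
    rw [shapec_cnt_nat, ← card_range (m - j)]
    refine card_bij (fun p _ => (stC p).1) (fun p hp => ?_) (fun p hp q hq e => ?_) (fun x hx => ?_)
    · have h1 := (mem_filter.1 hp).2
      have h2 := p.2
      simp only [stR, stC] at *
      exact mem_range.2 (by omega)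
    · exact St.ext' ((mem_filter.1 hp).2.trans (mem_filter.1 hq).2.symm) e
    · have := mem_range.1 hx
      exact ⟨⟨(⟨j, by omega⟩, ⟨x, by omega⟩), by show j + x < m; omega⟩,
        mem_filter.2 ⟨mem_univ _, rfl⟩, rfl⟩
  · beta_reduce
    rw [shapec_cnt_nat, ← card_range (m - j)]
    refine card_bij (fun p _ => (stR p).1) (fun p hp => ?_) (fun p hp q hq e => ?_) (fun x hx => ?_)
    · have h1 := (mem_filter.1 hp).2
      have h2 := p.2
      simp only [stR, stC] at *
      exact mem_range.2 (by omega)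
    · exact St.ext' e ((mem_filter.1 hp).2.trans (mem_filter.1 hq).2.symm)
    · have := mem_range.1 hx
      exact ⟨⟨(⟨x, by omega⟩, ⟨j, by omega⟩), by show x + j < m; omega⟩,
        mem_filter.2 ⟨mem_univ _, rfl⟩, rfl⟩
  · refine TS.intro (R' := stR) (C' := stC) (a := stL) (b := stL) ⟨stR_inj m, fun p q => ?_⟩
      ⟨stC_inj m, fun p q => ?_⟩ (hS m ν (by have := card_St m; omega))
      (fun i j => Fin.ext_iff) (fun i j => Fin.ext_iff)
    · have hp := p.2
      have hq := q.2
      by_cases h : q.1.1.1 ≤ p.1.1.1 + p.1.2.1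
      · refine Or.inl ⟨⟨(q.1.1, ⟨p.1.1.1 + p.1.2.1 - q.1.1.1, by omega⟩),
          by show q.1.1.1 + (p.1.1.1 + p.1.2.1 - q.1.1.1) < m; omega⟩, rfl, Fin.ext ?_⟩
        show q.1.1.1 + (p.1.1.1 + p.1.2.1 - q.1.1.1) = p.1.1.1 + p.1.2.1
        omega
      · refine Or.inr fun r hr => ?_
        have hr2 := r.2
        have hr1 : r.1.1.1 = q.1.1.1 := congrArg Fin.val hr
        refine ⟨⟨(p.1.1, ⟨r.1.1.1 + r.1.2.1 - p.1.1.1, by omega⟩),
          by show p.1.1.1 + (r.1.1.1 + r.1.2.1 - p.1.1.1) < m; omega⟩, rfl, Fin.ext ?_⟩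
        show p.1.1.1 + (r.1.1.1 + r.1.2.1 - p.1.1.1) = r.1.1.1 + r.1.2.1
        omega
    · have hp := p.2
      have hq := q.2
      by_cases h : q.1.2.1 ≤ p.1.1.1 + p.1.2.1
      · refine Or.inl ⟨⟨(⟨p.1.1.1 + p.1.2.1 - q.1.2.1, by omega⟩, q.1.2),
          by show (p.1.1.1 + p.1.2.1 - q.1.2.1) + q.1.2.1 < m; omega⟩, rfl, Fin.ext ?_⟩
        show (p.1.1.1 + p.1.2.1 - q.1.2.1) + q.1.2.1 = p.1.1.1 + p.1.2.1
        omega
      · refine Or.inr fun r hr => ?_
        have hr2 := r.2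
        have hr1 : r.1.2.1 = q.1.2.1 := congrArg Fin.val hr
        refine ⟨⟨(⟨r.1.1.1 + r.1.2.1 - p.1.2.1, by omega⟩, p.1.2),
          by show (r.1.1.1 + r.1.2.1 - p.1.2.1) + p.1.2.1 < m; omega⟩, rfl, Fin.ext ?_⟩
        show (r.1.1.1 + r.1.2.1 - p.1.2.1) + p.1.2.1 = r.1.1.1 + r.1.2.1
        omega

theorem qpb_iff {ι : Type} [Fintype ι] [DecidableEq ι] {N : ℕ} {R : ι → Fin 2} {a : ι → Fin N}
    (hinj : ∀ i j, R i = R j → a i = a j → i = j) {sz : Fin 2 → ℕ} (hsz : sz 1 < sz 0)
    {ρ σ τ : Equiv.Perm ι} (hρ : ρ ∈ cg R) (hσ : σ ∈ cg R) (hτ : τ ∈ cg R)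
    (h : ∀ i, (a i : ℕ) + a (ρ i) + 1 = sz (R i)) (b : ι → Fin 2) :
    (∀ i, (a (σ i) : ℕ) + a (τ i) + 1 = sz (b i)) ↔ b = R ∧ τ = ρ * σ := by
  have hs : ∀ i, (a (σ i) : ℕ) + a (ρ (σ i)) + 1 = sz (R i) := fun i => by
    rw [h, mem_cg.1 hσ]
  refine ⟨fun H => ?_, ?_⟩
  · let w : Fin 2 → ℤ := fun y => if y = 0 then -1 else 1
    have key : ∀ g ∈ cg R, ∑ i, w (R i) * (a (g i) : ℕ) = ∑ i, w (R i) * (a i : ℕ) := by
      intro g hg
      rw [← Equiv.sum_comp g fun i => w (R i) * (a i : ℕ)]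
      exact sum_congr rfl fun i _ => by rw [mem_cg.1 hg]
    have h0 : ∑ i, w (R i) * ((sz (b i) : ℤ) - sz (R i)) = 0 := by
      have e : ∀ i, w (R i) * ((sz (b i) : ℤ) - sz (R i)) =
          w (R i) * (a (τ i) : ℕ) - w (R i) * (a ((ρ * σ) i) : ℕ) := fun i => by
        rw [← H i, ← hs i, Equiv.Perm.mul_apply]
        push_cast
        ring
      simp only [e]
      rw [sum_sub_distrib, key τ hτ, key _ (mul_mem_cg hρ hσ), sub_self]
    have hy : ∀ y : Fin 2, y = 0 ∨ y = 1 := by decide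
    have h1 : ∀ y z : Fin 2, 0 ≤ w z * ((sz y : ℤ) - sz z) ∧
        (w z * ((sz y : ℤ) - sz z) = 0 → y = z) := by
      intro y z
      rcases hy y with rfl | rfl <;> rcases hy z with rfl | rfl <;> simp [w] <;> omega
    have hb : b = R := funext fun i =>
      (h1 _ _).2 ((sum_eq_zero_iff_of_nonneg fun i _ => (h1 (b i) (R i)).1).1 h0 i (mem_univ i))
    refine ⟨hb, Equiv.ext fun i => hinj _ _ ?_ (Fin.ext ?_)⟩
    · rw [mem_cg.1 hτ, mem_cg.1 (mul_mem_cg hρ hσ)]
    · have e1 := H i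
      have e2 := hs i
      rw [hb] at e1
      rw [Equiv.Perm.mul_apply]
      omega
  · rintro ⟨rfl, rfl⟩
    exact hs

theorem qpb_lm {ι : Type} [Fintype ι] [DecidableEq ι] {N : ℕ} {R : ι → Fin 2} {a : ι → Fin N}
    (hinj : ∀ i j, R i = R j → a i = a j → i = j) {sz : Fin 2 → ℕ} (hsz : sz 1 < sz 0)
    {ρ : Equiv.Perm ι} (hρ : ρ ∈ cg R) (h : ∀ i, (a i : ℕ) + a (ρ i) + 1 = sz (R i)) :
    lm (fun (p : Fin N × Fin N) (y : Fin 2) => if (p.1 : ℕ) + p.2 + 1 = sz y then (1 : ℂ) else 0)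
      (inn (pt R a) (pt R a)) = (sg ρ * (cg R).card) • dl R := by
  ext b
  have e1 : lm (fun (p : Fin N × Fin N) (y : Fin 2) =>
      if (p.1 : ℕ) + p.2 + 1 = sz y then (1 : ℂ) else 0) (inn (pt R a) (pt R a)) b =
      ip (pt R a) fun u => ip (pt R a) fun v =>
        ∏ i, if (u i : ℕ) + v i + 1 = sz (b i) then (1 : ℂ) else 0 := by
    rw [lm_apply, ← (Equiv.arrowProdEquivProdArrow ι (fun _ => Fin N) fun _ => Fin N).symm.sum_comp,
      Fintype.sum_prod_type]
    unfold ip
    refine sum_congr rfl fun u _ => ?_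
    rw [mul_sum]
    refine sum_congr rfl fun v _ => ?_
    rw [← mul_assoc]
    rfl
  rw [e1, ip_pt]
  have e2 : ∀ σ ∈ cg R, sg σ * (ip (pt R a) fun v =>
      ∏ i, if ((a ∘ σ) i : ℕ) + v i + 1 = sz (b i) then (1 : ℂ) else 0) = sg ρ * dl R b := by
    intro σ hσ
    rw [ip_pt, sum_eq_single_of_mem (ρ * σ) (mul_mem_cg hρ hσ)]
    · rw [prod_boole, sg_mul, dl]
      have e3 := qpb_iff hinj hsz hρ hσ (mul_mem_cg hρ hσ) h b
      by_cases hb : b = R
      · rw [if_pos hb, if_pos (by exact fun i _ => e3.2 ⟨hb, rfl⟩ i)]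
        linear_combination sg ρ * sg_mul_self σ
      · rw [if_neg fun c => hb (e3.1 fun i => c i (mem_univ i)).1, if_neg hb]
        simp
    · intro τ hτ hne
      rw [prod_boole, if_neg, mul_zero]
      exact fun c => hne ((qpb_iff hinj hsz hρ hσ hτ h b).1 fun i => c i (mem_univ i)).2
  rw [sum_congr rfl e2, sum_const, nsmul_eq_mul, Pi.smul_apply, smul_eq_mul]
  ring

theorem qpb_cnt {L : Type} [DecidableEq L] (n : ℕ) (c j : L) :
    cnt (fun _ : Fin n => c) j = if j = c then n else 0 := by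
  unfold cnt
  split_ifs with h
  · simp [h]
  · simp [Ne.symm h]

/-- TWO MULTIPLE CELLS of different sizes `α > β` at `(0,1)` and `(1,0)`.  `ι = Fin α ⊕ Fin β`,
`R = Sum.elim 0 1`, `C = Sum.elim 1 0` (same blocks), labels `a = val` in `Fin α` for both.  Let
`t (a,b) y = 1` iff (`y = 0` and `a + b + 1 = α`) or (`y = 1` and `a + b + 1 = β`), `y : Fin 2`.  Then
`lm t (inn (pt R a) (pt C a)) = κ • dl R'` (`R' = Sum.elim 0 1 : ι → Fin 2`), `κ ≠ 0`: in a surviving word
the sum of `a + b + 1` over a block of size `k` is `k²` (`sum_of_EZ_ne_zero`), each term is `α` or `β`, so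
it is `α` on the big block and `β` on the small one; then `b = rev ∘ a` blockwise, i.e.
`b = a₀ ∘ ρ ∘ g` for `a = a₀ ∘ g` with the fixed block reversal `ρ ∈ cg R`, so every term is
`sg ρ * sg g ^ 2` (`ip_pt`/`pt_perm`) and `κ = sg ρ * |cg R|`.  Finally `eqv_lm`, `Eqv.sub'`, `sees_smul`,
`sees_dl_cols` (`x c ≤ min (x c + y c) 1` etc.). -/
theorem HT.core {D : Type} [Fintype D] {α β : ℕ} (hαβ : β < α) (x y : D → ℕ) (hx : ∀ c, x c ≤ 1)
    (hy : ∀ c, y c ≤ 1) (sx : ∑ c, x c = α) (sy : ∑ c, y c = β) :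
    HT (fun i j => i + j = 1) (fun j => if j = 0 then α else if j = 1 then β else 0)
      (fun j => if j = 0 then β else if j = 1 then α else 0) (ofCols (x + y)) := by
  let R : Fin α ⊕ Fin β → Fin 2 := Sum.elim (fun _ => 0) fun _ => 1
  let a : Fin α ⊕ Fin β → Fin α := Sum.elim id (Fin.castLE hαβ.le)
  have hinj : ∀ i j, R i = R j → a i = a j → i = j := by
    rintro (i | i) (j | j) h1 h2
    · exact congrArg _ h2
    · exact absurd h1 (by simp [R])
    · exact absurd h1 (by simp [R])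
    · exact congrArg _ (Fin.castLE_injective hαβ.le h2)
  have hN : Nest R a := by
    refine ⟨hinj, ?_⟩
    rintro i (j | j)
    · exact Or.inl ⟨Sum.inl (a i), rfl, rfl⟩
    · rcases i with i | i
      · exact Or.inr fun k _ => ⟨Sum.inl (a k), rfl, rfl⟩
      · exact Or.inl ⟨Sum.inr i, rfl, rfl⟩
  have hS : Sees (inn (pt R a) (pt R a)) (ofCols (x + y)) := by
    have hρ : Equiv.sumCongr (Fin.revPerm (n := α)) (Fin.revPerm (n := β)) ∈ cg R :=
      mem_cg.2 (by rintro (i | i) <;> rfl)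
    have h1 := qpb_lm hinj (sz := ![α, β]) hαβ hρ (by
      rintro (i | i)
      · have := i.2
        simp [a, R, Fin.val_rev]
        omega
      · have := i.2
        simp [a, R, Fin.val_rev]
        omega)
    refine (eqv_lm _).sub' _ _ (h1 ▸ (sees_smul (mul_ne_zero (sg_ne_zero _) ?_) _).2 ?_)
    · exact_mod_cast (card_pos.2 ⟨1, one_mem_cg R⟩).ne'
    · refine sees_dl_cols _ (by simp [sum_add_distrib, sx, sy]) fun S => ?_
      let z : Fin 2 → D → ℕ := ![x, y]
      have e : ∀ r : Fin 2, cnt R r = ∑ c, z r c := by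
        intro r
        rw [polarb_cnt_elim, qpb_cnt, qpb_cnt]
        fin_cases r <;> simp [z, sx, sy]
      rw [sum_congr rfl fun r _ => e r, sum_comm]
      refine sum_le_sum fun c _ => le_min ?_ ?_
      · refine (sum_le_sum_of_subset (subset_univ S)).trans (le_of_eq ?_)
        simp [z, Fin.sum_univ_two]
      · rw [card_eq_sum_ones]
        refine sum_le_sum fun r _ => ?_
        fin_cases r
        · exact hx c
        · exact hy c
  refine ⟨Fin α ⊕ Fin β, inferInstance, inferInstance, Sum.elim (fun _ => 0) fun _ => 1,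
    Sum.elim (fun _ => 1) fun _ => 0, by rintro (i | i) <;> rfl, fun j => ?_, fun j => ?_,
    TS.intro hN hN hS ?_ ?_⟩
  · rw [polarb_cnt_elim, qpb_cnt, qpb_cnt]
    dsimp only
    split_ifs <;> omega
  · rw [polarb_cnt_elim, qpb_cnt, qpb_cnt]
    dsimp only
    split_ifs <;> omega
  · rintro (i | i) (j | j) <;> simp [R]
  · rintro (i | i) (j | j) <;> simp [R]

end Crest.Agent.R195
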