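import Crest.Agent.R195.EZ

/-!
# R195 / QTab (helper50): label-free tables

`TS R C ν`: the table vector of the contingency table with row map `R` and column map `C` sees `ν`
(the choice of nested labels is irrelevant, `TS.use`).  `HT P r c ν`: there is such a table with cells in
`P`, row sizes `r`, column sizes `c`.
-/

set_option autoImplicit false
set_option linter.unusedSectionVars false
open Finset

noncomputable section
namespace Crest.Agent.R195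

/-- labels are distinct inside a block and the label sets of the blocks form a chain -/
def Nest {ι C L : Type} (col : ι → C) (lab : ι → L) : Prop :=
  (∀ i j, col i = col j → lab i = lab j → i = j) ∧
    ∀ i j, (∃ k, col k = col j ∧ lab k = lab i) ∨
      ∀ k, col k = col j → ∃ l, col l = col i ∧ lab l = lab k

/-- straight labels: block `j` carries exactly the labels `0, …, size - 1` -/
def Str {ι C : Type} (col : ι → C) (lab : ι → ℕ) : Prop :=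
  (∀ i j, col i = col j → lab i = lab j → i = j) ∧
    ∀ i r, r < lab i → ∃ j, col j = col i ∧ lab j = r

section
variable {ι ι₀ ι₁ A B C L D : Type} [Fintype ι] [DecidableEq ι] [Fintype ι₀] [DecidableEq ι₀]
  [Fintype ι₁] [DecidableEq ι₁]

/-- if `lab i ≤ ` some label of block `j` it occurs there; otherwise all labels of block `j` are `< lab i`. -/
theorem Str.nest {col : ι → C} {lab : ι → ℕ} (h : Str col lab) : Nest col lab := by
  refine ⟨h.1, fun i j => ?_⟩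
  by_cases h1 : ∃ k, col k = col j ∧ lab i ≤ lab k
  · obtain ⟨k, hk, h2⟩ := h1
    rcases h2.eq_or_lt with h3 | h3
    · exact Or.inl ⟨k, hk, h3.symm⟩
    · obtain ⟨l, h4, h5⟩ := h.2 k _ h3
      exact Or.inl ⟨l, h4.trans hk, h5⟩
  · exact Or.inr fun k hk => h.2 i _ (not_le.1 fun h2 => h1 ⟨k, hk, h2⟩)

theorem Nest.congr {C' L' : Type} {col : ι → C} {lab : ι → L} {col' : ι → C'} {lab' : ι → L'}
    (h : Nest col lab) (hc : ∀ i j, col i = col j ↔ col' i = col' j)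
    (hl : ∀ i j, lab i = lab j ↔ lab' i = lab' j) : Nest col' lab' := by
  simpa only [Nest, hc, hl] using h

theorem qta_mem {col : ι → C} {lab : ι → L} (h : Nest col lab) {i j : ι}
    (hc : cnt lab (lab i) ≤ cnt lab (lab j)) : ∃ k, col k = col i ∧ lab k = lab j := by
  classical
  by_contra h1
  have h2 : ∀ k, ∃ l, lab k = lab j → col l = col k ∧ lab l = lab i := fun k => by
    by_cases hk : lab k = lab j
    · rcases h.2 k i with ⟨l, h3, h4⟩ | h3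
      · exact absurd ⟨l, h3, h4.trans hk⟩ h1
      · obtain ⟨l, h4⟩ := h3 i rfl
        exact ⟨l, fun _ => h4⟩
    · exact ⟨k, fun h3 => absurd h3 hk⟩
  choose φ hφ using h2
  have h3 : (univ.filter fun k => lab k = lab j).card ≤
      ((univ.filter fun k => lab k = lab i).erase i).card := by
    refine card_le_card_of_injOn φ (fun k hk => ?_) fun k hk k' hk' e => ?_
    · have h4 := (mem_filter.1 (mem_coe.1 hk)).2
      refine mem_coe.2 (mem_erase.2 ⟨fun e => h1 ⟨k, ?_, h4⟩, mem_filter.2 ⟨mem_univ _, (hφ k h4).2⟩⟩)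
      rw [← (hφ k h4).1, e]
    · have h4 := (mem_filter.1 (mem_coe.1 hk)).2
      have h5 := (mem_filter.1 (mem_coe.1 hk')).2
      exact h.1 _ _ (by rw [← (hφ k h4).1, e, (hφ k' h5).1]) (h4.trans h5.symm)
  have h4 := card_erase_lt_of_mem (s := univ.filter fun k => lab k = lab i) (a := i)
    (mem_filter.2 ⟨mem_univ _, rfl⟩)
  rw [shapeb_cnt, shapeb_cnt] at hc
  omega

/-- STRAIGHTENING.  Fix an injection `f : ι → ℕ`; order the used labels by `cnt lab` decreasing, ties by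
the least `f`-index of a position carrying the label; `ρ i` = number of used labels strictly before
`lab i`.  If `y` is before `x = lab i` then `y` occurs in the block of `i`: otherwise (chain) every block
containing `y` contains `x`, so `cnt lab x > cnt lab y`. -/
theorem Nest.straight {col : ι → C} {lab : ι → L} (h : Nest col lab) :
    ∃ ρ : ι → ℕ, Str col ρ ∧ ∀ i j, lab i = lab j ↔ ρ i = ρ j := by
  have := Fintype.ofFinite (Set.range lab)
  let g : Set.range lab → ℕ := fun x => cnt lab x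
  obtain ⟨e, he⟩ : ∃ e : Fin (Fintype.card (Set.range lab)) ≃ Set.range lab, Antitone (g ∘ e) :=
    ⟨(Tuple.sort (OrderDual.toDual ∘ g ∘ (Fintype.equivFin _).symm)).trans
      (Fintype.equivFin _).symm,
      Tuple.monotone_sort (OrderDual.toDual ∘ g ∘ (Fintype.equivFin _).symm)⟩
  have h1 : ∀ i j, lab i = lab j ↔
      (e.symm ⟨lab i, i, rfl⟩ : ℕ) = (e.symm ⟨lab j, j, rfl⟩ : ℕ) := fun i j => by
    rw [Fin.val_inj, e.symm.injective.eq_iff, Subtype.mk.injEq]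
  refine ⟨fun i => e.symm ⟨lab i, i, rfl⟩, ⟨fun i j hc hl => h.1 i j hc ((h1 i j).2 hl),
    fun i r hr => ?_⟩, h1⟩
  let r' : Fin (Fintype.card (Set.range lab)) := ⟨r, hr.trans (Fin.is_lt _)⟩
  obtain ⟨j, hj⟩ := (e r').2
  have h2 := he (show r' ≤ e.symm ⟨lab i, i, rfl⟩ from hr.le)
  simp only [Function.comp, Equiv.apply_symm_apply, g] at h2
  rw [← hj] at h2
  obtain ⟨k, h3, h4⟩ := qta_mem h h2
  refine ⟨k, h3, ?_⟩
  have h5 : (⟨lab k, k, rfl⟩ : Set.range lab) = e r' := Subtype.ext (h4.trans hj)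
  beta_reduce
  rw [h5, Equiv.symm_apply_apply]

/-- `shapeb_lt` -/
theorem Str.lt_cnt {col : ι → C} {lab : ι → ℕ} (h : Str col lab) (c : C) (r : ℕ) :
    r < cnt col c ↔ ∃ i, col i = c ∧ lab i = r := shapeb_lt h.1 h.2 c r

/-- two straight labellings differ by an element of the block group (`exists_blockGrp_of_image`). -/
theorem Str.exists_cg {col : ι → C} {ρ ρ' : ι → ℕ} (h : Str col ρ) (h' : Str col ρ') :
    ∃ σ ∈ cg col, ρ' = ρ ∘ σ := by
  have h1 : ∀ i, ∃ j, col j = col i ∧ ρ j = ρ' i := fun i =>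
    (h.lt_cnt _ _).1 ((h'.lt_cnt _ _).2 ⟨i, rfl, rfl⟩)
  choose σ h2 h3 using h1
  have h4 : Function.Injective σ := fun i j e =>
    h'.1 i j (by rw [← h2 i, e, h2 j]) (by rw [← h3 i, e, h3 j])
  exact ⟨Equiv.ofBijective σ (Finite.injective_iff_bijective.1 h4), mem_cg.2 h2,
    funext fun i => (h3 i).symm⟩

/-- `shape_of_straight`: `cnt ρ r = #{j | r < cnt R j} = #{j | r < l.colLen j} = l.rowLen r`. -/
theorem Nest.shape {R : ι → ℕ} {a : ι → L} (h : Nest R a) {l : YoungDiagram}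
    (hl : ∀ j, cnt R j = l.colLen j) : Shape l R a := by
  obtain ⟨ρ, h1, h2⟩ := h.straight
  refine ⟨fun i => (ρ i, R i), ⟨fun i j e => h1.1 i j (congrArg Prod.snd e) (congrArg Prod.fst e),
    fun c => ?_⟩, fun _ _ => Iff.rfl, h2⟩
  obtain ⟨r, c⟩ := c
  rw [YoungDiagram.mem_iff_lt_colLen, ← hl, h1.lt_cnt]
  simp only [Prod.mk.injEq, and_comm]

/-- the table vector sees `ν` -/
def TS (R C : ι → ℕ) (ν : YoungDiagram) : Prop :=
  ∃ (A B : Type) (_ : Fintype A) (_ : Fintype B) (a : ι → A) (b : ι → B),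
    Nest R a ∧ Nest C b ∧ Sees (inn (pt R a) (pt C b)) ν

/-- one-sided change of labels.  If `a i = a j ↔ a' i = a' j` then `pt R a' = lm t (pt R a)` with
`t x y = 1` iff `∃ i, a i = x ∧ a' i = y` (`lm_pt`, `cdet_congr`); in general straighten both
(`Nest.straight`, labels in `Fin N` or `Set.rangeFactorization`), `Str.exists_cg`, `pt_eq_EZ`/`EZ_ref`
give `pt R a' = ± Φ (pt R a)` with `Eqv Φ`. -/
theorem Nest.exists_eqv [Fintype A] [Fintype B] {R : ι → C} {a : ι → A} {a' : ι → B} (h : Nest R a)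
    (h' : Nest R a') : ∃ Φ : Wd ι A →ₗ[ℂ] Wd ι B, Eqv Φ ∧ Φ (pt R a) = pt R a' := by
  classical
  obtain ⟨ρ, h1, h2⟩ := h.straight
  obtain ⟨ρ', h1', h2'⟩ := h'.straight
  obtain ⟨σ, hσ, rfl⟩ := h1.exists_cg h1'
  have h3 : ∀ i j, a i = a j → a' (σ.symm i) = a' (σ.symm j) := fun i j e => by
    simpa [h2', ← h2] using e
  have h4 : R ∘ σ.symm = R := funext (mem_cg.1 (inv_mem_cg hσ))
  have h5 := act_pt σ R a'
  rw [act_pt_cg hσ, h4] at h5
  have h6 : E R a (fun y x => if ∃ k, a k = x ∧ a' (σ.symm k) = y then 1 else 0) =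
      pt R (a' ∘ σ.symm) := funext fun u => cdet_congr (fun _ _ => Iff.rfl) fun i j _ => by
    refine if_congr ⟨?_, fun e => ⟨j, rfl, e.symm⟩⟩ rfl rfl
    rintro ⟨k, e, e'⟩
    exact e'.symm.trans (h3 k j e)
  refine ⟨_, (eqv_lm fun x y => if ∃ k, a k = x ∧ a' (σ.symm k) = y then 1 else 0).smul (sg σ), ?_⟩
  rw [LinearMap.smul_apply, (lm_pt R a _).trans h6, ← h5, smul_smul, sg_mul_self, one_smul]

/-- `Nest.exists_eqv` twice, `exists_tensor`, `Eqv.sub'`. -/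
theorem TS.use [Fintype A] [Fintype B] {R C : ι → ℕ} {ν : YoungDiagram} (h : TS R C ν) {a : ι → A}
    {b : ι → B} (ha : Nest R a) (hb : Nest C b) : Sees (inn (pt R a) (pt C b)) ν := by
  obtain ⟨A', B', _, _, a', b', ha', hb', h⟩ := h
  obtain ⟨Φ, hΦ, e⟩ := ha.exists_eqv ha'
  obtain ⟨Ψ, hΨ, e'⟩ := hb.exists_eqv hb'
  obtain ⟨Θ, hΘ, h1⟩ := exists_tensor hΦ hΨ
  exact hΘ.sub' _ ν (by rwa [h1, e, e'])

/-- labels may be taken straight in any large `Fin N` (`exists_straight`, `Str.nest`, `TS.use`). -/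
theorem TS.str {R C : ι → ℕ} {ν : YoungDiagram} (h : TS R C ν) {N : ℕ} (hN : Fintype.card ι ≤ N) :
    ∃ a b : ι → Fin N, Str R (fun i => (a i : ℕ)) ∧ Str C (fun i => (b i : ℕ)) ∧
      Sees (inn (pt R a) (pt C b)) ν := by
  have key : ∀ R : ι → ℕ, ∃ a : ι → Fin N, Str R (fun i => (a i : ℕ)) ∧ Nest R a := fun R => by
    obtain ⟨ρ, h1, h2, h3⟩ := exists_straight R
    exact ⟨fun i => ⟨ρ i, (h3 i).trans_le ((card_le_univ _).trans hN)⟩, ⟨h1, h2⟩,
      (Str.nest ⟨h1, h2⟩).congr (fun _ _ => Iff.rfl) fun _ _ => Fin.mk.inj_iff.symm⟩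
  obtain ⟨a, ha, ha'⟩ := key R
  obtain ⟨b, hb, hb'⟩ := key C
  exact ⟨a, b, ha, hb, h.use ha' hb'⟩

/-- only the partitions into blocks matter (`cdet_congr`). -/
theorem TS.intro {C₁ C₂ : Type} [Fintype A] [Fintype B] {R C : ι → ℕ} {R' : ι → C₁} {C' : ι → C₂}
    {a : ι → A} {b : ι → B} {ν : YoungDiagram} (ha : Nest R' a) (hb : Nest C' b)
    (h : Sees (inn (pt R' a) (pt C' b)) ν) (hR : ∀ i j, R' i = R' j ↔ R i = R j)
    (hC : ∀ i j, C' i = C' j ↔ C i = C j) : TS R C ν := by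
  have e : pt R' a = pt R a := funext fun _ => cdet_congr hR fun _ _ _ => rfl
  have e' : pt C' b = pt C b := funext fun _ => cdet_congr hC fun _ _ _ => rfl
  exact ⟨A, B, _, _, a, b, ha.congr hR fun _ _ => Iff.rfl, hb.congr hC fun _ _ => Iff.rfl,
    e ▸ e' ▸ h⟩

end

/-- there is a table with cells in `P`, row sizes `r`, column sizes `c` whose vector sees `ν` -/
def HT (P : ℕ → ℕ → Prop) (r c : ℕ → ℕ) (ν : YoungDiagram) : Prop :=
  ∃ (ι : Type) (_ : Fintype ι) (_ : DecidableEq ι) (R C : ι → ℕ),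
    (∀ x, P (R x) (C x)) ∧ (∀ j, cnt R j = r j) ∧ (∀ j, cnt C j = c j) ∧ TS R C ν

variable {P P₀ P₁ : ℕ → ℕ → Prop} {r c r₀ c₀ r₁ c₁ : ℕ → ℕ} {ν ν₀ ν₁ : YoungDiagram}

theorem HT.mono {P' : ℕ → ℕ → Prop} {r' c' : ℕ → ℕ} (h : HT P r c ν) (hP : ∀ i j, P i j → P' i j)
    (hr : ∀ j, r j = r' j) (hc : ∀ j, c j = c' j) : HT P' r' c' ν := by
  obtain ⟨ι, _, _, R, C, h1, h2, h3, h4⟩ := h
  exact ⟨ι, _, _, R, C, fun x => hP _ _ (h1 x), fun j => (h2 j).trans (hr j),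
    fun j => (h3 j).trans (hc j), h4⟩

/-- rename the columns: `C' = π.symm ∘ C`, `TS.intro`. -/
theorem HT.permC (h : HT P r c ν) (π : Equiv.Perm ℕ) :
    HT (fun i j => P i (π j)) r (fun j => c (π j)) ν := by
  obtain ⟨ι, _, _, R, C, h1, h2, h3, A, B, _, _, a, b, ha, hb, h4⟩ := h
  refine ⟨ι, _, _, R, fun x => π.symm (C x), fun x => by simpa using h1 x, h2, fun j => ?_,
    TS.intro ha hb h4 (fun _ _ => Iff.rfl) fun _ _ => π.symm.apply_eq_iff_eq.symm⟩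
  refine Eq.trans ?_ (h3 (π j))
  unfold cnt
  congr 1
  ext x
  simp only [mem_filter, Equiv.symm_apply_eq]

/-- `Nest.shape`, `Kron.intro`. -/
theorem HT.kron (h : HT P r c ν) {l m : YoungDiagram} (hl : ∀ j, r j = l.colLen j)
    (hm : ∀ j, c j = m.colLen j) : Kron l m ν := by
  obtain ⟨ι, _, _, R, C, -, h2, h3, A, B, _, _, a, b, ha, hb, h4⟩ := h
  exact Kron.intro (ha.shape fun j => (h2 j).trans (hl j)) (hb.shape fun j => (h3 j).trans (hm j)) h4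

theorem qtc_nest_cut {ι₀ ι₁ : Type} [Fintype ι₀] [DecidableEq ι₀] [Fintype ι₁] [DecidableEq ι₁]
    {N : ℕ} {R₀ : ι₀ → ℕ} {R₁ : ι₁ → ℕ} {a₀ : ι₀ → Fin N} {a₁ : ι₁ → Fin N}
    (h₀ : Str R₀ fun i => (a₀ i : ℕ)) (h₁ : Str R₁ fun i => (a₁ i : ℕ))
    (hr : ∀ i j, cnt R₀ i < cnt R₀ j → cnt R₁ i ≤ cnt R₁ j) :
    Nest (Sum.elim R₀ R₁) (Sum.map a₀ a₁) := by
  have sub : ∀ b b', cnt R₀ b ≤ cnt R₀ b' → cnt R₁ b ≤ cnt R₁ b' → ∀ k, Sum.elim R₀ R₁ k = b →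
      ∃ l, Sum.elim R₀ R₁ l = b' ∧ Sum.map a₀ a₁ l = Sum.map a₀ a₁ k := by
    rintro b b' e₀ e₁ (k | k) hk
    · obtain ⟨l, hl, hl'⟩ := (h₀.lt_cnt b' (a₀ k)).1 (((h₀.lt_cnt b _).2 ⟨k, hk, rfl⟩).trans_le e₀)
      exact ⟨.inl l, hl, congrArg Sum.inl (Fin.ext hl')⟩
    · obtain ⟨l, hl, hl'⟩ := (h₁.lt_cnt b' (a₁ k)).1 (((h₁.lt_cnt b _).2 ⟨k, hk, rfl⟩).trans_le e₁)
      exact ⟨.inr l, hl, congrArg Sum.inr (Fin.ext hl')⟩
  constructor
  · rintro (i | i) (j | j) hc hl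
    · exact congrArg Sum.inl (h₀.1 i j hc (congrArg Fin.val (Sum.inl_injective hl)))
    · exact absurd hl (by simp)
    · exact absurd hl (by simp)
    · exact congrArg Sum.inr (h₁.1 i j hc (congrArg Fin.val (Sum.inr_injective hl)))
  · intro i j
    have e₁ := hr (Sum.elim R₀ R₁ i) (Sum.elim R₀ R₁ j)
    have e₂ := hr (Sum.elim R₀ R₁ j) (Sum.elim R₀ R₁ i)
    by_cases h : cnt R₀ (Sum.elim R₀ R₁ i) ≤ cnt R₀ (Sum.elim R₀ R₁ j) ∧
        cnt R₁ (Sum.elim R₀ R₁ i) ≤ cnt R₁ (Sum.elim R₀ R₁ j)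
    · exact Or.inl (sub _ _ h.1 h.2 i rfl)
    · exact Or.inr (sub _ _ (by omega) (by omega))

/-- CUT + COLUMN SPLIT.  `TS.str` for both tables; cells `ι₀ ⊕ ι₁`, `R = Sum.elim R₀ R₁`, labels
`Sum.map a₀ a₁` in `Fin N ⊕ Fin N` (nested: block `j` carries `inl u`, `u < r₀ j` and `inr u`,
`u < r₁ j`, `Str.lt_cnt`; the pairs `(r₀ j, r₁ j)` form a chain by `hr`), `sub_cut_table` with
`e = Equiv.refl`, `j₀ = inl`, `j₁ = inr`, potentials `α i = 2 i`, `β j = 2 j - 2 K + 1`;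
`sees_ox_cols`; counts by `polarb_cnt_elim`. -/
theorem HT.cut {D : Type} [Fintype D] {p q : D → ℕ} (K : ℕ) (h₀ : HT P₀ r₀ c₀ (ofCols p))
    (h₁ : HT P₁ r₁ c₁ (ofCols q)) (hP₀ : ∀ i j, P₀ i j → i + j < K)
    (hP₁ : ∀ i j, P₁ i j → K ≤ i + j) (hr : ∀ i j, r₀ i < r₀ j → r₁ i ≤ r₁ j)
    (hc : ∀ i j, c₀ i < c₀ j → c₁ i ≤ c₁ j) :
    HT (fun i j => P₀ i j ∨ P₁ i j) (r₀ + r₁) (c₀ + c₁) (ofCols (p + q)) := by
  obtain ⟨ι₀, _, _, R₀, C₀, p₀, hr₀, hc₀, t₀⟩ := h₀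
  obtain ⟨ι₁, _, _, R₁, C₁, p₁, hr₁, hc₁, t₁⟩ := h₁
  obtain ⟨a₀, b₀, sa₀, sb₀, s₀⟩ :=
    t₀.str (N := Fintype.card ι₀ + Fintype.card ι₁) (Nat.le_add_right _ _)
  obtain ⟨a₁, b₁, sa₁, sb₁, s₁⟩ :=
    t₁.str (N := Fintype.card ι₀ + Fintype.card ι₁) (Nat.le_add_left _ _)
  refine ⟨ι₀ ⊕ ι₁, inferInstance, inferInstance, Sum.elim R₀ R₁, Sum.elim C₀ C₁, ?_,
    fun j => by rw [polarb_cnt_elim, hr₀, hr₁]; rfl, fun j => by rw [polarb_cnt_elim, hc₀, hc₁]; rfl,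
    _, _, inferInstance, inferInstance, Sum.map a₀ a₁, Sum.map b₀ b₁,
    qtc_nest_cut sa₀ sa₁ (by simpa only [hr₀, hr₁] using hr),
    qtc_nest_cut sb₀ sb₁ (by simpa only [hc₀, hc₁] using hc), ?_⟩
  · rintro (x | x)
    · exact Or.inl (p₀ x)
    · exact Or.inr (p₁ x)
  · have hj : Function.Injective (Sum.elim
        (Sum.inl : Fin (Fintype.card ι₀ + Fintype.card ι₁) → _ ⊕ _)
        (Sum.inr : Fin (Fintype.card ι₀ + Fintype.card ι₁) → _ ⊕ _)) := by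
      rw [Sum.elim_inl_inr]
      exact Function.injective_id
    refine sub_cut_table (Equiv.refl _) (Sum.elim R₀ R₁) (Sum.map a₀ a₁) (Sum.elim C₀ C₁)
      (Sum.map b₀ b₁) _ _ _ _ hj hj a₀ a₁ b₀ b₁ (fun _ => rfl) (fun _ => rfl) (fun _ => rfl)
      (fun _ => rfl) (fun i => 2 * (i : ℤ)) (fun j => 2 * (j : ℤ) - 2 * K + 1) ?_ ?_ _
      (sees_ox_cols p q s₀ s₁)
    · intro i
      have := hP₀ _ _ (p₀ i)
      simp only [Equiv.refl_apply, Sum.elim_inl]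
      omega
    · intro i
      have := hP₁ _ _ (p₁ i)
      simp only [Equiv.refl_apply, Sum.elim_inr]
      omega

theorem qtc_nest_mul {ι₀ ι₁ : Type} [Fintype ι₀] [DecidableEq ι₀] [Fintype ι₁] [DecidableEq ι₁]
    {N : ℕ} {R₀ : ι₀ → ℕ} {R₁ : ι₁ → ℕ} {a₀ : ι₀ → Fin N} {a₁ : ι₁ → Fin N}
    (h₀ : Str R₀ fun i => (a₀ i : ℕ)) (h₁ : Str R₁ fun i => (a₁ i : ℕ)) :
    Nest (Sum.map R₀ R₁) (Sum.elim a₀ a₁) := by
  have h : Str (Sum.map R₀ R₁) fun i => ((Sum.elim a₀ a₁ i : Fin N) : ℕ) := by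
    constructor
    · rintro (i | i) (j | j) hc hl
      · exact congrArg Sum.inl (h₀.1 i j (Sum.inl_injective hc) hl)
      · exact absurd hc (by simp)
      · exact absurd hc (by simp)
      · exact congrArg Sum.inr (h₁.1 i j (Sum.inr_injective hc) hl)
    · rintro (i | i) r hr
      · obtain ⟨j, h1, h2⟩ := h₀.2 i r hr
        exact ⟨.inl j, congrArg Sum.inl h1, h2⟩
      · obtain ⟨j, h1, h2⟩ := h₁.2 i r hr
        exact ⟨.inr j, congrArg Sum.inr h1, h2⟩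
  exact h.nest.congr (fun _ _ => Iff.rfl) fun _ _ => Fin.ext_iff.symm

theorem qtc_blocks {ι₀ ι₁ : Type} [Fintype ι₀] [DecidableEq ι₀] [Fintype ι₁] [DecidableEq ι₁]
    {R₀ : ι₀ → ℕ} {R₁ : ι₁ → ℕ} (h : ∀ j, cnt R₀ j = 0 ∨ cnt R₁ j = 0) (i j : ι₀ ⊕ ι₁) :
    Sum.map R₀ R₁ i = Sum.map R₀ R₁ j ↔ Sum.elim R₀ R₁ i = Sum.elim R₀ R₁ j := by
  have key : ∀ x y, R₀ x ≠ R₁ y := fun x y hxy => by
    rcases h (R₀ x) with h' | h'
    · simp only [cnt, card_eq_zero, filter_eq_empty_iff] at h'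
      exact h' (mem_univ x) rfl
    · simp only [cnt, card_eq_zero, filter_eq_empty_iff] at h'
      exact h' (mem_univ y) hxy.symm
  rcases i with i | i <;> rcases j with j | j
  · simp
  · simp [key i j]
  · simp [(key j i).symm]
  · simp

/-- disjoint union of tables without common rows or columns.  `TS.str` with a common `N`, labels
`Sum.elim a₀ a₁` (straight), `pt` of the union is `mulS` (`twistc_pt_sum` + `cdet_congr`, or `cdet_sum₁₂`),
`inn (mulS ..) (mulS ..) = mulS (inn ..) (inn ..)`, `Sees.mulS`. -/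
theorem HT.mul (h₀ : HT P₀ r₀ c₀ ν₀) (h₁ : HT P₁ r₁ c₁ ν₁) (hr : ∀ j, r₀ j = 0 ∨ r₁ j = 0)
    (hc : ∀ j, c₀ j = 0 ∨ c₁ j = 0) (hν : ∀ k, ν.rowLen k = ν₀.rowLen k + ν₁.rowLen k) :
    HT (fun i j => P₀ i j ∨ P₁ i j) (r₀ + r₁) (c₀ + c₁) ν := by
  obtain ⟨ι₀, _, _, R₀, C₀, p₀, hr₀, hc₀, t₀⟩ := h₀
  obtain ⟨ι₁, _, _, R₁, C₁, p₁, hr₁, hc₁, t₁⟩ := h₁
  obtain ⟨a₀, b₀, sa₀, sb₀, s₀⟩ :=
    t₀.str (N := Fintype.card ι₀ + Fintype.card ι₁) (Nat.le_add_right _ _)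
  obtain ⟨a₁, b₁, sa₁, sb₁, s₁⟩ :=
    t₁.str (N := Fintype.card ι₀ + Fintype.card ι₁) (Nat.le_add_left _ _)
  refine ⟨ι₀ ⊕ ι₁, inferInstance, inferInstance, Sum.elim R₀ R₁, Sum.elim C₀ C₁, ?_,
    fun j => by rw [polarb_cnt_elim, hr₀, hr₁]; rfl, fun j => by rw [polarb_cnt_elim, hc₀, hc₁]; rfl,
    TS.intro (qtc_nest_mul sa₀ sa₁) (qtc_nest_mul sb₀ sb₁) ?_
      (qtc_blocks (by simpa only [hr₀, hr₁] using hr))
      (qtc_blocks (by simpa only [hc₀, hc₁] using hc))⟩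
  · rintro (x | x)
    · exact Or.inl (p₀ x)
    · exact Or.inr (p₁ x)
  · rw [twistc_pt_sum, twistc_pt_sum]
    convert s₀.mulS s₁ hν using 1
    funext u
    exact mul_mul_mul_comm _ _ _ _

end Crest.Agent.R195
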