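import Crest.Agent.R195.QOut
import Crest.Agent.R195.QInner
import Crest.Agent.R195.QCond

/-!
# R195 / QTool (helper50): the shapes `lam` and the tools
-/

set_option autoImplicit false
set_option linter.unusedSectionVars false
open Finset

noncomputable section
namespace Crest.Agent.R195

/-- column heights of the staircase `ρ_M` with the first two columns extended by `(e₁+d₁, e₁)` and the first
two rows extended by `(e₂+d₂, e₂)` -/
def lamF (M e₁ d₁ e₂ d₂ j : ℕ) : ℕ :=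
  if j = 0 then M + e₁ + d₁ else if j = 1 then M - 1 + e₁ else if j + 1 < M then M - j
  else if j + 1 < M + e₂ then 2 else if j < M + e₂ + d₂ then 1 else 0

def lam (M e₁ d₁ e₂ d₂ : ℕ) : YoungDiagram :=
  ofCols fun j : Fin (M + e₂ + d₂) => lamF M e₁ d₁ e₂ d₂ j

/-- `colLen_ofCols_anti`; beyond the range use `mem_ofCols`/`YoungDiagram.mem_iff_lt_colLen` -/
theorem colLen_lam {M : ℕ} (hM : 3 ≤ M) (e₁ d₁ e₂ d₂ j : ℕ) :
    (lam M e₁ d₁ e₂ d₂).colLen j = lamF M e₁ d₁ e₂ d₂ j := by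
  by_cases hj : j < M + e₂ + d₂
  · refine colLen_ofCols_anti (h := fun j : Fin (M + e₂ + d₂) => lamF M e₁ d₁ e₂ d₂ j) ?_ ⟨j, hj⟩
    intro a b hab
    have hab' : (a : ℕ) ≤ b := hab
    show lamF M e₁ d₁ e₂ d₂ b ≤ lamF M e₁ d₁ e₂ d₂ a
    unfold lamF
    split_ifs <;> omega
  · have h0 : lamF M e₁ d₁ e₂ d₂ j = 0 := by
      unfold lamF
      split_ifs <;> omega
    rw [h0]
    refine Nat.eq_zero_of_not_pos fun hpos => hj ?_
    have h1 := (mem_ofCols _ _ _).1 (YoungDiagram.mem_iff_lt_colLen.2 hpos)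
    exact h1.trans_le ((card_le_univ _).trans (Fintype.card_fin _).le)

/-- `j < rowLen r ↔ (r, j) ∈ lam ↔ r < colLen j`; `unfold lamF; split_ifs; omega` -/
theorem rowLen_lam {M : ℕ} (hM : 3 ≤ M) (e₁ d₁ e₂ d₂ r : ℕ) :
    (lam M e₁ d₁ e₂ d₂).rowLen r = lamF M e₂ d₂ e₁ d₁ r := by
  refine eq_of_forall_lt_iff fun j => ?_
  rw [← YoungDiagram.mem_iff_lt_rowLen, YoungDiagram.mem_iff_lt_colLen, colLen_lam hM]
  unfold lamF
  split_ifs <;> omega

theorem transpose_lam {M : ℕ} (hM : 3 ≤ M) (e₁ d₁ e₂ d₂ : ℕ) :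
    (lam M e₁ d₁ e₂ d₂).transpose = lam M e₂ d₂ e₁ d₁ := by
  refine ext_rowLen fun r => ?_
  rw [YoungDiagram.rowLen_transpose, colLen_lam hM, rowLen_lam hM]

theorem qtoa_sum_sub (M k : ℕ) : 2 * ∑ j ∈ range (M + k), (M - j) = M * (M + 1) := by
  induction k with
  | zero =>
    induction M with
    | zero => simp
    | succ M ih =>
      rw [add_zero] at ih ⊢
      rw [sum_range_succ']
      simp only [Nat.add_sub_add_right, Nat.sub_zero]
      nlinarith
  | succ k ih =>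
    rw [← add_assoc, sum_range_succ, Nat.sub_eq_zero_of_le (Nat.le_add_right _ _), add_zero, ih]

theorem qtoa_sum_Ico {a b N : ℕ} (h : b ≤ N) :
    ∑ j ∈ range N, (if a ≤ j ∧ j < b then 1 else 0) = b - a := by
  rw [← card_filter, ← Nat.card_Ico]
  congr 1
  ext j
  simp only [mem_filter, mem_range, mem_Ico]
  omega

/-- induction on `e₂`, `d₂`, … or `card_ofCols` and a direct evaluation of the sum -/
theorem card_lam {M : ℕ} (hM : 3 ≤ M) (e₁ d₁ e₂ d₂ : ℕ) :
    2 * (lam M e₁ d₁ e₂ d₂).card = M * (M + 1) + 2 * (2 * e₁ + d₁) + 2 * (2 * e₂ + d₂) := by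
  have e : ∀ j, lamF M e₁ d₁ e₂ d₂ j = (M - j) + (if j = 0 then e₁ + d₁ else 0) +
      (if j = 1 then e₁ else 0) + (if M ≤ j ∧ j < M + e₂ + d₂ then 1 else 0) +
      (if M - 1 ≤ j ∧ j < M - 1 + e₂ then 1 else 0) := by
    intro j
    unfold lamF
    split_ifs <;> omega
  have h1 := qtoa_sum_sub M (e₂ + d₂)
  rw [← add_assoc] at h1
  unfold lam
  rw [card_ofCols, Fin.sum_univ_eq_sum_range (lamF M e₁ d₁ e₂ d₂)]
  simp only [e, sum_add_distrib]
  rw [qtoa_sum_Ico le_rfl, qtoa_sum_Ico (by omega), sum_ite_eq', sum_ite_eq',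
    if_pos (mem_range.2 (by omega)), if_pos (mem_range.2 (by omega))]
  omega

/-- block heights extended by zero -/
def gext (b : ℕ) (g : ℕ → ℕ) {N : ℕ} (j : Fin N) : ℕ := if (j : ℕ) < b then g j else 0

theorem qtoa_sum_gext {b N : ℕ} (hb : b ≤ N) (g : ℕ → ℕ) :
    ∑ j : Fin N, gext b g j = ∑ i ∈ range b, g i := by
  unfold gext
  rw [Fin.sum_univ_eq_sum_range fun j => if j < b then g j else 0, ← sum_filter]
  congr 1
  ext j
  simp only [mem_filter, mem_range]
  omega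

theorem qtoa_gext_le {b N : ℕ} {g c : ℕ → ℕ} (hg : ∀ i < b, g i ≤ c i) (j : Fin N) :
    gext b g j ≤ c j := by
  unfold gext
  split_ifs with hj
  · exact hg _ hj
  · exact Nat.zero_le _

/-- SPLITTING.  `gr_step 4` for `h j = c j - gext b g j`, `B = {j | j < b}`, `F k = Th s₁ s₂ k n`; the
hypothesis for `J` follows from `Cond` for `(J ∩ B).map val`, `k = |J \ B|` and `sum_le_sorted`. -/
theorem Cond.split {n b : ℕ} {g : ℕ → ℕ} {P s₁ s₂ : ℕ} {c : ℕ → ℕ} (h : Cond n b g P s₁ s₂ c)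
    (hc : Antitone c) {N : ℕ} (hb : b ≤ N)
    (htot : ∑ j : Fin N, c j = Tt s₁ s₂ n + P + ∑ i ∈ range b, g i) :
    ∃ x y : Fin N → ℕ, (∀ j, x j ≤ 4) ∧ (∀ j : Fin N, (j : ℕ) < b → x j = 0) ∧ ∑ j, x j = P ∧
      (∀ j : Fin N, c j = y j + (gext b g j + x j)) ∧ ∑ j, y j = Tt s₁ s₂ n ∧
      ∀ J : Finset (Fin N), ∑ j ∈ J, y j ≤ Th s₁ s₂ J.card n := by
  have hle : ∀ j : Fin N, gext b g j ≤ c j := qtoa_gext_le h.1
  have hsum : ∑ j : Fin N, (c j - gext b g j) = Tt s₁ s₂ n + P := by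
    have h1 : ∑ j : Fin N, (c j - gext b g j) + ∑ j : Fin N, gext b g j = ∑ j : Fin N, c j := by
      rw [← sum_add_distrib]
      exact sum_congr rfl fun j _ => Nat.sub_add_cancel (hle j)
    rw [qtoa_sum_gext hb, htot] at h1
    omega
  obtain ⟨x, hx1, hx2, hx3, hx4, hx5⟩ := gr_step 4 (fun j : Fin N => c j - gext b g j)
    (univ.filter fun j : Fin N => (j : ℕ) < b) (fun k => Th s₁ s₂ k n) (conc_Th s₁ s₂ n)
    (Tt s₁ s₂ n) P (fun k => Th_le s₁ s₂ k n) hsum (by
      intro J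
      set B : Finset (Fin N) := univ.filter fun j : Fin N => (j : ℕ) < b with hB
      have hmem : ∀ j, j ∈ B ↔ (j : ℕ) < b := fun j => by simp [hB]
      have h2 := h.2 ((J ∩ B).map Fin.valEmbedding) (J \ B).card (by
        intro i hi
        obtain ⟨j, hj, rfl⟩ := mem_map.1 hi
        exact mem_range.2 ((hmem j).1 (mem_inter.1 hj).2))
      rw [card_map, card_inter_add_card_sdiff, sum_map] at h2
      have h3 := sum_le_sorted hc b ((J \ B).map Fin.valEmbedding) (by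
        intro i hi
        obtain ⟨j, hj, rfl⟩ := mem_map.1 hi
        exact not_lt.1 fun hlt => (mem_sdiff.1 hj).2 ((hmem j).2 hlt))
      rw [card_map, sum_map] at h3
      rw [← sum_inter_add_sum_sdiff J B]
      refine le_trans (add_le_add (le_of_eq ?_) (le_trans ?_ h3)) h2
      · refine sum_congr rfl fun j hj => ?_
        simp only [gext, if_pos ((hmem j).1 (mem_inter.1 hj).2), Fin.valEmbedding_apply]
      · exact sum_le_sum fun j _ => Nat.sub_le _ _)
  refine ⟨x, fun j => c j - gext b g j - x j, hx1, fun j hj => hx3 j (by simpa using hj), hx4,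
    fun j => ?_, ?_, hx5⟩
  · have h1 := hle j
    have h2 : x j ≤ c j - gext b g j := hx2 j
    show c j = c j - gext b g j - x j + (gext b g j + x j)
    omega
  · have h1 : ∑ j : Fin N, (c j - gext b g j - x j) + ∑ j : Fin N, x j =
        ∑ j : Fin N, (c j - gext b g j) := by
      rw [← sum_add_distrib]
      exact sum_congr rfl fun j _ => Nat.sub_add_cancel (hx2 j)
    rw [hsum, hx4] at h1
    exact Nat.add_right_cancel h1

/-- the same when the inner table is full (`exists_cap`) -/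
theorem split_full {b : ℕ} {g : ℕ → ℕ} {P : ℕ} {c : ℕ → ℕ} (hg : ∀ i < b, g i ≤ c i) {N : ℕ}
    (hN : ∀ j, N ≤ j → c j = 0) (hb : b ≤ N) (hP : P ≤ ∑ i ∈ range N, min (c (b + i)) 4) :
    ∃ x y : Fin N → ℕ, (∀ j, x j ≤ 4) ∧ (∀ j : Fin N, (j : ℕ) < b → x j = 0) ∧ ∑ j, x j = P ∧
      ∀ j : Fin N, c j = y j + (gext b g j + x j) := by
  have hle : ∀ j : Fin N, gext b g j ≤ c j := qtoa_gext_le hg
  obtain ⟨x, hx1, hx2, hx3, hx4⟩ := exists_cap (fun j : Fin N => c j - gext b g j)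
    (univ.filter fun j : Fin N => (j : ℕ) < b) P (by
      refine hP.trans (le_of_eq ?_)
      have h1 := sum_range_add (fun j => min (c j) 4) b N
      have h2 := sum_range_add (fun j => min (c j) 4) N b
      have h3 : ∑ i ∈ range b, min (c (N + i)) 4 = 0 :=
        sum_eq_zero fun i _ => by rw [hN _ (Nat.le_add_right _ _)]; rfl
      have h4 : ∑ j ∈ range N, min (c j) 4 = ∑ i ∈ range b, min (c i) 4 +
          ∑ j ∈ univ \ (univ.filter fun j : Fin N => (j : ℕ) < b), min (c j - gext b g j) 4 := by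
        rw [← qtoa_sum_gext hb, ← filter_not, sum_filter, ← sum_add_distrib,
          ← Fin.sum_univ_eq_sum_range fun j => min (c j) 4]
        refine sum_congr rfl fun j _ => ?_
        unfold gext
        split_ifs <;> simp
      rw [add_comm N b] at h2
      omega)
  refine ⟨x, fun j => c j - gext b g j - x j, hx1, fun j hj => hx3 j (by simpa using hj), hx4,
    fun j => ?_⟩
  have h1 := hle j
  have h2 : x j ≤ c j - gext b g j := hx2 j
  show c j = c j - gext b g j - x j + (gext b g j + x j)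
  omega

/-- disjoint supports: rows add up (`rowLen_ofCols`) -/
theorem rowLen_gext {b N : ℕ} (hb : b ≤ N) (g : ℕ → ℕ) (x : Fin N → ℕ)
    (hx : ∀ j : Fin N, (j : ℕ) < b → x j = 0) (r : ℕ) :
    (ofCols fun j => gext b g j + x j).rowLen r =
      (ofCols x).rowLen r + ∑ i ∈ range b, if r < g i then 1 else 0 := by
  rw [rowLen_ofCols, rowLen_ofCols, card_filter, card_filter,
    ← qtoa_sum_gext hb fun i => if r < g i then 1 else 0, ← sum_add_distrib]
  refine sum_congr rfl fun j _ => ?_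
  unfold gext
  by_cases hj : (j : ℕ) < b
  · simp [hj, hx j hj]
  · simp [hj]

theorem qtob_colLen_zero {ν : YoungDiagram} {N : ℕ} (hN : ν.rowLen 0 ≤ N) (j : ℕ) (hj : N ≤ j) :
    ν.colLen j = 0 := by
  by_contra h
  have h1 : (0, j) ∈ ν := YoungDiagram.mem_iff_lt_colLen.2 (Nat.pos_of_ne_zero h)
  have h2 := YoungDiagram.mem_iff_lt_rowLen.1 h1
  omega

theorem qtob_sum_gext {b N : ℕ} (hb : b ≤ N) (g : ℕ → ℕ) :
    ∑ j : Fin N, gext b g j = ∑ i ∈ range b, g i := by
  have h1 : ∑ j : Fin N, gext b g j = ∑ i ∈ range N, if i < b then g i else 0 :=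
    Fin.sum_univ_eq_sum_range (fun i => if i < b then g i else 0) N
  rw [h1, ← Finset.sum_filter]
  refine Finset.sum_congr ?_ fun _ _ => rfl
  ext i
  simp only [mem_filter, mem_range]
  omega

theorem qtob_card {ν : YoungDiagram} {N : ℕ} (hN : ν.rowLen 0 ≤ N) :
    ν.card = ∑ j : Fin N, ν.colLen j := by
  rw [card_eq_sum_colLen ν hN, Fin.sum_univ_eq_sum_range (fun i => ν.colLen i) N]

theorem qtob_eq {ν : YoungDiagram} {N : ℕ} (hN : ν.rowLen 0 ≤ N) {y q : Fin N → ℕ}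
    (h : ∀ j : Fin N, ν.colLen j = y j + q j) : ofCols (y + q) = ν := by
  rw [← ofCols_colLen ν hN]
  congr 1
  funext j
  exact (h j).symm

/-- staircase inside, outer piece outside -/
theorem qtob_stair {n e δ N : ℕ} {ν : YoungDiagram} (hS : SaxlCyc) (hn : 1 ≤ n)
    (hN : ν.rowLen 0 ≤ N) {y q : Fin N → ℕ} (h : ∀ j : Fin N, ν.colLen j = y j + q j)
    (hy : 2 * ∑ j, y j = (n + 2) * (n + 2 + 1))
    (ho : HT (fun i j => n - 1 + 5 ≤ i + j + 2) (oS (n - 1 + 5) e δ) (oS (n - 1 + 5) e δ)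
      (ofCols q)) :
    Kron (lam (n + 4) e δ e δ) (lam (n + 4) e δ e δ) ν := by
  have hi := HT.stair hS (n + 2) (ν := ofCols y) (by rw [card_ofCols]; exact hy)
  have hmono : ∀ i j, n + 2 - i < n + 2 - j → oS (n - 1 + 5) e δ i ≤ oS (n - 1 + 5) e δ j := by
    intro i j hij
    unfold oS
    split_ifs <;> omega
  have hcut := HT.cut (n + 2) hi ho (fun _ _ h => h) (fun i j h => by omega) hmono hmono
  rw [qtob_eq hN h] at hcut
  have hl : ∀ j, ((fun j => n + 2 - j) + oS (n - 1 + 5) e δ) j =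
      (lam (n + 4) e δ e δ).colLen j := by
    intro j
    rw [colLen_lam (by omega), Pi.add_apply]
    unfold oS lamF
    split_ifs <;> omega
  exact hcut.kron hl hl

section
variable {n e δ N : ℕ} {ν : YoungDiagram}

/-- `split_full`; `HT.cut (n+2)` of `HT.stair (n+2)` (shape `ofCols y`, cardinality from `hν`) with
`HT.out4 (n-1) e δ` (`K = n + 4`); `ofCols_colLen`; `HT.kron` with `colLen_lam`. -/
theorem toolH4e (hS : SaxlCyc) (hn : 1 ≤ n) (hδ : δ ≤ 1)
    (hν : 2 * ν.card = (n + 4) * (n + 5) + 4 * (2 * e + δ)) (hN : ν.rowLen 0 ≤ N) (h4 : 4 ≤ N)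
    (h1 : e + 2 + δ ≤ ν.colLen 1) (h3 : e + 2 ≤ ν.colLen 3)
    (hP : 2 * n ≤ ∑ i ∈ range N, min (ν.colLen (4 + i)) 4 + 1) :
    Kron (lam (n + 4) e δ e δ) (lam (n + 4) e δ e δ) ν := by
  have hg : ∀ i < 4, g4 e δ i ≤ ν.colLen i := by
    intro i hi
    unfold g4
    split_ifs with h2
    · exact h1.trans (ν.colLen_anti _ _ (by omega))
    · exact h3.trans (ν.colLen_anti _ _ (by omega))
  obtain ⟨x, y, hx4, hx0, hxs, hc⟩ := split_full (P := 2 * (n - 1) + 1) hg
    (qtob_colLen_zero hN) h4 (by omega)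
  have hcard := qtob_card hN
  simp only [hc, Finset.sum_add_distrib, qtob_sum_gext h4, hxs] at hcard
  simp only [Finset.sum_range_succ, Finset.range_zero, Finset.sum_empty, g4] at hcard
  norm_num at hcard
  refine qtob_stair hS hn hN hc ?_ (HT.out4 (n - 1) e δ hδ (ν₀ := ofCols x)
    (by rw [card_ofCols, hxs]) (colLen_ofCols_le x hx4) fun r => ?_)
  · obtain ⟨m, rfl⟩ : ∃ m, n = m + 1 := ⟨n - 1, by omega⟩
    simp only [Nat.add_sub_cancel] at hcard
    nlinarith
  · rw [rowLen_gext h4 _ x hx0]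
    simp only [Finset.sum_range_succ, Finset.range_zero, Finset.sum_empty, g4]
    norm_num
    split_ifs <;> omega

theorem toolH2e (hS : SaxlCyc) (hn : 1 ≤ n) (hδ : δ ≤ 1)
    (hν : 2 * ν.card = (n + 4) * (n + 5) + 4 * (2 * e + δ)) (hN : ν.rowLen 0 ≤ N) (h4 : 4 ≤ N)
    (h1 : 2 * e + 4 + δ ≤ ν.colLen 1)
    (hP : 2 * n ≤ ∑ i ∈ range N, min (ν.colLen (2 + i)) 4 + 1) :
    Kron (lam (n + 4) e δ e δ) (lam (n + 4) e δ e δ) ν := by
  have hg : ∀ i < 2, (fun _ : ℕ => 2 * e + 4 + δ) i ≤ ν.colLen i := fun i hi =>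
    h1.trans (ν.colLen_anti _ _ (by omega))
  have h2 : 2 ≤ N := by omega
  obtain ⟨x, y, hx4, hx0, hxs, hc⟩ := split_full (P := 2 * (n - 1) + 1) hg
    (qtob_colLen_zero hN) h2 (by omega)
  have hcard := qtob_card hN
  simp only [hc, Finset.sum_add_distrib, qtob_sum_gext h2, hxs] at hcard
  simp only [Finset.sum_range_succ, Finset.range_zero, Finset.sum_empty] at hcard
  refine qtob_stair hS hn hN hc ?_ (HT.out2 (n - 1) e δ hδ (ν₀ := ofCols x)
    (by rw [card_ofCols, hxs]) (colLen_ofCols_le x hx4) fun r => ?_)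
  · obtain ⟨m, rfl⟩ : ∃ m, n = m + 1 := ⟨n - 1, by omega⟩
    simp only [Nat.add_sub_cancel] at hcard
    nlinarith
  · rw [rowLen_gext h2 _ x hx0]
    simp only [Finset.sum_range_succ, Finset.range_zero, Finset.sum_empty]
    split_ifs <;> omega

theorem qtoc_card {N : ℕ} {ν : YoungDiagram} (hN : ν.rowLen 0 ≤ N) :
    ∑ j : Fin N, ν.colLen j = ν.card := by
  rw [← card_ofCols, ofCols_colLen ν hN]

theorem qtoc_anti (ν : YoungDiagram) : Antitone ν.colLen := fun a b hab => ν.colLen_anti a b hab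

theorem qtoc_yS_lt {n s₁ s₂ i j : ℕ} (hs : s₂ ≤ s₁) (h : yS n s₁ s₂ i < yS n s₁ s₂ j) : j < i := by
  unfold yS at h
  split_ifs at h <;> omega

theorem qtoc_oS_anti {K t δ i j : ℕ} (h : j ≤ i) : oS K t δ i ≤ oS K t δ j := by
  unfold oS
  split_ifs <;> omega

theorem qtoc_size {n e δ t : ℕ} (ht : t < e) (j : ℕ) :
    (yS n (e - t) (e - t) + oS (n + (e - t) - 1 + 5) t δ) j = lamF (n + 4) e δ e δ j := by
  simp only [Pi.add_apply, yS, oS, lamF]
  split_ifs <;> omega

theorem qtoc_core {n e δ N t : ℕ} {ν : YoungDiagram} (hN : ν.rowLen 0 ≤ N) (ht : t < e)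
    {y q : Fin N → ℕ} (hc : ∀ j : Fin N, ν.colLen j = y j + q j)
    (hy : ∑ j, y j = Tt (e - t) (e - t) n)
    (hJ : ∀ J : Finset (Fin N), ∑ j ∈ J, y j ≤ Th (e - t) (e - t) J.card n)
    (ho : HT (fun i j => n + (e - t) - 1 + 5 ≤ i + j + 2) (oS (n + (e - t) - 1 + 5) t δ)
      (oS (n + (e - t) - 1 + 5) t δ) (ofCols q)) :
    Kron (lam (n + 4) e δ e δ) (lam (n + 4) e δ e δ) ν := by
  have hi := HT.inner' n (le_refl (e - t)) y hy hJ
  have hcut := HT.cut (n + 3) hi ho (fun i j h => h) (fun i j h => by omega)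
    (fun i j h => qtoc_oS_anti (qtoc_yS_lt le_rfl h).le)
    (fun i j h => qtoc_oS_anti (qtoc_yS_lt le_rfl h).le)
  have he : y + q = fun j : Fin N => ν.colLen j := by
    funext j
    rw [hc j]
    rfl
  rw [he, ofCols_colLen ν hN] at hcut
  refine hcut.kron (fun j => ?_) (fun j => ?_) <;>
    rw [colLen_lam (by omega), qtoc_size ht]

/-- `s = e - t ≥ 1`, `K = n + 4 + s`; `Cond.split`; `HT.cut (n+2+s)` of `HT.inner' n` with
`HT.out4 (n+s-1) t δ`. -/
theorem toolH4 (hδ : δ ≤ 1) (hν : 2 * ν.card = (n + 4) * (n + 5) + 4 * (2 * e + δ))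
    (hN : ν.rowLen 0 ≤ N) (h4 : 4 ≤ N) {t : ℕ} (ht : t < e)
    (h : Cond n 4 (g4 t δ) (2 * (n + (e - t)) - 1) (e - t) (e - t) ν.colLen) :
    Kron (lam (n + 4) e δ e δ) (lam (n + 4) e δ e δ) ν := by
  have h2 := two_mul_Tt (e - t) (e - t) n
  have htot : ∑ j : Fin N, ν.colLen j = Tt (e - t) (e - t) n + (2 * (n + (e - t)) - 1) +
      ∑ i ∈ range 4, g4 t δ i := by
    rw [qtoc_card hN]
    simp only [sum_range_succ, sum_range_zero, g4]
    norm_num
    obtain ⟨s, rfl⟩ : ∃ s, e = t + 1 + s := ⟨e - (t + 1), by omega⟩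
    have e1 : t + 1 + s - t = s + 1 := by omega
    rw [e1] at h2 ⊢
    have e2 : 2 * (n + (s + 1)) - 1 = 2 * n + 2 * s + 1 := by omega
    rw [e2]
    nlinarith
  obtain ⟨x, y, hx4, hx0, hxP, hc, hy, hJ⟩ := h.split (qtoc_anti ν) h4 htot
  refine qtoc_core hN ht (q := fun j => gext 4 (g4 t δ) j + x j) hc hy hJ ?_
  refine HT.out4 (n + (e - t) - 1) t δ hδ (ν₀ := ofCols x) ?_ (ofCols_small x hx4).2 fun r => ?_
  · rw [(ofCols_small x hx4).1, hxP]
    omega
  · rw [rowLen_gext h4 _ x hx0]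
    simp only [sum_range_succ, sum_range_zero, g4]
    norm_num
    split_ifs <;> omega

theorem toolH2 (hδ : δ ≤ 1) (hν : 2 * ν.card = (n + 4) * (n + 5) + 4 * (2 * e + δ))
    (hN : ν.rowLen 0 ≤ N) (h4 : 4 ≤ N) {t : ℕ} (ht : t < e)
    (h : Cond n 2 (fun _ => 2 * t + 4 + δ) (2 * (n + (e - t)) - 1) (e - t) (e - t) ν.colLen) :
    Kron (lam (n + 4) e δ e δ) (lam (n + 4) e δ e δ) ν := by
  have h2 := two_mul_Tt (e - t) (e - t) n
  have htot : ∑ j : Fin N, ν.colLen j = Tt (e - t) (e - t) n + (2 * (n + (e - t)) - 1) +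
      ∑ i ∈ range 2, (fun _ => 2 * t + 4 + δ) i := by
    rw [qtoc_card hN]
    simp only [sum_range_succ, sum_range_zero]
    obtain ⟨s, rfl⟩ : ∃ s, e = t + 1 + s := ⟨e - (t + 1), by omega⟩
    have e1 : t + 1 + s - t = s + 1 := by omega
    rw [e1] at h2 ⊢
    have e2 : 2 * (n + (s + 1)) - 1 = 2 * n + 2 * s + 1 := by omega
    rw [e2]
    nlinarith
  have hb : 2 ≤ N := by omega
  obtain ⟨x, y, hx4, hx0, hxP, hc, hy, hJ⟩ := h.split (qtoc_anti ν) hb htot
  refine qtoc_core hN ht (q := fun j => gext 2 (fun _ => 2 * t + 4 + δ) j + x j) hc hy hJ ?_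
  refine HT.out2 (n + (e - t) - 1) t δ hδ (ν₀ := ofCols x) ?_ (ofCols_small x hx4).2 fun r => ?_
  · rw [(ofCols_small x hx4).1, hxP]
    omega
  · rw [rowLen_gext hb _ x hx0]
    simp only [sum_range_succ, sum_range_zero]
    split_ifs <;> omega

/-- `HT.cut (n+2+e)` of `HT.inner n` with `HT.band (n+4+e)`, then `HT.permC (Equiv.swap 0 1)`. -/
theorem toolII0 (hν : 2 * ν.card = (n + 4) * (n + 5) + 4 * (2 * e + 0))
    (hN : ν.rowLen 0 ≤ N) (h : Cond n 0 (fun _ => 0) (2 * (n + e) + 7) e e ν.colLen) :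
    Kron (lam (n + 4) e 0 e 0) (lam (n + 4) e 0 e 0) ν := by
  have hcard := qtob_card hN
  have hT := two_mul_Tt e e n
  obtain ⟨x, y, hx4, -, hxs, hc, hy, hJ⟩ := h.split (fun i j hij => ν.colLen_anti _ _ hij)
    (Nat.zero_le N) (by rw [← hcard]; simp only [Finset.sum_const_zero]; nlinarith)
  have hc' : ∀ j : Fin N, ν.colLen j = y j + x j := by
    intro j
    rw [hc j]
    simp [gext]
  have hi := HT.inner n (le_refl e) y hy hJ
  have ho := HT.band (K := n + 4 + e) (by omega) (ν := ofCols x)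
    (by rw [card_ofCols, hxs]; omega) (colLen_ofCols_le x hx4)
  have hcut := HT.cut (n + 2 + e) hi ho (fun i j h => by omega) (fun i j h => by omega)
    (fun i j hij => by
      unfold yS at hij
      unfold bS
      split_ifs at hij ⊢ <;> omega)
    (fun i j hij => by
      unfold yC at hij
      unfold bS
      split_ifs at hij ⊢ <;> omega)
  rw [qtob_eq hN hc'] at hcut
  refine (hcut.permC (Equiv.swap 0 1)).kron (fun j => ?_) fun j => ?_
  · rw [colLen_lam (by omega), Pi.add_apply]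
    unfold yS bS lamF
    split_ifs <;> omega
  · rw [colLen_lam (by omega), Pi.add_apply]
    by_cases h0 : j = 0
    · subst h0
      rw [Equiv.swap_apply_left]
      simp only [yC, bS, lamF, if_true, if_neg (one_ne_zero), if_pos (show 1 + 1 < n + 4 + e by omega)]
      omega
    by_cases h1 : j = 1
    · subst h1
      rw [Equiv.swap_apply_right]
      simp only [yC, bS, lamF, if_true, if_neg (one_ne_zero), if_pos (show 0 + 1 < n + 4 + e by omega)]
      omega
    rw [Equiv.swap_apply_of_ne_of_ne h0 h1]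
    unfold yC bS lamF
    split_ifs <;> omega

/-- the outer piece is `HT.mul` of `HT.band K` and `HT.cell K K`, `K = n + 4 + e`
(second shape `ofCols (fun _ : Unit => 1)`); inner table `HT.inner n` with `s₁ = e + 1`, `s₂ = e`. -/
theorem toolII1 (hν : 2 * ν.card = (n + 4) * (n + 5) + 4 * (2 * e + 1))
    (hN : ν.rowLen 0 ≤ N) (h4 : 4 ≤ N)
    (h : Cond n 1 (fun _ => 1) (2 * (n + e) + 7) (e + 1) e ν.colLen) :
    Kron (lam (n + 4) e 1 e 1) (lam (n + 4) e 1 e 1) ν := by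
  have h2 := two_mul_Tt (e + 1) e n
  have htot : ∑ j : Fin N, ν.colLen j = Tt (e + 1) e n + (2 * (n + e) + 7) +
      ∑ i ∈ range 1, (fun _ => 1) i := by
    rw [qtoc_card hN]
    simp only [sum_range_succ, sum_range_zero]
    nlinarith
  have hb : 1 ≤ N := by omega
  obtain ⟨x, y, hx4, hx0, hxP, hc, hy, hJ⟩ := h.split (qtoc_anti ν) hb htot
  have hband := HT.band (K := n + 4 + e) (by omega) (ν := ofCols x)
    (by rw [(ofCols_small x hx4).1, hxP]; omega) (ofCols_small x hx4).2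
  have hcell := HT.cell (n + 4 + e) (n + 4 + e) (ν := ofCols fun _ : Unit => 1)
    (by rw [card_ofCols]; simp)
  have hd : ∀ j, bS (n + 4 + e) j = 0 ∨ (if j = n + 4 + e then 1 else 0) = 0 := by
    intro j
    unfold bS
    split_ifs <;> omega
  have ho := HT.mul (ν := ofCols fun j : Fin N => gext 1 (fun _ => 1) j + x j) hband hcell hd hd
    (fun r => by
      rw [rowLen_gext hb _ x hx0, rowLen_ofCols (fun _ : Unit => 1), card_filter]
      simp)
  have hi := HT.inner n (Nat.le_succ e) y hy hJ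
  have hcut := HT.cut (n + 2) hi ho (fun i j h => h) (fun i j h => by omega)
    (fun i j h => by
      have := qtoc_yS_lt (Nat.le_succ e) h
      simp only [Pi.add_apply, bS]
      split_ifs <;> omega)
    (fun i j h => by
      simp only [Pi.add_apply, bS, yC] at h ⊢
      split_ifs at h ⊢ <;> omega)
  have he : (y + fun j : Fin N => gext 1 (fun _ => 1) j + x j) = fun j : Fin N => ν.colLen j := by
    funext j
    rw [hc j]
    rfl
  rw [he, ofCols_colLen ν hN] at hcut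
  refine (hcut.permC (Equiv.swap 0 1)).kron (fun j => ?_) (fun j => ?_)
  · rw [colLen_lam (by omega)]
    simp only [Pi.add_apply, yS, bS, lamF]
    split_ifs <;> omega
  · rw [colLen_lam (by omega)]
    rcases Nat.lt_or_ge j 2 with hj | hj
    · interval_cases j
      · simp only [Equiv.swap_apply_left, Pi.add_apply, yC, bS, lamF]
        norm_num
        split_ifs <;> omega
      · simp only [Equiv.swap_apply_right, Pi.add_apply, yC, bS, lamF]
        norm_num
        split_ifs <;> omega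
    · rw [Equiv.swap_apply_of_ne_of_ne (by omega) (by omega)]
      simp only [Pi.add_apply, yC, bS, lamF]
      split_ifs <;> omega

theorem Tool.kron (hS : SaxlCyc) (hn : 1 ≤ n) (hδ : δ ≤ 1)
    (hν : 2 * ν.card = (n + 4) * (n + 5) + 4 * (2 * e + δ)) (hN : ν.rowLen 0 ≤ N) (h4 : 4 ≤ N)
    (h : Tool n e δ N ν.colLen) : Kron (lam (n + 4) e δ e δ) (lam (n + 4) e δ e δ) ν := by
  rcases h with ⟨a, b, c⟩ | ⟨a, b⟩ | ⟨t, ht, h⟩ | ⟨t, ht, h⟩ | ⟨rfl, h⟩ | ⟨rfl, h⟩
  · exact toolH4e hS hn hδ hν hN h4 a b c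
  · exact toolH2e hS hn hδ hν hN h4 a b
  · exact toolH4 hδ hν hN h4 ht h
  · exact toolH2 hδ hν hN h4 ht h
  · exact toolII0 hν hN h
  · exact toolII1 hν hN h4 h

end

end Crest.Agent.R195
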