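import Crest.Agent.R195.Polar

/-!
# R195 / Sl2 : `mv x y` is injective on words with more `x` than `y`
-/

set_option autoImplicit false
open Finset

noncomputable section
namespace Crest.Agent.R195

variable {ι A : Type} [Fintype ι] [DecidableEq ι] [Fintype A]

open Classical in
theorem sl2_apply (x y : A) (w : Wd ι A) (u : ι → A) :
    mv x y w u = ∑ i, if u i = y then w (Function.update u i x) else 0 := by
  rw [← sum_filter]
  rfl

open Classical in
theorem sl2_mm {x y : A} (hxy : x ≠ y) (w : Wd ι A) (u : ι → A) :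
    mv y x (mv x y w) u = cnt u x * w u + ∑ i, ∑ j,
      if u i = x ∧ u j = y then w (Function.update (Function.update u i y) j x) else 0 := by
  have hc : (cnt u x : ℂ) * w u = ∑ i, if u i = x then w u else 0 := by
    rw [← sum_filter, sum_const, nsmul_eq_mul]
    rfl
  rw [hc, ← sum_add_distrib, sl2_apply]
  refine sum_congr rfl fun i _ => ?_
  by_cases hi : u i = x
  · simp only [hi, if_true, true_and]
    rw [sl2_apply, ← add_sum_erase _ _ (mem_univ i), ← add_sum_erase _ _ (mem_univ i),
      Function.update_self, if_pos rfl, Function.update_idem, if_neg (hi ▸ hxy), zero_add, ← hi,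
      Function.update_eq_self]
    congr 1
    refine sum_congr rfl fun j hj => ?_
    rw [Function.update_of_ne (ne_of_mem_erase hj)]
  · simp [hi]

/-- the commutation relation `[e, f] = h` -/
theorem mv_comm {x y : A} (hxy : x ≠ y) (w : Wd ι A) (u : ι → A) :
    mv y x (mv x y w) u - mv x y (mv y x w) u = ((cnt u x : ℂ) - cnt u y) * w u := by
  classical
  rw [sl2_mm hxy, sl2_mm hxy.symm, sum_comm (s := univ) (t := univ)]
  have : ∀ i j : ι, (if u j = x ∧ u i = y then w (Function.update (Function.update u j y) i x)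
      else 0) = if u i = y ∧ u j = x then w (Function.update (Function.update u i x) j y)
      else 0 := by
    intro i j
    by_cases h : u j = x ∧ u i = y
    · rw [if_pos h, if_pos h.symm, Function.update_comm]
      rintro rfl
      exact hxy (h.1.symm.trans h.2)
    · rw [if_neg h, if_neg fun h' => h h'.symm]
  simp only [this]
  ring

theorem ip_mv (x y : A) (w z : Wd ι A) : ip (mv x y w) z = ip w (mv y x z) := by
  classical
  simp only [ip, sl2_apply, sum_mul, mul_sum, ite_mul, mul_ite, zero_mul, mul_zero]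
  rw [sum_comm, sum_comm (s := (univ : Finset (ι → A)))]
  refine sum_congr rfl fun i _ => ?_
  rw [← sum_filter, ← sum_filter]
  refine sum_nbij' (fun u => Function.update u i x) (fun u => Function.update u i y) ?_ ?_ ?_ ?_ ?_
  · simp
  · simp
  · intro u hu
    rw [mem_filter] at hu
    rw [Function.update_idem, ← hu.2, Function.update_eq_self]
  · intro u hu
    rw [mem_filter] at hu
    rw [Function.update_idem, ← hu.2, Function.update_eq_self]
  · intro u hu
    rw [mem_filter] at hu
    rw [Function.update_idem, ← hu.2, Function.update_eq_self]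

theorem sl2_conj (x y : A) (w : Wd ι A) :
    (mv x y fun u => (starRingEnd ℂ) (w u)) = fun u => (starRingEnd ℂ) (mv x y w u) := by
  classical
  funext u
  rw [sl2_apply, sl2_apply, map_sum]
  refine sum_congr rfl fun i _ => ?_
  split_ifs <;> simp

/-- with `w̄` the conjugate: `‖mv x y w‖² = ‖mv y x w‖² + ∑ (cnt u x - cnt u y) |w u|²`. -/
theorem mv_inj {x y : A} (hxy : x ≠ y) {w : Wd ι A} (hw : ∀ u, w u ≠ 0 → cnt u y < cnt u x)
    (h : mv x y w = 0) : w = 0 := by
  have e1 : ∑ u, ((cnt u x : ℂ) - cnt u y) * w u * (starRingEnd ℂ) (w u) =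
      -ip (mv x y (mv y x w)) fun u => (starRingEnd ℂ) (w u) := by
    simp only [← mv_comm hxy, h, map_zero, Pi.zero_apply, zero_sub, neg_mul, sum_neg_distrib, ip]
  rw [ip_mv, sl2_conj, ip] at e1
  simp only [mul_assoc, Complex.mul_conj] at e1
  have e2 : ∑ u, ((cnt u x : ℝ) - cnt u y) * Complex.normSq (w u) =
      -∑ u, Complex.normSq (mv y x w u) := by
    exact_mod_cast e1
  have h0 : ∀ u ∈ (univ : Finset (ι → A)), 0 ≤ ((cnt u x : ℝ) - cnt u y) * Complex.normSq (w u) := by
    intro u _
    by_cases hu : w u = 0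
    · simp [hu]
    · exact mul_nonneg (sub_nonneg.2 (by exact_mod_cast (hw u hu).le)) (Complex.normSq_nonneg _)
  have e3 : ∑ u, ((cnt u x : ℝ) - cnt u y) * Complex.normSq (w u) = 0 :=
    le_antisymm (e2.trans_le (neg_nonpos.2 (sum_nonneg fun u _ => Complex.normSq_nonneg _)))
      (sum_nonneg h0)
  funext u
  by_contra hu
  have := (sum_eq_zero_iff_of_nonneg h0).1 e3 u (mem_univ u)
  have h1 : (0 : ℝ) < (cnt u x : ℝ) - cnt u y := sub_pos.2 (by exact_mod_cast hw u hu)
  exact (mul_pos h1 (Complex.normSq_pos.2 hu)).ne' this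

theorem sub_mv {x y : A} (hxy : x ≠ y) {w : Wd ι A} (hw : ∀ u, w u ≠ 0 → cnt u y < cnt u x) :
    Sub (mv x y w) w := by
  let U : Submodule ℂ (Wd ι A) :=
    { carrier := {w | ∀ u, ¬ cnt u y < cnt u x → w u = 0}
      add_mem' := fun ha hb u hu => by rw [Pi.add_apply, ha u hu, hb u hu, add_zero]
      zero_mem' := fun _ _ => rfl
      smul_mem' := fun c a ha u hu => by rw [Pi.smul_apply, ha u hu, smul_zero] }
  refine (eqv_mv x y).sub_of_inj (U := U) (fun g a ha u hu => ha _ ?_)
    (fun a ha h => mv_inj hxy (fun u hu => by_contra fun h' => hu (ha u h')) h)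
    (fun u hu => by_contra fun h' => hu (hw u h'))
  rwa [cnt_comp, cnt_comp]

open Classical in
theorem mv_dl {x y : A} (u : ι → A) :
    mv x y (dl u) = ∑ i ∈ univ.filter fun i => u i = x, dl (Function.update u i y) := by
  funext v
  rw [sl2_apply, Finset.sum_apply, sum_filter]
  refine sum_congr rfl fun i _ => ?_
  have key : (v i = y ∧ Function.update v i x = u) ↔ (u i = x ∧ v = Function.update u i y) := by
    constructor <;> rintro ⟨h1, rfl⟩ <;>
      rw [Function.update_idem, ← h1, Function.update_eq_self, Function.update_self] <;>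
      exact ⟨rfl, rfl⟩
  by_cases h : v i = y ∧ Function.update v i x = u
  · rw [if_pos h.1, if_pos (key.1 h).1, dl, dl, if_pos h.2, if_pos (key.1 h).2]
  · have h' := mt key.2 h
    rw [not_and] at h h'
    simp only [dl]
    split_ifs <;> simp_all

/-- `mv` is a derivation for `mulS` -/
theorem mv_mulS {ι₀ ι₁ : Type} [Fintype ι₀] [DecidableEq ι₀] [Fintype ι₁] [DecidableEq ι₁] (x y : A)
    (w₀ : Wd ι₀ A) (w₁ : Wd ι₁ A) :
    mv x y (mulS w₀ w₁) = mulS (mv x y w₀) w₁ + mulS w₀ (mv x y w₁) := by
  classical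
  funext u
  simp only [Pi.add_apply, mulS, sl2_apply, Fintype.sum_sum_type, sum_mul, mul_sum, ite_mul,
    mul_ite, zero_mul, mul_zero, Function.comp_apply]
  congr 1
  · refine sum_congr rfl fun i _ => if_congr Iff.rfl ?_ rfl
    rw [Sum.update_inl_comp_inl, Sum.update_inl_comp_inr]
  · refine sum_congr rfl fun i _ => if_congr Iff.rfl ?_ rfl
    rw [Sum.update_inr_comp_inl, Sum.update_inr_comp_inr]

end Crest.Agent.R195
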