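import Crest.Agent.R195.EZ
import Crest.Agent.R195.CaseC
import Crest.Agent.R195.Sl2
import Crest.Agent.R195.Bridge

/-!
Row 195 (helper2).  The staircase table vector sees every shape (Saxl).
-/

set_option autoImplicit false
set_option linter.unusedSectionVars false

noncomputable section
namespace Crest.Agent.R195

open Equiv Finset

section general
variable {ι A B C C' L : Type} [Fintype ι] [DecidableEq ι]

theorem pt_congr_blocks {c : ι → C} {c' : ι → C'} (h : ∀ i j, c i = c j ↔ c' i = c' j)
    (r : ι → L) : pt c r = pt c' r := by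
  classical
  funext u; rw [pt_eq_EZ, pt_eq_EZ, EZ_congr_blocks h]

/-- a non-zero vector on a one-letter alphabet sees the one-row shape -/
theorem sees_row [Fintype A] [Subsingleton A] [Inhabited A] [Fintype C] {w : Wd ι A} (hw : w (fun _ => default) ≠ 0)
    (q : C → ℕ) (hq : ∀ c, q c ≤ 1) (hs : ∑ c, q c = Fintype.card ι) : Sees w (ofCols q) := by
  have e : w = w (fun _ => default) • dl (fun _ : ι => (default : A)) := by
    funext u
    obtain rfl : u = fun _ => default := Subsingleton.elim _ _
    simp [dl]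
  rw [e, sees_smul hw]
  refine sees_dl_cols q hs fun S => ?_
  rcases S.eq_empty_or_nonempty with rfl | ⟨a, ha⟩
  · simp
  · obtain rfl : S = {a} := by
      ext b; simp [Subsingleton.elim b a, ha]
    simp only [Finset.sum_singleton, Finset.card_singleton]
    rw [Finset.sum_congr rfl (fun c _ => min_eq_left (hq c)), hs]
    exact Finset.card_le_univ _

theorem cnt_le_of_injOn {β : Type} (u : ι → A) (a : A) (t : Finset β) (f : ι → β)
    (h1 : ∀ i, u i = a → f i ∈ t) (h2 : ∀ i j, u i = a → u j = a → f i = f j → i = j) :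
    cnt u a ≤ t.card := by
  unfold cnt
  refine Finset.card_le_card_of_injOn f (fun i hi => h1 i (by simpa using hi)) ?_
  intro i hi j hj
  exact h2 i j (by simpa using hi) (by simpa using hj)

theorem le_cnt_of_injOn {β : Type} (u : ι → A) (a : A) (t : Finset β) (f : β → ι)
    (h1 : ∀ b ∈ t, u (f b) = a) (h2 : ∀ b ∈ t, ∀ b' ∈ t, f b = f b' → b = b') :
    t.card ≤ cnt u a := by
  unfold cnt
  refine Finset.card_le_card_of_injOn f (fun b hb => by simpa using h1 b hb) ?_
  intro i hi j hj
  exact h2 i hi j hj

theorem sum_range_card_le (s : Finset ℕ) : ∑ i ∈ range s.card, i ≤ ∑ x ∈ s, x := by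
  induction s using Finset.induction_on_max with
  | empty => simp
  | insert a s ha ih =>
    have hna : a ∉ s := fun h => lt_irrefl _ (ha a h)
    rw [Finset.card_insert_of_notMem hna, Finset.sum_range_succ, Finset.sum_insert hna]
    have : s.card ≤ a := by
      rw [← Finset.card_range a]
      exact Finset.card_le_card fun x hx => Finset.mem_range.2 (ha x hx)
    omega

/-- the orbit indicator as a vector -/
def orbW [DecidableEq C] [DecidableEq A] (c : ι → C) (ρ : ι → A) : Wd ι A :=
  fun u => (orbInd c ρ u : ℂ)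

theorem orbW_pure [DecidableEq C] [DecidableEq A] (c : ι → C) (o : C → A) :
    orbW c (o ∘ c) = dl (o ∘ c) := by
  funext u; unfold orbW dl; rw [orbInd_pure]; split_ifs <;> simp

theorem EZ_mul_self [DecidableEq C] [DecidableEq A] {c : ι → C} {r : ι → A} (hr : BlockInj c r)
    (u : ι → A) : EZ c r u * EZ c r u = orbInd c r u := by
  unfold orbInd
  split_ifs with h
  · obtain ⟨g, hg, rfl⟩ := h
    rw [EZ_of_mem hr hg, sign_mul_self']
  · have : EZ c r u = 0 := by by_contra hc; exact h (exists_of_EZ_ne_zero hc)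
    rw [this, mul_zero]

/-- one injective move -/
theorem sub_orbW_move [Fintype A] [DecidableEq C] [DecidableEq A] (c : ι → C) (ρ : ι → A) (x : ι)
    (q : A) (hp : ∀ i, ρ i = ρ x → c i = c x) (hq : ∀ i, c i = c x → ρ i ≠ q)
    (hcnt : cnt ρ q < cnt ρ (ρ x)) : Sub (orbW c (Function.update ρ x q)) (orbW c ρ) := by
  have e : orbW c (Function.update ρ x q) = mv (ρ x) q (orbW c ρ) := by
    funext u
    unfold orbW
    rw [← lowerZ_orbInd c ρ x q hp hq u, lowerZ]
    simp only [mv, LinearMap.coe_mk, AddHom.coe_mk]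
    rw [Finset.sum_filter]; push_cast
    refine Finset.sum_congr rfl fun i _ => ?_
    split_ifs <;> rfl
  rw [e]
  refine sub_mv (fun h => hq x rfl h) fun u hu => ?_
  have : ∃ h ∈ blockGrp c, u = ρ ∘ h := by
    by_contra hc; apply hu; simp [orbW, orbInd, hc]
  obtain ⟨h, -, rfl⟩ := this
  rw [cnt_comp, cnt_comp]; exact hcnt

theorem exists_le_sum_eq [Fintype C] (b : C → ℕ) (k : ℕ) (hk : k ≤ ∑ c, b c) :
    ∃ q : C → ℕ, (∀ c, q c ≤ b c) ∧ ∑ c, q c = k := by
  classical
  induction k with
  | zero => exact ⟨0, fun _ => Nat.zero_le _, by simp⟩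
  | succ k ih =>
    obtain ⟨q, hq, hs⟩ := ih (by omega)
    obtain ⟨c, hc⟩ : ∃ c, q c < b c := by
      by_contra hn; push Not at hn
      have := Finset.sum_le_sum (s := univ) fun c _ => hn c
      omega
    refine ⟨Function.update q c (q c + 1), fun d => ?_, ?_⟩
    · by_cases h : d = c
      · subst h; simpa using hc
      · rw [Function.update_of_ne h]; exact hq d
    · rw [Finset.sum_update_of_mem (mem_univ c), ← hs, ← Finset.add_sum_erase _ _ (mem_univ c),
        Finset.sdiff_singleton_eq_erase]; ring

end general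

/-- the staircase table vector -/
def stV (m : ℕ) : Wd (St m) (Fin m × Fin m) := inn (pt stR stL) (pt stC stL)

theorem sub_stV₁ (m : ℕ) : ∃ w : Wd (Fin (m + 1)) (Unit × Unit), w (fun _ => default) ≠ 0 ∧
    Sub (stV (m + 1)) (ox (stV m) w) := by
  have h := sub_cut_table (stEquiv₁ m) stR stL stC stL Fin.castSucc (fun _ : Unit => Fin.last m)
    Fin.castSucc (fun _ : Unit => Fin.last m) ?_ ?_ stL (fun _ => ()) stL (fun _ => ())
    (fun _ => rfl) ?_ (fun _ => rfl) ?_ (fun i => 2 * (i : ℤ)) (fun j => 2 * (j : ℤ) - 2 * m + 1)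
    ?_ ?_
  · have e1 : pt (fun i => stR (stEquiv₁ m (.inl i))) (stL (m := m)) = pt stR stL :=
      pt_congr_blocks (fun i j => by simp [stEquiv₁, stR]) _
    have e2 : pt (fun i => stC (stEquiv₁ m (.inl i))) (stL (m := m)) = pt stC stL :=
      pt_congr_blocks (fun i j => by simp [stEquiv₁, stC]) _
    rw [e1, e2] at h
    refine ⟨_, ?_, h⟩
    simp only [inn]
    rw [pt_self, pt_self]
    · simp
    · intro i j h _; simpa [stEquiv₁, stC] using h
    · intro i j h _; simpa [stEquiv₁, stR] using h
  any_goals
    rintro (a | a) (b | b) hab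
    · simpa using hab
    · exact absurd hab (Fin.castSucc_lt_last a).ne
    · exact absurd hab (Fin.castSucc_lt_last b).ne'
    · rfl
  any_goals
    intro i; have := i.2; ext; simp [stEquiv₁, stL]; omega
  · intro i; have := i.2; simp [stEquiv₁, stR, stC]; omega
  · intro i; have := i.2; simp [stEquiv₁, stR, stC]; omega

theorem sub_stV₂ (m : ℕ) : Sub (stV (m + 2)) (ox (stV m) (pathW (2 * (m + 1) + 1))) := by
  have hj : Function.Injective (Sum.elim (Fin.castAdd 2 : Fin m → Fin (m + 2))
      (fun x : Fin 2 => (⟨m + 1 - x.1, by omega⟩ : Fin (m + 2)))) := by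
    rintro (a | a) (b | b) hab <;> simp only [Sum.elim_inl, Sum.elim_inr, Fin.ext_iff,
      Fin.val_castAdd] at hab
    · exact congrArg _ (Fin.ext hab)
    · omega
    · omega
    · exact congrArg _ (Fin.ext (by omega))
  have hl : ∀ i, stL (stEquiv₂ m (.inr i)) =
      (⟨m + 1 - (pathR _ i).1, by omega⟩ : Fin (m + 2)) := by
    intro i; have := i.2; ext; simp [stEquiv₂, stL, pathR]; omega
  have h := sub_cut_table (stEquiv₂ m) stR stL stC stL _ _ _ _ hj hj stL (pathR _) stL (pathR _)
    (fun _ => rfl) hl (fun _ => rfl) hl (fun i => 2 * (i : ℤ)) (fun j => 2 * (j : ℤ) - 2 * m + 1)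
    (by intro i; have := i.2; simp [stEquiv₂, stR, stC]; omega)
    (by intro i; have := i.2; simp [stEquiv₂, stR, stC]; omega)
  have e1 : pt (fun i => stR (stEquiv₂ m (.inl i))) (stL (m := m)) = pt stR stL :=
    pt_congr_blocks (fun i j => by simp [stEquiv₂, stR, Fin.ext_iff]) _
  have e2 : pt (fun i => stC (stEquiv₂ m (.inl i))) (stL (m := m)) = pt stC stL :=
    pt_congr_blocks (fun i j => by simp [stEquiv₂, stC, Fin.ext_iff]) _
  have e3 : pt (fun i => stR (stEquiv₂ m (.inr i))) (pathR _) = pt (pathC₁ _) (pathR _) :=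
    pt_congr_blocks (fun i j => by
      have := i.2; have := j.2; simp [stEquiv₂, stR, pathC₁, Fin.ext_iff]; omega) _
  have e4 : pt (fun i => stC (stEquiv₂ m (.inr i))) (pathR _) = pt (pathC₂ _) (pathR _) :=
    pt_congr_blocks (fun i j => by
      have := i.2; have := j.2; simp [stEquiv₂, stC, pathC₂, Fin.ext_iff]) _
  rw [e1, e2, e3, e4] at h
  exact h

/-- the intermediate labellings of the lowering chain -/
def chainL (m J s : ℕ) (p : St m) : Fin m :=
  if J < (stC p).1 ∨ ((stC p).1 = J ∧ (stR p).1 < s) then stR p else (stC p).rev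

theorem chain_step (m J s : ℕ) : Sub (orbW stC (chainL m J (s + 1))) (orbW stC (chainL m J s)) := by
  by_cases hs : s + J + 1 < m
  · set x : St m := ⟨(⟨s, by omega⟩, ⟨J, by omega⟩), by simp; omega⟩ with hx
    have hρx : (chainL m J s x).1 = m - 1 - J := by
      simp [chainL, hx, stC, stR]; omega
    have e : chainL m J (s + 1) = Function.update (chainL m J s) x ⟨s, by omega⟩ := by
      funext p
      by_cases hp : p = x
      · rw [hp]; simp [chainL, hx, stC, stR]
      · rw [Function.update_of_ne hp]
        unfold chainL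
        have : ¬ ((stC p).1 = J ∧ (stR p).1 = s) := fun h => hp (St.ext' h.2 h.1)
        have : (J < (stC p).1 ∨ ((stC p).1 = J ∧ (stR p).1 < s + 1)) ↔
          (J < (stC p).1 ∨ ((stC p).1 = J ∧ (stR p).1 < s)) := by omega
        simp only [this]
    rw [e]
    apply sub_orbW_move
    · intro p hp
      have h1 := congrArg Fin.val hp
      rw [hρx] at h1
      have := p.2
      ext
      unfold chainL at h1
      split_ifs at h1 with h
      · simp only [stC, stR, hx] at *; omega
      · simp only [stC, stR, hx, Fin.val_rev] at *; omega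
    · intro p hp h1
      have h1 := congrArg Fin.val h1
      have hp := congrArg Fin.val hp
      unfold chainL at h1
      split_ifs at h1 with h
      · simp only [stC, stR, hx] at *; omega
      · simp only [stC, stR, hx, Fin.val_rev] at *; omega
    · have c1 : cnt (chainL m J s) ⟨s, by omega⟩ ≤ (Finset.Ioo J (m - s)).card := by
        refine cnt_le_of_injOn _ _ _ (fun p => (stC p).1) ?_ ?_
        · intro p hp
          have h1 := congrArg Fin.val hp
          have := p.2
          unfold chainL at h1
          simp only [Finset.mem_Ioo]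
          split_ifs at h1 with h
          · simp only [stC, stR] at *; omega
          · simp only [stC, stR, Fin.val_rev] at *; omega
        · intro p p' hp hp' he
          have h1 := congrArg Fin.val hp
          have h2 := congrArg Fin.val hp'
          have := p.2
          have := p'.2
          unfold chainL at h1 h2
          refine St.ext' ?_ he
          split_ifs at h1 h2 <;> simp only [stC, stR, Fin.val_rev] at * <;> omega
      have c2 : (Finset.range (m - J - s)).card ≤ cnt (chainL m J s) (chainL m J s x) := by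
        refine le_cnt_of_injOn _ _ _ (fun t => if h : s + t + J < m then
          (⟨(⟨s + t, by omega⟩, ⟨J, by omega⟩), h⟩ : St m) else x) ?_ ?_
        · intro t ht
          simp only [Finset.mem_range] at ht
          rw [dif_pos (by omega)]
          ext; rw [hρx]; simp [chainL, stC, stR]; omega
        · intro t ht t' ht' he
          simp only [Finset.mem_range] at ht ht'
          simp only [dif_pos (show s + t + J < m by omega),
            dif_pos (show s + t' + J < m by omega)] at he
          simpa using he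
      simp only [Nat.card_Ioo, Finset.card_range] at c1 c2
      omega
  · have : chainL m J (s + 1) = chainL m J s := by
      funext p
      have := p.2
      unfold chainL
      ext
      split_ifs <;> simp only [stC, stR, Fin.val_rev] at * <;> omega
    rw [this]; exact Sub.refl _

theorem chain_all (m : ℕ) : Sub (orbW stC (stR (m := m))) (dl fun p : St m => (stC p).rev) := by
  have h1 : ∀ J s, Sub (orbW stC (chainL m J s)) (orbW stC (chainL m J 0)) := by
    intro J s
    induction s with
    | zero => exact Sub.refl _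
    | succ s ih => exact (chain_step m J s).trans ih
  have h2 : ∀ J, chainL m J 0 = chainL m (J + 1) m := by
    intro J; funext p
    have := (stR p).2
    have : (J < (stC p).1 ∨ ((stC p).1 = J ∧ (stR p).1 < 0)) ↔
      (J + 1 < (stC p).1 ∨ ((stC p).1 = J + 1 ∧ (stR p).1 < m)) := by omega
    unfold chainL; simp only [this]
  have h3 : ∀ d J, Sub (orbW stC (chainL m J 0)) (orbW stC (chainL m (J + d) 0)) := by
    intro d
    induction d with
    | zero => intro J; exact Sub.refl _
    | succ d ih =>
      intro J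
      rw [h2 J, show J + (d + 1) = J + 1 + d by ring]
      exact (h1 _ _).trans (ih _)
  have e1 : stR (m := m) = chainL m 0 m := by
    funext p
    have := (stR p).2
    unfold chainL; rw [if_pos (by omega)]
  have e2 : chainL m (0 + m) 0 = Fin.rev ∘ stC := by
    funext p
    have := (stC p).2
    unfold chainL; rw [if_neg (by omega)]; rfl
  have := (h1 0 m).trans (h3 m 0)
  rwa [← e1, e2, orbW_pure] at this

theorem shape_stair (m : ℕ) : Shape (stair m) (stC (m := m)) stR := by
  refine ⟨fun p => ((stR p).1, (stC p).1), ⟨?_, ?_⟩, ?_, ?_⟩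
  · intro p q h
    simp only [Prod.mk.injEq] at h
    exact St.ext' h.1 h.2
  · rintro ⟨i, j⟩
    rw [mem_stair]
    constructor
    · intro h; exact ⟨⟨(⟨i, by omega⟩, ⟨j, by omega⟩), h⟩, rfl⟩
    · rintro ⟨p, hp⟩
      simp only [Prod.mk.injEq] at hp
      rw [← hp.1, ← hp.2]; exact p.2
  · intro p q; exact Fin.ext_iff
  · intro p q; exact Fin.ext_iff

theorem stair_transpose (m : ℕ) : (stair m).transpose = stair m := by
  ext ⟨i, j⟩
  simp only [YoungDiagram.mem_cells, YoungDiagram.mem_transpose, Prod.swap, mem_stair]; omega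

theorem exists_sign_R (m : ℕ) : ∃ g ∈ blockGrp (stR (m := m)), Fin.rev ∘ stL = stC ∘ g := by
  apply exists_blockGrp_of_image
  · intro p q h1 h2; exact stR_inj m p q h1 (Fin.rev_injective h2)
  · intro p
    have := p.2
    refine ⟨⟨(p.1.1, (stL p).rev), by simp [stL]; omega⟩, rfl, rfl⟩

theorem exists_sign_C (m : ℕ) : ∃ g ∈ blockGrp (stC (m := m)), Fin.rev ∘ stL = stR ∘ g := by
  apply exists_blockGrp_of_image
  · intro p q h1 h2; exact stC_inj m p q h1 (Fin.rev_injective h2)
  · intro p
    have := p.2
    refine ⟨⟨((stL p).rev, p.1.2), by simp [stL]; omega⟩, rfl, rfl⟩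

theorem pt_rev {m : ℕ} (c r : St m → Fin m) {g : Perm (St m)} (hg : g ∈ blockGrp c)
    (e : Fin.rev ∘ stL = r ∘ g) (u : St m → Fin m) :
    pt c stL (Fin.rev ∘ u) = sg g * pt c r u := by
  rw [pt_eq_EZ, pt_eq_EZ, ← EZ_map Fin.rev_injective, e, EZ_ref hg]
  have : Fin.rev ∘ Fin.rev ∘ u = u := by funext i; simp
  rw [this]; simp [sg]

theorem shape_stair_R (m : ℕ) : Shape (stair m) (stR (m := m)) stC := by
  simpa [stair_transpose] using (shape_stair m).transpose

/-- **Tall case** -/
theorem sees_stV_tall (m : ℕ) (ν : YoungDiagram)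
    (h : Sees (dl fun p : St m => (stC p).rev) ν.transpose) : Sees (stV m) ν := by
  obtain ⟨g, hg, eg⟩ := exists_sign_R m
  obtain ⟨k, hk, ek⟩ := exists_sign_C m
  have s1 : Sub (stV m) (inn (pt (stR (m := m)) stC) (pt stC stL)) := by
    have e : pb (Prod.map Fin.rev id) (stV m) =
        sg g • inn (pt (stR (m := m)) stC) (pt stC stL) := by
      funext u
      have := pt_rev stR stC hg eg (fun i => (u i).1)
      simp only [pb_apply, stV, inn, Pi.smul_apply, smul_eq_mul]
      rw [← mul_assoc, ← this]; rfl
    intro μ hμ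
    apply sub_pb (Prod.map Fin.rev id)
    rwa [e, sees_smul (sg_ne_zero g)]
  have s2 := (shape_stair m).sub_twist (z := pt stC stL) (fun σ hσ => act_pt_cg hσ _)
  have s3 : Sub (inn (pt stC stR) (pt (stC (m := m)) stL)) (orbW (stC (m := m)) stR) := by
    have e : pb (fun a : Fin m => (a, a.rev)) (inn (pt stC stR) (pt (stC (m := m)) stL)) =
        sg k • orbW (stC (m := m)) stR := by
      funext u
      have := pt_rev stC stR hk ek u
      simp only [pb_apply, inn, Pi.smul_apply, smul_eq_mul, orbW]
      rw [← EZ_mul_self (shape_stair m).inj]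
      push_cast
      rw [← pt_eq_EZ]
      change pt stC stR u * pt stC stL (Fin.rev ∘ u) = _
      rw [this]; ring
    intro μ hμ
    apply sub_pb (fun a : Fin m => (a, a.rev))
    rwa [e, sees_smul (sg_ne_zero k)]
  exact s1 ν (sees_inn_sv.1 (s2 _ (s3 _ (chain_all m _ h))))

theorem cnt_rev_stC (m : ℕ) (a : Fin m) : cnt (fun p : St m => (stC p).rev) a ≤ a.1 + 1 := by
  rw [← Finset.card_range (a.1 + 1)]
  refine cnt_le_of_injOn _ _ _ (fun p => (stR p).1) ?_ ?_
  · intro p hp
    have h1 := congrArg Fin.val hp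
    have := p.2
    simp only [Finset.mem_range, stC, stR, Fin.val_rev] at *; omega
  · intro p p' hp hp' he
    have h1 := congrArg Fin.val hp
    have h2 := congrArg Fin.val hp'
    have := p.2
    have := p'.2
    refine St.ext' he ?_
    simp only [stC, stR, Fin.val_rev] at *; omega

theorem sum_top_le (m : ℕ) (S : Finset (Fin m)) :
    2 * ∑ a ∈ S, (a.1 + 1) + S.card * S.card ≤ 2 * S.card * m + S.card := by
  have h1 := sum_range_card_le (S.image fun a : Fin m => m - 1 - a.1)
  have hinj : Set.InjOn (fun a : Fin m => m - 1 - a.1) S := by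
    intro a _ b _ h; have := a.2; have := b.2; ext; simp only at h; omega
  rw [Finset.card_image_of_injOn hinj, Finset.sum_image hinj] at h1
  have h2 := Finset.sum_range_id_mul_two S.card
  have h3 : ∑ a ∈ S, (a.1 + 1) + ∑ a ∈ S, (m - 1 - a.1) = S.card * m := by
    rw [← Finset.sum_add_distrib, Finset.sum_congr rfl (g := fun _ => m)]
    · rw [Finset.sum_const, smul_eq_mul]
    · intro a _; have := a.2; omega
  rcases Nat.eq_zero_or_pos S.card with h0 | h0
  · rw [Finset.card_eq_zero.1 h0]; simp
  · obtain ⟨t, ht⟩ : ∃ t, S.card = t + 1 := ⟨S.card - 1, by omega⟩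
    rw [ht] at h1 h2 h3 ⊢
    simp only [Nat.add_sub_cancel] at h2
    nlinarith

theorem sees_stV_of_small (m : ℕ) (ν : YoungDiagram) (hc : 2 * ν.card = m * (m + 1))
    (h1 : ν.rowLen 0 < m)
    (h4 : ν.rowLen 0 + ν.rowLen 1 + ν.rowLen 2 + ν.rowLen 3 + 2 ≤ 2 * m) : Sees (stV m) ν := by
  apply sees_stV_tall
  have hN : ν.colLen 0 ≤ ν.colLen 0 := le_rfl
  have e : ν.transpose = ofCols fun r : Fin (ν.colLen 0) => ν.rowLen r := by
    conv_lhs => rw [← ofCols_rowLen ν hN]
    simp
  rw [e]
  have hsum := card_eq_sum_rowLen ν hN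
  refine sees_dl_cols _ ?_ fun S => ?_
  · have := card_St m
    rw [Finset.sum_range] at hsum; omega
  · have a1 := caseC_ineq m (ν.colLen 0) ν.rowLen (fun a b h => ν.rowLen_anti a b h)
      (by omega) h1 h4 S.card (by simpa using Finset.card_le_univ S)
    have a2 := sum_top_le m S
    have a3 : ∑ a ∈ S, cnt (fun p : St m => (stC p).rev) a ≤ ∑ a ∈ S, (a.1 + 1) :=
      Finset.sum_le_sum fun a _ => cnt_rev_stC m a
    rw [Finset.sum_range] at a1
    omega

/-- **Saxl**: the staircase table vector sees every shape. -/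
theorem full_stV (m : ℕ) : Full (stV m) := by
  induction m using Nat.strong_induction_on with
  | _ m ih =>
  intro ν hν
  have hc : 2 * ν.card = m * (m + 1) := by rw [hν, card_St]
  set h : Fin (ν.rowLen 0) → ℕ := fun c => ν.colLen c with hh
  have hν' : ofCols h = ν := ofCols_colLen ν le_rfl
  have hsum : ∑ c, h c = ν.card := by rw [← card_ofCols, hν']
  have split : ∀ q : Fin (ν.rowLen 0) → ℕ, (∀ c, q c ≤ h c) → ν = ofCols ((fun c => h c - q c) + q) ∧
      (ofCols fun c => h c - q c).card + ∑ c, q c = ν.card := by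
    intro q hq
    have e : (fun c => h c - q c) + q = h := by funext c; have := hq c; simp; omega
    refine ⟨by rw [e, hν'], ?_⟩
    rw [card_ofCols, ← Finset.sum_add_distrib, ← hsum]
    exact Finset.sum_congr rfl fun c _ => congrFun e c
  have hmin : ∀ k, ∑ c, min (h c) k = ∑ r ∈ range k, ν.rowLen r := by
    intro k; rw [← sum_rowLen_ofCols, hν']
  rcases m with _ | m
  · have : IsEmpty (St 0) := ⟨fun p => p.1.1.elim0⟩
    obtain ⟨T, hT⟩ := exists_isTab hν
    refine ⟨T, hT, fun _ _ => 0, ?_⟩
    simp [ip, stV, inn, pt, E, cdet]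
  by_cases hA : m + 1 ≤ ν.rowLen 0
  · obtain ⟨q, hq, hs⟩ := exists_le_sum_eq (fun c => min (h c) 1) (m + 1) (by simpa [hmin] using hA)
    obtain ⟨w, hw, hsub⟩ := sub_stV₁ m
    obtain ⟨e1, e2⟩ := split q fun c => (hq c).trans (min_le_left _ _)
    apply hsub
    rw [e1]
    refine sees_ox_cols _ _ (ih m (by omega) _ ?_)
      (sees_row hw q (fun c => (hq c).trans (min_le_right _ _)) (by simpa using hs))
    have := card_St m
    nlinarith
  by_cases hB : 2 * m + 1 ≤ ∑ r ∈ range 4, ν.rowLen r
  · rcases m with _ | m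
    · exfalso
      have h0 : ν.rowLen 0 = 0 := by omega
      have := card_eq_sum_colLen ν (N := 0) h0.le
      simp only [Finset.range_zero, Finset.sum_empty] at this; omega
    obtain ⟨q, hq, hs⟩ := exists_le_sum_eq (fun c => min (h c) 4) (2 * (m + 1) + 1)
      (by rw [hmin]; exact hB)
    obtain ⟨e1, e2⟩ := split q fun c => (hq c).trans (min_le_left _ _)
    apply sub_stV₂ m
    rw [e1]
    refine sees_ox_cols _ _ (ih m (by omega) _ ?_)
      (sees_path _ _ (by rw [card_ofCols, hs])
        (colLen_ofCols_le _ fun c => (hq c).trans (min_le_right _ _)))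
    have := card_St m
    nlinarith
  · simp only [Finset.sum_range_succ, Finset.sum_range_zero] at hB
    exact sees_stV_of_small _ ν hc (by omega) (by omega)

theorem shape_stair_RL (m : ℕ) : Shape (stair m) (stR (m := m)) (Fin.rev ∘ stL) := by
  obtain ⟨g, hg, eg⟩ := exists_sign_R m
  have := (shape_stair_R m).comp_equiv g
  rw [eg]
  exact this.congr (fun i j => by simp [mem_blockGrp.1 hg]) fun _ _ => Iff.rfl

theorem shape_stair_CL (m : ℕ) : Shape (stair m) (stC (m := m)) (Fin.rev ∘ stL) := by
  obtain ⟨g, hg, eg⟩ := exists_sign_C m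
  have := (shape_stair m).comp_equiv g
  rw [eg]
  exact this.congr (fun i j => by simp [mem_blockGrp.1 hg]) fun _ _ => Iff.rfl

theorem kron_stair (m : ℕ) (ν : YoungDiagram) (hν : ν.card = (stair m).card) :
    Kron (stair m) (stair m) ν :=
  Kron.intro ((shape_stair_RL m).congr (fun _ _ => Iff.rfl) (fun _ _ => by simp))
    ((shape_stair_CL m).congr (fun _ _ => Iff.rfl) (fun _ _ => by simp))
    (full_stV m ν (hν.trans (shape_stair m).card))

end Crest.Agent.R195
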