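import Crest.Agent.R195.Basic

/-!
# R195 / Shape : tableaux, shapes, `ofCols`, Gale–Ryser
-/

set_option autoImplicit false
open Finset

noncomputable section
namespace Crest.Agent.R195

variable {ι ι' ι₀ ι₁ A C C' D L L' : Type} {ν : YoungDiagram}

theorem IsTab.shape {T : ι → ℕ × ℕ} (h : IsTab ν T) :
    Shape ν (fun i => (T i).2) (fun i => (T i).1) := ⟨T, h, fun _ _ => Iff.rfl, fun _ _ => Iff.rfl⟩
theorem IsTab.comp_equiv {T : ι → ℕ × ℕ} (h : IsTab ν T) (e : ι' ≃ ι) : IsTab ν (T ∘ e) := by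
  refine ⟨h.1.comp e.injective, fun c => (h.2 c).trans ⟨?_, ?_⟩⟩
  · rintro ⟨i, rfl⟩
    exact ⟨e.symm i, by simp⟩
  · rintro ⟨i, rfl⟩
    exact ⟨e i, rfl⟩
/-- two tableaux of the same shape differ by a bijection -/
theorem IsTab.exists_equiv {T : ι → ℕ × ℕ} {T' : ι' → ℕ × ℕ} (h : IsTab ν T) (h' : IsTab ν T') :
    ∃ e : ι' ≃ ι, T' = T ∘ e := by
  have hr : Set.range T' = Set.range T := Set.ext fun c => (h'.2 c).symm.trans (h.2 c)
  refine ⟨((Equiv.ofInjective T' h'.1).trans (Equiv.setCongr hr)).trans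
    (Equiv.ofInjective T h.1).symm, funext fun i => ?_⟩
  simp only [Function.comp_apply, Equiv.trans_apply]
  rw [Equiv.apply_ofInjective_symm h.1]
  rfl
theorem IsTab.transpose {T : ι → ℕ × ℕ} (h : IsTab ν T) :
    IsTab ν.transpose fun i => (T i).swap := by
  refine ⟨Prod.swap_injective.comp h.1, fun c => ?_⟩
  rw [YoungDiagram.mem_transpose, h.2]
  exact exists_congr fun i => Prod.swap_eq_iff_eq_swap.symm
theorem Shape.inj {col : ι → C} {lab : ι → L} (h : Shape ν col lab) :
    ∀ i j, col i = col j → lab i = lab j → i = j := by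
  obtain ⟨T, hT, h1, h2⟩ := h
  exact fun i j hc hl => hT.1 (Prod.ext ((h2 i j).1 hl) ((h1 i j).1 hc))
theorem Shape.transpose {col : ι → C} {lab : ι → L} (h : Shape ν col lab) :
    Shape ν.transpose lab col := by
  obtain ⟨T, hT, h1, h2⟩ := h
  exact ⟨_, hT.transpose, h2, h1⟩
theorem Shape.comp_equiv {col : ι → C} {lab : ι → L} (h : Shape ν col lab) (e : ι' ≃ ι) :
    Shape ν (col ∘ e) (lab ∘ e) := by
  obtain ⟨T, hT, h1, h2⟩ := h
  exact ⟨_, hT.comp_equiv e, fun i j => h1 _ _, fun i j => h2 _ _⟩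
theorem Shape.congr {col : ι → C} {lab : ι → L} {col' : ι → C'} {lab' : ι → L'}
    (h : Shape ν col lab) (hc : ∀ i j, col i = col j ↔ col' i = col' j)
    (hl : ∀ i j, lab i = lab j ↔ lab' i = lab' j) : Shape ν col' lab' := by
  obtain ⟨T, hT, h1, h2⟩ := h
  exact ⟨T, hT, fun i j => (hc i j).symm.trans (h1 i j), fun i j => (hl i j).symm.trans (h2 i j)⟩
theorem card_transpose (ν : YoungDiagram) : ν.transpose.card = ν.card := by
  simp [YoungDiagram.card, YoungDiagram.transpose]
theorem ext_rowLen {μ ν : YoungDiagram} (h : ∀ r, μ.rowLen r = ν.rowLen r) : μ = ν := by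
  ext ⟨i, j⟩
  rw [YoungDiagram.mem_cells, YoungDiagram.mem_cells, YoungDiagram.mem_iff_lt_rowLen,
    YoungDiagram.mem_iff_lt_rowLen, h]
theorem card_eq_sum_rowLen (ν : YoungDiagram) {N : ℕ} (hN : ν.colLen 0 ≤ N) :
    ν.card = ∑ r ∈ range N, ν.rowLen r := by
  rw [YoungDiagram.card, card_eq_sum_card_fiberwise (f := Prod.fst) (t := range N)]
  · exact sum_congr rfl fun r _ => (ν.rowLen_eq_card).symm
  · rintro ⟨i, j⟩ hc
    have h1 : (i, 0) ∈ ν := ν.up_left_mem le_rfl (Nat.zero_le j) hc
    exact mem_coe.2 (mem_range.2 ((YoungDiagram.mem_iff_lt_colLen.1 h1).trans_le hN))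
theorem card_eq_sum_colLen (ν : YoungDiagram) {N : ℕ} (hN : ν.rowLen 0 ≤ N) :
    ν.card = ∑ c ∈ range N, ν.colLen c := by
  rw [← card_transpose, card_eq_sum_rowLen ν.transpose (N := N) (by simpa using hN)]
  simp
theorem colLen_le_card (ν : YoungDiagram) (c : ℕ) : ν.colLen c ≤ ν.card := by
  rw [ν.colLen_eq_card]
  exact card_le_card (filter_subset _ _)
theorem rowLen_le_card (ν : YoungDiagram) (r : ℕ) : ν.rowLen r ≤ ν.card := by
  rw [ν.rowLen_eq_card]
  exact card_le_card (filter_subset _ _)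

section ofCols
variable [Fintype C] [Fintype D]

theorem rowLen_ofCols (h : C → ℕ) (r : ℕ) :
    (ofCols h).rowLen r = (univ.filter fun c => r < h c).card := by
  refine eq_of_forall_lt_iff fun j => ?_
  rw [← YoungDiagram.mem_iff_lt_rowLen, ← YoungDiagram.mem_cells]
  simp only [ofCols, mem_filter, mem_product, mem_range, and_iff_right_iff_imp]
  intro hj
  refine ⟨?_, hj.trans_le (card_le_univ _)⟩
  obtain ⟨c, hc⟩ := card_pos.1 (Nat.zero_lt_of_lt hj)
  exact (mem_filter.1 hc).2.trans_le (single_le_sum (fun c _ => Nat.zero_le (h c)) (mem_univ c))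
theorem mem_ofCols (h : C → ℕ) (r j : ℕ) :
    (r, j) ∈ ofCols h ↔ j < (univ.filter fun c => r < h c).card := by
  rw [YoungDiagram.mem_iff_lt_rowLen, rowLen_ofCols]
theorem card_ofCols (h : C → ℕ) : (ofCols h).card = ∑ c, h c := by
  have hN : (ofCols h).colLen 0 ≤ ∑ c, h c := by
    refine not_lt.1 fun hlt => ?_
    obtain ⟨c, hc⟩ := card_pos.1 ((mem_ofCols h _ _).1 (YoungDiagram.mem_iff_lt_colLen.2 hlt))
    exact absurd (mem_filter.1 hc).2
      (not_lt.2 (single_le_sum (fun c _ => Nat.zero_le (h c)) (mem_univ c)))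
  rw [card_eq_sum_rowLen _ hN]
  simp only [rowLen_ofCols, card_filter]
  rw [sum_comm]
  refine sum_congr rfl fun c _ => ?_
  have hc : h c ≤ ∑ c, h c := single_le_sum (fun c _ => Nat.zero_le (h c)) (mem_univ c)
  rw [← card_filter]
  refine Eq.trans (congrArg card ?_) (card_range (h c))
  ext r
  simp only [mem_filter, mem_range]
  omega
theorem ofCols_colLen (ν : YoungDiagram) {N : ℕ} (hN : ν.rowLen 0 ≤ N) :
    ofCols (fun c : Fin N => ν.colLen c) = ν := by
  refine ext_rowLen fun r => ?_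
  have h1 : ν.rowLen r ≤ N := (ν.rowLen_anti 0 r (Nat.zero_le r)).trans hN
  rw [rowLen_ofCols]
  simp only [← YoungDiagram.mem_iff_lt_colLen, YoungDiagram.mem_iff_lt_rowLen]
  rw [Fin.card_filter_val_lt, min_eq_right h1]
theorem ofCols_rowLen (ν : YoungDiagram) {N : ℕ} (hN : ν.colLen 0 ≤ N) :
    (ofCols fun r : Fin N => ν.rowLen r).transpose = ν := by
  have h1 := ofCols_colLen ν.transpose (N := N) (by simpa using hN)
  simp only [YoungDiagram.colLen_transpose] at h1
  rw [h1, YoungDiagram.transpose_transpose]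
theorem colLen_ofCols_le (h : C → ℕ) {k : ℕ} (hk : ∀ c, h c ≤ k) : (ofCols h).colLen 0 ≤ k := by
  refine not_lt.1 fun hlt => ?_
  obtain ⟨c, hc⟩ := card_pos.1 ((mem_ofCols h _ _).1 (YoungDiagram.mem_iff_lt_colLen.2 hlt))
  exact absurd (mem_filter.1 hc).2 (not_lt.2 (hk c))
/-- an antitone family is read off directly -/
theorem colLen_ofCols_anti {N : ℕ} {h : Fin N → ℕ} (hh : Antitone h) (c : Fin N) :
    (ofCols h).colLen c = h c := by
  refine eq_of_forall_lt_iff fun r => ?_
  rw [← YoungDiagram.mem_iff_lt_colLen, mem_ofCols]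
  constructor
  · intro h1
    by_contra h2
    have h3 : (univ.filter fun c' => r < h c') ⊆ Iio c := fun c' hc' =>
      mem_Iio.2 (not_le.1 fun h4 => h2 ((mem_filter.1 hc').2.trans_le (hh h4)))
    have h4 := card_le_card h3
    rw [Fin.card_Iio] at h4
    omega
  · intro h1
    have h3 : Iic c ⊆ (univ.filter fun c' => r < h c') := fun c' hc' =>
      mem_filter.2 ⟨mem_univ _, h1.trans_le (hh (mem_Iic.1 hc'))⟩
    have h4 := card_le_card h3
    rw [Fin.card_Iic] at h4
    omega
theorem ofCols_comp_equiv (h : C → ℕ) (e : D ≃ C) : ofCols (h ∘ e) = ofCols h := by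
  refine ext_rowLen fun r => ?_
  rw [rowLen_ofCols, rowLen_ofCols]
  exact card_equiv e fun d => by simp
theorem rowLen_ofCols_elim (h : C → ℕ) (h' : D → ℕ) (r : ℕ) :
    (ofCols (Sum.elim h h')).rowLen r = (ofCols h).rowLen r + (ofCols h').rowLen r := by
  simp only [rowLen_ofCols, card_filter, Fintype.sum_sum_type]
  rfl

end ofCols

/-- the canonical column system with heights `h` -/
theorem shape_sigma [Fintype C] (h : C → ℕ) :
    Shape (ofCols h) (fun x : Σ c, Fin (h c) => x.1) (fun x => (x.2 : ℕ)) := by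
  obtain ⟨e, he⟩ : ∃ e : Fin (Fintype.card C) ≃ C, Antitone (h ∘ e) :=
    ⟨(Tuple.sort (OrderDual.toDual ∘ h ∘ (Fintype.equivFin C).symm)).trans
      (Fintype.equivFin C).symm,
      Tuple.monotone_sort (OrderDual.toDual ∘ h ∘ (Fintype.equivFin C).symm)⟩
  have hcol : ∀ c, (ofCols h).colLen c.1 = h (e c) := fun c => by
    rw [← ofCols_comp_equiv h e]
    exact colLen_ofCols_anti he c
  refine ⟨fun x => (x.2, e.symm x.1), ⟨?_, ?_⟩, fun i j => ?_, fun _ _ => Iff.rfl⟩
  · rintro ⟨c, r⟩ ⟨c', r'⟩ hx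
    simp only [Prod.mk.injEq, Fin.val_inj, EmbeddingLike.apply_eq_iff_eq] at hx
    obtain ⟨h1, rfl⟩ := hx
    rw [Fin.ext h1]
  · rintro ⟨r, j⟩
    constructor
    · intro hm
      have hj : j < Fintype.card C := ((mem_ofCols h r j).1 hm).trans_le (card_le_univ _)
      have hr : r < h (e ⟨j, hj⟩) := by
        rw [← hcol]
        exact YoungDiagram.mem_iff_lt_colLen.1 hm
      exact ⟨⟨e ⟨j, hj⟩, ⟨r, hr⟩⟩, by simp⟩
    · rintro ⟨⟨c, r'⟩, hx⟩
      rw [← hx, YoungDiagram.mem_iff_lt_colLen, hcol, Equiv.apply_symm_apply]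
      exact r'.2
  · simp only [Fin.val_inj, EmbeddingLike.apply_eq_iff_eq]

variable [Fintype ι] [DecidableEq ι]

theorem IsTab.card {T : ι → ℕ × ℕ} (h : IsTab ν T) : ν.card = Fintype.card ι := by
  have e : ν.cells = univ.image T := by
    ext c
    simp [h.2 c]
  rw [YoungDiagram.card, e, card_image_of_injective _ h.1, card_univ]
theorem Shape.card {col : ι → C} {lab : ι → L} (h : Shape ν col lab) : ν.card = Fintype.card ι := by
  obtain ⟨T, hT, -⟩ := h
  exact hT.card
theorem exists_isTab (h : ν.card = Fintype.card ι) : ∃ T : ι → ℕ × ℕ, IsTab ν T := by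
  let e : ι ≃ ν.cells := Fintype.equivOfCardEq (by rw [Fintype.card_coe, ← h])
  refine ⟨fun i => e i, Subtype.val_injective.comp e.injective, fun c => ⟨fun hc => ?_, ?_⟩⟩
  · exact ⟨e.symm ⟨c, hc⟩, by simp⟩
  · rintro ⟨i, rfl⟩
    exact (e i).2
/-- a tableau with labels in a finite alphabet -/
theorem exists_shape_fin (h : ν.card = Fintype.card ι) {N : ℕ} (hN : ν.colLen 0 ≤ N) :
    ∃ (col : ι → ℕ) (lab : ι → Fin N), IsTab ν fun i => (lab i, col i) := by
  obtain ⟨T, hT⟩ := exists_isTab h
  exact ⟨fun i => (T i).2, fun i => ⟨(T i).1, (YoungDiagram.mem_iff_lt_colLen.1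
    ((hT.2 (T i)).2 ⟨i, rfl⟩)).trans_le ((ν.colLen_anti _ _ (Nat.zero_le _)).trans hN)⟩, hT⟩
omit [DecidableEq ι] in
theorem shapeb_cnt [DecidableEq A] (u : ι → A) (a : A) :
    cnt u a = (univ.filter fun i => u i = a).card := by
  rw [cnt]
  congr

theorem IsTab.cnt_row {T : ι → ℕ × ℕ} (h : IsTab ν T) (r : ℕ) :
    cnt (fun i => (T i).1) r = ν.rowLen r := by
  rw [YoungDiagram.rowLen_eq_card, shapeb_cnt]
  refine card_bij (fun i _ => T i) (fun i hi => ?_) (fun i _ j _ e => h.1 e) fun c hc => ?_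
  · exact YoungDiagram.mem_row_iff.2 ⟨(h.2 _).2 ⟨i, rfl⟩, (mem_filter.1 hi).2⟩
  · obtain ⟨h1, h2⟩ := YoungDiagram.mem_row_iff.1 hc
    obtain ⟨i, rfl⟩ := (h.2 _).1 h1
    exact ⟨i, mem_filter.2 ⟨mem_univ _, h2⟩, rfl⟩
theorem IsTab.cnt_col {T : ι → ℕ × ℕ} (h : IsTab ν T) (c : ℕ) :
    cnt (fun i => (T i).2) c = ν.colLen c := by
  rw [YoungDiagram.colLen_eq_card, shapeb_cnt]
  refine card_bij (fun i _ => T i) (fun i hi => ?_) (fun i _ j _ e => h.1 e) fun c hc => ?_
  · exact YoungDiagram.mem_col_iff.2 ⟨(h.2 _).2 ⟨i, rfl⟩, (mem_filter.1 hi).2⟩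
  · obtain ⟨h1, h2⟩ := YoungDiagram.mem_col_iff.1 hc
    obtain ⟨i, rfl⟩ := (h.2 _).1 h1
    exact ⟨i, mem_filter.2 ⟨mem_univ _, h2⟩, rfl⟩

theorem shapeb_lt {col : ι → C} {lab : ι → ℕ}
    (hinj : ∀ i j, col i = col j → lab i = lab j → i = j)
    (hdown : ∀ i r, r < lab i → ∃ j, col j = col i ∧ lab j = r) (c : C) (r : ℕ) :
    r < cnt col c ↔ ∃ i, col i = c ∧ lab i = r := by
  classical
  have h1 : ((univ.filter fun i => col i = c).image lab).card = cnt col c := by
    rw [card_image_of_injOn fun i hi j hj e =>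
      hinj i j ((mem_filter.1 hi).2.trans (mem_filter.1 hj).2.symm) e, cnt]
  have h2 : (univ.filter fun i => col i = c).image lab = range (cnt col c) := by
    refine eq_of_subset_of_card_le (fun x hx => ?_) (by rw [card_range, h1])
    rw [mem_range, ← h1, ← Nat.succ_le_iff, ← card_range x.succ]
    refine card_le_card fun y hy => ?_
    rcases (Nat.lt_succ_iff.1 (mem_range.1 hy)).eq_or_lt with rfl | hy
    · exact hx
    · obtain ⟨i, hi, rfl⟩ := mem_image.1 hx
      obtain ⟨j, hj, rfl⟩ := hdown i y hy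
      exact mem_image_of_mem _ (mem_filter.2 ⟨mem_univ _, hj.trans (mem_filter.1 hi).2⟩)
  rw [← mem_range, ← h2]
  simp

theorem shapeb_ofCols [Fintype C] {col : ι → C} {lab : ι → ℕ}
    (hinj : ∀ i j, col i = col j → lab i = lab j → i = j)
    (hdown : ∀ i r, r < lab i → ∃ j, col j = col i ∧ lab j = r) :
    Shape (ofCols (cnt col)) col lab ∧ ∀ r, cnt lab r = (ofCols (cnt col)).rowLen r := by
  have h := shapeb_lt hinj hdown
  refine ⟨(shape_sigma (cnt col)).comp_equiv (Equiv.ofBijective
    (fun i => ⟨col i, lab i, (h _ _).2 ⟨i, rfl, rfl⟩⟩) ⟨fun i j e => ?_, ?_⟩), fun r => ?_⟩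
  · exact hinj i j (congrArg (·.1) e) (congrArg (fun x : Σ c, Fin (cnt col c) => (x.2 : ℕ)) e)
  · rintro ⟨c, r, hr⟩
    obtain ⟨i, rfl, rfl⟩ := (h _ _).1 hr
    exact ⟨i, rfl⟩
  · rw [rowLen_ofCols, shapeb_cnt]
    refine card_bij (fun i _ => col i) (fun i hi => ?_) (fun i hi j hj e => ?_) fun c hc => ?_
    · exact mem_filter.2 ⟨mem_univ _, (h _ _).2 ⟨i, rfl, (mem_filter.1 hi).2⟩⟩
    · exact hinj i j e ((mem_filter.1 hi).2.trans (mem_filter.1 hj).2.symm)
    · obtain ⟨i, h1, h2⟩ := (h _ _).1 (mem_filter.1 hc).2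
      exact ⟨i, mem_filter.2 ⟨mem_univ _, h2⟩, h1⟩

/-- STRAIGHT SYSTEMS.  Put `ht c = cnt col c`; in column `c` the labels are exactly `0, …, ht c - 1`.
Order the (finitely many) used columns by decreasing height (`γ c` = number of used columns that are
higher, or equally high and earlier in some fixed linear order); `T i = (lab i, γ (col i))`. -/
theorem shape_of_straight {col : ι → C} {lab : ι → ℕ}
    (hinj : ∀ i j, col i = col j → lab i = lab j → i = j)
    (hdown : ∀ i r, r < lab i → ∃ j, col j = col i ∧ lab j = r)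
    (hrow : ∀ r, cnt lab r = ν.rowLen r) : Shape ν col lab := by
  have := Fintype.ofFinite (Set.range col)
  obtain ⟨h1, h2⟩ := shapeb_ofCols (col := fun i => (⟨col i, i, rfl⟩ : Set.range col)) (lab := lab)
    (fun i j e => hinj i j (congrArg Subtype.val e)) fun i r hr => by
      obtain ⟨j, hj, hj'⟩ := hdown i r hr
      exact ⟨j, Subtype.ext hj, hj'⟩
  rw [ext_rowLen fun r => (h2 r).symm.trans (hrow r)] at h1
  exact h1.congr (fun i j => Subtype.ext_iff) fun _ _ => Iff.rfl

theorem shape_ofCols [Fintype C] {col : ι → C} {lab : ι → ℕ}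
    (hinj : ∀ i j, col i = col j → lab i = lab j → i = j)
    (hdown : ∀ i r, r < lab i → ∃ j, col j = col i ∧ lab j = r) :
    Shape (ofCols (cnt col)) col lab := by
  exact (shapeb_ofCols hinj hdown).1

/-- any column system can be labelled straight -/
theorem exists_straight (col : ι → C) : ∃ lab : ι → ℕ,
    (∀ i j, col i = col j → lab i = lab j → i = j) ∧
    (∀ i r, r < lab i → ∃ j, col j = col i ∧ lab j = r) ∧ ∀ i, lab i < cnt col (col i) := by
  classical
  have e : ∀ c, {i // col i = c} ≃ Fin (cnt col c) := fun c =>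
    Fintype.equivFinOfCardEq (by rw [Fintype.card_subtype, cnt])
  have he : ∀ i c (h : col i = c), (e (col i) ⟨i, rfl⟩ : ℕ) = e c ⟨i, h⟩ := by
    rintro i c rfl
    rfl
  refine ⟨fun i => e (col i) ⟨i, rfl⟩, fun i j h h' => ?_, fun i r hr => ?_, fun i => (e _ _).2⟩
  · simp only [he i _ h] at h'
    exact congrArg Subtype.val ((e _).injective (Fin.ext h'))
  · obtain ⟨⟨j, hj⟩, h⟩ := (e (col i)).surjective ⟨r, hr.trans (e _ _).2⟩
    exact ⟨j, hj, (he j _ hj).trans (congrArg Fin.val h)⟩

omit [DecidableEq ι] in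
theorem shapec_cnt_nat (f : ι → ℕ) (a : ℕ) :
    cnt f a = (univ.filter fun i => f i = a).card := by
  unfold cnt
  congr

omit [DecidableEq ι] in
open Classical in
theorem shapec_sum_cnt (u : ι → A) (S : Finset A) :
    ∑ a ∈ S, cnt u a = (univ.filter fun i => u i ∈ S).card := by
  rw [card_eq_sum_card_fiberwise (f := u) (s := univ.filter fun i => u i ∈ S) (t := S)
    (fun i hi => (mem_filter.1 (mem_coe.1 hi)).2)]
  refine sum_congr rfl fun a ha => ?_
  unfold cnt
  congr 1
  ext i
  simp only [mem_filter, mem_univ, true_and]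
  exact ⟨fun h => ⟨h ▸ ha, h⟩, fun h => h.2⟩

omit [DecidableEq ι] in
theorem shapec_sum_range (f : ι → ℕ) (k : ℕ) :
    ∑ r ∈ range k, cnt f r = (univ.filter fun i => f i < k).card := by
  rw [shapec_sum_cnt]
  congr 1
  ext i
  simp only [mem_filter, mem_univ, true_and, mem_range]

theorem shapec_sum_rowLen {T : ι → ℕ × ℕ} (h : IsTab ν T) (k : ℕ) :
    ∑ r ∈ range k, ν.rowLen r = ∑ r ∈ range k, cnt (fun i => (T i).1) r :=
  sum_congr rfl fun r _ => (h.cnt_row r).symm

/-- if the letters of `u` are distinct in each column of a tableau, the content of `u` is dominated -/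
theorem IsTab.dom_of_inj {T : ι → ℕ × ℕ} (h : IsTab ν T) {u : ι → A}
    (hu : ∀ i j, (T i).2 = (T j).2 → u i = u j → i = j) (S : Finset A) :
    ∑ a ∈ S, cnt u a ≤ ∑ r ∈ range S.card, ν.rowLen r := by
  classical
  rw [shapec_sum_rowLen h, shapec_sum_range, shapec_sum_cnt,
    card_eq_sum_card_fiberwise (f := fun i => (T i).2) (t := univ.image fun i => (T i).2)
      (fun i _ => mem_coe.2 (mem_image_of_mem _ (mem_univ i))),
    card_eq_sum_card_fiberwise (s := univ.filter fun i => (T i).1 < S.card)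
      (f := fun i => (T i).2) (t := univ.image fun i => (T i).2)
      (fun i _ => mem_coe.2 (mem_image_of_mem _ (mem_univ i)))]
  refine sum_le_sum fun c _ => ?_
  by_cases hc : ∃ i, (T i).2 = c ∧ S.card ≤ (T i).1
  · obtain ⟨i₀, hi₀, hk⟩ := hc
    refine le_trans (b := S.card) ?_ ?_
    · refine card_le_card_of_injOn u (fun i hi => ?_) (fun i hi j hj hij => ?_)
      · simp only [coe_filter, mem_filter, mem_univ, true_and, Set.mem_ofPred_eq] at hi
        exact hi.1
      · simp only [coe_filter, mem_filter, mem_univ, true_and, Set.mem_ofPred_eq] at hi hj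
        exact hu i j (hi.2.trans hj.2.symm) hij
    · conv_lhs => rw [← card_range S.card]
      refine card_le_card_of_surjOn (fun i => (T i).1) fun r hr => ?_
      have hr' : r < S.card := mem_range.1 (mem_coe.1 hr)
      have h1 : T i₀ ∈ ν := (h.2 _).2 ⟨i₀, rfl⟩
      have h2 : (r, c) ∈ ν := ν.up_left_mem (i2 := (T i₀).1) (j2 := (T i₀).2) (by omega)
        hi₀.ge h1
      obtain ⟨i, hi⟩ := (h.2 _).1 h2
      refine ⟨i, ?_, by simp [hi]⟩
      simp [hi, hr']
  · push Not at hc
    refine card_le_card fun i hi => ?_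
    simp only [mem_filter, mem_univ, true_and] at hi ⊢
    exact ⟨hc i hi.2, hi.2⟩

theorem shapec_core (col : ι → C) (u : ι → ℕ) (hθ : Antitone (cnt u)) {K : ℕ} (hK : ∀ i, u i < K)
    (n : ℕ) : ∀ f : ι → ℕ, ∑ i, (K - f i) = n → (∀ i j, col i = col j → f i = f j → i = j) →
      (∀ k, ∑ r ∈ range k, cnt u r ≤ ∑ r ∈ range k, cnt f r) →
      ∃ f' : ι → ℕ, (∀ i j, col i = col j → f' i = f' j → i = j) ∧ ∀ a, cnt f' a = cnt u a := by
  classical
  induction n using Nat.strong_induction_on with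
  | _ n ih =>
  intro f hn hf hd
  by_cases hne : ∃ r, cnt f r ≠ cnt u r
  swap
  · push Not at hne
    exact ⟨f, hf, hne⟩
  obtain ⟨a, ha, hamin⟩ : ∃ a, cnt f a ≠ cnt u a ∧ ∀ r < a, cnt f r = cnt u r :=
    ⟨Nat.find hne, Nat.find_spec hne, fun r hr => not_not.1 (Nat.find_min hne hr)⟩
  have ha' : cnt u a < cnt f a := by
    have h1 := hd (a + 1)
    have h2 : ∑ r ∈ range a, cnt f r = ∑ r ∈ range a, cnt u r :=
      sum_congr rfl fun r hr => hamin r (mem_range.1 hr)
    rw [sum_range_succ, sum_range_succ, h2] at h1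
    omega
  have hex : ∃ b, cnt f b < cnt u b := by
    by_contra hcon
    push Not at hcon
    have h1 : ∑ r ∈ range (K + a + 1), cnt u r < ∑ r ∈ range (K + a + 1), cnt f r :=
      sum_lt_sum (fun r _ => hcon r) ⟨a, mem_range.2 (by omega), ha'⟩
    rw [shapec_sum_range, shapec_sum_range,
      filter_true_of_mem fun i _ => by have := hK i; omega] at h1
    exact absurd (card_le_card (filter_subset _ _)) (not_le.2 h1)
  obtain ⟨b, hb, hbmin⟩ : ∃ b, cnt f b < cnt u b ∧ ∀ r < b, cnt u r ≤ cnt f r :=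
    ⟨Nat.find hex, Nat.find_spec hex, fun r hr => not_lt.1 (Nat.find_min hex hr)⟩
  have hab : a < b := by
    rcases lt_trichotomy a b with h | h | h
    · exact h
    · subst h; omega
    · have := hamin b h; omega
  have hbK : b < K := by
    have h1 : 0 < cnt u b := by omega
    rw [shapec_cnt_nat] at h1
    obtain ⟨i, hi⟩ := card_pos.1 h1
    have := (mem_filter.1 hi).2
    exact this ▸ hK i
  have hlt : cnt f b < cnt f a := by
    have := hθ hab.le
    omega
  obtain ⟨x, hx, hxb⟩ : ∃ x, f x = a ∧ ∀ y, col y = col x → f y ≠ b := by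
    have h1 : ((univ.filter fun i => f i = b).image col).card <
        ((univ.filter fun i => f i = a).image col).card := by
      rw [card_image_of_injOn (s := univ.filter fun i => f i = a)]
      · refine lt_of_le_of_lt card_image_le ?_
        rwa [shapec_cnt_nat, shapec_cnt_nat] at hlt
      · intro i hi j hj hij
        exact hf i j hij ((mem_filter.1 (mem_coe.1 hi)).2.trans
          (mem_filter.1 (mem_coe.1 hj)).2.symm)
    obtain ⟨c, hc, hc'⟩ := exists_mem_notMem_of_card_lt_card h1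
    obtain ⟨x, hx, rfl⟩ := mem_image.1 hc
    refine ⟨x, (mem_filter.1 hx).2, fun y hy hyb => hc' ?_⟩
    exact mem_image.2 ⟨y, mem_filter.2 ⟨mem_univ y, hyb⟩, hy⟩
  refine ih (∑ i, (K - Function.update f x b i)) ?_ (Function.update f x b) rfl ?_ ?_
  · rw [← hn]
    refine sum_lt_sum (fun i _ => ?_) ⟨x, mem_univ x, ?_⟩
    · by_cases hi : i = x
      · subst hi
        rw [Function.update_self]
        omega
      · rw [Function.update_of_ne hi]
    · rw [Function.update_self]
      omega
  · intro i j hij h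
    by_cases hi : i = x
    · by_cases hj : j = x
      · exact hi.trans hj.symm
      · subst hi
        rw [Function.update_self, Function.update_of_ne hj] at h
        exact absurd h.symm (hxb j hij.symm)
    · by_cases hj : j = x
      · subst hj
        rw [Function.update_self, Function.update_of_ne hi] at h
        exact absurd h (hxb i hij)
      · rw [Function.update_of_ne hi, Function.update_of_ne hj] at h
        exact hf i j hij h
  · intro k
    by_cases hk : a < k ∧ k ≤ b
    · have h1 : ∑ r ∈ range k, cnt u r < ∑ r ∈ range k, cnt f r :=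
        sum_lt_sum (fun r hr => hbmin r (by have := mem_range.1 hr; omega))
          ⟨a, mem_range.2 hk.1, ha'⟩
      have h2 : (univ.filter fun i => f i < k) ⊆
          insert x (univ.filter fun i => Function.update f x b i < k) := by
        intro i hi
        by_cases hix : i = x
        · exact hix ▸ mem_insert_self _ _
        · refine mem_insert_of_mem (mem_filter.2 ⟨mem_univ i, ?_⟩)
          rw [Function.update_of_ne hix]
          exact (mem_filter.1 hi).2
      have h3 := (card_le_card h2).trans (card_insert_le _ _)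
      rw [← shapec_sum_range, ← shapec_sum_range] at h3
      omega
    · refine (hd k).trans ?_
      rw [shapec_sum_range, shapec_sum_range]
      refine card_le_card fun i hi => mem_filter.2 ⟨mem_univ i, ?_⟩
      have h1 := (mem_filter.1 hi).2
      by_cases hix : i = x
      · subst hix
        rw [Function.update_self]
        omega
      · rw [Function.update_of_ne hix]
        exact h1

/-- GALE–RYSER.  Enumerate the letters `e : Fin k ≃ A` with `θ = cnt u ∘ e` antitone (`k ≥` number of rows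
is forced by the hypothesis for `S = univ`).  Fix a tableau `T₀`.  Show by induction on
`∑ a, |cnt f a - θ a|` (or on `∑ a, (cnt f a - θ a)` in `ℕ`): if `f : ι → Fin k` is injective on the columns
of `T₀` and the partial sums of `cnt f` dominate those of `θ`, there is such an `f'` with content `θ`.
Step: `i` = first letter with `cnt f i ≠ θ i` (so `>`), `j` = first letter after `i` with `cnt f j < θ j`;
`cnt f i > θ i ≥ θ j > cnt f j`, so some column contains `i` but not `j`: change that `i` into `j`.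
Start with `f` = row index.  Finally `exists_perm_of_cnt`. -/
theorem gale_ryser [Fintype A] {u : ι → A} (hν : ν.card = Fintype.card ι)
    (h : ∀ S : Finset A, ∑ a ∈ S, cnt u a ≤ ∑ r ∈ range S.card, ν.rowLen r) :
    ∃ T : ι → ℕ × ℕ, IsTab ν T ∧ ∀ i j, (T i).2 = (T j).2 → u i = u j → i = j := by
  classical
  obtain ⟨T₀, hT₀⟩ := exists_isTab hν
  obtain ⟨e, he⟩ : ∃ e : Fin (Fintype.card A) ≃ A, Antitone fun r => cnt u (e r) := by
    let g : Fin (Fintype.card A) → ℕᵒᵈ := fun r =>
      OrderDual.toDual (cnt u ((Fintype.equivFin A).symm r))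
    exact ⟨(Tuple.sort g).trans (Fintype.equivFin A).symm, Tuple.monotone_sort g⟩
  let u' : ι → ℕ := fun i => (e.symm (u i) : ℕ)
  have hcnt : ∀ r : Fin (Fintype.card A), cnt u' r = cnt u (e r) := by
    intro r
    unfold cnt
    congr 1
    ext i
    simp only [mem_filter, mem_univ, true_and, u', Fin.val_inj, Equiv.symm_apply_eq]
  have hθ : Antitone (cnt u') := by
    intro r r' hr
    by_cases h' : r' < Fintype.card A
    · have h1 := hcnt ⟨r, by omega⟩
      have h2 := hcnt ⟨r', h'⟩
      have h3 := he (a := ⟨r, by omega⟩) (b := ⟨r', h'⟩) hr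
      simp only at h1 h2 h3
      omega
    · have : cnt u' r' = 0 := by
        rw [shapec_cnt_nat, card_eq_zero, filter_eq_empty_iff]
        intro i _ hi
        have := (e.symm (u i)).2
        simp only [u'] at hi
        omega
      omega
  obtain ⟨f, hf, hfc⟩ := shapec_core (fun i => (T₀ i).2) u' hθ (K := Fintype.card A)
    (fun i => (e.symm (u i)).2) _ (fun i => (T₀ i).1) rfl
    (fun i j h2 h1 => hT₀.1 (Prod.ext h1 h2)) (by
      intro k
      rw [← shapec_sum_rowLen hT₀, shapec_sum_range]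
      have h1 := h (univ.filter fun a => (e.symm a : ℕ) < k)
      have h2 : (univ.filter fun a => (e.symm a : ℕ) < k).card ≤ k := by
        conv_rhs => rw [← card_range k]
        refine card_le_card_of_injOn (fun a => (e.symm a : ℕ)) (fun a ha => ?_)
          (fun a _ b _ hab => e.symm.injective (Fin.ext hab))
        exact mem_coe.2 (mem_range.2 (mem_filter.1 (mem_coe.1 ha)).2)
      rw [shapec_sum_cnt] at h1
      refine le_trans (le_of_eq ?_) (h1.trans (sum_le_sum_of_subset (range_subset_range.2 h2)))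
      congr 1
      ext i
      simp only [mem_filter, mem_univ, true_and, u'])
  obtain ⟨g, hg⟩ := exists_perm_of_cnt hfc
  refine ⟨T₀ ∘ g, hT₀.comp_equiv g, fun i j hij huij => g.injective (hf _ _ hij ?_)⟩
  have h1 := congrFun hg i
  have h2 := congrFun hg j
  simp only [u', Function.comp_apply] at h1 h2
  rw [← h1, ← h2, huij]

end Crest.Agent.R195
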