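import Mathlib

/-!
Row 195 (helper44).  Certificate checker for small `n`.

A shape is a list of column heights (any order, zeros allowed).  `cj` is the conjugate (the list of
row lengths, sorted, no zeros).  `API K` lists the closure properties of the relation
"Kronecker coefficient of the three shapes is positive" that the checker uses.
-/

set_option autoImplicit false

namespace Crest.Agent.R195.Small

/-- add one to the first `k` entries -/
def addOnes : ℕ → List ℕ → List ℕ
  | 0, l => l
  | k + 1, [] => 1 :: addOnes k []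
  | k + 1, x :: l => (x + 1) :: addOnes k l

/-- conjugate shape: entry `i` counts the members larger than `i` -/
def cj : List ℕ → List ℕ
  | [] => []
  | x :: l => addOnes x (cj l)

abbrev T3 := ℕ × ℕ × ℕ

/-- sign of `x - y` -/
def sg (x y : ℕ) : ℤ := if x < y then -1 else if y < x then 1 else 0

/-- sign factor between a new cell `c` with label `l` and an earlier cell `c'` with label `l'` -/
def pairS (c l c' l' : T3) : ℤ :=
  (if c'.1 = c.1 then sg l.1 l'.1 else 1) * (if c'.2.1 = c.2.1 then sg l.2.1 l'.2.1 else 1) *
    (if c'.2.2 = c.2.2 then sg l.2.2 l'.2.2 else 1)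

/-- the three labels fit under the heights of the three blocks -/
def okS (h₁ h₂ h₃ : List ℕ) (c l : T3) : Bool :=
  decide (l.1 < h₁.getD c.1 0) && decide (l.2.1 < h₂.getD c.2.1 0) &&
    decide (l.2.2 < h₃.getD c.2.2 0)

def prodS (c l : T3) : List (T3 × T3) → ℤ
  | [] => 1
  | d :: ds => pairS c l d.1 d.2 * prodS c l ds

/-- depth-first signed count of the triple labellings of the cells by members of `L` -/
def go (h₁ h₂ h₃ : List ℕ) (L : List T3) : List T3 → List (T3 × T3) → ℤ
  | [], _ => 1
  | c :: cs, dn => (L.map fun l =>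
      if okS h₁ h₂ h₃ c l then
        (if prodS c l dn = 0 then 0 else prodS c l dn * go h₁ h₂ h₃ L cs ((c, l) :: dn))
      else 0).sum

/-- block sizes of a list of block indices (blocks `0, …, cs.length - 1`) -/
def hts (cs : List ℕ) : List ℕ := (List.range cs.length).map fun b => cs.count b

def leafVal (cells L : List T3) : ℤ :=
  go (hts (cells.map (·.1))) (hts (cells.map (·.2.1))) (hts (cells.map (·.2.2))) L cells []

/-- the closure properties used by the checker -/
structure API (K : List ℕ → List ℕ → List ℕ → Prop) : Prop where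
  congr : ∀ a a' b c, cj a = cj a' → K a b c → K a' b c
  swap12 : ∀ a b c, K a b c → K b a c
  swap23 : ∀ a b c, K a b c → K a c b
  twist : ∀ a b c, K a b c → K (cj a) (cj b) c
  add : ∀ a b c a' b' c', K a b c → K a' b' c' → K (a ++ a') (b ++ b') (c ++ c')
  leaf : ∀ cells L : List T3, leafVal cells L ≠ 0 →
    K (hts (cells.map (·.1))) (hts (cells.map (·.2.1))) (hts (cells.map (·.2.2)))

abbrev Tr := List ℕ × List ℕ × List ℕ

def pat : ℕ → Tr → Tr
  | 0, t => t
  | 1, t => (cj t.1, cj t.2.1, t.2.2)
  | 2, t => (cj t.1, t.2.1, cj t.2.2)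
  | _, t => (t.1, cj t.2.1, cj t.2.2)

def prm : ℕ → Tr → Tr
  | 0, t => t
  | 1, t => (t.2.1, t.1, t.2.2)
  | 2, t => (t.1, t.2.2, t.2.1)
  | 3, t => (t.2.2, t.2.1, t.1)
  | 4, t => (t.2.1, t.2.2, t.1)
  | _, t => (t.2.2, t.1, t.2.1)

def addT (s t : Tr) : Tr := (s.1 ++ t.1, s.2.1 ++ t.2.1, s.2.2 ++ t.2.2)

def nilT : Tr := ([], [], [])

/-- one step: digit `d = p + 4 * (q + 4 * (r + 6 * j))` -/
def step (B : List Tr) (d : ℕ) (s : Tr) : Tr :=
  addT (prm (d / 16 % 6) (pat (d / 4 % 4) (B.getD (d / 96) nilT))) (pat (d % 4) s)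

def run (B : List Tr) : ℕ → ℕ → Tr → Tr
  | 0, _, s => s
  | f + 1, code, s => if code = 0 then s else run B f (code / 65536) (step B (code % 65536) s)

def leafT (cells L : List T3) : Tr :=
  if leafVal cells L = 0 then nilT else
    (cj (cj (hts (cells.map (·.1)))), cj (cj (hts (cells.map (·.2.1)))),
      cj (cj (hts (cells.map (·.2.2)))))

def normT (t : Tr) : Tr := (cj (cj t.1), cj (cj t.2.1), cj (cj t.2.2))

/-- base entries: a leaf or a chain over the earlier entries -/
def build : List Tr → List ((List T3 × List T3) ⊕ ℕ) → List Tr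
  | B, [] => B
  | B, Sum.inl p :: es => build (B ++ [leafT p.1 p.2]) es
  | B, Sum.inr code :: es => build (B ++ [normT (run B 64 code nilT)]) es

/-- all partitions of `n` with parts at most `m`, with fuel -/
def parts : ℕ → ℕ → ℕ → List (List ℕ)
  | 0, _, _ => []
  | _ + 1, 0, _ => [[]]
  | _ + 1, _ + 1, 0 => []
  | f + 1, n + 1, m + 1 =>
      (if m ≤ n then (parts f (n - m) (m + 1)).map (fun l => (m + 1) :: l) else []) ++
        parts f (n + 1) m

def chk (B : List Tr) (lam q : List ℕ) (code : ℕ) : Bool :=
  let t := run B 64 code nilT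
  (cj t.1 == lam) && (cj t.2.1 == lam) && (cj t.2.2 == q)

def chkAll (B : List Tr) (lam : List ℕ) : List (List ℕ) → List ℕ → Bool
  | [], _ => true
  | _ :: _, [] => false
  | q :: qs, c :: cs => chk B lam q c && chkAll B lam qs cs

/-! ### facts about `cj` -/

theorem getD_addOnes (k : ℕ) (l : List ℕ) (i : ℕ) :
    (addOnes k l).getD i 0 = l.getD i 0 + if i < k then 1 else 0 := by
  induction k generalizing l i with
  | zero => simp [addOnes]
  | succ k ih =>
    cases l with
    | nil =>
      cases i with
      | zero => simp [addOnes]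
      | succ i => have := ih [] i; simp [addOnes] at this ⊢; simpa using this
    | cons x l =>
      cases i with
      | zero => simp [addOnes]
      | succ i => have := ih l i; simp [addOnes] at this ⊢; simpa using this

theorem getD_cj (l : List ℕ) (i : ℕ) : (cj l).getD i 0 = l.countP (fun x => decide (i < x)) := by
  induction l with
  | nil => simp [cj]
  | cons x l ih =>
    rw [cj, getD_addOnes, ih, List.countP_cons]
    by_cases h : i < x <;> simp [h]

theorem pos_addOnes (k : ℕ) (l : List ℕ) (h : ∀ x ∈ l, 0 < x) : ∀ x ∈ addOnes k l, 0 < x := by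
  induction k generalizing l with
  | zero => simpa [addOnes] using h
  | succ k ih =>
    cases l with
    | nil =>
      intro x hx
      simp only [addOnes, List.mem_cons] at hx
      rcases hx with rfl | hx
      · omega
      · exact ih [] (by simp) x hx
    | cons y l =>
      intro x hx
      simp only [addOnes, List.mem_cons] at hx
      rcases hx with rfl | hx
      · omega
      · exact ih l (fun z hz => h z (by simp [hz])) x hx

theorem pos_cj (l : List ℕ) : ∀ x ∈ cj l, 0 < x := by
  induction l with
  | nil => simp [cj]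
  | cons x l ih => exact pos_addOnes x _ ih

theorem sum_addOnes (k : ℕ) (l : List ℕ) : (addOnes k l).sum = l.sum + k := by
  induction k generalizing l with
  | zero => simp [addOnes]
  | succ k ih =>
    cases l with
    | nil => have := ih []; simp [addOnes] at this ⊢; omega
    | cons y l => have := ih l; simp [addOnes] at this ⊢; omega

theorem sum_cj (l : List ℕ) : (cj l).sum = l.sum := by
  induction l with
  | nil => simp [cj]
  | cons x l ih => rw [cj, sum_addOnes, ih, List.sum_cons]; omega

theorem ext_getD {a b : List ℕ} (ha : ∀ x ∈ a, 0 < x) (hb : ∀ x ∈ b, 0 < x)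
    (h : ∀ i, a.getD i 0 = b.getD i 0) : a = b := by
  induction a generalizing b with
  | nil =>
    cases b with
    | nil => rfl
    | cons y b => have := h 0; have := hb y (by simp); simp at *; omega
  | cons x a ih =>
    cases b with
    | nil => have := h 0; have := ha x (by simp); simp at *; omega
    | cons y b =>
      have h0 := h 0
      simp only [List.getD_cons_zero] at h0
      have := ih (b := b) (fun z hz => ha z (by simp [hz])) (fun z hz => hb z (by simp [hz]))
        (fun i => by simpa using h (i + 1))
      rw [h0, this]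

theorem anti_cj (l : List ℕ) {i j : ℕ} (hij : i ≤ j) : (cj l).getD j 0 ≤ (cj l).getD i 0 := by
  rw [getD_cj, getD_cj]
  exact List.countP_mono_left fun x _ hx => by simp at hx ⊢; omega

/-- for an antitone list the count of entries above `k` exceeds `i` iff entry `i` is above `k` -/
theorem lt_countP_iff (q : List ℕ) (hq : ∀ i j, i ≤ j → q.getD j 0 ≤ q.getD i 0) (k i : ℕ) :
    i < q.countP (fun x => decide (k < x)) ↔ k < q.getD i 0 := by
  induction q generalizing i with
  | nil => simp
  | cons x q ih =>
    have hq' : ∀ i j, i ≤ j → q.getD j 0 ≤ q.getD i 0 := fun i j hij => by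
      simpa using hq (i + 1) (j + 1) (by omega)
    rw [List.countP_cons]
    by_cases hx : k < x
    · cases i with
      | zero => simp [hx]
      | succ i => have := ih hq' i; simp [hx] at this ⊢; rw [← this]
    · have hz : q.countP (fun x => decide (k < x)) = 0 := by
        by_contra hne
        have h1 := (ih hq' 0).1 (Nat.pos_of_ne_zero hne)
        have h2 := hq 0 1 (by omega)
        simp at h1 h2; omega
      have h3 := hq 0 i (by omega)
      simp only [List.getD_cons_zero] at h3
      simp [hx, hz]; simpa using (by omega : (x :: q).getD i 0 ≤ k)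

theorem cj_cj_cj (l : List ℕ) : cj (cj (cj l)) = cj l := by
  refine ext_getD (pos_cj _) (pos_cj _) fun i => ?_
  apply le_antisymm
  · by_contra hc
    push Not at hc
    rw [getD_cj (cj (cj l))] at hc
    have h1 := (lt_countP_iff _ (fun i j h => anti_cj (cj l) h) i _).1 hc
    rw [getD_cj (cj l)] at h1
    have h2 := (lt_countP_iff _ (fun i j h => anti_cj l h) _ _).1 h1
    omega
  · by_contra hc
    push Not at hc
    have h2 := (lt_countP_iff _ (fun i j h => anti_cj l h) _ _).2 hc
    rw [← getD_cj (cj l)] at h2
    have h1 := (lt_countP_iff _ (fun i j h => anti_cj (cj l) h) i _).2 h2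
    rw [← getD_cj (cj (cj l))] at h1
    omega

theorem mem_parts (f n m : ℕ) (q : List ℕ) (hf : n + m < f) (hp : ∀ x ∈ q, 0 < x)
    (hq : ∀ i j, i ≤ j → q.getD j 0 ≤ q.getD i 0) (hs : q.sum = n) (hm : q.getD 0 0 ≤ m) :
    q ∈ parts f n m := by
  induction f generalizing n m q with
  | zero => omega
  | succ f ih =>
    cases q with
    | nil =>
      simp at hs; subst hs; simp [parts]
    | cons x q =>
      have hx := hp x (by simp)
      simp only [List.sum_cons, List.getD_cons_zero] at hs hm
      obtain ⟨n, rfl⟩ : ∃ n', n = n' + 1 := ⟨n - 1, by omega⟩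
      obtain ⟨m, rfl⟩ : ∃ m', m = m' + 1 := ⟨m - 1, by omega⟩
      simp only [parts, List.mem_append]
      by_cases hxm : x = m + 1
      · left
        subst hxm
        rw [if_pos (by omega)]
        refine List.mem_map.2 ⟨q, ih _ _ q ?_ (fun z hz => hp z (by simp [hz]))
          (fun i j hij => by simpa using hq (i + 1) (j + 1) (by omega)) (by omega)
          (by simpa using hq 0 1 (by omega)), rfl⟩
        omega
      · right
        exact ih _ _ _ (by omega) hp hq (by simpa using hs) (by simp; omega)

/-! ### soundness -/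

section Sound
variable {K : List ℕ → List ℕ → List ℕ → Prop} (H : API K)

def KT (K : List ℕ → List ℕ → List ℕ → Prop) (t : Tr) : Prop := K t.1 t.2.1 t.2.2

include H

theorem API.nil : KT K nilT := by
  have := H.leaf [] [] (by simp [leafVal, go])
  simpa [hts, KT, nilT] using this

theorem API.congr3 {a a' b b' c c' : List ℕ} (h1 : cj a = cj a') (h2 : cj b = cj b')
    (h3 : cj c = cj c') (h : K a b c) : K a' b' c' := by
  have e1 := H.congr _ _ _ _ h1 h
  have e2 := H.swap12 _ _ _ (H.congr _ _ _ _ h2 (H.swap12 _ _ _ e1))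
  exact H.swap23 _ _ _ (H.swap12 _ _ _ (H.congr _ _ _ _ h3 (H.swap12 _ _ _ (H.swap23 _ _ _ e2))))

theorem API.pat (p : ℕ) {t : Tr} (h : KT K t) : KT K (pat p t) := by
  match p with
  | 0 => exact h
  | 1 => exact H.twist _ _ _ h
  | 2 => exact H.swap23 _ _ _ (H.twist _ _ _ (H.swap23 _ _ _ h))
  | _ + 3 =>
    exact H.swap12 _ _ _ (H.swap23 _ _ _ (H.twist _ _ _ (H.swap23 _ _ _ (H.swap12 _ _ _ h))))

theorem API.prm (p : ℕ) {t : Tr} (h : KT K t) : KT K (prm p t) := by
  match p with
  | 0 => exact h
  | 1 => exact H.swap12 _ _ _ h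
  | 2 => exact H.swap23 _ _ _ h
  | 3 => exact H.swap12 _ _ _ (H.swap23 _ _ _ (H.swap12 _ _ _ h))
  | 4 => exact H.swap23 _ _ _ (H.swap12 _ _ _ h)
  | _ + 5 => exact H.swap12 _ _ _ (H.swap23 _ _ _ h)

theorem API.step {B : List Tr} (hB : ∀ t ∈ B, KT K t) (d : ℕ) {s : Tr} (hs : KT K s) :
    KT K (step B d s) := by
  have hb : KT K (B.getD (d / 96) nilT) := by
    rcases lt_or_ge (d / 96) B.length with h | h
    · rw [List.getD_eq_getElem _ _ h]; exact hB _ (List.getElem_mem h)
    · rw [List.getD_eq_default _ _ h]; exact H.nil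
  exact H.add _ _ _ _ _ _ (H.prm _ (H.pat _ hb)) (H.pat _ hs)

theorem API.run {B : List Tr} (hB : ∀ t ∈ B, KT K t) (f code : ℕ) {s : Tr} (hs : KT K s) :
    KT K (run B f code s) := by
  induction f generalizing code s with
  | zero => exact hs
  | succ f ih =>
    simp only [Small.run]
    split_ifs
    · exact hs
    · exact ih _ (H.step hB _ hs)

theorem API.normT {t : Tr} (h : KT K t) : KT K (normT t) :=
  H.congr3 (cj_cj_cj _).symm (cj_cj_cj _).symm (cj_cj_cj _).symm h

theorem API.leafT (cells L : List T3) : KT K (leafT cells L) := by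
  unfold Small.leafT
  split_ifs with h
  · exact H.nil
  · exact H.congr3 (cj_cj_cj _).symm (cj_cj_cj _).symm (cj_cj_cj _).symm (H.leaf cells L h)

theorem API.build (es : List ((List T3 × List T3) ⊕ ℕ)) {B : List Tr} (hB : ∀ t ∈ B, KT K t) :
    ∀ t ∈ build B es, KT K t := by
  induction es generalizing B with
  | nil => exact hB
  | cons e es ih =>
    rcases e with p | code
    · refine ih fun t ht => ?_
      rcases List.mem_append.1 ht with h | h
      · exact hB t h
      · rw [List.mem_singleton.1 h]; exact H.leafT _ _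
    · refine ih fun t ht => ?_
      rcases List.mem_append.1 ht with h | h
      · exact hB t h
      · rw [List.mem_singleton.1 h]; exact H.normT (H.run hB _ _ H.nil)

theorem API.chk {B : List Tr} (hB : ∀ t ∈ B, KT K t) {lam q : List ℕ} (hl : cj lam = lam)
    {code : ℕ} (h : chk B lam q code = true) (nu : List ℕ) (hnu : cj nu = q) : K lam lam nu := by
  simp only [Small.chk, Bool.and_eq_true, beq_iff_eq] at h
  obtain ⟨⟨h1, h2⟩, h3⟩ := h
  exact H.congr3 (h1.trans hl.symm) (h2.trans hl.symm) (h3.trans hnu.symm)
    (H.run hB 64 code H.nil)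

theorem API.chkAll {B : List Tr} (hB : ∀ t ∈ B, KT K t) {lam : List ℕ} (hl : cj lam = lam)
    {qs : List (List ℕ)} {cs : List ℕ} (h : chkAll B lam qs cs = true) (nu : List ℕ)
    (hnu : cj nu ∈ qs) : K lam lam nu := by
  induction qs generalizing cs with
  | nil => simp at hnu
  | cons q qs ih =>
    cases cs with
    | nil => simp [Small.chkAll] at h
    | cons c cs =>
      simp only [Small.chkAll, Bool.and_eq_true] at h
      rcases List.mem_cons.1 hnu with e | e
      · exact H.chk hB hl h.1 nu e
      · exact ih h.2 e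

/-- a full certificate for `n`: every shape of size `n` occurs in the square of `lam` -/
theorem API.full {B : List Tr} (hB : ∀ t ∈ B, KT K t) {lam : List ℕ} (hl : cj lam = lam) (n : ℕ)
    {cs : List ℕ} (h : Small.chkAll B lam (parts (2 * n + 1) n n) cs = true) (nu : List ℕ)
    (hnu : nu.sum = n) : K lam lam nu := by
  refine H.chkAll hB hl h nu (mem_parts _ _ _ _ (by omega) (pos_cj _)
    (fun i j hij => anti_cj nu hij) (by rw [sum_cj, hnu]) ?_)
  rw [← hnu, ← sum_cj nu]
  cases cj nu with
  | nil => simp
  | cons x l => simp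

end Sound

end Crest.Agent.R195.Small
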