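import Crest.Agent.R195.SmallDefs
import Crest.Agent.R195.Path

/-!
Row 195 (helper44).  The depth-first count `leafVal` is the signed sum of products of three wedge
vectors.
-/

set_option autoImplicit false

namespace Crest.Agent.R195.Small

open Equiv Finset

theorem sg_anti (x y : ℕ) : sg x y = - sg y x := by
  unfold sg; split_ifs <;> omega

theorem sg_ne_zero {x y : ℕ} : sg x y ≠ 0 ↔ x ≠ y := by
  unfold sg; split_ifs <;> omega

theorem sg_mul_self {x y : ℕ} (h : x ≠ y) : sg x y * sg x y = 1 := by
  unfold sg; split_ifs <;> omega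

/-- Vandermonde sign inside the blocks -/
def VS {n : ℕ} (c u : Fin n → ℕ) : ℤ :=
  ∏ j, ∏ i ∈ Iio j, (if c i = c j then sg (u j) (u i) else 1)

theorem VS_comp {n : ℕ} (c r : Fin n → ℕ) {g : Perm (Fin n)} (hg : g ∈ blockGrp c) :
    VS c (r ∘ g) = ((Perm.sign g : ℤˣ) : ℤ) * VS c r := by
  rw [mem_blockGrp] at hg
  set W : ℤ := ∏ j, ∏ i ∈ Iio j, (if c i = c j then 1 else sg (c j) (c i)) with hW
  have hW0 : W ≠ 0 := by
    rw [hW]
    refine Finset.prod_ne_zero_iff.2 fun j _ => Finset.prod_ne_zero_iff.2 fun i _ => ?_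
    split_ifs with h
    · exact one_ne_zero
    · exact sg_ne_zero.2 (Ne.symm h)
  have key : ∀ u : Fin n → ℕ, ∏ j, ∏ i ∈ Iio j,
      (if c i = c j then sg (u j) (u i) else sg (c j) (c i)) = VS c u * W := by
    intro u
    rw [hW, VS, ← Finset.prod_mul_distrib]
    refine Finset.prod_congr rfl fun j _ => ?_
    rw [← Finset.prod_mul_distrib]
    refine Finset.prod_congr rfl fun i _ => ?_
    split_ifs <;> simp
  have h := Perm.prod_Iio_comp_eq_sign_mul_prod (R := ℤ) g
    (f := fun i j => if c i = c j then sg (r j) (r i) else sg (c j) (c i)) (fun i j => by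
      by_cases e : c i = c j
      · rw [if_pos e, if_pos e.symm, sg_anti]
      · rw [if_neg e, if_neg (Ne.symm e), sg_anti])
  simp only [hg] at h
  have h1 := key (r ∘ g)
  simp only [Function.comp] at h1
  rw [h1, key r] at h
  apply mul_right_cancel₀ hW0
  rw [h]; simp [mul_assoc]

theorem blockInj_of_VS {n : ℕ} {c u : Fin n → ℕ} (h : VS c u ≠ 0) : BlockInj c u := by
  have key : ∀ i j, i < j → c i = c j → u i ≠ u j := by
    intro i j hij e
    have := Finset.prod_ne_zero_iff.1 (Finset.prod_ne_zero_iff.1 h j (mem_univ _)) i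
      (mem_Iio.2 hij)
    rw [if_pos e] at this
    exact (sg_ne_zero.1 this).symm
  intro i j e e'
  rcases lt_trichotomy i j with hij | hij | hij
  · exact absurd e' (key i j hij e)
  · exact hij
  · exact absurd e'.symm (key j i hij e.symm)

theorem VS_mul_self {n : ℕ} {c r : Fin n → ℕ} (hr : BlockInj c r) : VS c r * VS c r = 1 := by
  rw [VS, ← Finset.prod_mul_distrib]
  refine Finset.prod_eq_one fun j _ => ?_
  rw [← Finset.prod_mul_distrib]
  refine Finset.prod_eq_one fun i hi => ?_
  split_ifs with e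
  · exact sg_mul_self fun e' => (mem_Iio.1 hi).ne (hr i j e e'.symm)
  · simp

/-- product formula for a wedge vector whose reference labelling fills every block `b` with
`0, …, h b - 1` -/
theorem EZ_eq_VS {n : ℕ} {c r : Fin n → ℕ} (h : ℕ → ℕ) (hr : BlockInj c r)
    (hlt : ∀ i, r i < h (c i)) (hcard : ∀ i, (univ.filter fun j => c j = c i).card = h (c i))
    (u : Fin n → ℕ) :
    EZ c r u = VS c r * (if ∀ i, u i < h (c i) then VS c u else 0) := by
  by_cases hex : ∃ g ∈ blockGrp c, u = r ∘ g
  · obtain ⟨g, hg, rfl⟩ := hex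
    rw [EZ_of_mem hr hg, if_pos, VS_comp c r hg]
    · rw [mul_left_comm, VS_mul_self hr, mul_one]
    · intro i
      have := hlt (g i)
      rwa [mem_blockGrp.1 hg i] at this
  · have h0 : EZ c r u = 0 := by
      by_contra hne; exact hex (exists_of_EZ_ne_zero hne)
    rw [h0]
    split_ifs with hu
    · by_cases hV : VS c u = 0
      · rw [hV, mul_zero]
      · exfalso
        refine hex (exists_blockGrp_of_image (blockInj_of_VS hV) fun i => ?_)
        have himg : (univ.filter fun j => c j = c i).image r = range (h (c i)) := by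
          apply Finset.eq_of_subset_of_card_le
          · intro x hx
            obtain ⟨j, hj, rfl⟩ := mem_image.1 hx
            rw [mem_range, ← (mem_filter.1 hj).2]; exact hlt j
          · rw [card_range, Finset.card_image_of_injOn, hcard]
            intro a ha b hb e
            exact hr a b (((mem_filter.1 (mem_coe.1 ha)).2).trans
              ((mem_filter.1 (mem_coe.1 hb)).2).symm) e
        have : u i ∈ (univ.filter fun j => c j = c i).image r := by
          rw [himg, mem_range]; exact hu i
        obtain ⟨j, hj, e⟩ := mem_image.1 this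
        exact ⟨j, (mem_filter.1 hj).2, e⟩
    · simp

theorem go_eq (h₁ h₂ h₃ : List ℕ) {m : ℕ} (lab : Fin m → T3) (n : ℕ) (c : Fin n → T3)
    (dn : List (T3 × T3)) :
    go h₁ h₂ h₃ (List.ofFn lab) (List.ofFn c) dn =
      ∑ φ : Fin n → Fin m, ∏ j, ((if okS h₁ h₂ h₃ (c j) (lab (φ j)) then 1 else 0) *
        prodS (c j) (lab (φ j)) dn *
        ∏ i, (if i < j then pairS (c j) (lab (φ j)) (c i) (lab (φ i)) else 1)) := by
  induction n generalizing dn with
  | zero => simp [go]
  | succ n ih =>
    rw [List.ofFn_succ, go, List.map_ofFn, List.sum_ofFn,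
      ← (Fin.consEquiv (fun _ : Fin (n + 1) => Fin m)).sum_comp, Fintype.sum_prod_type]
    refine Finset.sum_congr rfl fun l _ => ?_
    simp only [Function.comp, ih, Fin.consEquiv, Equiv.coe_fn_mk, Fin.prod_univ_succ,
      Fin.cons_zero, Fin.cons_succ, Fin.not_lt_zero, if_false, Finset.prod_const_one, mul_one,
      Fin.succ_pos, if_true, Fin.succ_lt_succ_iff, prodS, lt_self_iff_false]
    split_ifs with h1 h2
    · simp [h2]
    · rw [Finset.mul_sum]
      refine Finset.sum_congr rfl fun φ _ => ?_
      rw [one_mul]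
      congr 1
      refine Finset.prod_congr rfl fun j _ => ?_
      ring
    · simp

theorem getD_hts {n : ℕ} (c : Fin n → ℕ) (b : ℕ) (hb : b < n) :
    (hts (List.ofFn c)).getD b 0 = (univ.filter fun j => c j = b).card := by
  unfold hts
  rw [List.getD_eq_getElem _ _ (by simpa using hb)]
  simp only [List.getElem_map, List.getElem_range]
  rw [List.count_eq_countP, List.ofFn_eq_map, List.countP_map, List.countP_eq_length_filter,
    ← List.toFinset_card_of_nodup ((List.nodup_finRange n).filter _)]
  congr 1; ext j; simp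

theorem getD_hts_ge {n : ℕ} (c : Fin n → ℕ) (b : ℕ) (hb : n ≤ b) :
    (hts (List.ofFn c)).getD b 0 = 0 := by
  unfold hts
  exact List.getD_eq_default _ _ (by simpa using hb)

theorem go_nil_eq (h₁ h₂ h₃ : List ℕ) {m : ℕ} (lab : Fin m → T3) {n : ℕ} (c : Fin n → T3) :
    go h₁ h₂ h₃ (List.ofFn lab) (List.ofFn c) [] =
      ∑ φ : Fin n → Fin m,
        (if ∀ i, (lab (φ i)).1 < h₁.getD (c i).1 0 then
          VS (fun i => (c i).1) (fun i => (lab (φ i)).1) else 0) *
        (if ∀ i, (lab (φ i)).2.1 < h₂.getD (c i).2.1 0 then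
          VS (fun i => (c i).2.1) (fun i => (lab (φ i)).2.1) else 0) *
        (if ∀ i, (lab (φ i)).2.2 < h₃.getD (c i).2.2 0 then
          VS (fun i => (c i).2.2) (fun i => (lab (φ i)).2.2) else 0) := by
  rw [go_eq]
  refine Finset.sum_congr rfl fun φ _ => ?_
  by_cases hok : ∀ j, okS h₁ h₂ h₃ (c j) (lab (φ j)) = true
  · have hok' := hok
    simp only [okS, Bool.and_eq_true, decide_eq_true_eq] at hok'
    rw [if_pos fun i => (hok' i).1.1, if_pos fun i => (hok' i).1.2, if_pos fun i => (hok' i).2]
    simp only [hok, if_true, prodS, one_mul, VS, ← Finset.prod_mul_distrib]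
    refine Finset.prod_congr rfl fun j _ => ?_
    rw [← Finset.prod_filter]
    refine Finset.prod_congr (by ext i; simp) fun i _ => ?_
    simp only [pairS]
  · push Not at hok
    obtain ⟨j, hj⟩ := hok
    rw [Finset.prod_eq_zero (mem_univ j) (by simp [hj])]
    simp only [okS, ne_eq, Bool.and_eq_true, decide_eq_true_eq, not_and_or] at hj
    rcases hj with (hj | hj) | hj
    · rw [if_neg fun h => hj (h j)]; simp
    · rw [if_neg (c := ∀ i, (lab (φ i)).2.1 < h₂.getD (c i).2.1 0) fun h => hj (h j)]; simp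
    · rw [if_neg (c := ∀ i, (lab (φ i)).2.2 < h₃.getD (c i).2.2 0) fun h => hj (h j)]; simp

/-- rank of a cell inside its block -/
def rk {n : ℕ} (c : Fin n → ℕ) (i : Fin n) : ℕ := (univ.filter fun j => j < i ∧ c j = c i).card

theorem rk_lt_of_lt {n : ℕ} (c : Fin n → ℕ) {i j : Fin n} (hij : i < j) (e : c i = c j) :
    rk c i < rk c j := by
  apply Finset.card_lt_card
  refine ⟨fun k hk => ?_, fun hs => ?_⟩
  · simp only [mem_filter, mem_univ, true_and] at hk ⊢
    exact ⟨hk.1.trans hij, hk.2.trans e⟩
  · have := hs (x := i) (by simp [hij, e])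
    simp at this

theorem rk_blockInj {n : ℕ} (c : Fin n → ℕ) : BlockInj c (rk c) := by
  intro i j e e'
  rcases lt_trichotomy i j with h | h | h
  · have := rk_lt_of_lt c h e; omega
  · exact h
  · have := rk_lt_of_lt c h e.symm; omega

theorem rk_lt {n : ℕ} (c : Fin n → ℕ) (i : Fin n) :
    rk c i < (univ.filter fun j => c j = c i).card := by
  apply Finset.card_lt_card
  refine ⟨fun k hk => ?_, fun hs => ?_⟩
  · simp only [mem_filter, mem_univ, true_and] at hk ⊢
    exact hk.2
  · have := hs (x := i) (by simp)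
    simp at this

/-- A nonzero leaf value: all block indices are `< n` and the signed sum of products of the three
wedge vectors (reference labellings = ranks) over all words with letters in `lab` is nonzero. -/
theorem leaf_sum {m n : ℕ} (lab : Fin m → T3) (c : Fin n → T3)
    (h : leafVal (List.ofFn c) (List.ofFn lab) ≠ 0) :
    (∀ i, (c i).1 < n ∧ (c i).2.1 < n ∧ (c i).2.2 < n) ∧
    ∑ φ : Fin n → Fin m,
      EZ (fun i => (c i).1) (rk fun i => (c i).1) (fun i => (lab (φ i)).1) *
      EZ (fun i => (c i).2.1) (rk fun i => (c i).2.1) (fun i => (lab (φ i)).2.1) *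
      EZ (fun i => (c i).2.2) (rk fun i => (c i).2.2) (fun i => (lab (φ i)).2.2) ≠ 0 := by
  unfold leafVal at h
  simp only [List.map_ofFn] at h
  rw [go_nil_eq] at h
  have hb : ∀ i, (c i).1 < n ∧ (c i).2.1 < n ∧ (c i).2.2 < n := by
    obtain ⟨φ, -, hφ⟩ := Finset.exists_ne_zero_of_sum_ne_zero h
    intro i
    have a1 := left_ne_zero_of_mul (left_ne_zero_of_mul hφ)
    have a2 := right_ne_zero_of_mul (left_ne_zero_of_mul hφ)
    have a3 := right_ne_zero_of_mul hφ
    refine ⟨?_, ?_, ?_⟩
    · by_contra hc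
      apply a1; rw [if_neg]; intro hh; have := hh i
      rw [getD_hts_ge _ _ (not_lt.1 hc)] at this; omega
    · by_contra hc
      apply a2; rw [if_neg]; intro hh; have := hh i
      rw [getD_hts_ge _ _ (not_lt.1 hc)] at this; omega
    · by_contra hc
      apply a3; rw [if_neg]; intro hh; have := hh i
      rw [getD_hts_ge _ _ (not_lt.1 hc)] at this; omega
  refine ⟨hb, ?_⟩
  have E : ∀ (d : Fin n → ℕ), (∀ i, d i < n) → ∀ u : Fin n → ℕ, EZ d (rk d) u =
      VS d (rk d) * (if ∀ i, u i < (hts (List.ofFn d)).getD (d i) 0 then VS d u else 0) := by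
    intro d hd u
    exact EZ_eq_VS (fun b => (hts (List.ofFn d)).getD b 0) (rk_blockInj d)
      (fun i => by simp only [getD_hts d _ (hd i)]; exact rk_lt d i)
      (fun i => by simp only [getD_hts d _ (hd i)]) u
  simp only [E _ fun i => (hb i).1, E _ fun i => (hb i).2.1, E _ fun i => (hb i).2.2]
  intro h0
  apply h
  have n1 : VS (fun i => (c i).1) (rk fun i => (c i).1) ≠ 0 := fun e => by
    have := VS_mul_self (rk_blockInj fun i => (c i).1); rw [e] at this; simp at this
  have n2 : VS (fun i => (c i).2.1) (rk fun i => (c i).2.1) ≠ 0 := fun e => by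
    have := VS_mul_self (rk_blockInj fun i => (c i).2.1); rw [e] at this; simp at this
  have n3 : VS (fun i => (c i).2.2) (rk fun i => (c i).2.2) ≠ 0 := fun e => by
    have := VS_mul_self (rk_blockInj fun i => (c i).2.2); rw [e] at this; simp at this
  apply mul_left_cancel₀ (mul_ne_zero (mul_ne_zero n1 n2) n3)
  rw [mul_zero, Finset.mul_sum]
  refine Eq.trans (Finset.sum_congr rfl fun φ _ => ?_) h0
  simp only [Function.comp_def]
  ring

end Crest.Agent.R195.Small
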