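import Mathlib

/-!
Row 195 (helper2).  Wedge vectors `EZ c r` given by a block map `c` and a reference labelling `r`:
`EZ c r u = Σ_{g ∈ block group of c} sign g · [u = r ∘ g]`, and the cut lemma.
-/

set_option autoImplicit false

namespace Crest.Agent.R195

open Equiv Finset

section Basic
variable {ι κ A : Type*} [Fintype ι] [DecidableEq ι] [DecidableEq κ] [DecidableEq A]

/-- permutations preserving every block of `c` -/
def blockGrp (c : ι → κ) : Finset (Perm ι) := univ.filter fun g => ∀ i, c (g i) = c i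

theorem mem_blockGrp {c : ι → κ} {g : Perm ι} : g ∈ blockGrp c ↔ ∀ i, c (g i) = c i := by
  simp [blockGrp]

theorem one_mem_blockGrp (c : ι → κ) : (1 : Perm ι) ∈ blockGrp c := by simp [mem_blockGrp]

theorem mul_mem_blockGrp {c : ι → κ} {g h : Perm ι} (hg : g ∈ blockGrp c) (hh : h ∈ blockGrp c) :
    g * h ∈ blockGrp c := by
  rw [mem_blockGrp] at *
  intro i; simp [hg, hh]

theorem inv_mem_blockGrp {c : ι → κ} {g : Perm ι} (hg : g ∈ blockGrp c) : g⁻¹ ∈ blockGrp c := by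
  rw [mem_blockGrp] at *
  intro i
  have := hg (g⁻¹ i)
  simpa using this.symm

/-- right multiplication by a block permutation permutes the block group -/
theorem sum_blockGrp_mul_right {M : Type*} [AddCommMonoid M] {c : ι → κ} {h : Perm ι}
    (hh : h ∈ blockGrp c) (F : Perm ι → M) :
    ∑ g ∈ blockGrp c, F (g * h) = ∑ g ∈ blockGrp c, F g := by
  refine Finset.sum_bij' (fun g _ => g * h) (fun g _ => g * h⁻¹) ?_ ?_ ?_ ?_ ?_
  · intro g hg; exact mul_mem_blockGrp hg hh
  · intro g hg; exact mul_mem_blockGrp hg (inv_mem_blockGrp hh)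
  · intro g _; simp
  · intro g _; simp
  · intro g _; rfl

theorem sum_blockGrp_mul_left {M : Type*} [AddCommMonoid M] {c : ι → κ} {h : Perm ι}
    (hh : h ∈ blockGrp c) (F : Perm ι → M) :
    ∑ g ∈ blockGrp c, F (h * g) = ∑ g ∈ blockGrp c, F g := by
  refine Finset.sum_bij' (fun g _ => h * g) (fun g _ => h⁻¹ * g) ?_ ?_ ?_ ?_ ?_
  · intro g hg; exact mul_mem_blockGrp hh hg
  · intro g hg; exact mul_mem_blockGrp (inv_mem_blockGrp hh) hg
  · intro g _; simp
  · intro g _; simp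
  · intro g _; rfl

/-- the wedge vector (polytabloid) with blocks `c` and reference labelling `r` -/
def EZ (c : ι → κ) (r u : ι → A) : ℤ :=
  ∑ g ∈ blockGrp c, if u = r ∘ g then ((Perm.sign g : ℤˣ) : ℤ) else 0

theorem sign_mul_self' (h : Perm ι) : ((Perm.sign h : ℤˣ) : ℤ) * ((Perm.sign h : ℤˣ) : ℤ) = 1 := by
  rw [← Units.val_mul, Int.units_mul_self]; rfl

theorem EZ_comp {c : ι → κ} {h : Perm ι} (hh : h ∈ blockGrp c) (r u : ι → A) :
    EZ c r (u ∘ h) = ((Perm.sign h : ℤˣ) : ℤ) * EZ c r u := by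
  unfold EZ
  rw [← sum_blockGrp_mul_right hh, Finset.mul_sum]
  refine Finset.sum_congr rfl fun g _ => ?_
  have : (u ∘ h = r ∘ ⇑(g * h)) ↔ u = r ∘ g := by
    constructor
    · intro e; funext i
      have := congrFun e (h⁻¹ i)
      simpa using this
    · rintro rfl; rfl
  simp only [this]
  split_ifs
  · simp [mul_comm]
  · simp

theorem EZ_ref {c : ι → κ} {h : Perm ι} (hh : h ∈ blockGrp c) (r u : ι → A) :
    EZ c (r ∘ h) u = ((Perm.sign h : ℤˣ) : ℤ) * EZ c r u := by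
  unfold EZ
  rw [← sum_blockGrp_mul_left hh (fun g => if u = r ∘ g then ((Perm.sign g : ℤˣ) : ℤ) else 0),
    Finset.mul_sum]
  refine Finset.sum_congr rfl fun g _ => ?_
  have : (u = (r ∘ h) ∘ g) ↔ u = r ∘ ⇑(h * g) := Iff.rfl
  simp only [this]
  split_ifs
  · rw [Perm.sign_mul, Units.val_mul, ← mul_assoc, sign_mul_self', one_mul]
  · simp

theorem exists_of_EZ_ne_zero {c : ι → κ} {r u : ι → A} (h : EZ c r u ≠ 0) :
    ∃ g ∈ blockGrp c, u = r ∘ g := by
  obtain ⟨g, hg, hne⟩ := Finset.exists_ne_zero_of_sum_ne_zero h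
  refine ⟨g, hg, ?_⟩
  by_contra hc
  simp [hc] at hne

/-- `r` is injective on every block of `c` -/
def BlockInj (c : ι → κ) (r : ι → A) : Prop := ∀ i j, c i = c j → r i = r j → i = j

theorem EZ_self {c : ι → κ} {r : ι → A} (hr : BlockInj c r) : EZ c r r = 1 := by
  unfold EZ
  rw [Finset.sum_eq_single_of_mem 1 (one_mem_blockGrp c)]
  · simp
  · intro g hg hne
    rw [if_neg]
    intro e
    apply hne
    ext i
    have h1 := mem_blockGrp.1 hg i
    have h2 := congrFun e i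
    exact hr _ _ h1 h2.symm

theorem EZ_of_mem {c : ι → κ} {r : ι → A} (hr : BlockInj c r) {g : Perm ι} (hg : g ∈ blockGrp c) :
    EZ c r (r ∘ g) = ((Perm.sign g : ℤˣ) : ℤ) := by
  rw [EZ_comp hg, EZ_self hr, mul_one]

theorem EZ_congr_blocks {κ' : Type*} [DecidableEq κ'] {c : ι → κ} {c' : ι → κ'}
    (h : ∀ i j, c i = c j ↔ c' i = c' j) (r u : ι → A) : EZ c r u = EZ c' r u := by
  have : blockGrp c = blockGrp c' := by
    ext g; simp only [mem_blockGrp, h]
  unfold EZ; rw [this]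

theorem EZ_map {B : Type*} [DecidableEq B] {φ : A → B} (hφ : Function.Injective φ)
    (c : ι → κ) (r u : ι → A) : EZ c (φ ∘ r) (φ ∘ u) = EZ c r u := by
  unfold EZ
  refine Finset.sum_congr rfl fun g _ => ?_
  have : (φ ∘ u = (φ ∘ r) ∘ g) ↔ u = r ∘ g := by
    constructor
    · intro e; funext i; exact hφ (congrFun e i)
    · rintro rfl; rfl
  simp only [this]

theorem EZ_reindex {ι' : Type*} [Fintype ι'] [DecidableEq ι'] (e : ι' ≃ ι)
    (c : ι → κ) (r u : ι → A) : EZ (c ∘ e) (r ∘ e) (u ∘ e) = EZ c r u := by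
  unfold EZ
  symm
  refine Finset.sum_bij' (fun g _ => e.symm.permCongr g) (fun g _ => e.permCongr g) ?_ ?_ ?_ ?_ ?_
  · intro g hg; rw [mem_blockGrp] at *; intro i; simp [hg]
  · intro g hg; rw [mem_blockGrp] at *; intro i
    have := hg (e.symm i); simpa using this
  · intro g _; ext; simp
  · intro g _; ext; simp
  · intro g _
    have : (u ∘ e = (r ∘ e) ∘ ⇑(e.symm.permCongr g)) ↔ u = r ∘ g := by
      constructor
      · intro h; funext i
        have := congrFun h (e.symm i); simpa using this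
      · rintro rfl; funext i; simp
    simp only [this, Perm.sign_permCongr]

/-- if the word is in the support, label counts per block agree with the reference -/
theorem card_of_EZ_ne_zero {c : ι → κ} {r u : ι → A} (h : EZ c r u ≠ 0) (P : κ → A → Prop)
    [∀ k a, Decidable (P k a)] :
    (univ.filter fun i => P (c i) (u i)).card = (univ.filter fun i => P (c i) (r i)).card := by
  obtain ⟨g, hg, rfl⟩ := exists_of_EZ_ne_zero h
  rw [mem_blockGrp] at hg
  refine Finset.card_bij' (fun i _ => g i) (fun i _ => g⁻¹ i) ?_ ?_ ?_ ?_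
  · intro i hi; simpa [hg] using hi
  · intro i hi
    have := hg (g⁻¹ i)
    have e : g (g⁻¹ i) = i := by simp
    rw [e] at this
    simp only [Finset.mem_filter, Finset.mem_univ, true_and, Function.comp, e] at hi ⊢
    rw [← this]; exact hi
  · intro i _; simp
  · intro i _; simp

theorem sum_of_EZ_ne_zero {M : Type*} [AddCommMonoid M] {c : ι → κ} {r u : ι → A}
    (h : EZ c r u ≠ 0) (F : κ → A → M) :
    ∑ i, F (c i) (u i) = ∑ i, F (c i) (r i) := by
  obtain ⟨g, hg, rfl⟩ := exists_of_EZ_ne_zero h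
  rw [mem_blockGrp] at hg
  rw [← Equiv.sum_comp g (fun i => F (c i) (r i))]
  simp [hg]

end Basic

section Sum
variable {ι₀ ι₁ κ A : Type*} [Fintype ι₀] [DecidableEq ι₀] [Fintype ι₁] [DecidableEq ι₁]
  [DecidableEq κ] [DecidableEq A]

/-- splitting of a wedge vector along a label predicate -/
theorem EZ_sum (c : ι₀ ⊕ ι₁ → κ) (r u : ι₀ ⊕ ι₁ → A) (P : A → Prop)
    (hr1 : ∀ i, P (r (Sum.inr i))) (hu0 : ∀ i, ¬ P (u (Sum.inl i))) :
    EZ c r u = EZ (c ∘ Sum.inl) (r ∘ Sum.inl) (u ∘ Sum.inl) *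
      EZ (c ∘ Sum.inr) (r ∘ Sum.inr) (u ∘ Sum.inr) := by
  unfold EZ
  rw [Finset.sum_mul_sum, ← Finset.sum_product']
  symm
  rw [← Finset.sum_filter_ne_zero, ← Finset.sum_filter_ne_zero (blockGrp c)]
  refine Finset.sum_bij (fun p _ => Perm.sumCongr p.1 p.2) ?_ ?_ ?_ ?_
  · rintro ⟨g0, g1⟩ hp
    simp only [Finset.mem_filter, Finset.mem_product, mem_blockGrp] at hp ⊢
    obtain ⟨⟨h0, h1⟩, hne⟩ := hp
    have e0 : u ∘ Sum.inl = (r ∘ Sum.inl) ∘ g0 := by
      by_contra hc; simp [hc] at hne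
    have e1 : u ∘ Sum.inr = (r ∘ Sum.inr) ∘ g1 := by
      by_contra hc; simp [hc] at hne
    refine ⟨?_, ?_⟩
    · rintro (i | i)
      · simpa using h0 i
      · simpa using h1 i
    · have : u = r ∘ ⇑(Perm.sumCongr g0 g1) := by
        funext i
        rcases i with i | i
        · simpa using congrFun e0 i
        · simpa using congrFun e1 i
      rw [if_pos this]; simp
  · rintro ⟨g0, g1⟩ _ ⟨g0', g1'⟩ _ h
    have := Perm.sumCongrHom_injective (a₁ := (g0, g1)) (a₂ := (g0', g1')) h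
    exact this
  · intro g hg
    simp only [Finset.mem_filter, mem_blockGrp] at hg
    obtain ⟨hg, hne⟩ := hg
    have e : u = r ∘ g := by
      by_contra hc; simp [hc] at hne
    have hmaps : Set.MapsTo g (Set.range Sum.inl) (Set.range Sum.inl) := by
      rintro _ ⟨i, rfl⟩
      rcases hgi : g (Sum.inl i) with j | j
      · exact ⟨j, rfl⟩
      · exfalso
        apply hu0 i
        rw [e]; simp only [Function.comp, hgi]; exact hr1 j
    obtain ⟨⟨g0, g1⟩, rfl⟩ := Perm.mem_sumCongrHom_range_of_perm_mapsTo_inl hmaps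
    have e0 : u ∘ Sum.inl = (r ∘ Sum.inl) ∘ g0 := by
      funext i; simpa using congrFun e (Sum.inl i)
    have e1 : u ∘ Sum.inr = (r ∘ Sum.inr) ∘ g1 := by
      funext i; simpa using congrFun e (Sum.inr i)
    refine ⟨(g0, g1), ?_, rfl⟩
    simp only [Finset.mem_filter, Finset.mem_product, mem_blockGrp]
    refine ⟨⟨fun i => by simpa using hg (Sum.inl i), fun i => by simpa using hg (Sum.inr i)⟩, ?_⟩
    rw [if_pos e0, if_pos e1]; simp
  · rintro ⟨g0, g1⟩ hp
    simp only [Finset.mem_filter, Finset.mem_product, mem_blockGrp] at hp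
    obtain ⟨_, hne⟩ := hp
    have e0 : u ∘ Sum.inl = (r ∘ Sum.inl) ∘ g0 := by
      by_contra hc; simp [hc] at hne
    have e1 : u ∘ Sum.inr = (r ∘ Sum.inr) ∘ g1 := by
      by_contra hc; simp [hc] at hne
    have : u = r ∘ ⇑(Perm.sumCongr g0 g1) := by
      funext i
      rcases i with i | i
      · simpa using congrFun e0 i
      · simpa using congrFun e1 i
    rw [if_pos e0, if_pos e1, if_pos this]; simp

/-- Uniqueness of the cut from a potential: if `α (c₁ i) + β (c₂ i)` is negative on the inner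
cells and positive on the outer cells, every word in the support of the table vector whose letters
are "pure" (`P₁ a.1 ↔ P₂ a.2`) carries the outer letters exactly on the outer cells. -/
theorem cut_unique {κ₂ B : Type*} [DecidableEq κ₂] [DecidableEq B]
    (c₁ : ι₀ ⊕ ι₁ → κ) (r₁ : ι₀ ⊕ ι₁ → A) (c₂ : ι₀ ⊕ ι₁ → κ₂) (r₂ : ι₀ ⊕ ι₁ → B)
    (P₁ : A → Prop) (P₂ : B → Prop)
    (h10 : ∀ i, ¬ P₁ (r₁ (Sum.inl i))) (h11 : ∀ i, P₁ (r₁ (Sum.inr i)))
    (h20 : ∀ i, ¬ P₂ (r₂ (Sum.inl i))) (h21 : ∀ i, P₂ (r₂ (Sum.inr i)))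
    (α : κ → ℤ) (β : κ₂ → ℤ)
    (hin : ∀ i, α (c₁ (Sum.inl i)) + β (c₂ (Sum.inl i)) < 0)
    (hout : ∀ i, 0 < α (c₁ (Sum.inr i)) + β (c₂ (Sum.inr i)))
    (u₁ : ι₀ ⊕ ι₁ → A) (u₂ : ι₀ ⊕ ι₁ → B) (hpure : ∀ i, P₁ (u₁ i) ↔ P₂ (u₂ i))
    (h1 : EZ c₁ r₁ u₁ ≠ 0) (h2 : EZ c₂ r₂ u₂ ≠ 0) :
    (∀ i, ¬ P₁ (u₁ (Sum.inl i))) ∧ (∀ i, P₁ (u₁ (Sum.inr i))) := by
  classical
  have s1 := sum_of_EZ_ne_zero h1 (fun k a => if P₁ a then α k else 0)
  have s2 := sum_of_EZ_ne_zero h2 (fun k b => if P₂ b then β k else 0)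
  simp only [← hpure] at s2
  simp only [Fintype.sum_sum_type, h10, h11, h20, h21, if_true, if_false, Finset.sum_const_zero,
    zero_add] at s1 s2
  have key : ∑ i, (if P₁ (u₁ (Sum.inl i)) then -(α (c₁ (Sum.inl i)) + β (c₂ (Sum.inl i))) else 0) +
      ∑ i, (if P₁ (u₁ (Sum.inr i)) then 0 else (α (c₁ (Sum.inr i)) + β (c₂ (Sum.inr i)))) = 0 := by
    have a : ∀ i, (if P₁ (u₁ (Sum.inl i)) then -(α (c₁ (Sum.inl i)) + β (c₂ (Sum.inl i))) else 0) =
        -(if P₁ (u₁ (Sum.inl i)) then α (c₁ (Sum.inl i)) else 0) -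
          (if P₁ (u₁ (Sum.inl i)) then β (c₂ (Sum.inl i)) else 0) := by
      intro i; split_ifs <;> ring
    have b : ∀ i, (if P₁ (u₁ (Sum.inr i)) then 0 else (α (c₁ (Sum.inr i)) + β (c₂ (Sum.inr i)))) =
        α (c₁ (Sum.inr i)) + β (c₂ (Sum.inr i)) -
          (if P₁ (u₁ (Sum.inr i)) then α (c₁ (Sum.inr i)) else 0) -
          (if P₁ (u₁ (Sum.inr i)) then β (c₂ (Sum.inr i)) else 0) := by
      intro i; split_ifs <;> ring
    simp only [a, b, Finset.sum_sub_distrib, Finset.sum_add_distrib, Finset.sum_neg_distrib]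
    linarith
  have n0 : ∀ i ∈ (univ : Finset ι₀), 0 ≤ (if P₁ (u₁ (Sum.inl i)) then
      -(α (c₁ (Sum.inl i)) + β (c₂ (Sum.inl i))) else 0) := by
    intro i _; have := hin i; split_ifs <;> omega
  have n1 : ∀ i ∈ (univ : Finset ι₁), 0 ≤ (if P₁ (u₁ (Sum.inr i)) then 0 else
      (α (c₁ (Sum.inr i)) + β (c₂ (Sum.inr i)))) := by
    intro i _; have := hout i; split_ifs <;> omega
  have z0 := (Finset.sum_eq_zero_iff_of_nonneg n0).1
    (by have := Finset.sum_nonneg n0; have := Finset.sum_nonneg n1; omega)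
  have z1 := (Finset.sum_eq_zero_iff_of_nonneg n1).1
    (by have := Finset.sum_nonneg n0; have := Finset.sum_nonneg n1; omega)
  constructor
  · intro i hp
    have := z0 i (Finset.mem_univ _); have := hin i
    simp only [hp, if_true] at *; omega
  · intro i
    by_contra hp
    have := z1 i (Finset.mem_univ _); have := hout i
    simp only [hp, if_false] at *; omega

end Sum

end Crest.Agent.R195
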